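import Mathlib

namespace Vale.Agent.P089

/-- The Hilbert space of square summable complex functions on a group. -/
abbrev L2 (G : Type) : Type := lp (fun _ : G => ℂ) 2

/-- The operators of the left regular representation. -/
def leftReg (G : Type) [Group G] : Set (L2 G →L[ℂ] L2 G) :=
  {T | ∃ g : G, ∀ (ξ : L2 G) (h : G), T ξ h = ξ (g⁻¹ * h)}

/-- The reduced group C*-algebra: operator norm closure of the complex group ring acting on
the square summable functions by the left regular representation. -/
def Cred (G : Type) [Group G] : Set (L2 G →L[ℂ] L2 G) :=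
  closure (Submodule.span ℂ (leftReg G) : Set (L2 G →L[ℂ] L2 G))

open Classical in
/-- The canonical trace. -/
noncomputable def tr (G : Type) [Group G] (T : L2 G →L[ℂ] L2 G) : ℂ :=
  inner ℂ (lp.single 2 (1 : G) (1 : ℂ) : L2 G) (T (lp.single 2 (1 : G) (1 : ℂ)))

end Vale.Agent.P089
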