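import Mathlib
import Vale.Agent.P089.Defs

/-
P089 skeleton, part A: a countable group whose reduced C*-algebra contains a projection of
irrational trace.  Every `...Stmt` below is proved in its own file `Vale/Agent/P089/<Name>.lean`.
-/

namespace Vale.Agent.P089

open Finset

/- ### Labelled graphs -/

/-- Read a word from a vertex of a folded labelled graph. -/
def rd {V S : Type} (st : V → S → Option V) : V → List S → Option V
  | v, [] => some v
  | v, s :: u => (st v s).bind fun w => rd st w u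

/-- Reduced words. -/
def Red {S : Type} (bar : S → S) (u : List S) : Prop := u.IsChain fun a b => b ≠ bar a

/-- The labels at a vertex. -/
def lab {V S : Type} [Fintype S] (st : V → S → Option V) (v : V) : Finset S :=
  univ.filter fun s => (st v s).isSome = true

/-- A family of finite labelled expanders with large girth and small pieces. -/
structure Fam (S V : Type) [Fintype S] where
  bar : S → S
  bar_bar : ∀ s, bar (bar s) = s
  st : V → S → Option V
  symm : ∀ v s w, st v s = some w → st w (bar s) = some v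
  comp : V → ℕ
  K : ℕ → Finset V
  mem_K : ∀ v i, v ∈ K i ↔ comp v = i
  st_comp : ∀ v s w, st v s = some w → comp w = comp v
  conn : ∀ v w, comp v = comp w → ∃ u, rd st v u = some w
  len : ℕ → ℕ
  len_ge : ∀ i, 200 * Fintype.card S ≤ len i
  girth : ∀ v u, Red bar u → u ≠ [] → rd st v u = some v → 10 * len (comp v) ≤ u.length
  piece : ∀ v v' u, v ≠ v' → Red bar u → (rd st v u).isSome = true →
    (rd st v' u).isSome = true → u.length < len (comp v)
  deg : S → ℕ
  deg_eq : ∀ v s, (st v s).isSome = true → deg s = (lab st v).card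
  deg_used : ∀ s, deg s ≠ 0 → ∃ v, (st v s).isSome = true
  three : ∀ v, 3 ≤ (lab st v).card
  expand : ∀ (i : ℕ) (U : Finset V), U ⊆ K i → 2 * U.card ≤ (K i).card →
    ∃ N : Finset V, U.card ≤ 2 * N.card ∧ ∀ w ∈ N, w ∉ U ∧ ∃ v ∈ U, ∃ s, st v s = some w
  ball : ∀ (v : V) (Q : Finset V),
    (∀ q ∈ Q, ∃ u : List S, u.length < 2 * len (comp v) ∧ rd st v u = some q) →
    8 * Q.card ≤ (K (comp v)).card
  grow : ∀ i, 4 * (K i).card ≤ (K (i + 1)).card
  pos : 0 < (K 0).card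
  cardS : 16 ≤ Fintype.card S

/- ### The random construction -/

/-- A finite labelled folded graph with vertices in `W`. -/
structure FG {S : Type} (bar : S → S) where
  W : Finset ℕ
  st : ℕ → S → Option ℕ
  symm : ∀ v s w, st v s = some w → st w (bar s) = some v
  mem : ∀ v s w, st v s = some w → v ∈ W

def Girth {S : Type} {bar : S → S} (Γ : FG bar) (n : ℕ) : Prop :=
  ∀ v u, Red bar u → u ≠ [] → rd Γ.st v u = some v → n ≤ u.length

def Joined {S : Type} {bar : S → S} (Γ : FG bar) (m : ℕ) : Prop :=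
  ∀ A B : Finset ℕ, A ⊆ Γ.W → B ⊆ Γ.W → m ≤ A.card → m ≤ B.card →
    ∃ a ∈ A, ∃ b ∈ B, ∃ s, Γ.st a s = some b

/-- An alphabet with a fixed point free involution and a choice of positive letters. -/
def Signed {S : Type} (bar : S → S) (sg : S → Bool) : Prop :=
  (∀ s, bar (bar s) = s) ∧ ∀ s, sg (bar s) = !sg s

def Rand1Stmt : Prop :=
  ∃ (S : Type) (_ : Fintype S) (bar : S → S) (sg : S → Bool) (B : ℕ), Signed bar sg ∧
    16 ≤ Fintype.card S ∧ 1 ≤ B ∧ ∀ L : ℕ, 1 ≤ L → ∃ (Γ : FG bar) (m : ℕ), Girth Γ (10 * L) ∧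
      Joined Γ m ∧ 80 * m ≤ Γ.W.card ∧ Γ.W.card ≤ B ^ L ∧ (Fintype.card S + 1) ^ (2 * L) ≤ m

/-- `Γ'` is the subgraph of `Γ` induced on `Γ'.W`, with an extra label depending on the dart. -/
def Induced {S C : Type} {bar : S → S} {bar' : S × C → S × C} (Γ : FG bar) (Γ' : FG bar') :
    Prop :=
  Γ'.W ⊆ Γ.W ∧ (∀ v s c w, Γ'.st v (s, c) = some w → Γ.st v s = some w) ∧
    (∀ v s c c', (Γ'.st v (s, c)).isSome = true → (Γ'.st v (s, c')).isSome = true → c = c') ∧
    ∀ v ∈ Γ'.W, ∀ w ∈ Γ'.W, ∀ s, Γ.st v s = some w → ∃ c, Γ'.st v (s, c) = some w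

def Rand2Stmt : Prop :=
  ∀ (S : Type) [Fintype S] (bar : S → S) (sg : S → Bool) (B r L : ℕ), Signed bar sg →
    1 ≤ L → 1 ≤ B → 1 ≤ Fintype.card S → 16 * (B ^ 2 * Fintype.card S) ≤ r →
    ∀ (Γ : FG bar), Girth Γ (10 * L) → Γ.W.card ≤ B ^ L →
    ∀ F : Finset (List (S × Fin (r ^ 3))), (∀ u ∈ F, u.length ≤ L) →
      ∑ u ∈ F, ((r ^ 3 : ℕ) : ℝ)⁻¹ ^ u.length ≤ 1 / 16 →
      ∃ Γ' : FG (fun p : S × Fin (r ^ 3) => (bar p.1, p.2)), Induced Γ Γ' ∧
        Γ.W.card ≤ 2 * Γ'.W.card ∧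
        (∀ u ∈ F, Red (fun p : S × Fin (r ^ 3) => (bar p.1, p.2)) u → ∀ v ∈ Γ'.W,
          rd Γ'.st v u = none) ∧
        ∀ v v' u, v ≠ v' → Red (fun p : S × Fin (r ^ 3) => (bar p.1, p.2)) u →
          (rd Γ'.st v u).isSome = true → (rd Γ'.st v' u).isSome = true → u.length < L

def CoreStmt : Prop :=
  ∀ (S : Type) (bar : S → S) (Γ : FG bar) (m : ℕ), 1 ≤ m → Joined Γ m → 7 * m ≤ Γ.W.card →
    ∃ W' ⊆ Γ.W, Γ.W.card ≤ W'.card + m ∧
      (∀ v ∈ W', ∃ N ⊆ W', N.card = 3 ∧ ∀ w ∈ N, ∃ s, Γ.st v s = some w) ∧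
      ∀ U ⊆ W', 2 * U.card ≤ W'.card → ∃ N ⊆ W', U.card ≤ 2 * N.card ∧
        ∀ w ∈ N, w ∉ U ∧ ∃ v ∈ U, ∃ s, Γ.st v s = some w

def FamStmt : Prop := ∃ (S V : Type) (_ : Fintype S), Nonempty (Fam S V)

def FamilyStmt : Prop := Rand1Stmt → Rand2Stmt → CoreStmt → FamStmt

/- ### The small cancellation group -/

open Classical in
/-- `dep` is a depth function on the component `i`; its zero set is the attaching star. -/
structure IsDep {S V : Type} [Fintype S] (F : Fam S V) (i : ℕ) (dep : V → ℕ) : Prop where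
  small : 8 * ((F.K i).filter fun v => dep v = 0).card ≤ (F.K i).card
  lip : ∀ v s w, F.comp v = i → F.st v s = some w → dep w ≤ dep v + 1
  down : ∀ v s s' w w', F.comp v = i → 1 ≤ dep v → dep v ≤ F.len i → F.st v s = some w →
    F.st v s' = some w' → dep w ≤ dep v → dep w' ≤ dep v → s = s'

/-- Two reduced words with the same endpoints and small total length are equal; a star of
radius less than `2 * len` has a depth function. -/
def WordsStmt : Prop :=
  ∀ (S V : Type) [Fintype S] (F : Fam S V),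
    (∀ v w u u', Red F.bar u → Red F.bar u' → rd F.st v u = some w → rd F.st v u' = some w →
      u.length + u'.length < 10 * F.len (F.comp v) → u = u') ∧
    ∀ (r : V) (Q : Set V), r ∈ Q →
      (∀ q ∈ Q, ∃ u, Red F.bar u ∧ u.length < 2 * F.len (F.comp r) ∧ rd F.st r u = some q ∧
        ∀ n, ∃ q' ∈ Q, rd F.st r (u.take n) = some q') →
      ∃ dep, IsDep F (F.comp r) dep ∧ ∀ v, F.comp v = F.comp r → (dep v = 0 ↔ v ∈ Q)

/-- A group with generators `x` and label preserving maps `f` of the components. -/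
structure SC {S V : Type} [Fintype S] (F : Fam S V) (G : Type) [Group G] where
  x : S → G
  f : V → G
  x_bar : ∀ s, x (F.bar s) = (x s)⁻¹
  f_st : ∀ v s w, F.st v s = some w → f w = f v * x s

/-- The copies `(g, i)`, `v ↦ g * f v`, are attached one after the other along small stars,
starting from the copy `(1, i0)`. -/
structure Ord {S V : Type} [Fintype S] {F : Fam S V} {G : Type} [Group G] (C : SC F G)
    (i0 : ℕ) where
  dep : G → V → ℕ
  lev : G → ℕ → ℕ
  isDep : ∀ g i, IsDep F i (dep g)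
  inj : ∀ v w, F.comp v = F.comp w → C.f v = C.f w → v = w
  creator : ∀ y, ∃ g v, y = g * C.f v ∧ dep g v ≠ 0
  other : ∀ g v g' v', g * C.f v = g' * C.f v' → (g, F.comp v) ≠ (g', F.comp v') →
    dep g v ≠ 0 → dep g' v' = 0 ∧ lev g (F.comp v) < lev g' (F.comp v')
  first : ∀ v, F.comp v = i0 → dep 1 v ≠ 0
  up : ∀ g v s, dep g v ≠ 0 → F.st v s = none → (∃ v', (F.st v' s).isSome = true) →
    ∃ g' w' w, g' * C.f w' = g * C.f v ∧ F.st w' s = some w ∧ dep g' w' = 0 ∧ dep g' w ≠ 0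

def SCStmt : Prop :=
  ∀ (S V : Type) [Fintype S] (F : Fam S V), ∃ (G : Type) (_ : Group G) (_ : Countable G)
    (C : SC F G), ∀ i0, Nonempty (Ord C i0)

/- ### Codes and the shift -/

def pair {W S : Type} [Fintype W] [Fintype S] (d z : W → S → ZMod 2) : ZMod 2 :=
  ∑ w, ∑ s, d w s * z w s

open Classical in
def CodeStmt : Prop :=
  ∀ (W S : Type) [Fintype W] [Fintype S] (a : W → S → ZMod 2) (e : ℕ), 16 ≤ Fintype.card S →
    Nonempty W → (∀ w, a w ≠ 0) → Fintype.card W * Fintype.card S / 2 ≤ e →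
    e ≤ Fintype.card W * Fintype.card S / 2 + 1 →
    ∃ D : Submodule (ZMod 2) (W → S → ZMod 2), (∀ d ∈ D, pair d a = 0) ∧
      (∀ d ∈ D, 8 * (univ.filter fun w => d w ≠ 0).card ≤ Fintype.card W → d = 0) ∧
      (∀ z, (∀ d ∈ D, pair d z = 0) →
        8 * (univ.filter fun w => z w ≠ 0).card ≤ Fintype.card W → z = 0) ∧
      Nat.card {z : W → S → ZMod 2 // ∀ d ∈ D, pair d z = 0} = 2 ^ e

/-- The indicator function of the labels at a vertex. -/
def ind {V S : Type} (st : V → S → Option V) (v : V) : S → ZMod 2 :=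
  fun s => if (st v s).isSome = true then 1 else 0

/-- The configuration `ω` shows exactly the edges of the copy `(g, i)` on that copy. -/
def Perf {S V : Type} [Fintype S] {F : Fam S V} {G : Type} [Group G] (C : SC F G)
    (ω : G → S → ZMod 2) (g : G) (i : ℕ) : Prop :=
  ∀ v ∈ F.K i, ω (g * C.f v) = ind F.st v

open Classical in
/-- On each copy `ω` is perfect or far from perfect. -/
def Far {S V : Type} [Fintype S] {F : Fam S V} {G : Type} [Group G] (C : SC F G)
    (ω : G → S → ZMod 2) : Prop :=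
  ∀ g i, 8 * ((F.K i).filter fun v => ω (g * C.f v) ≠ ind F.st v).card ≤ (F.K i).card →
    Perf C ω g i

/-- A closed shift invariant group of configurations. -/
def IsShift {G S : Type} [Group G] (X : AddSubgroup (G → S → ZMod 2)) : Prop :=
  IsClosed (X : Set (G → S → ZMod 2)) ∧ ∀ ω ∈ X, ∀ h : G, (fun y => ω (h * y)) ∈ X

/-- Restriction of configurations to a copy. -/
def res {S V : Type} [Fintype S] {F : Fam S V} {G : Type} [Group G] (C : SC F G)
    (X : AddSubgroup (G → S → ZMod 2)) (g : G) (i : ℕ) : X →+ (F.K i → S → ZMod 2) where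
  toFun ω := fun v => ω.1 (g * C.f v)
  map_zero' := rfl
  map_add' _ _ := rfl

def ShiftStmt : Prop :=
  CodeStmt → ∀ (S V : Type) [Fintype S] (F : Fam S V) (G : Type) [Group G] (C : SC F G),
    (∀ i0, Nonempty (Ord C i0)) → ∀ e : ℕ → ℕ,
    (∀ i, (F.K i).card * Fintype.card S / 2 ≤ e i) →
    (∀ i, e i ≤ (F.K i).card * Fintype.card S / 2 + 1) →
    ∃ X : AddSubgroup (G → S → ZMod 2), IsShift X ∧ (∀ ω ∈ X, Far C ω) ∧
      ∀ g i, (∃ ω ∈ X, Perf C ω g i) ∧ Nat.card (res C X g i).range = 2 ^ e i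

/- ### The graph of a configuration -/

/-- The edges shown by a configuration. -/
def Edge {G S : Type} [Group G] (x : S → G) (bar : S → S) (ω : G → S → ZMod 2) (y : G) (s : S) :
    Prop :=
  ω y s = 1 ∧ ω (y * x s) (bar s) = 1

/-- The vertices where a configuration is not locally consistent. -/
def Err {G S : Type} [Group G] [Fintype S] (x : S → G) (bar : S → S) (deg : S → ℕ)
    (ω : G → S → ZMod 2) (y : G) : Prop :=
  ¬ (3 ≤ (univ.filter fun s => ω y s = 1).card ∧ ∀ s, ω y s = 1 →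
    deg s = (univ.filter fun s => ω y s = 1).card ∧ ω (y * x s) (bar s) = 1)

open Classical in
/-- Boundary darts and error vertices of a finite set. -/
noncomputable def bdry {Y S : Type} [Fintype S] (mv : Y → S → Y) (E : Y → S → Prop)
    (err : Y → Prop) (B : Finset Y) : ℕ :=
  ((B ×ˢ (univ : Finset S)).filter fun p => E p.1 p.2 ∧ mv p.1 p.2 ∉ B).card +
    (B.filter err).card

open Classical in
/-- Few vertices of `B` have depth one in their creator copy. -/
def DepthStmt : Prop :=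
  ∀ (S V : Type) [Fintype S] (F : Fam S V) (G : Type) [Group G] (C : SC F G) (i0 : ℕ)
    (O : Ord C i0) (ω : G → S → ZMod 2) (B : Finset G),
    200 * Fintype.card S * (B.filter fun y => ∃ g v, y = g * C.f v ∧ O.dep g v = 1).card ≤
      B.card + 400 * Fintype.card S *
        bdry (fun y s => y * C.x s) (Edge C.x F.bar ω) (Err C.x F.bar F.deg ω) B

def IsoStmt : Prop :=
  ∀ (S V : Type) [Fintype S] (F : Fam S V) (G : Type) [Group G] (C : SC F G) (i0 : ℕ)
    (_ : Ord C i0) (ω : G → S → ZMod 2), Far C ω → ∀ B : Finset G,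
    (∀ y ∈ B, ∀ g v, y = g * C.f v → ¬ Perf C ω g (F.comp v)) →
    B.card ≤ 20 * Fintype.card S *
      bdry (fun y s => y * C.x s) (Edge C.x F.bar ω) (Err C.x F.bar F.deg ω) B

def RobustStmt : Prop := DepthStmt → IsoStmt

/-- A graph of degree at most `card S` with error vertices and closed error free finite blocks,
such that finite sets containing at most half of each block have a large boundary. -/
structure IsoGraph (Y S : Type) [Fintype S] [DecidableEq Y] (M : ℕ) where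
  mv : Y → S → Y
  bar : S → S
  E : Y → S → Prop
  err : Y → Prop
  blocks : Set (Finset Y)
  bar_bar : ∀ s, bar (bar s) = s
  symm : ∀ y s, E y s → E (mv y s) (bar s) ∧ mv (mv y s) (bar s) = y
  disj : ∀ b ∈ blocks, ∀ b' ∈ blocks, ∀ y ∈ b, y ∈ b' → b = b'
  closed : ∀ b ∈ blocks, ∀ y ∈ b, ¬ err y ∧ ∀ s, E y s → mv y s ∈ b
  iso : ∀ B : Finset Y, (∀ b ∈ blocks, 2 * (B ∩ b).card ≤ b.card) →
    B.card ≤ M * bdry mv E err B

open Classical in
def BlocksStmt : Prop :=
  IsoStmt → ∀ (S V : Type) [Fintype S] (F : Fam S V) (G : Type) [Group G] (C : SC F G) (i0 : ℕ)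
    (_ : Ord C i0) (ω : G → S → ZMod 2), Far C ω →
    ∃ I : IsoGraph G S (20 * Fintype.card S), I.mv = (fun y s => y * C.x s) ∧
      I.E = Edge C.x F.bar ω ∧ I.err = Err C.x F.bar F.deg ω ∧
      I.blocks = {b | ∃ g i, Perf C ω g i ∧ b = (F.K i).image fun v => g * C.f v} ∧
      ∀ g v g' v', Perf C ω g (F.comp v) → Perf C ω g' (F.comp v') →
        g * C.f v = g' * C.f v' → v = v'

/- ### Spectral gap -/

/-- Square of the Euclidean norm of a finitely supported function. -/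
noncomputable def nsq {Y : Type} (η : Y →₀ ℝ) : ℝ := η.sum fun _ r => r ^ 2

open Classical in
/-- `A = 1 - c (Laplacian + error indicator)` with `c = 1 / (2 card S + 1)`. -/
def IsAvg {Y S : Type} [Fintype S] (mv : Y → S → Y) (E : Y → S → Prop) (err : Y → Prop)
    (A : Module.End ℝ (Y →₀ ℝ)) : Prop :=
  ∀ (η : Y →₀ ℝ) (y : Y), A η y = η y - (2 * Fintype.card S + 1 : ℝ)⁻¹ *
    ((∑ s, if E y s then η y - η (mv y s) else 0) + if err y then η y else 0)

open Classical in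
/-- The Cheeger inequality for functions of mean zero on each block. -/
def CheegerStmt : Prop :=
  ∀ (σ M : ℕ), ∃ κ : ℝ, 0 < κ ∧ ∀ (Y S : Type) [Fintype S] [DecidableEq Y] (I : IsoGraph Y S M),
    Fintype.card S = σ → ∀ η : Y →₀ ℝ, (∀ b ∈ I.blocks, ∑ y ∈ b, η y = 0) →
    κ * nsq η ≤ η.sum fun y r => r *
      ((∑ s, if I.E y s then r - η (I.mv y s) else 0) + if I.err y then r else 0)

def GapConcl : Prop :=
  ∀ (σ M : ℕ), ∃ θ : ℝ, 0 ≤ θ ∧ θ < 1 ∧ ∀ (Y S : Type) [Fintype S] [DecidableEq Y]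
    (I : IsoGraph Y S M), Fintype.card S = σ → ∀ A, IsAvg I.mv I.E I.err A →
    (∀ η ξ : Y →₀ ℝ, ((A η).sum fun y r => r * ξ y) = η.sum fun y r => r * A ξ y) ∧
    (∀ (η : Y →₀ ℝ) (k : ℕ), nsq ((A ^ k) (A η - η)) ≤ 4 * θ ^ k * nsq η) ∧
    (∀ (y : Y) (k : ℕ), ∀ b ∈ I.blocks, y ∈ b →
      |(A ^ k) (Finsupp.single y 1) y - (b.card : ℝ)⁻¹| ≤ θ ^ k) ∧
    ∀ (y : Y) (k : ℕ), (∀ b ∈ I.blocks, y ∉ b) → |(A ^ k) (Finsupp.single y 1) y| ≤ θ ^ k

def GapStmt : Prop := CheegerStmt → GapConcl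

/- ### The group and its regular representation -/

/-- A group `Γ` (the semidirect product of the dual of `X` and `G`) with its field of
signed permutation representations over `X`. -/
structure Rep {G S : Type} [Group G] [Fintype S] (X : AddSubgroup (G → S → ZMod 2))
    (Γ : Type) [Group Γ] where
  π : X → (MonoidAlgebra ℝ Γ →ₐ[ℝ] Module.End ℝ (G →₀ ℝ))
  pt : Γ → G
  χ : Γ → (X →+ ZMod 2)
  cont : ∀ γ, Continuous (χ γ)
  inj : ∀ γ γ', pt γ = pt γ' → χ γ = χ γ' → γ = γ'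
  pt_one : pt 1 = 1
  χ_one : χ 1 = 0
  app : ∀ ω γ, π ω (MonoidAlgebra.single γ 1) (Finsupp.single 1 1) =
    Finsupp.single (pt γ) (if χ γ ω = 0 then 1 else -1)

def RepStmt : Prop :=
  ∀ (G S : Type) [Group G] [Countable G] [Fintype S] (x : S → G) (bar : S → S) (deg : S → ℕ)
    (X : AddSubgroup (G → S → ZMod 2)), IsShift X →
    ∃ (Γ : Type) (_ : Group Γ) (_ : Countable Γ) (R : Rep X Γ) (a : MonoidAlgebra ℝ Γ),
      ∀ ω : X, IsAvg (fun y s => y * x s) (Edge x bar ω.1) (Err x bar deg ω.1) (R.π ω a)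

/-- Consequences of the Plancherel formula over the Haar measure of `X`. -/
def HaarStmt : Prop :=
  ∀ (G S : Type) [Group G] [Countable G] [Fintype S] (X : AddSubgroup (G → S → ZMod 2)),
    IsClosed (X : Set (G → S → ZMod 2)) → ∀ (Γ : Type) [Group Γ] (R : Rep X Γ),
    (∀ (b b' : MonoidAlgebra ℝ Γ) (c : ℝ),
      (∀ ω, nsq (R.π ω b (Finsupp.single 1 1)) ≤ c * nsq (R.π ω b' (Finsupp.single 1 1))) →
      nsq b.coeff ≤ c * nsq b'.coeff) ∧
    (∀ a : MonoidAlgebra ℝ Γ,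
      (∀ ω (η ξ : G →₀ ℝ), ((R.π ω a η).sum fun y r => r * ξ y) =
        η.sum fun y r => r * R.π ω a ξ y) → ∀ γ, a.coeff γ⁻¹ = a.coeff γ) ∧
    ∀ (b : MonoidAlgebra ℝ Γ) (J : Type) [Fintype J] (N : J → AddSubgroup X) (z : J → X)
      (c : J → ℝ) (ε : ℝ), (∀ j, IsOpen (N j : Set X)) →
      (∀ ω : X, |R.π ω b (Finsupp.single 1 1) 1 -
        ∑ j, Set.indicator {ω' : X | ω' - z j ∈ N j} (fun _ => c j) ω| ≤ ε) →
      |b.coeff 1 - ∑ j, c j / (N j).index| ≤ ε

def LimStmt : Prop :=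
  ∀ (Γ : Type) [Group Γ] (a : MonoidAlgebra ℝ Γ) (θ t : ℝ), (∀ γ, a.coeff γ⁻¹ = a.coeff γ) →
    0 ≤ θ → θ < 1 →
    (∀ (b : MonoidAlgebra ℝ Γ) (k : ℕ),
      nsq (a ^ k * (a * b - b)).coeff ≤ 4 * θ ^ k * nsq b.coeff) →
    Filter.Tendsto (fun k => (a ^ k).coeff 1) Filter.atTop (nhds t) →
    ∃ p ∈ Cred Γ, p * p = p ∧ star p = p ∧ tr Γ p = t

/-- The outcome of part A. -/
def ProjStmt : Prop :=
  ∃ k : ℕ → ℕ, 1 ≤ k 0 ∧ (∀ i, 4 * k i ≤ k (i + 1)) ∧ ∀ b : ℕ → ℕ, (∀ i, b i ≤ 1) →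
    ∃ (Γ : Type) (_ : Group Γ) (_ : Countable Γ), ∃ p ∈ Cred Γ, p * p = p ∧ star p = p ∧
      tr Γ p = ((∑' i, (2 : ℝ)⁻¹ ^ (k i + b i) : ℝ) : ℂ)

def AssembleStmt : Prop :=
  FamStmt → SCStmt → CodeStmt → ShiftStmt → IsoStmt → BlocksStmt → GapConcl → RepStmt →
    HaarStmt → LimStmt → ProjStmt

def IrrStmt : Prop :=
  ∀ e : ℕ → ℕ, 1 ≤ e 0 → (∀ i, 2 * e i ≤ e (i + 1)) → Irrational (∑' i, (2 : ℝ)⁻¹ ^ e i)

end Vale.Agent.P089
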