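import Mathlib
import Vale.Agent.P089.Base

namespace Vale.Agent.P089

open Finset

namespace Assemble

lemma pow_le_card {S V : Type} [Fintype S] (F : Fam S V) (i : ℕ) : 4 ^ i ≤ (F.K i).card := by
  induction i with
  | zero => exact F.pos
  | succ i ih =>
    have := F.grow i
    rw [pow_succ]
    omega

lemma res_cont {S V : Type} [Fintype S] {F : Fam S V} {G : Type} [Group G] (C : SC F G)
    (X : AddSubgroup (G → S → ZMod 2)) (g : G) (i : ℕ) : Continuous (res C X g i) := by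
  refine continuous_pi fun v => ?_
  exact (continuous_apply (g * C.f v)).comp continuous_subtype_val

lemma ker_open {S V : Type} [Fintype S] {F : Fam S V} {G : Type} [Group G] (C : SC F G)
    (X : AddSubgroup (G → S → ZMod 2)) (g : G) (i : ℕ) :
    IsOpen ((res C X g i).ker : Set X) := by
  have h : ((res C X g i).ker : Set X) = (res C X g i) ⁻¹' {0} := by
    ext ω
    simp
  rw [h]
  exact (isOpen_discrete _).preimage (res_cont C X g i)

lemma sub_mem_ker {S V : Type} [Fintype S] {F : Fam S V} {G : Type} [Group G] (C : SC F G)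
    (X : AddSubgroup (G → S → ZMod 2)) (g : G) (i : ℕ) (z ω : X) (hz : Perf C z.1 g i) :
    ω - z ∈ (res C X g i).ker ↔ Perf C ω.1 g i := by
  rw [AddMonoidHom.mem_ker, map_sub, sub_eq_zero]
  constructor
  · intro h v hv
    have h1 := congrFun h ⟨v, hv⟩
    have h2 : ω.1 (g * C.f v) = z.1 (g * C.f v) := h1
    rw [h2]
    exact hz v hv
  · intro h
    funext v
    have h1 : ω.1 (g * C.f v) = z.1 (g * C.f v) := by
      rw [h v.1 v.2, hz v.1 v.2]
    exact h1

open Classical in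
lemma card_block {S V : Type} [Fintype S] {F : Fam S V} {G : Type} [Group G] {C : SC F G}
    {i0 : ℕ} (O : Ord C i0) (g : G) (i : ℕ) :
    ((F.K i).image fun v => g * C.f v).card = (F.K i).card := by
  refine card_image_of_injOn fun v hv w hw h => ?_
  have h1 : F.comp v = i := (F.mem_K v i).1 hv
  have h2 : F.comp w = i := (F.mem_K w i).1 hw
  exact O.inj v w (h1.trans h2.symm) (mul_left_cancel h)

lemma inv_card_le {S V : Type} [Fintype S] (F : Fam S V) (i n : ℕ) (h : n ≤ i) :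
    ((F.K i).card : ℝ)⁻¹ ≤ (4 : ℝ)⁻¹ ^ n := by
  have h1 : (4 : ℝ) ^ n ≤ (F.K i).card := by
    have h2 : 4 ^ n ≤ (F.K i).card :=
      (Nat.pow_le_pow_right (by norm_num) h).trans (pow_le_card F i)
    exact_mod_cast h2
  rw [inv_pow]
  exact inv_anti₀ (by positivity) h1

open Classical in
/-- The pointwise estimate used for the third Haar statement. -/
lemma point {S V : Type} [Fintype S] {F : Fam S V} {G : Type} [Group G] {C : SC F G}
    {i0 : ℕ} (O : Ord C i0) (ω : G → S → ZMod 2) (t δ : ℝ)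
    (huniq : ∀ g v g' v', Perf C ω g (F.comp v) → Perf C ω g' (F.comp v') →
      g * C.f v = g' * C.f v' → v = v')
    (h1 : ∀ g i, Perf C ω g i → (1 : G) ∈ ((F.K i).image fun v => g * C.f v) →
      |t - (((F.K i).image fun v => g * C.f v).card : ℝ)⁻¹| ≤ δ)
    (h0 : (∀ g i, Perf C ω g i → (1 : G) ∉ ((F.K i).image fun v => g * C.f v)) → |t| ≤ δ)
    (n : ℕ) :
    |t - ∑ j : (Σ i : Fin n, F.K i),
      (if Perf C ω (C.f j.2)⁻¹ j.1 then ((F.K j.1).card : ℝ)⁻¹ else 0)| ≤ δ + (4 : ℝ)⁻¹ ^ n := by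
  have hp : (0 : ℝ) ≤ (4 : ℝ)⁻¹ ^ n := by positivity
  by_cases hex : ∃ g i, Perf C ω g i ∧ (1 : G) ∈ ((F.K i).image fun v => g * C.f v)
  · obtain ⟨g, i, hP, hm⟩ := hex
    have hb := h1 g i hP hm
    rw [card_block O] at hb
    obtain ⟨v0, hv0, hg⟩ := mem_image.1 hm
    have hc0 : F.comp v0 = i := (F.mem_K v0 i).1 hv0
    have key : ∀ j : (Σ i : Fin n, F.K i), Perf C ω (C.f j.2)⁻¹ j.1 → (j.2 : V) = v0 ∧
        (j.1 : ℕ) = i := by
      intro j hj
      have hc : F.comp j.2 = j.1 := (F.mem_K _ _).1 j.2.2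
      have h2 : (j.2 : V) = v0 := by
        refine huniq (C.f j.2)⁻¹ j.2 g v0 (by rw [hc]; exact hj) (by rw [hc0]; exact hP) ?_
        rw [hg, inv_mul_cancel]
      exact ⟨h2, by rw [← hc, h2, hc0]⟩
    by_cases hin : i < n
    · have hs : ∑ j : (Σ i : Fin n, F.K i),
          (if Perf C ω (C.f j.2)⁻¹ j.1 then ((F.K j.1).card : ℝ)⁻¹ else 0) =
          ((F.K i).card : ℝ)⁻¹ := by
        rw [Finset.sum_eq_single (⟨⟨i, hin⟩, ⟨v0, hv0⟩⟩ : Σ i : Fin n, F.K i)]
        · have h3 : (C.f v0)⁻¹ = g := by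
            rw [eq_inv_of_mul_eq_one_left hg]
          have h4 : Perf C ω (C.f v0)⁻¹ i := by rw [h3]; exact hP
          exact if_pos h4
        · intro j _ hj
          refine if_neg fun hpj => hj ?_
          obtain ⟨ha, hb⟩ := key j hpj
          obtain ⟨⟨i', hi'⟩, ⟨v, hv⟩⟩ := j
          have ha' : v = v0 := ha
          have hb' : i' = i := hb
          subst ha'
          subst hb'
          rfl
        · intro h
          exact absurd (mem_univ _) h
      rw [hs]
      linarith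
    · have hs : ∑ j : (Σ i : Fin n, F.K i),
          (if Perf C ω (C.f j.2)⁻¹ j.1 then ((F.K j.1).card : ℝ)⁻¹ else 0) = 0 := by
        refine Finset.sum_eq_zero fun j _ => if_neg fun hpj => hin ?_
        rw [← (key j hpj).2]
        exact j.1.2
      rw [hs, sub_zero]
      have h5 := inv_card_le F i n (not_lt.1 hin)
      have h6 : (0 : ℝ) ≤ ((F.K i).card : ℝ)⁻¹ := by positivity
      have h7 := abs_le.1 hb
      rw [abs_le]
      constructor <;> linarith [h7.1, h7.2]
  · have hn : ∀ g i, Perf C ω g i → (1 : G) ∉ ((F.K i).image fun v => g * C.f v) :=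
      fun g i hP hm => hex ⟨g, i, hP, hm⟩
    have hs : ∑ j : (Σ i : Fin n, F.K i),
        (if Perf C ω (C.f j.2)⁻¹ j.1 then ((F.K j.1).card : ℝ)⁻¹ else 0) = 0 := by
      refine Finset.sum_eq_zero fun j _ => if_neg fun hpj => hn _ _ hpj ?_
      exact mem_image.2 ⟨j.2, j.2.2, inv_mul_cancel _⟩
    rw [hs, sub_zero]
    linarith [h0 hn]

lemma sum_index {S V : Type} [Fintype S] (F : Fam S V) (e : ℕ → ℕ) (n : ℕ) :
    ∑ j : (Σ i : Fin n, F.K i), ((F.K j.1).card : ℝ)⁻¹ / ((2 ^ e j.1 : ℕ) : ℝ) =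
      ∑ i ∈ range n, (2 : ℝ)⁻¹ ^ e i := by
  rw [Fintype.sum_sigma, ← Fin.sum_univ_eq_sum_range (fun i => (2 : ℝ)⁻¹ ^ e i)]
  refine Finset.sum_congr rfl fun i _ => ?_
  have h1 : (0 : ℝ) < (F.K i).card := by
    have h2 : 0 < (F.K i).card := lt_of_lt_of_le (by positivity) (pow_le_card F i)
    exact_mod_cast h2
  simp only [Finset.sum_const, Finset.card_univ, Fintype.card_coe, nsmul_eq_mul]
  push_cast
  rw [inv_pow]
  field_simp

lemma tendsto_of_est (u : ℕ → ℝ) (e : ℕ → ℕ) (he : ∀ i, i ≤ e i) (θ : ℝ) (h0 : 0 ≤ θ)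
    (h1 : θ < 1)
    (h : ∀ k n, |u k - ∑ i ∈ range n, (2 : ℝ)⁻¹ ^ e i| ≤ θ ^ k + (4 : ℝ)⁻¹ ^ n) :
    Filter.Tendsto u Filter.atTop (nhds (∑' i, (2 : ℝ)⁻¹ ^ e i)) := by
  have hs : Summable fun i => (2 : ℝ)⁻¹ ^ e i := by
    refine Summable.of_nonneg_of_le (fun i => by positivity) (fun i => ?_)
      (summable_geometric_of_lt_one (r := (2 : ℝ)⁻¹) (by norm_num) (by norm_num))
    exact pow_le_pow_of_le_one (by norm_num) (by norm_num) (he i)
  have hk : ∀ k, |u k - ∑' i, (2 : ℝ)⁻¹ ^ e i| ≤ θ ^ k := by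
    intro k
    have ha : Filter.Tendsto (fun n => |u k - ∑ i ∈ range n, (2 : ℝ)⁻¹ ^ e i|) Filter.atTop
        (nhds |u k - ∑' i, (2 : ℝ)⁻¹ ^ e i|) :=
      (tendsto_const_nhds.sub hs.hasSum.tendsto_sum_nat).abs
    have hb : Filter.Tendsto (fun n : ℕ => θ ^ k + (4 : ℝ)⁻¹ ^ n) Filter.atTop
        (nhds (θ ^ k + 0)) :=
      tendsto_const_nhds.add (tendsto_pow_atTop_nhds_zero_of_lt_one (by norm_num) (by norm_num))
    have hc := le_of_tendsto_of_tendsto' ha hb (h k)
    simpa using hc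
  rw [tendsto_iff_norm_sub_tendsto_zero]
  refine squeeze_zero (fun k => norm_nonneg _) (fun k => hk k) ?_
  exact tendsto_pow_atTop_nhds_zero_of_lt_one h0 h1

end Assemble

open Assemble in
theorem assembleS : AssembleStmt := by
  classical
  intro hFam hSC hCode hShift hIso hBlocks hGap hRep hHaar hLim
  obtain ⟨S, V, instS, ⟨F⟩⟩ := hFam
  obtain ⟨G, instG, instC, C, hO⟩ := hSC S V F
  obtain ⟨O⟩ := hO 0
  have hk0 : 1 ≤ (F.K 0).card * Fintype.card S / 2 := by
    have h1 := F.pos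
    have h2 := F.cardS
    have h3 : 1 * 16 ≤ (F.K 0).card * Fintype.card S := Nat.mul_le_mul h1 h2
    omega
  have hk4 : ∀ i, 4 * ((F.K i).card * Fintype.card S / 2) ≤
      (F.K (i + 1)).card * Fintype.card S / 2 := by
    intro i
    have h1 := Nat.mul_le_mul_right (Fintype.card S) (F.grow i)
    rw [mul_assoc] at h1
    omega
  refine ⟨fun i => (F.K i).card * Fintype.card S / 2, hk0, hk4, fun b hb => ?_⟩
  obtain ⟨X, hX, hFar, hres⟩ := hShift hCode S V F G C hO
    (fun i => (F.K i).card * Fintype.card S / 2 + b i) (fun i => Nat.le_add_right _ _)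
    (fun i => Nat.add_le_add_left (hb i) _)
  obtain ⟨Γ, instΓ, instCΓ, R, a, ha⟩ := hRep G S C.x F.bar F.deg X hX
  obtain ⟨θ, hθ0, hθ1, hθ⟩ := hGap (Fintype.card S) (20 * Fintype.card S)
  obtain ⟨H1, H2, H3⟩ := hHaar G S X hX.1 Γ R
  have hB := fun ω : X => hBlocks hIso S V F G C 0 O ω.1 (hFar ω.1 ω.2)
  choose I hmv hE herr hbl huniq using hB
  have hG := fun ω : X => @hθ G S instS (fun a b => Classical.propDecidable (a = b)) (I ω) rfl
    (R.π ω a) (by rw [hmv, hE, herr]; exact ha ω)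
  refine ⟨Γ, instΓ, instCΓ, hLim Γ a θ _ (H2 a fun ω => (hG ω).1) hθ0 hθ1 ?_ ?_⟩
  · intro b' k
    refine H1 _ _ _ fun ω => ?_
    have h1 := (hG ω).2.1 (R.π ω b' (Finsupp.single 1 1)) k
    rw [map_mul, map_pow, map_sub, map_mul]
    exact h1
  · refine tendsto_of_est _ _ (fun i => ?_) θ hθ0 hθ1 fun k n => ?_
    · have h1 : ∀ i, i ≤ (F.K i).card * Fintype.card S / 2 := by
        intro i
        have h2 : ∀ i, 1 ≤ (F.K i).card * Fintype.card S / 2 ∧
            i ≤ (F.K i).card * Fintype.card S / 2 := by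
          intro i
          induction i with
          | zero => exact ⟨hk0, Nat.zero_le _⟩
          | succ i ih =>
            have := hk4 i
            omega
        exact (h2 i).2
      exact (h1 i).trans (Nat.le_add_right _ _)
    · have hz := fun g i => (hres g i).1
      choose z hzX hzP using hz
      have h3 := H3 (a ^ k) (Σ i : Fin n, F.K i) (fun j => (res C X (C.f j.2)⁻¹ j.1).ker)
        (fun j => ⟨z (C.f j.2)⁻¹ j.1, hzX _ _⟩) (fun j => ((F.K j.1).card : ℝ)⁻¹)
        (θ ^ k + (4 : ℝ)⁻¹ ^ n) (fun j => ker_open C X _ _) ?_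
      · rw [← sum_index F (fun i => (F.K i).card * Fintype.card S / 2 + b i) n]
        have h4 : ∀ j : (Σ i : Fin n, F.K i), (res C X (C.f j.2)⁻¹ j.1).ker.index =
            2 ^ ((F.K j.1).card * Fintype.card S / 2 + b j.1) := by
          intro j
          rw [AddSubgroup.index_ker]
          exact (hres _ _).2
        simp only [h4] at h3
        exact h3
      · intro ω
        have h5 := point O ω.1 ((R.π ω a ^ k) (Finsupp.single 1 1) 1) (θ ^ k) (huniq ω)
          (fun g i hP hm => (hG ω).2.2.1 1 k _ (by rw [hbl]; exact ⟨g, i, hP, rfl⟩) hm)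
          (fun hn => (hG ω).2.2.2 1 k fun b' hb' => by
            rw [hbl] at hb'
            obtain ⟨g, i, hP, rfl⟩ := hb'
            exact hn g i hP) n
        rw [map_pow]
        have h6 : ∀ j : (Σ i : Fin n, F.K i),
            Set.indicator {ω' : X | ω' - ⟨z (C.f j.2)⁻¹ j.1, hzX _ _⟩ ∈
              (res C X (C.f j.2)⁻¹ j.1).ker} (fun _ => ((F.K j.1).card : ℝ)⁻¹) ω =
            if Perf C ω.1 (C.f j.2)⁻¹ j.1 then ((F.K j.1).card : ℝ)⁻¹ else 0 := by
          intro j
          have h7 := sub_mem_ker C X (C.f j.2)⁻¹ j.1 ⟨z (C.f j.2)⁻¹ j.1, hzX _ _⟩ ω (hzP _ _)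
          by_cases hP : Perf C ω.1 (C.f j.2)⁻¹ j.1
          · rw [if_pos hP]
            apply Set.indicator_of_mem
            exact h7.2 hP
          · rw [if_neg hP]
            apply Set.indicator_of_notMem
            exact fun h => hP (h7.1 h)
        simp only [h6]
        exact h5

end Vale.Agent.P089
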