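import Mathlib

namespace Vale.Agent.P089

open scoped ZeroAtInfty

section Target

variable {G H E : Type} [Group G] [NormedAddCommGroup H] [InnerProductSpace ℂ H] [CompleteSpace H]
  [NormedAddCommGroup E] [InnerProductSpace ℂ E] [CompleteSpace E]

/- Throughout, `E` is the Hilbert sum of the copies `J g : H → E` of `H`, that is `E = H ⊗ l2 G`
and `J g ξ = ξ ⊗ δ g`. -/

/-- `T = X ⊗ λ g`. -/
structure IsTens (J : G → H →ₗᵢ[ℂ] E) (X : H →L[ℂ] H) (g : G) (T : E →L[ℂ] E) : Prop where
  app : ∀ (h : G) (ξ : H), T (J h ξ) = J (g * h) (X ξ)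

/-- `T` lies in the spatial tensor product of the compact operators on `H` and the reduced group
C*-algebra: the compact operators of the standard Hilbert module. -/
structure IsCpt (J : G → H →ₗᵢ[ℂ] E) (T : E →L[ℂ] E) : Prop where
  mem : T ∈ closure (Submodule.span ℂ
    {S : E →L[ℂ] E | ∃ (X : H →L[ℂ] H) (g : G), IsCompactOperator X ∧ IsTens J X g S} :
      Set (E →L[ℂ] E))

/-- `T` lies in the multiplier algebra: the adjointable operators of the standard module. -/
structure IsMul (J : G → H →ₗᵢ[ℂ] E) (T : E →L[ℂ] E) : Prop where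
  left : ∀ S, IsCpt J S → IsCpt J (T * S)
  right : ∀ S, IsCpt J S → IsCpt J (S * T)

/-- Even Kasparov cycles for the pair (complex numbers, reduced group C*-algebra): the even and
odd modules are the ranges of `P` and `Q`, and `T` is unitary modulo compact operators. -/
structure Cyc (J : G → H →ₗᵢ[ℂ] E) where
  P : E →L[ℂ] E
  Q : E →L[ℂ] E
  T : E →L[ℂ] E
  mulP : IsMul J P
  mulQ : IsMul J Q
  mulT : IsMul J T
  idemP : P * P = P
  starP : star P = P
  idemQ : Q * Q = Q
  starQ : star Q = Q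
  supp : Q * T * P = T
  left : IsCpt J (star T * T - P)
  right : IsCpt J (T * star T - Q)

/-- Unitary equivalence, operator homotopy, and addition of a degenerate cycle. -/
inductive Rel (J : G → H →ₗᵢ[ℂ] E) : Cyc J → Cyc J → Prop
  | unitary (a b : Cyc J) (u v : E →L[ℂ] E) : IsMul J u → IsMul J v → star u * u = a.P →
      u * star u = b.P → star v * v = a.Q → v * star v = b.Q → b.T = v * a.T * star u → Rel J a b
  | homotopy (γ : unitInterval → Cyc J) : (∀ t, (γ t).P = (γ 0).P) → (∀ t, (γ t).Q = (γ 0).Q) →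
      Continuous (fun t => (γ t).T) → Rel J (γ 0) (γ 1)
  | degenerate (a d b : Cyc J) : star d.T * d.T = d.P → d.T * star d.T = d.Q → a.P * d.P = 0 →
      a.Q * d.Q = 0 → b.P = a.P + d.P → b.Q = a.Q + d.Q → b.T = a.T + d.T → Rel J a b

/-- The even K-theory of the reduced group C*-algebra in Kasparov's picture. -/
def K0 (J : G → H →ₗᵢ[ℂ] E) : Type := Quot (Rel J)

/-- The class of a cycle. -/
def K0.mk {J : G → H →ₗᵢ[ℂ] E} (a : Cyc J) : K0 J := Quot.mk (Rel J) a

end Target

section Source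

/-- Even equivariant Fredholm modules over the algebra of functions vanishing at infinity:
`(U, π)` and `(V, ρ)` are the even and odd covariant representations. -/
structure Fred (G Z H : Type) [Group G] [TopologicalSpace Z] [MulAction G Z]
    [NormedAddCommGroup H] [InnerProductSpace ℂ H] [CompleteSpace H] where
  U : G →* (H →L[ℂ] H)
  V : G →* (H →L[ℂ] H)
  π : C₀(Z, ℂ) →⋆ₙₐ[ℂ] (H →L[ℂ] H)
  ρ : C₀(Z, ℂ) →⋆ₙₐ[ℂ] (H →L[ℂ] H)
  F : H →L[ℂ] H
  unitU : ∀ g, star (U g) = U g⁻¹
  unitV : ∀ g, star (V g) = V g⁻¹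
  covU : ∀ (g : G) (f f' : C₀(Z, ℂ)), (∀ z, f' z = f (g⁻¹ • z)) → U g * π f = π f' * U g
  covV : ∀ (g : G) (f f' : C₀(Z, ℂ)), (∀ z, f' z = f (g⁻¹ • z)) → V g * ρ f = ρ f' * V g
  comm : ∀ f, IsCompactOperator (F * π f - ρ f * F : H →L[ℂ] H)
  left : ∀ f, IsCompactOperator ((star F * F - 1) * π f : H →L[ℂ] H)
  right : ∀ f, IsCompactOperator ((F * star F - 1) * ρ f : H →L[ℂ] H)
  equi : ∀ g f, IsCompactOperator ((V g * F * U g⁻¹ - F) * π f : H →L[ℂ] H)

/-- A cutoff function `c` together with the coefficients `p g = c · g c` of the cutoff projection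
in the crossed product. -/
structure Cutoff (G Z : Type) [Group G] [TopologicalSpace Z] [MulAction G Z] where
  c : Z → ℝ
  cont : Continuous c
  supp : HasCompactSupport c
  nonneg : ∀ z, 0 ≤ c z
  sum : ∀ z, ∑ᶠ g : G, c (g⁻¹ • z) ^ 2 = 1
  p : G → C₀(Z, ℂ)
  p_eq : ∀ g z, p g z = ((c z * c (g⁻¹ • z) : ℝ) : ℂ)

end Source

/-- `a` is the Kasparov descent of `x` compressed by the cutoff projection. -/
structure IsAssembly {G Z H E : Type} [Group G] [TopologicalSpace Z] [MulAction G Z]
    [NormedAddCommGroup H] [InnerProductSpace ℂ H] [CompleteSpace H]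
    [NormedAddCommGroup E] [InnerProductSpace ℂ E] [CompleteSpace E] (J : G → H →ₗᵢ[ℂ] E)
    (x : Fred G Z H) (c : Cutoff G Z) (a : Cyc J) : Prop where
  even : ∀ (h : G) (ξ : H), a.P (J h ξ) = ∑ᶠ g : G, J (g * h) (x.π (c.p g) (x.U g ξ))
  odd : ∀ (h : G) (ξ : H), a.Q (J h ξ) = ∑ᶠ g : G, J (g * h) (x.ρ (c.p g) (x.V g ξ))
  op : ∃ D : E →L[ℂ] E, IsTens J x.F 1 D ∧ a.T = a.Q * D * a.P

/-- The class `y` is not the assembly index of any equivariant Fredholm module over any proper
cocompact space, although cutoff functions and indices always exist. -/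
structure NotAssembled {G H E : Type} [Group G]
    [NormedAddCommGroup H] [InnerProductSpace ℂ H] [CompleteSpace H]
    [NormedAddCommGroup E] [InnerProductSpace ℂ E] [CompleteSpace E] (J : G → H →ₗᵢ[ℂ] E)
    (y : K0 J) : Prop where
  all : ∀ (Z : Type) [TopologicalSpace Z] [T2Space Z] [LocallyCompactSpace Z] [MulAction G Z]
    [ContinuousConstSMul G Z] [ProperlyDiscontinuousSMul G Z]
    [CompactSpace (MulAction.orbitRel.Quotient G Z)],
    Nonempty (Cutoff G Z) ∧ ∀ (x : Fred G Z H) (c : Cutoff G Z),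
      (∃ a, IsAssembly J x c a) ∧ ∀ a, IsAssembly J x c a → K0.mk a ≠ y

end Vale.Agent.P089
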