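import Mathlib
import Vale.Agent.P089.KK

/-
P089 part B: the concrete model `HG Λ H = l2(Λ; H)`, the operators `X ⊗ λ g`, the right
translations and their commutant `RG Λ H`.
-/

namespace Vale.Agent.P089

open scoped ENNReal

variable {Λ H : Type} [NormedAddCommGroup H] [InnerProductSpace ℂ H]

/-- Square summable `H` valued functions. -/
def HG (Λ H : Type) [NormedAddCommGroup H] : Type := lp (fun _ : Λ => H) 2

noncomputable instance : NormedAddCommGroup (HG Λ H) :=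
  inferInstanceAs (NormedAddCommGroup (lp (fun _ : Λ => H) 2))

noncomputable instance : InnerProductSpace ℂ (HG Λ H) :=
  inferInstanceAs (InnerProductSpace ℂ (lp (fun _ : Λ => H) 2))

instance [CompleteSpace H] : CompleteSpace (HG Λ H) :=
  inferInstanceAs (CompleteSpace (lp (fun _ : Λ => H) 2))

/-- The underlying element of `lp`. -/
def HG.toLp (ξ : HG Λ H) : lp (fun _ : Λ => H) 2 := ξ

/-- The underlying function. -/
@[coe] def HG.fn (ξ : HG Λ H) : Λ → H := ξ.toLp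

instance : CoeFun (HG Λ H) (fun _ => Λ → H) := ⟨HG.fn⟩

section
omit [InnerProductSpace ℂ H]

@[ext] theorem HG.ext {ξ η : HG Λ H} (h : ∀ g, ξ g = η g) : ξ = η := lp.ext (funext h)

@[simp] theorem HG.add_apply (ξ η : HG Λ H) (g : Λ) : (ξ + η) g = ξ g + η g := rfl

@[simp] theorem HG.sub_apply (ξ η : HG Λ H) (g : Λ) : (ξ - η) g = ξ g - η g := rfl

@[simp] theorem HG.neg_apply (ξ : HG Λ H) (g : Λ) : (-ξ) g = -ξ g := rfl

@[simp] theorem HG.zero_apply (g : Λ) : (0 : HG Λ H) g = 0 := rfl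

theorem HG.summable (ξ : HG Λ H) : Summable fun h => ‖ξ h‖ ^ 2 := by
  have := (lp.memℓp ξ.toLp).summable (by norm_num)
  simp only [ENNReal.toReal_ofNat, Real.rpow_ofNat] at this
  exact this

theorem HG.norm_sq (ξ : HG Λ H) : ‖ξ‖ ^ 2 = ∑' h, ‖ξ h‖ ^ 2 := by
  have := lp.norm_rpow_eq_tsum (p := 2) (by norm_num) ξ.toLp
  simp only [ENNReal.toReal_ofNat, Real.rpow_ofNat] at this
  exact this

theorem HG.norm_apply_le (ξ : HG Λ H) (g : Λ) : ‖ξ g‖ ≤ ‖ξ‖ :=
  lp.norm_apply_le_norm (by norm_num) ξ.toLp g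

/-- A square summable function as an element of `HG`. -/
def HG.mk (f : Λ → H) (h : Summable fun a => ‖f a‖ ^ 2) : HG Λ H :=
  (⟨f, memℓp_gen (by simpa using h)⟩ : lp (fun _ : Λ => H) 2)

@[simp] theorem HG.mk_apply (f : Λ → H) (h) (g : Λ) : HG.mk f h g = f g := rfl

end

@[simp] theorem HG.smul_apply (c : ℂ) (ξ : HG Λ H) (g : Λ) : (c • ξ) g = c • ξ g := rfl

theorem HG.inner_eq (ξ η : HG Λ H) : inner ℂ ξ η = ∑' g, inner ℂ (ξ g) (η g) :=
  lp.inner_eq_tsum ξ.toLp η.toLp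

theorem HG.summable_inner (ξ η : HG Λ H) : Summable fun g => inner ℂ (ξ g) (η g) :=
  lp.summable_inner ξ.toLp η.toLp

theorem op_summable (X : H →L[ℂ] H) (σ : Λ ≃ Λ) (ξ : HG Λ H) :
    Summable fun h => ‖X (ξ (σ h))‖ ^ 2 := by
  refine Summable.of_nonneg_of_le (fun _ => by positivity) (fun h => ?_)
    (((Equiv.summable_iff σ).2 (HG.summable ξ)).mul_left (‖X‖ ^ 2))
  rw [Function.comp_apply, ← mul_pow]
  exact pow_le_pow_left₀ (norm_nonneg _) (X.le_opNorm _) 2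

/-- Apply `X` to the values and `σ` to the arguments. -/
noncomputable def opL (X : H →L[ℂ] H) (σ : Λ ≃ Λ) : HG Λ H →L[ℂ] HG Λ H :=
  LinearMap.mkContinuous
    { toFun := fun ξ => HG.mk (fun h => X (ξ (σ h))) (op_summable X σ ξ)
      map_add' := fun ξ η => by ext h; simp
      map_smul' := fun c ξ => by ext h; simp } ‖X‖ (fun ξ => by
    apply le_of_sq_le_sq _ (by positivity)
    rw [mul_pow, HG.norm_sq, HG.norm_sq, ← (Equiv.tsum_eq σ fun h => ‖ξ h‖ ^ 2), ← tsum_mul_left]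
    refine Summable.tsum_le_tsum (fun h => ?_) (op_summable X σ ξ)
      (((Equiv.summable_iff σ).2 (HG.summable ξ)).mul_left (‖X‖ ^ 2))
    rw [← mul_pow]
    exact pow_le_pow_left₀ (norm_nonneg _) (X.le_opNorm _) 2)

@[simp] theorem opL_apply (X : H →L[ℂ] H) (σ : Λ ≃ Λ) (ξ : HG Λ H) (h : Λ) :
    opL X σ ξ h = X (ξ (σ h)) := rfl

theorem norm_opL_le (X : H →L[ℂ] H) (σ : Λ ≃ Λ) : ‖opL X σ‖ ≤ ‖X‖ :=
  LinearMap.mkContinuous_norm_le _ (norm_nonneg _) _

open Classical in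
/-- The coordinate embeddings. -/
noncomputable def Jl (Λ H : Type) [NormedAddCommGroup H] [InnerProductSpace ℂ H] (g : Λ) :
    H →ₗᵢ[ℂ] HG Λ H where
  toFun x := (lp.single 2 g x : lp (fun _ : Λ => H) 2)
  map_add' x y := lp.single_add (E := fun _ : Λ => H) 2 g x y
  map_smul' c x := lp.single_smul (E := fun _ : Λ => H) 2 g c x
  norm_map' x := lp.norm_single (E := fun _ : Λ => H) (p := 2) (by norm_num) g x

theorem Jl_self (g : Λ) (ξ : H) : Jl Λ H g ξ g = ξ := by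
  classical
  exact lp.single_apply_self (E := fun _ : Λ => H) 2 g ξ

theorem Jl_ne {g h : Λ} (e : h ≠ g) (ξ : H) : Jl Λ H g ξ h = 0 := by
  classical
  exact lp.single_apply_ne (E := fun _ : Λ => H) 2 g ξ e

theorem inner_Jl (g : Λ) (ξ : H) (η : HG Λ H) : inner ℂ (Jl Λ H g ξ) η = inner ℂ ξ (η g) := by
  classical
  exact lp.inner_single_left (𝕜 := ℂ) (G := fun _ : Λ => H) g ξ η.toLp

theorem hasSum_Jl (ξ : HG Λ H) : HasSum (fun g => Jl Λ H g (ξ g)) ξ := by
  classical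
  exact lp.hasSum_single (E := fun _ : Λ => H) (p := 2) (by norm_num) ξ.toLp

theorem HG.ext_op {F : Type} [NormedAddCommGroup F] [NormedSpace ℂ F] {T T' : HG Λ H →L[ℂ] F}
    (h : ∀ g ξ, T (Jl Λ H g ξ) = T' (Jl Λ H g ξ)) : T = T' := by
  ext ξ
  refine ((hasSum_Jl ξ).mapL T).unique ?_
  simp only [h]
  exact (hasSum_Jl ξ).mapL T'

variable [Group Λ]

/-- The operator `X ⊗ λ g`. -/
noncomputable def tensL (X : H →L[ℂ] H) (g : Λ) : HG Λ H →L[ℂ] HG Λ H :=
  opL X (Equiv.mulLeft g⁻¹)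

@[simp] theorem tensL_apply (X : H →L[ℂ] H) (g : Λ) (ξ : HG Λ H) (h : Λ) :
    tensL X g ξ h = X (ξ (g⁻¹ * h)) := rfl

theorem norm_tensL_le (X : H →L[ℂ] H) (g : Λ) : ‖tensL X g‖ ≤ ‖X‖ := norm_opL_le _ _

theorem tensL_Jl (X : H →L[ℂ] H) (g h : Λ) (ξ : H) :
    tensL X g (Jl Λ H h ξ) = Jl Λ H (g * h) (X ξ) := by
  ext k
  rw [tensL_apply]
  by_cases e : k = g * h
  · subst e
    rw [inv_mul_cancel_left, Jl_self, Jl_self]
  · rw [Jl_ne e, Jl_ne, map_zero]
    intro e'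
    exact e (by rw [← e']; simp)

theorem isTens_iff {X : H →L[ℂ] H} {g : Λ} {T : HG Λ H →L[ℂ] HG Λ H} :
    IsTens (Jl Λ H) X g T ↔ T = tensL X g :=
  ⟨fun h => HG.ext_op fun k ξ => by rw [h.app, tensL_Jl], fun h => ⟨fun k ξ => by
    rw [h, tensL_Jl]⟩⟩

theorem tensL_mul (X Y : H →L[ℂ] H) (g h : Λ) :
    tensL X g * tensL Y h = tensL (X * Y) (g * h) := by
  ext ξ k
  simp [mul_assoc]

theorem tensL_add (X Y : H →L[ℂ] H) (g : Λ) : tensL (X + Y) g = tensL X g + tensL Y g := by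
  ext ξ k
  simp

theorem tensL_sub (X Y : H →L[ℂ] H) (g : Λ) : tensL (X - Y) g = tensL X g - tensL Y g := by
  ext ξ k
  simp

theorem tensL_smul (c : ℂ) (X : H →L[ℂ] H) (g : Λ) : tensL (c • X) g = c • tensL X g := by
  ext ξ k
  simp

theorem tensL_zero (g : Λ) : tensL (0 : H →L[ℂ] H) g = 0 := by
  ext ξ k
  simp

theorem tensL_one : tensL (1 : H →L[ℂ] H) (1 : Λ) = 1 := by
  ext ξ k
  simp

/-- Right translation. -/
noncomputable def rt (H : Type) [NormedAddCommGroup H] [InnerProductSpace ℂ H] (g : Λ) :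
    HG Λ H →L[ℂ] HG Λ H :=
  opL 1 (Equiv.mulRight g)

@[simp] theorem rt_apply (g : Λ) (ξ : HG Λ H) (h : Λ) : rt H g ξ h = ξ (h * g) := rfl

theorem rt_Jl (g h : Λ) (ξ : H) : rt H g (Jl Λ H h ξ) = Jl Λ H (h * g⁻¹) ξ := by
  ext k
  rw [rt_apply]
  by_cases e : k = h * g⁻¹
  · subst e
    rw [inv_mul_cancel_right, Jl_self, Jl_self]
  · rw [Jl_ne e, Jl_ne]
    intro e'
    exact e (by rw [← e']; simp)

/-- The commutant of the right translations. -/
noncomputable def RG (Λ H : Type) [Group Λ] [NormedAddCommGroup H] [InnerProductSpace ℂ H] :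
    Subalgebra ℂ (HG Λ H →L[ℂ] HG Λ H) :=
  Subalgebra.centralizer ℂ (Set.range (rt H : Λ → _))

theorem mem_RG {T : HG Λ H →L[ℂ] HG Λ H} : T ∈ RG Λ H ↔ ∀ g : Λ, rt H g * T = T * rt H g := by
  simp [RG, Subalgebra.mem_centralizer_iff]

theorem isClosed_RG : IsClosed (RG Λ H : Set (HG Λ H →L[ℂ] HG Λ H)) :=
  Set.isClosed_centralizer _

instance [CompleteSpace H] : CompleteSpace (RG Λ H) := isClosed_RG.completeSpace_coe

theorem tensL_mem (X : H →L[ℂ] H) (g : Λ) : tensL X g ∈ RG Λ H :=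
  mem_RG.2 fun k => by
    ext ξ h
    simp [mul_assoc]

/-- `X ⊗ λ g` as an element of the commutant. -/
noncomputable def tens (X : H →L[ℂ] H) (g : Λ) : RG Λ H := ⟨tensL X g, tensL_mem X g⟩

theorem tens_mul (X Y : H →L[ℂ] H) (g h : Λ) : tens X g * tens Y h = tens (X * Y) (g * h) :=
  Subtype.ext (tensL_mul X Y g h)

/-- `X ↦ X ⊗ 1`. -/
noncomputable def tensHom (Λ H : Type) [Group Λ] [NormedAddCommGroup H] [InnerProductSpace ℂ H] :
    (H →L[ℂ] H) →+* RG Λ H where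
  toFun X := tens X 1
  map_one' := Subtype.ext tensL_one
  map_mul' X Y := by rw [tens_mul, mul_one]
  map_zero' := Subtype.ext (tensL_zero 1)
  map_add' X Y := Subtype.ext (tensL_add X Y 1)

/-- `g ↦ 1 ⊗ λ g`. -/
noncomputable def lamHom (Λ H : Type) [Group Λ] [NormedAddCommGroup H] [InnerProductSpace ℂ H] :
    Λ →* RG Λ H where
  toFun g := tens 1 g
  map_one' := Subtype.ext tensL_one
  map_mul' g h := by rw [tens_mul, mul_one]

/-- The representation of a group ring with coefficients in `D` defined by `f`. -/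
noncomputable def Psi {D : Type} [Ring D] (f : D →+* (H →L[ℂ] H)) (Λ : Type) [Group Λ] :
    MonoidAlgebra D Λ →+* RG Λ H :=
  MonoidAlgebra.liftNCRingHom ((tensHom Λ H).comp f) (lamHom Λ H) fun x g => by
    show tens (f x) 1 * tens 1 g = tens 1 g * tens (f x) 1
    simp [tens_mul]

theorem Psi_single {D : Type} [Ring D] (f : D →+* (H →L[ℂ] H)) (g : Λ) (x : D) :
    Psi f Λ (MonoidAlgebra.single g x) = tens (f x) g := by
  rw [Psi, MonoidAlgebra.liftNCRingHom_single]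
  show tens (f x) 1 * tens 1 g = _
  simp [tens_mul]

/- ### The compact operators and multipliers -/

/-- The closed span of the compact tensors. -/
noncomputable def KG (Λ H : Type) [Group Λ] [NormedAddCommGroup H] [InnerProductSpace ℂ H] :
    Submodule ℂ (HG Λ H →L[ℂ] HG Λ H) :=
  (Submodule.span ℂ {S | ∃ (X : H →L[ℂ] H) (g : Λ), IsCompactOperator X ∧
    IsTens (Jl Λ H) X g S}).topologicalClosure

theorem isCpt_iff {T : HG Λ H →L[ℂ] HG Λ H} : IsCpt (Jl Λ H) T ↔ T ∈ KG Λ H :=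
  ⟨fun h => h.mem, fun h => ⟨h⟩⟩

theorem isClosed_KG : IsClosed (KG Λ H : Set (HG Λ H →L[ℂ] HG Λ H)) :=
  Submodule.isClosed_topologicalClosure _

theorem tensL_mem_KG {X : H →L[ℂ] H} (hX : IsCompactOperator X) (g : Λ) : tensL X g ∈ KG Λ H :=
  Submodule.le_topologicalClosure _ (Submodule.subset_span ⟨X, g, hX, isTens_iff.2 rfl⟩)

/-- Induction over the compact operators of the module. -/
theorem KG_le {N : Submodule ℂ (HG Λ H →L[ℂ] HG Λ H)}
    (hc : IsClosed (N : Set (HG Λ H →L[ℂ] HG Λ H)))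
    (h : ∀ (X : H →L[ℂ] H) (g : Λ), IsCompactOperator X → tensL X g ∈ N) : KG Λ H ≤ N := by
  apply Submodule.topologicalClosure_minimal _ _ hc
  rw [Submodule.span_le]
  rintro S ⟨X, g, hX, hS⟩
  rw [isTens_iff.1 hS]
  exact h X g hX

theorem KG_ind {p : (HG Λ H →L[ℂ] HG Λ H) → Prop} (φ : (HG Λ H →L[ℂ] HG Λ H) →L[ℂ] (HG Λ H →L[ℂ] HG Λ H))
    (hp : ∀ T, p T ↔ φ T ∈ KG Λ H)
    (h : ∀ (X : H →L[ℂ] H) (g : Λ), IsCompactOperator X → p (tensL X g)) :
    ∀ T ∈ KG Λ H, p T := fun T hT =>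
  (hp T).2 (KG_le (N := (KG Λ H).comap φ.toLinearMap) (isClosed_KG.preimage φ.continuous)
    (fun X g hX => (hp _).1 (h X g hX)) hT)

theorem cpt_mul_left {X Y : H →L[ℂ] H} (hY : IsCompactOperator Y) :
    IsCompactOperator (X * Y : H →L[ℂ] H) := hY.clm_comp X

theorem cpt_mul_right {X Y : H →L[ℂ] H} (hY : IsCompactOperator Y) :
    IsCompactOperator (Y * X : H →L[ℂ] H) := hY.comp_clm X

theorem isMul_tensL (X : H →L[ℂ] H) (g : Λ) : IsMul (Jl Λ H) (tensL X g) := by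
  constructor
  · intro S hS
    rw [isCpt_iff] at *
    refine KG_ind (p := fun S => tensL X g * S ∈ KG Λ H)
      (ContinuousLinearMap.mul ℂ _ (tensL X g)) (fun T => by simp) (fun Y h hY => ?_) S hS
    rw [tensL_mul]
    exact tensL_mem_KG (cpt_mul_left hY) _
  · intro S hS
    rw [isCpt_iff] at *
    refine KG_ind (p := fun S => S * tensL X g ∈ KG Λ H)
      ((ContinuousLinearMap.mul ℂ _).flip (tensL X g)) (fun T => by simp) (fun Y h hY => ?_) S hS
    rw [tensL_mul]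
    exact tensL_mem_KG (cpt_mul_right hY) _

theorem isMul_of_KG {T : HG Λ H →L[ℂ] HG Λ H} (hT : T ∈ KG Λ H) : IsMul (Jl Λ H) T := by
  constructor
  · intro S hS
    rw [isCpt_iff]
    exact KG_ind (p := fun T => T * S ∈ KG Λ H) ((ContinuousLinearMap.mul ℂ _).flip S)
      (fun T => by simp) (fun Y h _ => isCpt_iff.1 ((isMul_tensL Y h).left S hS)) T hT
  · intro S hS
    rw [isCpt_iff]
    exact KG_ind (p := fun T => S * T ∈ KG Λ H) (ContinuousLinearMap.mul ℂ _ S)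
      (fun T => by simp) (fun Y h _ => isCpt_iff.1 ((isMul_tensL Y h).right S hS)) T hT

/-- The multipliers inside the commutant. -/
noncomputable def MG (Λ H : Type) [Group Λ] [NormedAddCommGroup H] [InnerProductSpace ℂ H] :
    Subring (RG Λ H) where
  carrier := {T | IsMul (Jl Λ H) T.1}
  mul_mem' {a b} ha hb := ⟨fun S hS => by
      have := ha.left _ (hb.left S hS)
      rwa [← mul_assoc] at this, fun S hS => by
      have := hb.right _ (ha.right S hS)
      rwa [mul_assoc] at this⟩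
  one_mem' := ⟨fun S hS => by simpa using hS, fun S hS => by simpa using hS⟩
  add_mem' {a b} ha hb := ⟨fun S hS => by
      have := (KG Λ H).add_mem (isCpt_iff.1 (ha.left S hS)) (isCpt_iff.1 (hb.left S hS))
      rw [← add_mul] at this
      exact isCpt_iff.2 this, fun S hS => by
      have := (KG Λ H).add_mem (isCpt_iff.1 (ha.right S hS)) (isCpt_iff.1 (hb.right S hS))
      rw [← mul_add] at this
      exact isCpt_iff.2 this⟩
  zero_mem' := ⟨fun S _ => isCpt_iff.2 (by simp), fun S _ => isCpt_iff.2 (by simp)⟩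
  neg_mem' {a} ha := ⟨fun S hS => by
      have := (KG Λ H).neg_mem (isCpt_iff.1 (ha.left S hS))
      rw [← neg_mul] at this
      exact isCpt_iff.2 this, fun S hS => by
      have := (KG Λ H).neg_mem (isCpt_iff.1 (ha.right S hS))
      rw [← mul_neg] at this
      exact isCpt_iff.2 this⟩

/-- The compact operators inside the commutant. -/
noncomputable def KR (Λ H : Type) [Group Λ] [NormedAddCommGroup H] [InnerProductSpace ℂ H] :
    AddSubgroup (RG Λ H) :=
  (KG Λ H).toAddSubgroup.comap (RG Λ H).val.toRingHom.toAddMonoidHom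

theorem mem_KR {T : RG Λ H} : T ∈ KR Λ H ↔ T.1 ∈ KG Λ H := Iff.rfl

theorem MG_mul_KR {a k : RG Λ H} (ha : a ∈ MG Λ H) (hk : k ∈ KR Λ H) : a * k ∈ KR Λ H :=
  isCpt_iff.1 (ha.left _ (isCpt_iff.2 hk))

theorem KR_mul_MG {a k : RG Λ H} (hk : k ∈ KR Λ H) (ha : a ∈ MG Λ H) : k * a ∈ KR Λ H :=
  isCpt_iff.1 (ha.right _ (isCpt_iff.2 hk))

theorem tens_mem_MG (X : H →L[ℂ] H) (g : Λ) : tens X g ∈ MG Λ H := isMul_tensL X g

theorem KG_le_RG {T : HG Λ H →L[ℂ] HG Λ H} (hT : T ∈ KG Λ H) : T ∈ RG Λ H :=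
  KG_le (N := (RG Λ H).toSubmodule) isClosed_RG (fun X g _ => tensL_mem X g) hT

variable [CompleteSpace H]

theorem star_tensL (X : H →L[ℂ] H) (g : Λ) : star (tensL X g) = tensL (star X) g⁻¹ := by
  symm
  rw [ContinuousLinearMap.star_eq_adjoint (tensL X g), ContinuousLinearMap.eq_adjoint_iff]
  intro ξ η
  rw [HG.inner_eq, HG.inner_eq, ← (Equiv.mulLeft g⁻¹).tsum_eq]
  congr
  ext h
  simp [ContinuousLinearMap.star_eq_adjoint, ContinuousLinearMap.adjoint_inner_left]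

theorem star_rt (g : Λ) : star (rt H g) = rt H g⁻¹ := by
  symm
  rw [ContinuousLinearMap.star_eq_adjoint, ContinuousLinearMap.eq_adjoint_iff]
  intro ξ η
  rw [HG.inner_eq, HG.inner_eq, ← (Equiv.mulRight g).tsum_eq]
  congr
  ext h
  simp

theorem star_mem_RG {T : HG Λ H →L[ℂ] HG Λ H} (hT : T ∈ RG Λ H) : star T ∈ RG Λ H := by
  rw [mem_RG] at *
  intro g
  have := congrArg star (hT g⁻¹)
  rw [star_mul, star_mul, star_rt, inv_inv] at this
  exact this.symm

theorem mem_RG_of_isMul {T : HG Λ H →L[ℂ] HG Λ H} (hT : IsMul (Jl Λ H) T) : T ∈ RG Λ H := by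
  rw [mem_RG]
  intro g
  apply HG.ext_op
  intro h ξ
  by_cases hξ : ξ = 0
  · simp [hξ]
  let k : H →L[ℂ] H := InnerProductSpace.rankOne ℂ ξ ((((‖ξ‖ ^ 2 : ℝ) : ℂ)⁻¹) • ξ)
  have hk : k ξ = ξ := by
    have : (‖ξ‖ : ℂ) ≠ 0 := by simpa using hξ
    simp [k, inner_self_eq_norm_sq_to_K]
    rw [smul_smul, inv_mul_cancel₀ (pow_ne_zero 2 this), one_smul]
  have hc : IsCompactOperator k := by
    have := (isCompactOperator_of_locallyCompactSpace_rng
      (ContinuousLinearMap.toSpanSingleton ℂ ξ)).comp_clm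
        (innerSL ℂ ((((‖ξ‖ ^ 2 : ℝ) : ℂ)⁻¹) • ξ))
    exact this
  have h1 := mem_RG.1 (KG_le_RG (isCpt_iff.1 (hT.left _ (isCpt_iff.2 (tensL_mem_KG hc 1))))) g
  have h2 := mem_RG.1 (tensL_mem k (1 : Λ)) g
  have e : Jl Λ H h ξ = tensL k 1 (Jl Λ H h ξ) := by rw [tensL_Jl, one_mul, hk]
  have h3 : rt H g * T * tensL k 1 = T * rt H g * tensL k 1 := by
    rw [mul_assoc, h1, mul_assoc, mul_assoc, h2]
  rw [e]
  exact congrArg (fun A : HG Λ H →L[ℂ] HG Λ H => A (Jl Λ H h ξ)) h3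

end Vale.Agent.P089
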