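import Mathlib
import Vale.Agent.P089.Base
import Vale.Agent.P089.Ops

/-
P089 skeleton, part B: the trace of an assembly index lies in a countable set of numbers that
does not depend on the group.  Every `...Stmt` is proved in its own file.
-/

namespace Vale.Agent.P089

open scoped ZeroAtInfty

/- ### The abstract index -/

/-- A ring with a trace ideal `I` which is dense in the ideal `K`. -/
structure TrSet (R : Type) [Ring R] where
  I : TwoSidedIdeal R
  K : TwoSidedIdeal R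
  τ : R → ℂ
  le : I ≤ K
  add : ∀ a ∈ I, ∀ b ∈ I, τ (a + b) = τ a + τ b
  comm : ∀ a ∈ I, ∀ r, τ (a * r) = τ (r * a)
  jac : ∀ k ∈ K, ∃ i ∈ I, IsUnit (1 + k - i)

/-- The Calderon index of `T` from the range of `P` to the range of `Q` is `z`. -/
def HasInd {R : Type} [Ring R] (t : TrSet R) (P Q T : R) (z : ℂ) : Prop :=
  P * P = P ∧ Q * Q = Q ∧ Q * T * P = T ∧ ∃ S, P * S * Q = S ∧ P - S * T ∈ t.I ∧
    Q - T * S ∈ t.I ∧ z = t.τ (P - S * T) - t.τ (Q - T * S)

structure IndexFacts {R : Type} [Ring R] (t : TrSet R) : Prop where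
  ex : ∀ P Q T S, P * P = P → Q * Q = Q → Q * T * P = T → P - S * T ∈ t.K → Q - T * S ∈ t.K →
    ∃ z, HasInd t P Q T z
  uniq : ∀ P Q T z z', HasInd t P Q T z → HasInd t P Q T z' → z = z'
  equiv : ∀ P Q T z P' Q' T' u u' v v', HasInd t P Q T z → P' * P' = P' → Q' * Q' = Q' →
    Q' * T' * P' = T' → u' * u = P → u * u' = P' → v' * v = Q → v * v' = Q' →
    T' * u - v * T ∈ t.K → HasInd t P' Q' T' z
  add : ∀ P Q T z P' Q' T' z', HasInd t P Q T z → HasInd t P' Q' T' z' → P * P' = 0 →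
    P' * P = 0 → Q * Q' = 0 → Q' * Q = 0 → HasInd t (P + P') (Q + Q') (T + T') (z + z')
  iso : ∀ P Q T S, P * P = P → Q * Q = Q → Q * T * P = T → S * T = P → T * S = Q →
    HasInd t P Q T 0
  unit : ∀ P Q T z x, HasInd t P Q T z → IsUnit (1 + x) → Q * x * Q = x →
    HasInd t P Q (T + x * T) z

def IndexStmt : Prop := ∀ (R : Type) [Ring R] (t : TrSet R), IndexFacts t

def NearConcl : Prop :=
  ∀ (R : Type) [NormedRing R] [CompleteSpace R] (t : TrSet R) (P Q T : R) (z : ℂ),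
    HasInd t P Q T z → ∃ δ : ℝ, 0 < δ ∧ ∀ T', Q * T' * P = T' → ‖T' - T‖ < δ → HasInd t P Q T' z

def NearStmt : Prop := IndexStmt → NearConcl

/-- An odd involution between graded direct sums forces the alternating sum of indices to
vanish. -/
def MatConcl : Prop :=
  ∀ (R : Type) [Ring R] (t : TrSet R) (v v' : ℕ → R),
    (∀ n m, v' n * v m = if n = m then 1 else 0) →
    ∀ (ι : Type) [Fintype ι] [DecidableEq ι] (par : ι → Bool) (P Q T : ι → R) (z : ι → ℂ)
      (A B : Matrix ι ι R), (∀ i, HasInd t (P i) (Q i) (T i) (z i)) →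
      A * A = Matrix.diagonal P → B * B = Matrix.diagonal Q →
      (∀ i j, par i = par j → A i j = 0) → (∀ i j, par i = par j → B i j = 0) →
      (∀ i j, B i j * T j - T i * A i j ∈ t.K) → ∑ i, (if par i then z i else -z i) = 0

def MatStmt : Prop := IndexStmt → MatConcl

def CountConcl : Prop :=
  ∀ (R : Type) [NormedRing R] [CompleteSpace R] (t : TrSet R) (M : Subring R)
    (N : AddSubgroup R), TopologicalSpace.IsSeparable (N : Set R) → (∀ k ∈ N, k ∈ t.K) →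
    (∀ a ∈ M, ∀ k ∈ N, a * k ∈ N ∧ k * a ∈ N) → ∀ v v' : ℕ → R, (∀ n, v n ∈ M ∧ v' n ∈ M) →
    (∀ n m, v' n * v m = if n = m then 1 else 0) →
    Set.Countable {z : ℂ | ∃ P ∈ M, ∃ Q ∈ M, ∃ T ∈ M, ∃ S ∈ M, P - S * T ∈ N ∧ Q - T * S ∈ N ∧
      HasInd t P Q T z}

def CountStmt : Prop := IndexStmt → CountConcl

/- ### The trace on the commutant -/

section VN

variable {Λ H : Type} [Group Λ] [NormedAddCommGroup H] [InnerProductSpace ℂ H]

/-- The rank one projection onto the first basis vector, tensored with the identity. -/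
noncomputable def eR (Λ : Type) [Group Λ] (b : HilbertBasis ℕ ℂ H) : RG Λ H :=
  tens (InnerProductSpace.rankOne ℂ (b 0) (b 0)) 1

/-- The vector state of the first basis vector at the neutral element. -/
noncomputable def phi (b : HilbertBasis ℕ ℂ H) (Y : RG Λ H) : ℂ :=
  inner ℂ (Jl Λ H 1 (b 0)) (Y.1 (Jl Λ H 1 (b 0)))

/-- The standard trace. -/
structure Std (b : HilbertBasis ℕ ℂ H) (t : TrSet (RG Λ H)) : Prop where
  I_eq : t.I = TwoSidedIdeal.span {eR Λ b}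
  τ_eq : ∀ X Y, t.τ (X * eR Λ b * Y) = phi b (Y * X)
  K_ge : ∀ X ∈ KR Λ H, X ∈ t.K

end VN

def VNStmt : Prop :=
  ∀ (Λ H : Type) [Group Λ] [NormedAddCommGroup H] [InnerProductSpace ℂ H] [CompleteSpace H]
    (b : HilbertBasis ℕ ℂ H), ∃ t : TrSet (RG Λ H), Std b t

def SepStmt : Prop :=
  ∀ (H : Type) [NormedAddCommGroup H] [InnerProductSpace ℂ H] [CompleteSpace H]
    (_ : HilbertBasis ℕ ℂ H),
    (∃ v v' : ℕ → (H →L[ℂ] H), ∀ n m, v' n * v m = if n = m then 1 else 0) ∧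
    ∀ (Λ : Type) [Group Λ] [Countable Λ],
      TopologicalSpace.IsSeparable (KR Λ H : Set (RG Λ H))

def IndStmt : Prop :=
  ∀ (Γ Λ H : Type) [Group Γ] [Group Λ] [NormedAddCommGroup H] [InnerProductSpace ℂ H]
    [CompleteSpace H] (b : HilbertBasis ℕ ℂ H) (ρ : Γ →* Λ), Function.Injective ρ →
    ∃ Φ : RG Γ H →+* RG Λ H, (∀ X g, Φ (tens X g) = tens X (ρ g)) ∧
      ∀ (t : TrSet (RG Γ H)) (t' : TrSet (RG Λ H)), Std b t → Std b t' →
        ∀ P Q T z, HasInd t P Q T z → HasInd t' (Φ P) (Φ Q) (Φ T) z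

def RelConcl : Prop :=
  ∀ (Λ H : Type) [Group Λ] [NormedAddCommGroup H] [InnerProductSpace ℂ H] [CompleteSpace H]
    (b : HilbertBasis ℕ ℂ H) (t : TrSet (RG Λ H)), Std b t → ∃ ind : K0 (Jl Λ H) → ℂ,
    ∀ (a : Cyc (Jl Λ H)) (P Q T : RG Λ H), P.1 = a.P → Q.1 = a.Q → T.1 = a.T →
      HasInd t P Q T (ind (K0.mk a))

def RelStmt : Prop := IndexStmt → NearConcl → RelConcl

/-- A projection of the reduced group C*-algebra gives a cycle whose index is its trace. -/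
def ProjCycStmt : Prop :=
  ∀ (Λ H : Type) [Group Λ] [NormedAddCommGroup H] [InnerProductSpace ℂ H] [CompleteSpace H]
    (b : HilbertBasis ℕ ℂ H) (t : TrSet (RG Λ H)), Std b t → ∀ p ∈ Cred Λ, p * p = p →
    star p = p → ∃ (a : Cyc (Jl Λ H)) (P : RG Λ H), P.1 = a.P ∧ a.Q = 0 ∧ a.T = 0 ∧
      HasInd t P 0 0 (tr Λ p)

/- ### Covariant pairs, cutoff data and the Clifford trick -/

/-- A covariant representation. -/
structure CovRep (Γ A D : Type) [Group Γ] [NonUnitalCommRing A] [Ring D] where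
  act : Γ →* RingAut A
  π : A →ₙ+* D
  U : Γ →* D
  cov : ∀ g f, U g * π f = π (act g f) * U g

/-- Left translate of a finite set. -/
def lmul {Γ : Type} [Group Γ] (g : Γ) (A : Finset Γ) : Finset Γ :=
  A.map (Equiv.mulLeft g).toEmbedding

/-- The algebraic properties of a cutoff function and of the barycentric partition. -/
structure Cut {Γ A : Type} [Group Γ] [NonUnitalCommRing A] (act : Γ →* RingAut A) (c : A) where
  S : Finset Γ
  one_mem : 1 ∈ S
  supp : ∀ g, g ∉ S → c * act g c = 0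
  pou : c * ∑ g ∈ S, act g c * act g c = c
  w : Finset Γ → A
  w_act : ∀ g B, act g (w B) = w (lmul g B)
  w_orth : ∀ B B', B.card = B'.card → B ≠ B' → w B * w B' = 0
  w_supp : ∀ B, c * w B ≠ 0 → B ⊆ S ∧ B.Nonempty
  w_sum : c * ∑ B ∈ S.powerset, w B * w B = c

/-- The cutoff projection twisted by `κ`. -/
noncomputable def pk {Γ A D Λ : Type} [Group Γ] [NonUnitalCommRing A] [Ring D] [Group Λ]
    (C : CovRep Γ A D) (c : A) (S : Finset Γ) (κ : Γ → Λ) : MonoidAlgebra D Λ :=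
  ∑ g ∈ S, MonoidAlgebra.single (κ g) (C.π (c * C.act g c) * C.U g)

/-- Elements whose coefficients come from the algebraic crossed product. -/
noncomputable def Gd {Γ A D : Type} [Group Γ] [NonUnitalCommRing A] [Ring D] (C : CovRep Γ A D) (Λ : Type)
    [Group Λ] : AddSubgroup (MonoidAlgebra D Λ) :=
  AddSubgroup.closure {x | ∃ l f g, x = MonoidAlgebra.single l (C.π f * C.U g)}

/-- `κ` is multiplicative on `S`. -/
def MulOn {Γ Λ : Type} [Group Γ] [Group Λ] (S : Finset Γ) (κ : Γ → Λ) : Prop :=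
  ∀ g ∈ S, ∀ h ∈ S, g * h ∈ S → κ (g * h) = κ g * κ h

def CliffStmt : Prop :=
  ∀ (Γ A D : Type) [Group Γ] [NonUnitalCommRing A] [Ring D] (C : CovRep Γ A D) (c : A)
    (Q : Cut C.act c),
    (∀ (Λ : Type) [Group Λ] (κ : Γ → Λ), MulOn Q.S κ →
      pk C c Q.S κ * pk C c Q.S κ = pk C c Q.S κ) ∧
    ∀ (Λ : Type) [Group Λ] (κ : Bool → Γ → Λ) (θ : Finset Γ → Λ), (∀ e, MulOn Q.S (κ e)) →
      (∀ g ∈ Q.S, ∀ B : Finset Γ, B.Nonempty → B ⊆ Q.S → lmul g B ⊆ Q.S →
        θ (lmul g B) * κ false g = κ true g * θ B) →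
      ∃ (par : (Fin Q.S.card → Bool) → Bool)
        (W : Matrix (Fin Q.S.card → Bool) (Fin Q.S.card → Bool)
          (MonoidAlgebra D (Fin Q.S.card → Λ))),
        (∑ ε, (if par ε then (1 : ℂ) else -1)) = 0 ∧ (∀ ε δ, W ε δ ∈ Gd C _) ∧
        (∀ ε δ, par ε = par δ → W ε δ = 0) ∧
        (∀ ε δ, W ε δ * pk C c Q.S (fun g j => κ (δ j) g) = W ε δ) ∧
        (∀ ε δ, pk C c Q.S (fun g j => κ (ε j) g) * W ε δ = W ε δ) ∧
        W * W = Matrix.diagonal fun ε => pk C c Q.S (fun g j => κ (ε j) g)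

def GroupStmt : Prop :=
  ∃ (D : Type) (_ : Countable D) (P : D → Type) (_ : ∀ d, Group (P d)) (_ : ∀ d, Countable (P d)),
    ∀ (Γ : Type) [Group Γ] (S : Finset Γ), ∃ (d : D) (σ : Γ → P d) (q : P d →* Γ) (Λ : Type)
      (_ : Group Λ) (ρ : P d →* Λ) (ι : Γ →* Λ) (θ : Finset Γ → Λ), MulOn S σ ∧
      (∀ g ∈ S, q (σ g) = g) ∧ Function.Injective ρ ∧ Function.Injective ι ∧
      ∀ g ∈ S, ∀ B : Finset Γ, B.Nonempty → B ⊆ S → lmul g B ⊆ S →
        θ (lmul g B) * ι g = ρ (σ g) * θ B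

def CutoffStmt : Prop :=
  ∀ (G Z : Type) [Group G] [TopologicalSpace Z] [T2Space Z] [LocallyCompactSpace Z]
    [MulAction G Z] [ContinuousConstSMul G Z] [ProperlyDiscontinuousSMul G Z]
    [CompactSpace (MulAction.orbitRel.Quotient G Z)], Nonempty (Cutoff G Z)

def GeomStmt : Prop :=
  ∀ (G Z : Type) [Group G] [TopologicalSpace Z] [T2Space Z] [LocallyCompactSpace Z]
    [MulAction G Z] [ContinuousConstSMul G Z] [ProperlyDiscontinuousSMul G Z] (c : Cutoff G Z),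
    ∃ (act : G →* RingAut C₀(Z, ℂ)) (c0 : C₀(Z, ℂ)), (∀ g f z, act g f z = f (g⁻¹ • z)) ∧
      (∀ z, c0 z = (c.c z : ℂ)) ∧ Nonempty (Cut act c0)

/- ### Descent -/

section Desc

variable {G Z H : Type} [Group G] [TopologicalSpace Z] [MulAction G Z]
  [NormedAddCommGroup H] [InnerProductSpace ℂ H] [CompleteSpace H]

/-- The pair of covariant representations of a Fredholm module. -/
noncomputable def Fred.covRep (x : Fred G Z H) (act : G →* RingAut C₀(Z, ℂ))
    (hact : ∀ g f z, act g f z = f (g⁻¹ • z)) :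
    CovRep G C₀(Z, ℂ) ((H →L[ℂ] H) × (H →L[ℂ] H)) where
  act := act
  π := NonUnitalRingHom.prod x.π x.ρ
  U := MonoidHom.prod x.U x.V
  cov g f := Prod.ext (x.covU g f _ (hact g f)) (x.covV g f _ (hact g f))

/-- The even representation of the group ring. -/
noncomputable abbrev PsiP (H : Type) [NormedAddCommGroup H] [InnerProductSpace ℂ H] (Λ : Type)
    [Group Λ] : MonoidAlgebra ((H →L[ℂ] H) × (H →L[ℂ] H)) Λ →+* RG Λ H :=
  Psi (RingHom.fst _ _) Λ

/-- The odd representation of the group ring. -/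
noncomputable abbrev PsiM (H : Type) [NormedAddCommGroup H] [InnerProductSpace ℂ H] (Λ : Type)
    [Group Λ] : MonoidAlgebra ((H →L[ℂ] H) × (H →L[ℂ] H)) Λ →+* RG Λ H :=
  Psi (RingHom.snd _ _) Λ

end Desc

def DescStmt : Prop :=
  ∀ (G Z H : Type) [Group G] [TopologicalSpace Z] [MulAction G Z]
    [NormedAddCommGroup H] [InnerProductSpace ℂ H] [CompleteSpace H] (x : Fred G Z H)
    (act : G →* RingAut C₀(Z, ℂ)) (hact : ∀ g f z, act g f z = f (g⁻¹ • z)),
    (∀ (Λ : Type) [Group Λ], (∀ y, PsiP H Λ y ∈ MG Λ H ∧ PsiM H Λ y ∈ MG Λ H) ∧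
      ∀ y ∈ Gd (x.covRep act hact) Λ,
        tens x.F 1 * PsiP H Λ y - PsiM H Λ y * tens x.F 1 ∈ KR Λ H ∧
        (y * y = y → PsiP H Λ y - (tens (star x.F) 1 * PsiM H Λ y) *
            (PsiM H Λ y * tens x.F 1 * PsiP H Λ y) ∈ KR Λ H ∧
          PsiM H Λ y - (PsiM H Λ y * tens x.F 1 * PsiP H Λ y) *
            (tens (star x.F) 1 * PsiM H Λ y) ∈ KR Λ H)) ∧
    ∀ (c : Cutoff G Z) (c0 : C₀(Z, ℂ)), (∀ z, c0 z = (c.c z : ℂ)) → ∀ Q : Cut act c0,
      pk (x.covRep act hact) c0 Q.S id * pk (x.covRep act hact) c0 Q.S id =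
        pk (x.covRep act hact) c0 Q.S id →
      (∃ a, IsAssembly (Jl G H) x c a) ∧ ∀ a, IsAssembly (Jl G H) x c a →
        a.P = (PsiP H G (pk (x.covRep act hact) c0 Q.S id)).1 ∧
        a.Q = (PsiM H G (pk (x.covRep act hact) c0 Q.S id)).1 ∧
        a.T = (PsiM H G (pk (x.covRep act hact) c0 Q.S id) * tens x.F 1 *
          PsiP H G (pk (x.covRep act hact) c0 Q.S id)).1

/-- The traces of assembly indices lie in a countable set. -/
def LocConcl : Prop :=
  ∀ (H : Type) [NormedAddCommGroup H] [InnerProductSpace ℂ H] [CompleteSpace H]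
    (b : HilbertBasis ℕ ℂ H), ∃ N : Set ℂ, N.Countable ∧ ∀ (G Z : Type) [Group G]
    [TopologicalSpace Z] [T2Space Z] [LocallyCompactSpace Z] [MulAction G Z]
    [ContinuousConstSMul G Z] [ProperlyDiscontinuousSMul G Z] (x : Fred G Z H) (c : Cutoff G Z),
    (∃ a, IsAssembly (Jl G H) x c a) ∧ ∀ t : TrSet (RG G H), Std b t →
      ∀ a, IsAssembly (Jl G H) x c a → ∃ (P Q T : RG G H) (z : ℂ), P.1 = a.P ∧ Q.1 = a.Q ∧
        T.1 = a.T ∧ HasInd t P Q T z ∧ z ∈ N

def LocStmt : Prop :=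
  IndexStmt → MatConcl → CountConcl → VNStmt → SepStmt → IndStmt → CliffStmt → GroupStmt →
    GeomStmt → DescStmt → LocConcl

def UncStmt : Prop :=
  ∀ k : ℕ → ℕ, 1 ≤ k 0 → (∀ i, 4 * k i ≤ k (i + 1)) → ∀ N : Set ℂ, N.Countable →
    ∃ b : ℕ → ℕ, (∀ i, b i ≤ 1) ∧ ((∑' i, (2 : ℝ)⁻¹ ^ (k i + b i) : ℝ) : ℂ) ∉ N

def TransferStmt : Prop :=
  ∀ (G H E : Type) [Group G] [NormedAddCommGroup H] [InnerProductSpace ℂ H] [CompleteSpace H]
    [NormedAddCommGroup E] [InnerProductSpace ℂ E] [CompleteSpace E] (J : G → H →ₗᵢ[ℂ] E),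
    IsHilbertSum ℂ (fun _ : G => H) J → (∃ y, NotAssembled (Jl G H) y) → ∃ y, NotAssembled J y

end Vale.Agent.P089
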