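import Mathlib
import Vale.Agent.P089.Base

namespace Vale.Agent.P089.Crea

open Finset

variable {S V G : Type} [Fintype S] [Group G] {F : Fam S V} {C : SC F G} {i0 : ℕ}

/-- Group element of the creator copy. -/
noncomputable def cg (O : Ord C i0) (y : G) : G := (O.creator y).choose

/-- Position in the creator copy. -/
noncomputable def cv (O : Ord C i0) (y : G) : V := (O.creator y).choose_spec.choose

theorem c_eq (O : Ord C i0) (y : G) : cg O y * C.f (cv O y) = y :=
  (O.creator y).choose_spec.choose_spec.1.symm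

theorem c_dep (O : Ord C i0) (y : G) : O.dep (cg O y) (cv O y) ≠ 0 :=
  (O.creator y).choose_spec.choose_spec.2

theorem c_uniq (O : Ord C i0) {y g : G} {v : V} (h : g * C.f v = y) (hd : O.dep g v ≠ 0) :
    cg O y = g ∧ cv O y = v := by
  have e : g * C.f v = cg O y * C.f (cv O y) := h.trans (c_eq O y).symm
  by_cases hne : (g, F.comp v) = (cg O y, F.comp (cv O y))
  · obtain ⟨h1, h2⟩ := Prod.mk.inj hne
    rw [← h1] at e
    exact ⟨h1.symm, (O.inj _ _ h2 (mul_left_cancel e)).symm⟩
  · exact absurd (O.other _ _ _ _ e hne hd).1 (c_dep O y)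

/-- Depth in the creator copy. -/
noncomputable def d (O : Ord C i0) (y : G) : ℕ := O.dep (cg O y) (cv O y)

theorem d_pos (O : Ord C i0) (y : G) : 1 ≤ d O y := Nat.pos_of_ne_zero (c_dep O y)

/-- The label `s` leads down in the creator copy of `y`. -/
def Down (O : Ord C i0) (y : G) (s : S) : Prop :=
  ∃ w, F.st (cv O y) s = some w ∧ O.dep (cg O y) w ≤ d O y

theorem down_uniq (O : Ord C i0) {y : G} {s s' : S} (hd : d O y ≤ 200 * Fintype.card S)
    (h : Down O y s) (h' : Down O y s') : s = s' := by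
  obtain ⟨w, h1, h2⟩ := h
  obtain ⟨w', h1', h2'⟩ := h'
  exact (O.isDep (cg O y) (F.comp (cv O y))).down _ s s' w w' rfl (d_pos O y)
    (hd.trans (F.len_ge _)) h1 h1' h2 h2'

theorem up_inj (O : Ord C i0) {y y' : G} {s s' : S} (h : Down O (y * C.x s) (F.bar s))
    (h' : Down O (y' * C.x s') (F.bar s')) (e : y * C.x s = y' * C.x s')
    (hd : d O (y * C.x s) ≤ 200 * Fintype.card S) : (y, s) = (y', s') := by
  rw [← e] at h'
  have := down_uniq O hd h h'
  have hs : s = s' := by rw [← F.bar_bar s, this, F.bar_bar]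
  subst hs
  rw [mul_right_cancel e]

theorem foreign (O : Ord C i0) {ω : G → S → ZMod 2} {y : G} {s : S}
    (he : ¬ Err C.x F.bar F.deg ω y) (hs : ω y s = 1) (hn : F.st (cv O y) s = none) :
    d O (y * C.x s) = 1 ∧ Down O (y * C.x s) (F.bar s) := by
  unfold Err at he
  rw [not_not] at he
  have hdeg : F.deg s ≠ 0 := by have := (he.2 s hs).1; have := he.1; omega
  obtain ⟨g', w', w, e, h1, h2, h3⟩ := O.up _ _ s (c_dep O y) hn (F.deg_used s hdeg)
  have e2 : g' * C.f w = y * C.x s := by rw [C.f_st _ _ _ h1, ← mul_assoc, e, c_eq]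
  obtain ⟨e3, e4⟩ := c_uniq O e2 h3
  have := (O.isDep g' (F.comp w')).lip w' s w rfl h1
  refine ⟨by rw [d, e3, e4]; omega, w', by rw [e4]; exact F.symm _ _ _ h1, ?_⟩
  rw [e3, h2]
  exact Nat.zero_le _

theorem own_up (O : Ord C i0) {y : G} {s : S} {w : V} (hs : F.st (cv O y) s = some w)
    (hn : ¬ Down O y s) : d O (y * C.x s) = d O y + 1 ∧ Down O (y * C.x s) (F.bar s) := by
  have hlt : d O y < O.dep (cg O y) w := by
    by_contra h
    exact hn ⟨w, hs, by omega⟩
  have e2 : cg O y * C.f w = y * C.x s := by rw [C.f_st _ _ _ hs, ← mul_assoc, c_eq]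
  obtain ⟨e3, e4⟩ := c_uniq O e2 (by omega)
  have := (O.isDep (cg O y) (F.comp (cv O y))).lip _ s w rfl hs
  have e5 : d O (y * C.x s) = O.dep (cg O y) w := by rw [d, e3, e4]
  refine ⟨by rw [e5]; unfold d at *; omega, cv O y, by rw [e4]; exact F.symm _ _ _ hs, ?_⟩
  rw [e3, e5]
  exact hlt.le

theorem edge_of {ω : G → S → ZMod 2} {y : G} {s : S}
    (he : ¬ Err C.x F.bar F.deg ω y) (hs : ω y s = 1) : Edge C.x F.bar ω y s := by
  unfold Err at he
  rw [not_not] at he
  exact ⟨hs, (he.2 s hs).2⟩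

theorem d_one_iff (O : Ord C i0) (y : G) :
    (∃ g v, y = g * C.f v ∧ O.dep g v = 1) ↔ d O y = 1 := by
  constructor
  · rintro ⟨g, v, e, h⟩
    obtain ⟨e1, e2⟩ := c_uniq O e.symm (by omega)
    rw [d, e1, e2, h]
  · intro h
    exact ⟨_, _, (c_eq O y).symm, h⟩

theorem sum_fiber_le {α : Type} (A : Finset α) (h : α → ℕ) (n : ℕ) :
    ∑ i ∈ range n, (A.filter fun a => h a = i).card ≤ A.card := by
  rw [Finset.sum_card_fiberwise_eq_card_filter]
  exact card_filter_le _ _

theorem arith (n u β : ℕ → ℕ) (R N b : ℕ)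
    (h : ∀ j, 1 ≤ j → j < R → 2 * n j ≤ n (j + 1) + u j + 2 * β j)
    (hu : ∑ i ∈ range (R + 1), u i ≤ n 1) (hβ : ∑ i ∈ range (R + 1), β i ≤ b)
    (hn : ∑ i ∈ range (R + 1), n i ≤ N) : R * n 1 ≤ N + 2 * R * b := by
  have key : ∀ j, 1 ≤ j → j < R →
      2 * n 1 ≤ n (j + 1) + ∑ i ∈ range (j + 1), u i + 2 * ∑ i ∈ range (j + 1), β i := by
    intro j hj
    induction j, hj using Nat.le_induction with
    | base =>
      intro hR
      have := h 1 le_rfl hR
      simp only [sum_range_succ, range_zero, sum_empty]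
      omega
    | succ j hj ih =>
      intro hR
      have h1 := ih (by omega)
      have h2 := h (j + 1) (by omega) hR
      rw [sum_range_succ u (j + 1), sum_range_succ β (j + 1)]
      omega
  have key2 : ∀ j ∈ range R, n 1 ≤ n (j + 1) + 2 * b := by
    intro j hj
    rw [mem_range] at hj
    rcases Nat.eq_zero_or_pos j with rfl | hp
    · exact Nat.le_add_right _ _
    · have h1 := key j hp hj
      have h2 : ∑ i ∈ range (j + 1), u i ≤ ∑ i ∈ range (R + 1), u i :=
        sum_le_sum_of_subset (range_mono (by omega))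
      have h3 : ∑ i ∈ range (j + 1), β i ≤ ∑ i ∈ range (R + 1), β i :=
        sum_le_sum_of_subset (range_mono (by omega))
      omega
  have h4 := sum_le_sum key2
  rw [sum_const, card_range, smul_eq_mul, sum_add_distrib, sum_const, card_range,
    smul_eq_mul] at h4
  rw [sum_range_succ'] at hn
  nlinarith

end Vale.Agent.P089.Crea
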