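import Mathlib
import Vale.Agent.P089.Crea

namespace Vale.Agent.P089

open Finset Crea

namespace Robust

variable {S V G : Type} [Fintype S] [Group G] {F : Fam S V} {C : SC F G} {i0 : ℕ}

theorem zmod_eq {a b : ZMod 2} (h : a = 1 ↔ b = 1) : a = b := by
  revert a b
  decide

theorem ind_one {st : V → S → Option V} {v : V} {s : S} :
    ind st v s = 1 ↔ (st v s).isSome = true := by
  unfold ind
  split_ifs with h <;> simp [h]

theorem exists_foreign {ω : G → S → ZMod 2} {y : G} {v : V}
    (he : ¬ Err C.x F.bar F.deg ω y) (hn : ω y ≠ ind F.st v) :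
    ∃ s, ω y s = 1 ∧ F.st v s = none := by
  by_contra hc
  apply hn
  unfold Err at he
  rw [not_not] at he
  have hsub : (univ.filter fun s => ω y s = 1) ⊆ lab F.st v := by
    intro s hs
    simp only [lab, mem_filter, mem_univ, true_and] at hs ⊢
    cases h : F.st v s with
    | none => exact absurd ⟨s, hs, h⟩ hc
    | some w => rfl
  obtain ⟨s, hs⟩ := card_pos.1 (lt_of_lt_of_le (by norm_num) he.1)
  have h1 := (he.2 s (mem_filter.1 hs).2).1
  have h2 := F.deg_eq v s (mem_filter.1 (hsub hs)).2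
  have heq := eq_of_subset_of_card_le hsub (by omega)
  funext s
  apply zmod_eq
  rw [ind_one]
  have := congrArg (s ∈ ·) heq
  simpa [lab] using this

/-- Vertices that are bad or have a neighbour of their creator copy outside the set. -/
def Rv (O : Ord C i0) (ω : G → S → ZMod 2) (B : Finset G) (y : G) : Prop :=
  Err C.x F.bar F.deg ω y ∨ ω y ≠ ind F.st (cv O y) ∨
    ∃ s w, F.st (cv O y) s = some w ∧ ¬ (O.dep (cg O y) w ≠ 0 ∧ cg O y * C.f w ∈ B)

open Classical in
theorem card_Rv (O : Ord C i0) (ω : G → S → ZMod 2) (B : Finset G) :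
    (B.filter (Rv O ω B)).card ≤
      bdry (fun y s => y * C.x s) (Edge C.x F.bar ω) (Err C.x F.bar F.deg ω) B +
        2 * (B.filter fun y => d O y = 1).card := by
  let BD := (B ×ˢ (univ : Finset S)).filter fun p => Edge C.x F.bar ω p.1 p.2 ∧ p.1 * C.x p.2 ∉ B
  let ER := B.filter (Err C.x F.bar F.deg ω)
  let FO := (B ×ˢ (univ : Finset S)).filter fun p => p.1 * C.x p.2 ∈ B ∧
    d O (p.1 * C.x p.2) = 1 ∧ Down O (p.1 * C.x p.2) (F.bar p.2)
  have e : bdry (fun y s => y * C.x s) (Edge C.x F.bar ω) (Err C.x F.bar F.deg ω) B =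
      BD.card + ER.card := by
    unfold bdry
    congr
  have hFO : FO.card ≤ (B.filter fun y => d O y = 1).card := by
    apply card_le_card_of_injOn (fun p => p.1 * C.x p.2)
    · intro p hp
      have := (mem_filter.1 hp).2
      exact mem_filter.2 ⟨this.1, this.2.1⟩
    · intro p hp p' hp' e
      have h1 := (mem_filter.1 hp).2
      have h2 := (mem_filter.1 hp').2
      have := F.cardS
      exact up_inj O h1.2.2 h2.2.2 e (by rw [h1.2.1]; omega)
  have hsub : B.filter (Rv O ω B) ⊆ ER ∪ BD.image Prod.fst ∪ FO.image Prod.fst ∪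
      B.filter fun y => d O y = 1 := by
    intro y hy
    obtain ⟨hB, hy⟩ := mem_filter.1 hy
    simp only [mem_union]
    by_cases he : Err C.x F.bar F.deg ω y
    · exact Or.inl (Or.inl (Or.inl (mem_filter.2 ⟨hB, he⟩)))
    have hbd : ∀ s, ω y s = 1 → y * C.x s ∉ B → y ∈ BD.image Prod.fst := fun s hs hn =>
      mem_image.2 ⟨(y, s), mem_filter.2 ⟨mem_product.2 ⟨hB, mem_univ _⟩, edge_of he hs, hn⟩, rfl⟩
    by_cases hg : ω y = ind F.st (cv O y)
    · rcases hy with h | h | ⟨s, w, hs, hw⟩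
      · exact absurd h he
      · exact absurd hg h
      · have h1 : ω y s = 1 := by rw [hg, ind_one, hs]; rfl
        have e2 : cg O y * C.f w = y * C.x s := by rw [C.f_st _ _ _ hs, ← mul_assoc, c_eq]
        by_cases hin : y * C.x s ∈ B
        · right
          have h0 : O.dep (cg O y) w = 0 := by
            by_contra h
            exact hw ⟨h, e2 ▸ hin⟩
          have := (O.isDep (cg O y) (F.comp w)).lip w _ _ rfl (F.symm _ _ _ hs)
          have := d_pos O y
          exact mem_filter.2 ⟨hB, by unfold d at *; omega⟩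
        · exact Or.inl (Or.inl (Or.inr (hbd s h1 hin)))
    · obtain ⟨s, h1, h2⟩ := exists_foreign he hg
      by_cases hin : y * C.x s ∈ B
      · exact Or.inl (Or.inr (mem_image.2 ⟨(y, s),
          mem_filter.2 ⟨mem_product.2 ⟨hB, mem_univ _⟩, hin, foreign O he h1 h2⟩, rfl⟩))
      · exact Or.inl (Or.inl (Or.inr (hbd s h1 hin)))
  have h1 := card_le_card hsub
  have h2 := card_union_le (ER ∪ BD.image Prod.fst ∪ FO.image Prod.fst)
    (B.filter fun y => d O y = 1)
  have h3 := card_union_le (ER ∪ BD.image Prod.fst) (FO.image Prod.fst)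
  have h4 := card_union_le ER (BD.image Prod.fst)
  have h5 := card_image_le (s := BD) (f := Prod.fst)
  have h6 := card_image_le (s := FO) (f := Prod.fst)
  omega

open Classical in
theorem fiber (O : Ord C i0) {ω : G → S → ZMod 2} (hF : Far C ω) (B : Finset G) (g : G) (i : ℕ)
    (hp : ¬ Perf C ω g i) :
    (B.filter fun y => (cg O y, F.comp (cv O y)) = (g, i)).card ≤ 2 * Fintype.card S *
      ((B.filter (Rv O ω B)).filter fun y => (cg O y, F.comp (cv O y)) = (g, i)).card := by
  let Bc := (F.K i).filter fun v => O.dep g v ≠ 0 ∧ g * C.f v ∈ B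
  let Rc := Bc.filter fun v => Rv O ω B (g * C.f v)
  have h1 : (B.filter fun y => (cg O y, F.comp (cv O y)) = (g, i)).card ≤ Bc.card := by
    refine le_trans (card_le_card ?_) (card_image_le (s := Bc) (f := fun v => g * C.f v))
    intro y hy
    obtain ⟨hB, e⟩ := mem_filter.1 hy
    obtain ⟨rfl, rfl⟩ := Prod.mk.inj e
    exact mem_image.2 ⟨cv O y, mem_filter.2 ⟨(F.mem_K _ _).2 rfl, c_dep O y,
      by rw [c_eq]; exact hB⟩, c_eq O y⟩
  have h2 : Rc.card ≤
      ((B.filter (Rv O ω B)).filter fun y => (cg O y, F.comp (cv O y)) = (g, i)).card := by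
    apply card_le_card_of_injOn (fun v => g * C.f v)
    · intro v hv
      obtain ⟨hv1, hv2⟩ := mem_filter.1 hv
      obtain ⟨hK, hd, hB⟩ := mem_filter.1 hv1
      obtain ⟨e1, e2⟩ := c_uniq O rfl hd
      exact mem_filter.2 ⟨mem_filter.2 ⟨hB, hv2⟩, by rw [e1, e2, (F.mem_K _ _).1 hK]⟩
    · intro v hv w hw e
      have a1 := (F.mem_K _ _).1 (mem_filter.1 (mem_filter.1 hv).1).1
      have a2 := (F.mem_K _ _).1 (mem_filter.1 (mem_filter.1 hw).1).1
      exact O.inj v w (a1.trans a2.symm) (mul_left_cancel e)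
  have hnb : ∀ v ∈ Bc, ∀ s w, F.st v s = some w → w ∉ Bc → v ∈ Rc := by
    intro v hv s w hs hw
    obtain ⟨hK, hd, hB⟩ := mem_filter.1 hv
    obtain ⟨e1, e2⟩ := c_uniq O rfl hd
    refine mem_filter.2 ⟨hv, Or.inr (Or.inr ⟨s, w, by rw [e2]; exact hs, ?_⟩)⟩
    rw [e1]
    intro h
    exact hw (mem_filter.2 ⟨(F.mem_K _ _).2 ((F.st_comp _ _ _ hs).trans ((F.mem_K _ _).1 hK)), h⟩)
  have hsub : Bc ⊆ F.K i := filter_subset _ _
  have hS := F.cardS
  suffices h : Bc.card ≤ 2 * Fintype.card S * Rc.card from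
    h1.trans (h.trans (Nat.mul_le_mul_left _ h2))
  by_cases hh : 2 * Bc.card ≤ (F.K i).card
  · obtain ⟨N, hN, hN'⟩ := F.expand i Bc hsub hh
    have h3 : N ⊆ (Rc ×ˢ (univ : Finset S)).biUnion fun p => (F.st p.1 p.2).toFinset := by
      intro w hw
      obtain ⟨h4, v, hv, s, hs⟩ := hN' w hw
      exact mem_biUnion.2 ⟨(v, s), mem_product.2 ⟨hnb v hv s w hs h4, mem_univ _⟩, by simp [hs]⟩
    have h4 := (card_le_card h3).trans (card_biUnion_le_card_mul _ _ 1 (by
      intro p _
      cases F.st p.1 p.2 <;> simp))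
    rw [card_product, card_univ] at h4
    nlinarith
  · have hc := card_sdiff_add_card_eq_card hsub
    obtain ⟨N, hN, hN'⟩ := F.expand i (F.K i \ Bc) sdiff_subset (by omega)
    have h3 : N ⊆ Rc := by
      intro w hw
      obtain ⟨h4, v, hv, s, hs⟩ := hN' w hw
      obtain ⟨hv1, hv2⟩ := mem_sdiff.1 hv
      have hK : w ∈ F.K i := (F.mem_K _ _).2 ((F.st_comp _ _ _ hs).trans ((F.mem_K _ _).1 hv1))
      have hw' : w ∈ Bc := by
        by_contra h
        exact h4 (mem_sdiff.2 ⟨hK, h⟩)
      exact hnb w hw' _ v (F.symm _ _ _ hs) hv2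
    have h4 := card_le_card h3
    have h5 : ((F.K i).filter fun v => ω (g * C.f v) ≠ ind F.st v) ⊆ (F.K i \ Bc) ∪ Rc := by
      intro v hv
      obtain ⟨hK, hne⟩ := mem_filter.1 hv
      by_cases hb : v ∈ Bc
      · obtain ⟨-, e2⟩ := c_uniq O rfl (mem_filter.1 hb).2.1
        exact mem_union_right _ (mem_filter.2 ⟨hb, Or.inr (Or.inl (by rw [e2]; exact hne))⟩)
      · exact mem_union_left _ (mem_sdiff.2 ⟨hK, hb⟩)
    have h6 := (card_le_card h5).trans (card_union_le _ _)
    have h7 : ¬ 8 * ((F.K i).filter fun v => ω (g * C.f v) ≠ ind F.st v).card ≤ (F.K i).card :=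
      fun h => hp (hF g i h)
    have h8 : Bc.card ≤ 24 * Rc.card := by omega
    nlinarith

end Robust

open Robust

theorem robustS : RobustStmt := by
  classical
  intro hD S V _ F G _ C i0 O ω hF B hB
  have h1 := hD S V F G C i0 O ω B
  rw [filter_congr (q := fun y => d O y = 1) fun y _ => d_one_iff O y] at h1
  have h2 := card_Rv O ω B
  have h3 : B.card ≤ 2 * Fintype.card S * (B.filter (Rv O ω B)).card := by
    let key : G → G × ℕ := fun y => (cg O y, F.comp (cv O y))
    rw [card_eq_sum_card_fiberwise (s := B) (t := B.image key) (f := key)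
      (fun y hy => mem_image_of_mem _ hy),
      card_eq_sum_card_fiberwise (s := B.filter (Rv O ω B)) (t := B.image key) (f := key)
      (fun y hy => mem_image_of_mem _ (mem_filter.1 hy).1), mul_sum]
    apply sum_le_sum
    intro c hc
    obtain ⟨y, hy, rfl⟩ := mem_image.1 hc
    exact fiber O hF B _ _ (hB y hy _ _ (c_eq O y).symm)
  generalize bdry (fun y s => y * C.x s) (Edge C.x F.bar ω) (Err C.x F.bar F.deg ω) B = β at *
  generalize (B.filter fun y => d O y = 1).card = n at *
  generalize (B.filter (Rv O ω B)).card = r at *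
  generalize Fintype.card S = σ at *
  have h4 := Nat.mul_le_mul_left (2 * σ) h2
  nlinarith

end Vale.Agent.P089
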