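import Mathlib
import Vale.Agent.P089.Base

/-
P089: the Cayley graph of the small cancellation group is built by attaching copies of the
components one after the other (Zorn's lemma over the invariants `Inv`).
-/

namespace Vale.Agent.P089

/-- Names of vertices: `mk v v0 y0 lev dep g` is the vertex `v` of the copy attached with `v0`
glued to `y0`; the level, the depth function and the group element of the copy are recorded. -/
inductive Nm (V G : Type) : Type
  | root : Nm V G
  | mk (v v0 : V) (y0 : Nm V G) (lev : ℕ) (dep : V → ℕ) (g : G) : Nm V G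

/-- Height of a vertex. -/
def Nm.h {V G : Type} : Nm V G → ℕ
  | .root => 0
  | .mk _ _ _ lev _ _ => lev

/-- The group element of a vertex. -/
def Nm.φ {V G : Type} [Group G] (f : V → G) : Nm V G → G
  | .root => 1
  | .mk v _ _ _ _ g => g * f v

/-- A copy of the component of `v0`; `pos` is its vertex map. -/
structure Cp (V G : Type) where
  v0 : V
  y0 : Nm V G
  lev : ℕ
  dep : V → ℕ
  g : G
  pos : V → Nm V G

/-- The name of a new vertex of a copy. -/
def Cp.new {V G : Type} (c : Cp V G) (v : V) : Nm V G := .mk v c.v0 c.y0 c.lev c.dep c.g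

variable {S V G : Type} [Fintype S] [Group G]

/-- `v` lies in the component of the copy `c`. -/
def In (F : Fam S V) (c : Cp V G) (v : V) : Prop := F.comp v = F.comp c.v0

/-- The first copy. -/
def first (F : Fam S V) (G : Type) [Group G] (b : V) : Cp V G where
  v0 := b
  y0 := .root
  lev := 1
  dep := fun _ => F.len (F.comp b) + 1
  g := 1
  pos := fun v => .mk v b .root 1 (fun _ => F.len (F.comp b) + 1) 1

/-- `y` is covered by a copy at the position `v`. -/
def Cov (F : Fam S V) (J : Set (Cp V G)) (y : Nm V G) (v : V) : Prop :=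
  ∃ c ∈ J, In F c v ∧ c.pos v = y

/-- `y` is a vertex. -/
def Vert (F : Fam S V) (J : Set (Cp V G)) (y : Nm V G) : Prop := ∃ v, Cov F J y v

/-- The invariants of the construction. -/
structure Inv (F : Fam S V) (f : V → G) (b : V) (J : Set (Cp V G)) : Prop where
  first_mem : first F G b ∈ J
  func : ∀ c ∈ J, ∀ c' ∈ J, c.v0 = c'.v0 → c.y0 = c'.y0 → c = c'
  isDep : ∀ c ∈ J, IsDep F (F.comp c.v0) c.dep
  new : ∀ c ∈ J, ∀ v, In F c v → c.dep v ≠ 0 → c.pos v = c.new v
  old : ∀ c ∈ J, ∀ v, In F c v → c.dep v = 0 → ∃ c' ∈ J, ∃ v', In F c' v' ∧ c'.dep v' ≠ 0 ∧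
    c.pos v = c'.new v' ∧ c'.lev < c.lev ∧ (c'.lev ≤ c.y0.h ∨
      (c'.dep v' ≤ F.len (F.comp v') ∧ ∃ s w w', F.st v s = some w ∧ c.dep w = 0 ∧
        F.st v' s = some w' ∧ c'.dep w' < c'.dep v'))
  gate : ∀ c ∈ J, c = first F G b ∨ (c.pos c.v0 = c.y0 ∧ c.dep c.v0 = 0)
  inj : ∀ c ∈ J, ∀ v w, In F c v → In F c w → c.pos v = c.pos w → v = w
  fold : ∀ c ∈ J, ∀ c' ∈ J, ∀ v v' s w w', In F c v → In F c' v' → c.pos v = c'.pos v' →
    F.st v s = some w → F.st v' s = some w' → c.pos w = c'.pos w'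
  up : ∀ c ∈ J, ∀ c' ∈ J, ∀ v v' s w', In F c v → c.dep v ≠ 0 → In F c' v' →
    c'.pos v' = c.pos v → F.st v' s = some w' → F.st v s = none →
    ∃ c'' ∈ J, ∃ v'' w'', In F c'' v'' ∧ c''.pos v'' = c.pos v ∧ F.st v'' s = some w'' ∧
      c''.dep v'' = 0 ∧ c''.dep w'' ≠ 0
  below : ∀ c ∈ J, ∀ y, Vert F J y → y.h < c.y0.h → ∀ w, Cov F J y w
  grp : ∀ c ∈ J, ∀ v, In F c v → (c.pos v).φ f = c.g * f v

def StepConcl : Prop :=
  ∀ (S V G : Type) [Fintype S] [Group G] (F : Fam S V) (C : SC F G) (b : V) (J : Set (Cp V G)),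
    Inv F C.f b J → ∀ y0 v0, Vert F J y0 → ¬ Cov F J y0 v0 →
    (∀ y, Vert F J y → y.h < y0.h → ∀ w, Cov F J y w) → ∃ c, c ∉ J ∧ Inv F C.f b (insert c J)

def StepStmt : Prop := WordsStmt → StepConcl

def ZornConcl : Prop :=
  ∀ (S V G : Type) [Fintype S] [Group G] (F : Fam S V) (C : SC F G) (b : V),
    ∃ J : Set (Cp V G), Inv F C.f b J ∧ ∀ y, Vert F J y → ∀ w, Cov F J y w

def ZornStmt : Prop := StepConcl → ZornConcl

def FinalStmt : Prop := ZornConcl → SCStmt

end Vale.Agent.P089
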