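import Mathlib
import Vale.Agent.P089.Build

namespace Vale.Agent.P089.Step

variable {S V G : Type}

theorem rd_append (st : V → S → Option V) (v : V) (u u' : List S) :
    rd st v (u ++ u') = (rd st v u).bind fun w => rd st w u' := by
  induction u generalizing v with
  | nil => simp [rd]
  | cons s u ih =>
    simp only [List.cons_append, rd]
    cases st v s with
    | none => simp
    | some w => simp [ih]

theorem rd_single (st : V → S → Option V) (v : V) (s : S) : rd st v [s] = st v s := by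
  simp only [rd]
  cases st v s <;> simp

theorem rd_snoc {st : V → S → Option V} {v w w' : V} {u : List S} {s : S}
    (h : rd st v u = some w) (h' : st w s = some w') : rd st v (u ++ [s]) = some w' := by
  rw [rd_append, h]
  simpa [rd_single] using h'

theorem red_snoc {bar : S → S} {u : List S} {s t : S} (h : Red bar (u ++ [t] ++ [s])) :
    s ≠ bar t := by
  unfold Red at h
  rw [List.append_assoc] at h
  have := (List.isChain_append.1 h).2.1
  simpa using this

theorem red_snoc_of {bar : S → S} {u : List S} {s : S} (h : Red bar u) (hn : ¬ Red bar (u ++ [s])) :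
    ∃ u0 t, u = u0 ++ [t] ∧ s = bar t := by
  unfold Red at *
  rcases List.eq_nil_or_concat u with rfl | ⟨u0, t, rfl⟩
  · simp at hn
  · refine ⟨u0, t, by simp, ?_⟩
    by_contra hs
    apply hn
    rw [List.isChain_append]
    refine ⟨h, by simp, ?_⟩
    intro x hx y hy
    simp at hx hy
    subst hx hy
    exact hs

theorem red_right {bar : S → S} {u u' : List S} (h : Red bar (u ++ u')) : Red bar u' :=
  (List.isChain_append.1 h).2.1

variable [Fintype S] [Group G] {F : Fam S V} {f : V → G} {b : V} {J : Set (Cp V G)}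

theorem comp_rd {v w : V} {u : List S} (h : rd F.st v u = some w) : F.comp w = F.comp v := by
  induction u generalizing v with
  | nil => simp [rd] at h; rw [h]
  | cons s u ih =>
    simp only [rd] at h
    cases hs : F.st v s with
    | none => simp [hs] at h
    | some x =>
      rw [hs] at h
      rw [ih h, F.st_comp _ _ _ hs]

theorem len_pos (F : Fam S V) (i : ℕ) : 0 < F.len i := by
  have := F.len_ge i
  have := F.cardS
  omega

theorem in_st {c : Cp V G} {v w : V} {s : S} (h : In F c v) (hs : F.st v s = some w) :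
    In F c w := (F.st_comp _ _ _ hs).trans h

/-- A dart of the graph built so far. -/
def Dart (F : Fam S V) (J : Set (Cp V G)) (y : Nm V G) (s : S) (y' : Nm V G) : Prop :=
  ∃ c ∈ J, ∃ v w, In F c v ∧ F.st v s = some w ∧ c.pos v = y ∧ c.pos w = y'

omit [Group G] in
theorem Dart.symm {y y' : Nm V G} {s : S} (h : Dart F J y s y') : Dart F J y' (F.bar s) y := by
  obtain ⟨c, hc, v, w, hv, hs, h1, h2⟩ := h
  exact ⟨c, hc, w, v, (F.st_comp _ _ _ hs).trans hv, F.symm _ _ _ hs, h2, h1⟩

theorem Dart.fold (hJ : Inv F f b J) {y y' : Nm V G} {s : S} (h : Dart F J y s y')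
    {c : Cp V G} (hc : c ∈ J) {v w : V} (hv : In F c v) (hp : c.pos v = y)
    (hs : F.st v s = some w) : c.pos w = y' := by
  obtain ⟨c', hc', v', w', hv', hs', h1, h2⟩ := h
  rw [← h2]
  exact hJ.fold c hc c' hc' v v' s w w' hv hv' (hp.trans h1.symm) hs hs'

theorem Dart.func (hJ : Inv F f b J) {y y' y'' : Nm V G} {s : S} (h : Dart F J y s y')
    (h' : Dart F J y s y'') : y' = y'' := by
  obtain ⟨c', hc', v', w', hv', hs', h1, h2⟩ := h'
  rw [← h2, h.fold hJ hc' hv' h1 hs']

theorem creator (hJ : Inv F f b J) {y : Nm V G} (h : Vert F J y) :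
    ∃ c ∈ J, ∃ v, In F c v ∧ c.dep v ≠ 0 ∧ y = c.new v := by
  obtain ⟨v, c, hc, hv, rfl⟩ := h
  by_cases hd : c.dep v = 0
  · obtain ⟨c', hc', v', h1, h2, h3, -⟩ := hJ.old c hc v hv hd
    exact ⟨c', hc', v', h1, h2, h3⟩
  · exact ⟨c, hc, v, hv, hd, hJ.new c hc v hv hd⟩

theorem new_inj (hJ : Inv F f b J) {c c' : Cp V G} (hc : c ∈ J) (hc' : c' ∈ J) {v v' : V}
    (h : c.new v = c'.new v') : c = c' ∧ v = v' := by
  unfold Cp.new at h
  injection h with h1 h2 h3
  exact ⟨hJ.func c hc c' hc' h2 h3, h1⟩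

/-- Reduced words readable both in the new component and in the old graph. -/
inductive R (F : Fam S V) (J : Set (Cp V G)) (v0 : V) (y0 : Nm V G) :
    List S → V → Nm V G → Prop
  | nil : R F J v0 y0 [] v0 y0
  | snoc {u q y s q' y'} : R F J v0 y0 u q y → F.st q s = some q' → Dart F J y s y' →
      Red F.bar (u ++ [s]) → R F J v0 y0 (u ++ [s]) q' y'

variable {v0 : V} {y0 : Nm V G}

omit [Group G] in
theorem R.rd {u q y} (h : R F J v0 y0 u q y) : rd F.st v0 u = some q := by
  induction h with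
  | nil => rfl
  | snoc _ hs _ _ ih => exact rd_snoc ih hs

omit [Group G] in
theorem R.red {u q y} (h : R F J v0 y0 u q y) : Red F.bar u := by
  cases h with
  | nil => exact List.isChain_nil
  | snoc _ _ _ hr => exact hr

omit [Group G] in
theorem R.inv {u s q' y'} (h : R F J v0 y0 (u ++ [s]) q' y') :
    ∃ q y, R F J v0 y0 u q y ∧ F.st q s = some q' ∧ Dart F J y s y' := by
  generalize hw : u ++ [s] = w at h
  cases h with
  | nil => simp at hw
  | snoc h1 h2 h3 _ =>
    obtain ⟨e1, e2⟩ := List.append_inj' hw rfl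
    obtain rfl := List.singleton_inj.1 e2
    subst e1
    exact ⟨_, _, h1, h2, h3⟩

omit [Group G] in
theorem R.inv_nil {q y} (h : R F J v0 y0 [] q y) : q = v0 ∧ y = y0 := by
  generalize hw : ([] : List S) = w at h
  cases h with
  | nil => exact ⟨rfl, rfl⟩
  | snoc => simp at hw

theorem R.func (hJ : Inv F f b J) {u q y} (h : R F J v0 y0 u q y) :
    ∀ {q' y'}, R F J v0 y0 u q' y' → y = y' := by
  induction h with
  | nil => intro q' y' h'; exact h'.inv_nil.2.symm
  | snoc _ _ hd _ ih =>
    intro q2 y2 h'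
    obtain ⟨q3, y3, h1, -, h3⟩ := h'.inv
    rw [← ih h1] at h3
    exact hd.func hJ h3

theorem R.notCov (hJ : Inv F f b J) (h0 : ¬ Cov F J y0 v0) {u q y} (h : R F J v0 y0 u q y) :
    ¬ Cov F J y q := by
  induction h with
  | nil => exact h0
  | snoc _ hs hd _ ih =>
    rintro ⟨c, hc, hv, hp⟩
    have hs' := F.symm _ _ _ hs
    exact ih ⟨c, hc, in_st hv hs', hd.symm.fold hJ hc hv hp hs'⟩

omit [Group G] in
theorem R.vert (hv : Vert F J y0) {u q y} (h : R F J v0 y0 u q y) : Vert F J y := by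
  cases h with
  | nil => exact hv
  | snoc _ _ hd _ =>
    obtain ⟨c, hc, v, w, h1, h2, -, h4⟩ := hd
    exact ⟨w, c, hc, (F.st_comp _ _ _ h2).trans h1, h4⟩

theorem R.piece (hJ : Inv F f b J) (h0 : ¬ Cov F J y0 v0) {u q y} (h : R F J v0 y0 u q y)
    {u1 u2 : List S} (hu : u = u1 ++ u2) {c : Cp V G} (hc : c ∈ J) {v p : V} (hv : In F c v)
    (hp : c.pos v = y) (hr : P089.rd F.st p u2 = some v) :
    u2.length < F.len (F.comp v0) ∧ u2.length < F.len (F.comp v) := by
  have h1 := h.rd
  rw [hu, rd_append] at h1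
  cases h2 : P089.rd F.st v0 u1 with
  | none => simp [h2] at h1
  | some p0 =>
    rw [h2] at h1
    simp only [Option.bind_some] at h1
    have hne : p0 ≠ p := by
      rintro rfl
      rw [hr] at h1
      obtain rfl := Option.some.inj h1
      exact h.notCov hJ h0 ⟨c, hc, hv, hp⟩
    have hred : Red F.bar u2 := red_right (hu ▸ h.red)
    constructor
    · rw [← comp_rd h2]
      exact F.piece p0 p u2 hne hred (by simp [h1]) (by simp [hr])
    · rw [comp_rd hr]
      exact F.piece p p0 u2 hne.symm hred (by simp [hr]) (by simp [h1])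

theorem R.grp (C : SC F G) (hJ : Inv F C.f b J) {u q y} (h : R F J v0 y0 u q y) :
    y.φ C.f = y0.φ C.f * (C.f v0)⁻¹ * C.f q := by
  induction h with
  | nil => simp
  | snoc _ hs hd _ ih =>
    obtain ⟨c, hc, v, w, h1, h2, h3, h4⟩ := hd
    rw [← h4, hJ.grp c hc w (in_st h1 h2), C.f_st _ _ _ h2, C.f_st _ _ _ hs, ← mul_assoc,
      ← hJ.grp c hc v h1, h3, ih]
    simp [mul_assoc]

/-- The setting of the extension step. -/
structure Ctx (F : Fam S V) (f : V → G) (b : V) (J : Set (Cp V G)) (v0 : V) (y0 : Nm V G)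
    (c0 : Cp V G) (v1 : V) : Prop where
  inv : Inv F f b J
  vert : Vert F J y0
  notCov : ¬ Cov F J y0 v0
  min : ∀ y, Vert F J y → y.h < y0.h → ∀ w, Cov F J y w
  mem : c0 ∈ J
  in1 : In F c0 v1
  dep1 : c0.dep v1 ≠ 0
  eq : y0 = c0.new v1

variable {c0 : Cp V G} {v1 : V}

theorem Ctx.h_le (X : Ctx F f b J v0 y0 c0 v1) {u q y} (h : R F J v0 y0 u q y) : y0.h ≤ y.h := by
  by_contra hlt
  exact h.notCov X.inv X.notCov (X.min y (h.vert X.vert) (by omega) q)

theorem Ctx.gate_le (X : Ctx F f b J v0 y0 c0 v1) {c : Cp V G} (hc : c ∈ J) : c.y0.h ≤ y0.h := by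
  by_contra hlt
  exact X.notCov (X.inv.below c hc y0 X.vert (by omega) v0)

theorem Ctx.h_eq (X : Ctx F f b J v0 y0 c0 v1) : y0.h = c0.lev := by
  rw [X.eq]; rfl

/-- The walk stays in the creator copy of the gate. -/
def Low (F : Fam S V) (c0 : Cp V G) (v1 : V) (u : List S) (y : Nm V G) : Prop :=
  ∃ v', rd F.st v1 u = some v' ∧ c0.dep v' ≠ 0 ∧ y = c0.new v'

/-- The last dart of the walk goes up. -/
def High (F : Fam S V) (J : Set (Cp V G)) (k : ℕ) (u : List S) (y : Nm V G) : Prop :=
  ∃ c ∈ J, ∃ v', In F c v' ∧ c.dep v' ≠ 0 ∧ y = c.new v' ∧ k < c.lev ∧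
    c.dep v' ≤ F.len (F.comp v') ∧ ∃ u0 u3 s w p, u = u0 ++ (u3 ++ [s]) ∧
      rd F.st p u3 = some w ∧ F.st w s = some v' ∧ c.dep w < c.dep v' ∧
      u3.length + 1 = c.dep v'

theorem Ctx.state (X : Ctx F f b J v0 y0 c0 v1) {u q y} (h : R F J v0 y0 u q y) :
    Low F c0 v1 u y ∨ High F J y0.h u y := by
  have hJ := X.inv
  induction h with
  | nil => exact Or.inl ⟨v1, rfl, X.dep1, X.eq⟩
  | @snoc u q y s q' y' h1 hs hd hr ih =>
    have hR : R F J v0 y0 (u ++ [s]) q' y' := R.snoc h1 hs hd hr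
    have foreign : ∀ c ∈ J, ∀ v', In F c v' → c.dep v' ≠ 0 → y = c.new v' → F.st v' s = none →
        High F J y0.h (u ++ [s]) y' := by
      intro c hc v' hv' hd' hy hn
      have hp : c.pos v' = y := (hJ.new c hc v' hv' hd').trans hy.symm
      obtain ⟨c1, hc1, a, a', ha, hsa, hpa, hpa'⟩ := hd
      obtain ⟨c2, hc2, e, e', he, hpe, hse, hde, hde'⟩ :=
        hJ.up c hc c1 hc1 v' a s a' hv' hd' ha (hpa.trans hp.symm) hsa hn
      have hd2 : Dart F J y s y' := ⟨c1, hc1, a, a', ha, hsa, hpa, hpa'⟩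
      have he' : In F c2 e' := in_st he hse
      have hy' : c2.pos e' = y' := hd2.fold hJ hc2 he (hpe.trans hp) hse
      have hlip := (hJ.isDep c2 hc2).lip e s e' he hse
      obtain ⟨c3, hc3, v3, -, -, hp3, hlev, -⟩ := hJ.old c2 hc2 e he hde
      have hh : y.h = c3.lev := by rw [← hp, ← hpe, hp3]; rfl
      have hle := X.h_le h1
      have hl := len_pos F (F.comp e')
      exact ⟨c2, hc2, e', he', hde', by rw [← hy', hJ.new c2 hc2 e' he' hde'], by omega,
        by omega, u, [], s, e, e, by simp, rfl, hse, by omega, by simp; omega⟩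
    rcases ih with ⟨v', hv', hd', hy⟩ | ⟨c, hc, v', hv', hd', hy, hk, hl, u0, u3, t, w, p, hu,
      hp, hw, hlt, hlen⟩
    · have hin : In F c0 v' := (comp_rd hv').trans X.in1
      cases hn : F.st v' s with
      | none => exact Or.inr (foreign c0 X.mem v' hin hd' hy hn)
      | some w =>
        left
        have hp : c0.pos v' = y := (hJ.new c0 X.mem v' hin hd').trans hy.symm
        have hy' : c0.pos w = y' := hd.fold hJ X.mem hin hp hn
        have hw : c0.dep w ≠ 0 := by
          intro h0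
          obtain ⟨c3, hc3, v3, -, -, hp3, hlev, -⟩ := hJ.old c0 X.mem w (in_st hin hn) h0
          have hh : y'.h = c3.lev := by rw [← hy', hp3]; rfl
          have := X.h_le hR
          have := X.h_eq
          omega
        exact ⟨w, rd_snoc hv' hn, hw, by rw [← hy', hJ.new c0 X.mem w (in_st hin hn) hw]⟩
    · right
      cases hn : F.st v' s with
      | none => exact foreign c hc v' hv' hd' hy hn
      | some w2 =>
        have hp' : c.pos v' = y := (hJ.new c hc v' hv' hd').trans hy.symm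
        have hy' : c.pos w2 = y' := hd.fold hJ hc hv' hp' hn
        have hD := hJ.isDep c hc
        have hup : c.dep v' < c.dep w2 := by
          by_contra hle
          have hl' : c.dep v' ≤ F.len (F.comp c.v0) := by rw [← hv']; exact hl
          have := hD.down v' s (F.bar t) w2 w hv' (by omega) hl' hn (F.symm _ _ _ hw)
            (by omega) (by omega)
          rw [hu, ← List.append_assoc] at hr
          exact red_snoc hr this
        have hlip := hD.lip v' s w2 hv' hn
        have hin : In F c w2 := in_st hv' hn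
        have hw2 : c.dep w2 ≠ 0 := by omega
        have hrd : rd F.st p (u3 ++ [t] ++ [s]) = some w2 := rd_snoc (rd_snoc hp hw) hn
        have hpc := (hR.piece hJ X.notCov (u1 := u0) (u2 := u3 ++ [t] ++ [s])
          (by rw [hu]; simp) hc hin hy' hrd).2
        simp only [List.length_append, List.length_singleton] at hpc
        exact ⟨c, hc, w2, hin, hw2, by rw [← hy', hJ.new c hc w2 hin hw2], hk, by omega,
          u0, u3 ++ [t], s, v', p, by rw [hu]; simp, rd_snoc hp hw, hn, hup, by simp; omega⟩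

theorem Ctx.low_len (X : Ctx F f b J v0 y0 c0 v1) {u q y} (h : R F J v0 y0 u q y)
    (hl : Low F c0 v1 u y) : u.length < F.len (F.comp v0) ∧ u.length < F.len (F.comp v1) := by
  obtain ⟨v', hv', hd', hy⟩ := hl
  have hin : In F c0 v' := (comp_rd hv').trans X.in1
  have := h.piece X.inv X.notCov (u1 := []) (u2 := u) rfl X.mem hin
    ((X.inv.new c0 X.mem v' hin hd').trans hy.symm) hv'
  rwa [comp_rd hv'] at this

theorem Ctx.retrace (X : Ctx F f b J v0 y0 c0 v1) {u q y} (h : R F J v0 y0 u q y) :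
    ∀ c ∈ J, ∀ v, In F c v → c.pos v = y → ∃ u1 u2 p, u = u1 ++ u2 ∧
      u1.length < F.len (F.comp v0) ∧ rd F.st p u2 = some v := by
  have hJ := X.inv
  induction h with
  | nil => exact fun c _ v _ _ => ⟨[], [], v, rfl, len_pos F _, rfl⟩
  | @snoc u q y s q' y' h1 hs hd hr ih =>
    intro c hc v hv hp
    have hR : R F J v0 y0 (u ++ [s]) q' y' := R.snoc h1 hs hd hr
    rcases X.state hR with hl | ⟨c1, hc1, v', hv', hd', hy, hk, hl, u0, u3, t, w, p, hu,
      -, hw, hlt, -⟩
    · exact ⟨u ++ [s], [], v, by simp, (X.low_len hR hl).1, rfl⟩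
    · rw [← List.append_assoc] at hu
      obtain rfl := List.singleton_inj.1 (List.append_inj' hu rfl).2
      have hw' := F.symm _ _ _ hw
      have key : ∃ wc, F.st v (F.bar s) = some wc := by
        by_cases hdv : c.dep v = 0
        · obtain ⟨c3, hc3, v3, -, -, hp3, -, hor⟩ := hJ.old c hc v hv hdv
          obtain ⟨rfl, rfl⟩ := new_inj hJ hc3 hc1 (hp3.symm.trans (hp.trans hy))
          rcases hor with hle | ⟨-, s', w2, w3, h2, -, h3, h4⟩
          · have := X.gate_le hc
            omega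
          · have hl' : c3.dep v3 ≤ F.len (F.comp c3.v0) := by rw [← hv']; exact hl
            have := (hJ.isDep c3 hc3).down v3 s' (F.bar s) w3 w hv' (by omega) hl' h3 hw'
              (by omega) (by omega)
            exact ⟨w2, this ▸ h2⟩
        · obtain ⟨rfl, rfl⟩ := new_inj hJ hc hc1
            ((hJ.new c hc v hv hdv).symm.trans (hp.trans hy))
          exact ⟨w, hw'⟩
      obtain ⟨wc, hwc⟩ := key
      obtain ⟨u1, u2, p2, e1, e2, e3⟩ := ih c hc wc (in_st hv hwc) (hd.symm.fold hJ hc hv hp hwc)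
      have hb := F.symm _ _ _ hwc
      rw [F.bar_bar] at hb
      exact ⟨u1, u2 ++ [s], p2, by rw [e1]; simp, e2, rd_snoc e3 hb⟩

theorem Ctx.len_lt (X : Ctx F f b J v0 y0 c0 v1) {u q y} (h : R F J v0 y0 u q y) :
    u.length < 2 * F.len (F.comp v0) := by
  obtain ⟨v, c, hc, hv, hp⟩ := h.vert X.vert
  obtain ⟨u1, u2, p, e1, e2, e3⟩ := X.retrace h c hc v hv hp
  have := (h.piece X.inv X.notCov e1 hc hv hp e3).1
  rw [e1, List.length_append]
  omega

/-- Uniqueness of short reduced words. -/
def Uniq (F : Fam S V) : Prop :=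
  ∀ v w u u', Red F.bar u → Red F.bar u' → rd F.st v u = some w → rd F.st v u' = some w →
    u.length + u'.length < 10 * F.len (F.comp v) → u = u'

theorem Ctx.word_eq (X : Ctx F f b J v0 y0 c0 v1) (hU : Uniq F) {u u' q y y'}
    (h : R F J v0 y0 u q y) (h' : R F J v0 y0 u' q y') : u = u' := by
  have := X.len_lt h
  have := X.len_lt h'
  exact hU v0 q u u' h.red h'.red h.rd h'.rd (by omega)

theorem Ctx.pos_eq (X : Ctx F f b J v0 y0 c0 v1) (hU : Uniq F) {u u' q y y'}
    (h : R F J v0 y0 u q y) (h' : R F J v0 y0 u' q y') : y = y' := by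
  obtain rfl := X.word_eq hU h h'
  exact h.func X.inv h'

theorem Ctx.inj_word (X : Ctx F f b J v0 y0 c0 v1) (hU : Uniq F) :
    ∀ (n : ℕ) {u u' q q' y}, u.length = n → R F J v0 y0 u q y → R F J v0 y0 u' q' y → u = u' := by
  have hJ := X.inv
  intro n
  induction n using Nat.strong_induction_on with
  | _ n ih =>
  intro u u' q q' y hn h h'
  have hk := X.h_eq
  rcases X.state h with hl | ⟨c, hc, v, hv, hd, hy, hlev, hl, u0, u3, t, w, p, hu, -, hw, hlt, -⟩
  · rcases X.state h' with hl' | ⟨c', hc', v', -, -, hy', hlev', -⟩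
    · have l1 := (X.low_len h hl).2
      have l2 := (X.low_len h' hl').2
      obtain ⟨a, ha, -, e⟩ := hl
      obtain ⟨a', ha', -, e'⟩ := hl'
      obtain ⟨-, rfl⟩ := new_inj hJ X.mem X.mem (e.symm.trans e')
      exact hU v1 a u u' h.red h'.red ha ha' (by omega)
    · obtain ⟨a, -, -, e⟩ := hl
      obtain ⟨rfl, -⟩ := new_inj hJ X.mem hc' (e.symm.trans hy')
      omega
  · rcases X.state h' with ⟨a, -, -, e⟩ | ⟨c', hc', v', -, -, hy', -, -, u0', u3', t', w', p',
      hu', -, hw', hlt', -⟩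
    · obtain ⟨rfl, -⟩ := new_inj hJ X.mem hc (e.symm.trans hy)
      omega
    · obtain ⟨rfl, rfl⟩ := new_inj hJ hc hc' (hy.symm.trans hy')
      have hl' : c.dep v ≤ F.len (F.comp c.v0) := by rw [← hv]; exact hl
      have hb := (hJ.isDep c hc).down v (F.bar t) (F.bar t') w w' hv (by omega) hl'
        (F.symm _ _ _ hw) (F.symm _ _ _ hw') (by omega) (by omega)
      have ht : t = t' := by rw [← F.bar_bar t, hb, F.bar_bar]
      subst ht
      rw [← List.append_assoc] at hu hu'
      subst hu hu'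
      obtain ⟨a, z, r1, -, d1⟩ := h.inv
      obtain ⟨a', z', r1', -, d1'⟩ := h'.inv
      obtain rfl : z = z' := d1.symm.func hJ d1'.symm
      rw [ih _ (by rw [← hn]; simp) rfl r1 r1']

theorem Ctx.inj (X : Ctx F f b J v0 y0 c0 v1) (hU : Uniq F) {u u' q q' y}
    (h : R F J v0 y0 u q y) (h' : R F J v0 y0 u' q' y) : q = q' := by
  obtain rfl := X.inj_word hU _ rfl h h'
  exact Option.some.inj (h.rd.symm.trans h'.rd)

omit [Group G] in
theorem R.take {u q y} (h : R F J v0 y0 u q y) (n : ℕ) :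
    ∃ q' y', R F J v0 y0 (u.take n) q' y' := by
  induction h with
  | nil => exact ⟨v0, y0, by simpa using R.nil⟩
  | @snoc u q y s q' y' h1 hs hd hr ih =>
    by_cases hn : n ≤ u.length
    · rw [List.take_append_of_le_length hn]
      exact ih
    · rw [List.take_of_length_le (by simp; omega)]
      exact ⟨q', y', R.snoc h1 hs hd hr⟩

theorem R.close (hJ : Inv F f b J) {u q y s q' y'} (h : R F J v0 y0 u q y)
    (hs : F.st q s = some q') (hd : Dart F J y s y') : ∃ u', R F J v0 y0 u' q' y' := by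
  by_cases hr : Red F.bar (u ++ [s])
  · exact ⟨_, R.snoc h hs hd hr⟩
  · obtain ⟨u0, t, rfl, rfl⟩ := red_snoc_of h.red hr
    obtain ⟨a, z, r1, s1, d1⟩ := h.inv
    obtain rfl : a = q' := Option.some.inj ((F.symm _ _ _ s1).symm.trans hs)
    obtain rfl : z = y' := d1.symm.func hJ hd
    exact ⟨u0, r1⟩

theorem Ctx.dart (X : Ctx F f b J v0 y0 c0 v1) (hU : Uniq F) {u u' q y s q' y'}
    (h : R F J v0 y0 u q y) (h' : R F J v0 y0 u' q' y') (hs : F.st q s = some q') :
    Dart F J y s y' := by
  by_cases hr : Red F.bar (u ++ [s])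
  · have l1 := X.len_lt h
    have l2 := X.len_lt h'
    have := hU v0 q' (u ++ [s]) u' hr h'.red (rd_snoc h.rd hs) h'.rd (by simp; omega)
    subst this
    obtain ⟨a, z, r1, -, d1⟩ := h'.inv
    rw [h.func X.inv r1]
    exact d1
  · obtain ⟨u0, t, rfl, rfl⟩ := red_snoc_of h.red hr
    obtain ⟨a, z, r1, s1, d1⟩ := h.inv
    obtain rfl : a = q' := Option.some.inj ((F.symm _ _ _ s1).symm.trans hs)
    rw [← X.pos_eq hU r1 h']
    exact d1.symm

end Vale.Agent.P089.Step
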