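import Mathlib
import Vale.Agent.P089.StepA

namespace Vale.Agent.P089

open Step

namespace Words

variable {S V : Type} [Fintype S] {F : Fam S V}

theorem rd_snoc_inv {st : V → S → Option V} {v w' : V} {u : List S} {s : S}
    (h : rd st v (u ++ [s]) = some w') : ∃ w, rd st v u = some w ∧ st w s = some w' := by
  rw [rd_append] at h
  cases h2 : rd st v u with
  | none => simp [h2] at h
  | some w =>
    rw [h2] at h
    exact ⟨w, rfl, by simpa [rd_single] using h⟩

theorem rd_cons_inv {st : V → S → Option V} {v w' : V} {u : List S} {s : S}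
    (h : rd st v (s :: u) = some w') : ∃ w, st v s = some w ∧ rd st w u = some w' := by
  simp only [rd] at h
  cases h2 : st v s with
  | none => simp [h2] at h
  | some w =>
    rw [h2] at h
    exact ⟨w, rfl, h⟩

theorem rd_app {st : V → S → Option V} {v w x : V} {u u' : List S} (h : rd st v u = some w)
    (h' : rd st w u' = some x) : rd st v (u ++ u') = some x := by
  rw [rd_append, h]
  exact h'

theorem rd_rev {v w : V} {u : List S} (h : rd F.st v u = some w) :
    rd F.st w (u.reverse.map F.bar) = some v := by
  induction u generalizing v with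
  | nil => simp [rd] at h ⊢; exact h.symm
  | cons s u ih =>
    obtain ⟨x, h1, h2⟩ := rd_cons_inv h
    rw [List.reverse_cons, List.map_append]
    exact rd_snoc (ih h2) (F.symm _ _ _ h1)

theorem red_rev {u : List S} (h : Red F.bar u) : Red F.bar (u.reverse.map F.bar) := by
  unfold Red at *
  rw [List.isChain_map, List.isChain_reverse]
  refine h.imp ?_
  intro a b hab e
  apply hab
  rw [F.bar_bar] at e
  exact e.symm

theorem red_left {bar : S → S} {u u' : List S} (h : Red bar (u ++ u')) : Red bar u :=
  (List.isChain_append.1 h).1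

theorem uniq (F : Fam S V) : Uniq F := by
  intro v w u
  induction u using List.reverseRecOn generalizing w with
  | nil =>
    intro u' _ h' e e' hl
    by_contra hne
    obtain rfl : v = w := Option.some.inj e
    have := F.girth v u' h' (Ne.symm hne) e'
    omega
  | append_singleton u s ih =>
    intro u' h h' e e' hl
    by_cases hr : Red F.bar (u ++ [s] ++ u'.reverse.map F.bar)
    · have := F.girth v _ hr (by simp) (rd_app e (rd_rev e'))
      simp at this hl
      omega
    · rcases List.eq_nil_or_concat u' with rfl | ⟨u0, t, rfl⟩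
      · exact absurd (by simpa using h) hr
      · rw [List.concat_eq_append] at *
        have hst : s = t := by
          by_contra hne
          apply hr
          unfold Red
          rw [List.isChain_append]
          refine ⟨h, red_rev h', ?_⟩
          intro x hx y hy
          simp at hx hy
          subst hx hy
          intro e2
          exact hne (by rw [← F.bar_bar s, ← e2, F.bar_bar])
        subst hst
        obtain ⟨p, e1, e2⟩ := rd_snoc_inv e
        obtain ⟨p', e1', e2'⟩ := rd_snoc_inv e'
        obtain rfl : p = p' := Option.some.inj ((F.symm _ _ _ e2).symm.trans (F.symm _ _ _ e2'))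
        rw [ih p u0 (red_left h) (red_left h') e1 e1' (by simp at hl; omega)]

/-- Distance from `Q`. -/
noncomputable def dist (F : Fam S V) (Q : Set V) (v : V) : ℕ :=
  sInf {n | ∃ q ∈ Q, ∃ u : List S, u.length = n ∧ rd F.st q u = some v}

theorem dist_le {Q : Set V} {q v : V} {u : List S} (hq : q ∈ Q) (h : rd F.st q u = some v) :
    dist F Q v ≤ u.length := Nat.sInf_le ⟨q, hq, u, rfl, h⟩

theorem dist_spec {Q : Set V} {r v : V} (hr : r ∈ Q) (hv : F.comp v = F.comp r) :
    ∃ q ∈ Q, ∃ u : List S, u.length = dist F Q v ∧ rd F.st q u = some v := by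
  obtain ⟨u, hu⟩ := F.conn r v hv.symm
  exact Nat.sInf_mem (s := {n | ∃ q ∈ Q, ∃ u : List S, u.length = n ∧ rd F.st q u = some v})
    ⟨_, r, hr, u, rfl, hu⟩

/-- A word inside `Q` followed by a shortest word is reduced. -/
theorem red_short {Q : Set V} {r q : V} {b : List S} (hb : Red F.bar b)
    (hrb : rd F.st r b = some q) (hq : q ∈ Q)
    (hQ : ∀ n, ∃ q' ∈ Q, rd F.st r (b.take n) = some q') :
    ∀ (a : List S) (v : V), rd F.st q a = some v → a.length = dist F Q v →
      Red F.bar (b ++ a) := by
  intro a
  induction a using List.reverseRecOn with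
  | nil => intro v _ _; simpa using hb
  | append_singleton a s ih =>
    intro v hv hl
    obtain ⟨w, e1, e2⟩ := rd_snoc_inv hv
    have hw : a.length = dist F Q w := by
      have h1 := dist_le hq e1
      obtain ⟨q', hq', u, hu, hu'⟩ := dist_spec (F := F) hq (comp_rd e1)
      have h2 := dist_le hq' (rd_snoc hu' e2)
      simp at h2 hl
      omega
    have hr := ih w e1 hw
    rw [← List.append_assoc]
    by_contra hn
    obtain ⟨u0, t, e3, rfl⟩ := red_snoc_of hr hn
    rcases List.eq_nil_or_concat a with rfl | ⟨a0, t', rfl⟩
    · rw [List.append_nil] at e3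
      subst e3
      obtain ⟨p, e4, e5⟩ := rd_snoc_inv hrb
      obtain rfl : q = w := Option.some.inj e1
      obtain rfl : p = v := Option.some.inj ((F.symm _ _ _ e5).symm.trans e2)
      obtain ⟨q', hq', e6⟩ := hQ u0.length
      rw [List.take_left'  rfl, e4] at e6
      obtain rfl := Option.some.inj e6
      have := dist_le (F := F) (u := []) hq' rfl
      simp at this hl
      omega
    · rw [List.concat_eq_append] at *
      rw [← List.append_assoc] at e3
      obtain rfl := List.singleton_inj.1 (List.append_inj' e3 rfl).2
      obtain ⟨p, e4, e5⟩ := rd_snoc_inv e1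
      obtain rfl : p = v := Option.some.inj ((F.symm _ _ _ e5).symm.trans e2)
      have := dist_le hq e4
      simp at hl
      omega

end Words

open Words

theorem wordsS : WordsStmt := by
  classical
  intro S V _ F
  refine ⟨uniq F, fun r Q hr hQ => ⟨Words.dist F Q, ?_, ?_⟩⟩
  rotate_left
  · intro v hv
    constructor
    · intro h0
      obtain ⟨q, hq, u, hu, hu'⟩ := dist_spec (F := F) hr hv
      rw [h0, List.length_eq_zero_iff] at hu
      subst hu
      obtain rfl : q = v := Option.some.inj hu'
      exact hq
    · intro h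
      exact Nat.le_zero.1 (dist_le (F := F) (u := []) h rfl)
  have hz : ∀ v, F.comp v = F.comp r → Words.dist F Q v = 0 → v ∈ Q := by
    intro v hv h0
    obtain ⟨q, hq, u, hu, hu'⟩ := dist_spec (F := F) hr hv
    rw [h0, List.length_eq_zero_iff] at hu
    subst hu
    obtain rfl : q = v := Option.some.inj hu'
    exact hq
  constructor
  · apply F.ball r
    intro q hq
    rw [Finset.mem_filter, F.mem_K] at hq
    obtain ⟨u, -, h1, h2, -⟩ := hQ q (hz q hq.1 hq.2)
    exact ⟨u, h1, h2⟩
  · intro v s w hv hs
    obtain ⟨q, hq, u, hu, hu'⟩ := dist_spec (F := F) hr hv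
    have := dist_le hq (rd_snoc hu' hs)
    simp at this
    omega
  · intro v s s' w w' hv h1 h2 hs hs' hw hw'
    obtain ⟨q0, hq0, a0, ha0, ha0'⟩ := dist_spec (F := F) hr hv
    obtain ⟨b0, hb0, hl0, hr0, hQ0⟩ := hQ q0 hq0
    have red0 := red_short hb0 hr0 hq0 hQ0 a0 v ha0' ha0
    have key : ∀ s w, F.st v s = some w → Words.dist F Q w ≤ Words.dist F Q v →
        ∃ u, b0 ++ a0 = u ++ [F.bar s] := by
      intro s w hs hw
      obtain ⟨q1, hq1, a, ha, ha'⟩ := dist_spec (F := F) hr ((F.st_comp _ _ _ hs).trans hv)
      obtain ⟨b1, hb1, hl1, hr1, hQ1⟩ := hQ q1 hq1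
      have red1 := red_short hb1 hr1 hq1 hQ1 a w ha' ha
      have hs2 := F.symm _ _ _ hs
      have red2 : Red F.bar (b1 ++ a ++ [F.bar s]) := by
        by_contra hn
        obtain ⟨u0, t, e3, e4⟩ := red_snoc_of red1 hn
        rcases List.eq_nil_or_concat a with rfl | ⟨a1, t', rfl⟩
        · rw [List.append_nil] at e3
          subst e3
          obtain ⟨p, e5, e6⟩ := rd_snoc_inv hr1
          obtain rfl : q1 = w := Option.some.inj ha'
          obtain rfl : p = v := Option.some.inj ((F.symm _ _ _ e6).symm.trans (e4 ▸ hs2))
          obtain ⟨q', hq', e7⟩ := hQ1 u0.length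
          rw [List.take_left' rfl, e5] at e7
          obtain rfl := Option.some.inj e7
          have := dist_le (F := F) (u := []) hq' rfl
          simp at this
          omega
        · rw [List.concat_eq_append] at *
          rw [← List.append_assoc] at e3
          obtain rfl := List.singleton_inj.1 (List.append_inj' e3 rfl).2
          obtain ⟨p, e5, e6⟩ := rd_snoc_inv ha'
          obtain rfl : p = v := Option.some.inj ((F.symm _ _ _ e6).symm.trans (e4 ▸ hs2))
          have := dist_le hq1 e5
          simp at ha
          omega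
      refine ⟨b1 ++ a, uniq F r v _ _ red0 red2 (rd_app hr0 ha0')
        (rd_snoc (rd_app hr1 ha') hs2) ?_⟩
      have := len_pos F (F.comp r)
      simp
      omega
    obtain ⟨u, e⟩ := key s w hs hw
    obtain ⟨u', e'⟩ := key s' w' hs' hw'
    have := List.singleton_inj.1 (List.append_inj' (e.symm.trans e') rfl).2
    rw [← F.bar_bar s, this, F.bar_bar]

end Vale.Agent.P089
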