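import Mathlib
import Vale.Agent.P089.Robust
import Vale.Agent.P089.Words

namespace Vale.Agent.P089

open Finset

namespace Blocks

open Classical in
theorem bdry_split {Y S : Type} [Fintype S] (mv : Y → S → Y) (E : Y → S → Prop) (err : Y → Prop)
    (B b : Finset Y) (h1 : ∀ y ∈ b, ∀ s, E y s → mv y s ∈ b)
    (h2 : ∀ y s, E y s → mv y s ∈ b → y ∈ b) :
    bdry mv E err (B ∩ b) + bdry mv E err (B \ b) ≤ bdry mv E err B := by
  unfold bdry
  have a1 : (((B ∩ b) ×ˢ (univ : Finset S)).filter fun p => E p.1 p.2 ∧ mv p.1 p.2 ∉ B ∩ b).card +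
      (((B \ b) ×ˢ (univ : Finset S)).filter fun p => E p.1 p.2 ∧ mv p.1 p.2 ∉ B \ b).card ≤
      ((B ×ˢ (univ : Finset S)).filter fun p => E p.1 p.2 ∧ mv p.1 p.2 ∉ B).card := by
    rw [← card_union_of_disjoint]
    · apply card_le_card
      intro p hp
      simp only [mem_union, mem_filter, mem_product, mem_univ, and_true, mem_inter,
        mem_sdiff] at hp ⊢
      rcases hp with ⟨⟨h3, h4⟩, h5, h6⟩ | ⟨⟨h3, h4⟩, h5, h6⟩
      · exact ⟨h3, h5, fun h => h6 ⟨h, h1 _ h4 _ h5⟩⟩
      · exact ⟨h3, h5, fun h => h6 ⟨h, fun h' => h4 (h2 _ _ h5 h')⟩⟩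
    · rw [disjoint_left]
      intro p hp hp'
      simp only [mem_filter, mem_product, mem_univ, and_true, mem_inter, mem_sdiff] at hp hp'
      exact hp'.1.2 hp.1.2
  have a2 : ((B ∩ b).filter err).card + ((B \ b).filter err).card ≤ (B.filter err).card := by
    rw [← card_union_of_disjoint]
    · apply card_le_card
      intro p hp
      simp only [mem_union, mem_filter, mem_inter, mem_sdiff] at hp ⊢
      rcases hp with h | h
      · exact ⟨h.1.1, h.2⟩
      · exact ⟨h.1.1, h.2⟩
    · rw [disjoint_left]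
      intro p hp hp'
      simp only [mem_filter, mem_inter, mem_sdiff] at hp hp'
      exact hp'.1.2 hp.1.2
  omega

variable {S V G : Type} [Fintype S] [Group G] {F : Fam S V} {C : SC F G} {i0 : ℕ}
  {ω : G → S → ZMod 2}

theorem perf_at {g : G} {v : V} (h : Perf C ω g (F.comp v)) : ω (g * C.f v) = ind F.st v :=
  h v ((F.mem_K _ _).2 rfl)

theorem read_both (u : List S) : ∀ {g g' : G} {v v' : V}, Perf C ω g (F.comp v) →
    Perf C ω g' (F.comp v') → g * C.f v = g' * C.f v' → (rd F.st v u).isSome = true →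
    (rd F.st v' u).isSome = true := by
  induction u with
  | nil => intros; rfl
  | cons s u ih =>
    intro g g' v v' h h' e hr
    obtain ⟨x, hx⟩ := Option.isSome_iff_exists.1 hr
    obtain ⟨w, h1, h2⟩ := Words.rd_cons_inv hx
    have h3 : ind F.st v' s = 1 := by
      rw [← perf_at h', ← e, perf_at h, Robust.ind_one, h1]
      rfl
    obtain ⟨w', hw'⟩ := Option.isSome_iff_exists.1 (Robust.ind_one.1 h3)
    have := ih (g := g) (g' := g') (v := w) (v' := w') (by rw [F.st_comp _ _ _ h1]; exact h)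
      (by rw [F.st_comp _ _ _ hw']; exact h')
      (by rw [C.f_st _ _ _ h1, C.f_st _ _ _ hw', ← mul_assoc, e, mul_assoc]) (by rw [h2]; rfl)
    simp only [rd, hw', Option.bind_some]
    exact this

theorem long_word (F : Fam S V) (v : V) (n : ℕ) :
    ∃ u w, u.length = n ∧ Red F.bar u ∧ rd F.st v u = some w := by
  classical
  induction n with
  | zero => exact ⟨[], v, rfl, List.isChain_nil, rfl⟩
  | succ n ih =>
    obtain ⟨u, w, h1, h2, h3⟩ := ih
    obtain ⟨s, hs, s', hs', hne⟩ := one_lt_card.1 (lt_of_lt_of_le (by norm_num) (F.three w))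
    obtain ⟨x, hx⟩ := Option.isSome_iff_exists.1 (mem_filter.1 hs).2
    obtain ⟨x', hx'⟩ := Option.isSome_iff_exists.1 (mem_filter.1 hs').2
    by_cases hr : Red F.bar (u ++ [s])
    · exact ⟨_, x, by simp [h1], hr, Step.rd_snoc h3 hx⟩
    · by_cases hr' : Red F.bar (u ++ [s'])
      · exact ⟨_, x', by simp [h1], hr', Step.rd_snoc h3 hx'⟩
      · obtain ⟨u0, t, e1, e2⟩ := Step.red_snoc_of h2 hr
        obtain ⟨u0', t', e1', e2'⟩ := Step.red_snoc_of h2 hr'
        have := List.singleton_inj.1 (List.append_inj' (e1.symm.trans e1') rfl).2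
        exact absurd (by rw [e2, e2', this]) hne

theorem perf_uniq {g g' : G} {v v' : V} (h : Perf C ω g (F.comp v))
    (h' : Perf C ω g' (F.comp v')) (e : g * C.f v = g' * C.f v') : v = v' := by
  by_contra hne
  obtain ⟨u, w, h1, h2, h3⟩ := long_word F v (F.len (F.comp v))
  have h4 : (rd F.st v u).isSome = true := by rw [h3]; rfl
  have := F.piece v v' u hne h2 h4 (read_both u h h' e h4)
  omega

theorem edge_iff {g : G} {v : V} (h : Perf C ω g (F.comp v)) {s : S} :
    Edge C.x F.bar ω (g * C.f v) s ↔ (F.st v s).isSome = true := by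
  constructor
  · intro he
    have := he.1
    rwa [perf_at h, Robust.ind_one] at this
  · intro hs
    obtain ⟨w, hw⟩ := Option.isSome_iff_exists.1 hs
    refine ⟨by rw [perf_at h, Robust.ind_one]; exact hs, ?_⟩
    have h' : Perf C ω g (F.comp w) := by rw [F.st_comp _ _ _ hw]; exact h
    rw [mul_assoc, ← C.f_st _ _ _ hw, perf_at h',
      Robust.ind_one, F.symm _ _ _ hw]
    rfl

theorem not_err {g : G} {v : V} (h : Perf C ω g (F.comp v)) :
    ¬ Err C.x F.bar F.deg ω (g * C.f v) := by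
  unfold Err
  rw [not_not]
  have e : (univ.filter fun s => ω (g * C.f v) s = 1) = lab F.st v := by
    ext s
    simp only [lab, mem_filter, mem_univ, true_and]
    rw [perf_at h, Robust.ind_one]
  rw [e]
  refine ⟨F.three v, fun s hs => ?_⟩
  rw [perf_at h, Robust.ind_one] at hs
  exact ⟨F.deg_eq v s hs, ((edge_iff h).2 hs).2⟩

theorem edge_symm (y : G) (s : S) (h : Edge C.x F.bar ω y s) :
    Edge C.x F.bar ω (y * C.x s) (F.bar s) ∧ y * C.x s * C.x (F.bar s) = y := by
  have e : y * C.x s * C.x (F.bar s) = y := by rw [C.x_bar]; simp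
  exact ⟨⟨h.2, by rw [e, F.bar_bar]; exact h.1⟩, e⟩

open Classical in
theorem closed {g : G} {i : ℕ} (h : Perf C ω g i) :
    ∀ y ∈ (F.K i).image fun v => g * C.f v, ¬ Err C.x F.bar F.deg ω y ∧
      ∀ s, Edge C.x F.bar ω y s → y * C.x s ∈ (F.K i).image fun v => g * C.f v := by
  intro y hy
  obtain ⟨v, hv, rfl⟩ := mem_image.1 hy
  obtain rfl := (F.mem_K _ _).1 hv
  refine ⟨not_err h, fun s hs => ?_⟩
  obtain ⟨w, hw⟩ := Option.isSome_iff_exists.1 ((edge_iff h).1 hs)
  exact mem_image.2 ⟨w, (F.mem_K _ _).2 (F.st_comp _ _ _ hw), by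
    rw [C.f_st _ _ _ hw, mul_assoc]⟩

open Classical in
theorem block_iso (O : Ord C i0) {g : G} {i : ℕ} (h : Perf C ω g i) (B : Finset G)
    (hB : B ⊆ (F.K i).image fun v => g * C.f v)
    (hc : 2 * B.card ≤ ((F.K i).image fun v => g * C.f v).card) :
    B.card ≤ 2 * bdry (fun y s => y * C.x s) (Edge C.x F.bar ω) (Err C.x F.bar F.deg ω) B := by
  have hinj : Set.InjOn (fun v => g * C.f v) (F.K i) := fun v hv w hw e =>
    O.inj v w (((F.mem_K _ _).1 hv).trans ((F.mem_K _ _).1 hw).symm) (mul_left_cancel e)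
  let U := (F.K i).filter fun v => g * C.f v ∈ B
  have hU : U.image (fun v => g * C.f v) = B := by
    ext y
    constructor
    · intro hy
      obtain ⟨v, hv, rfl⟩ := mem_image.1 hy
      exact (mem_filter.1 hv).2
    · intro hy
      obtain ⟨v, hv, rfl⟩ := mem_image.1 (hB hy)
      exact mem_image.2 ⟨v, mem_filter.2 ⟨hv, hy⟩, rfl⟩
  have hcard : U.card = B.card := by
    rw [← hU, card_image_of_injOn (hinj.mono (coe_subset.2 (filter_subset _ _)))]
  rw [card_image_of_injOn hinj] at hc
  obtain ⟨N, hN, hN'⟩ := F.expand i U (filter_subset _ _) (by omega)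
  let BD := (B ×ˢ (univ : Finset S)).filter fun p => Edge C.x F.bar ω p.1 p.2 ∧ p.1 * C.x p.2 ∉ B
  have hK : ∀ w ∈ N, w ∈ F.K i := by
    intro w hw
    obtain ⟨-, v, hv, s, hs⟩ := hN' w hw
    exact (F.mem_K _ _).2 ((F.st_comp _ _ _ hs).trans ((F.mem_K _ _).1 (mem_filter.1 hv).1))
  have h1 : N.image (fun v => g * C.f v) ⊆ BD.image fun p => p.1 * C.x p.2 := by
    intro y hy
    obtain ⟨w, hw, rfl⟩ := mem_image.1 hy
    obtain ⟨h2, v, hv, s, hs⟩ := hN' w hw
    obtain ⟨hv1, hv2⟩ := mem_filter.1 hv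
    obtain rfl := (F.mem_K _ _).1 hv1
    have e : g * C.f v * C.x s = g * C.f w := by rw [C.f_st _ _ _ hs, mul_assoc]
    refine mem_image.2 ⟨(g * C.f v, s), mem_filter.2 ⟨mem_product.2 ⟨hv2, mem_univ _⟩,
      (edge_iff h).2 (by rw [hs]; rfl), ?_⟩, e⟩
    rw [e]
    exact fun h3 => h2 (mem_filter.2 ⟨hK w hw, h3⟩)
  have h2 := (card_le_card h1).trans card_image_le
  rw [card_image_of_injOn (hinj.mono fun w hw => hK w hw)] at h2
  have e : bdry (fun y s => y * C.x s) (Edge C.x F.bar ω) (Err C.x F.bar F.deg ω) B =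
      BD.card + (B.filter (Err C.x F.bar F.deg ω)).card := by
    unfold bdry
    congr
  omega

end Blocks

open Blocks

theorem blocksS : BlocksStmt := by
  classical
  intro hI S V _ F G _ C i0 O ω hF
  refine ⟨{ mv := fun y s => y * C.x s
            bar := F.bar
            E := Edge C.x F.bar ω
            err := Err C.x F.bar F.deg ω
            blocks := {b | ∃ g i, Perf C ω g i ∧ b = (F.K i).image fun v => g * C.f v}
            bar_bar := F.bar_bar
            symm := edge_symm
            disj := ?_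
            closed := ?_
            iso := ?_ }, rfl, rfl, rfl, rfl, fun g v g' v' => perf_uniq⟩
  · rintro b ⟨g, i, h, rfl⟩ b' ⟨g', i', h', rfl⟩ y hy hy'
    obtain ⟨v, hv, rfl⟩ := mem_image.1 hy
    obtain ⟨v', hv', e⟩ := mem_image.1 hy'
    obtain rfl := (F.mem_K _ _).1 hv
    obtain rfl := (F.mem_K _ _).1 hv'
    obtain rfl := perf_uniq h' h e
    rw [mul_right_cancel e]
  · rintro b ⟨g, i, h, rfl⟩
    exact closed h
  · intro B
    induction B using Finset.strongInduction with
    | H B ih =>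
    intro hB
    by_cases hex : ∃ y ∈ B, ∃ g v, y = g * C.f v ∧ Perf C ω g (F.comp v)
    · obtain ⟨y, hy, g, v, rfl, h⟩ := hex
      set b := (F.K (F.comp v)).image fun v => g * C.f v with hb
      have hbm : g * C.f v ∈ b := mem_image.2 ⟨v, (F.mem_K _ _).2 rfl, rfl⟩
      have h1 := bdry_split (fun y s => y * C.x s) (Edge C.x F.bar ω) (Err C.x F.bar F.deg ω) B b
        (fun y hy s hs => (closed h y hy).2 s hs) (fun y s hs hy => by
          have := (closed h _ hy).2 _ (edge_symm y s hs).1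
          rwa [(edge_symm y s hs).2] at this)
      have h2 := block_iso O h (B ∩ b) inter_subset_right (hB b ⟨g, _, h, rfl⟩)
      have h3 := ih (B \ b) (Finset.ssubset_iff_subset_ne.2 ⟨sdiff_subset, fun e => by
        rw [← e] at hy
        exact (mem_sdiff.1 hy).2 hbm⟩) (fun b' hb' => le_trans (Nat.mul_le_mul_left _
          (card_le_card (inter_subset_inter_right sdiff_subset))) (hB b' hb'))
      have h4 := card_sdiff_add_card_inter B b
      have h5 := F.cardS
      have h6 := Nat.mul_le_mul_left (20 * Fintype.card S) h1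
      nlinarith
    · exact hI S V F G C i0 O ω hF B fun y hy g v e hp => hex ⟨y, hy, g, v, e, hp⟩

end Vale.Agent.P089
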