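import Mathlib
import Vale.Agent.P089.Base

/-! P089: sums over darts of an `IsoGraph`, the co-area inequality. -/

namespace Vale.Agent.P089.Cheeger

open Finset

variable {Y S : Type} [Fintype S] [DecidableEq Y] {M : ℕ} (I : IsoGraph Y S M)

open Classical in
/-- Sum over the darts starting in `T`. -/
noncomputable def ds (T : Finset Y) (F : Y → Y → ℝ) : ℝ :=
  ∑ y ∈ T, ∑ s, if I.E y s then F y (I.mv y s) else 0

open Classical in
/-- Sum over the error vertices in `T`. -/
noncomputable def es (T : Finset Y) (f : Y → ℝ) : ℝ := ∑ y ∈ T, if I.err y then f y else 0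

variable {I}

theorem ds_mono {T : Finset Y} {F F' : Y → Y → ℝ}
    (h : ∀ y ∈ T, ∀ s, I.E y s → F y (I.mv y s) ≤ F' y (I.mv y s)) : ds I T F ≤ ds I T F' := by
  refine sum_le_sum fun y hy => sum_le_sum fun s _ => ?_
  split_ifs with hE
  · exact h y hy s hE
  · exact le_rfl

theorem ds_congr {T : Finset Y} {F F' : Y → Y → ℝ}
    (h : ∀ y ∈ T, ∀ s, I.E y s → F y (I.mv y s) = F' y (I.mv y s)) : ds I T F = ds I T F' :=
  le_antisymm (ds_mono fun y hy s hs => (h y hy s hs).le) (ds_mono fun y hy s hs => (h y hy s hs).ge)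

theorem ds_add (T : Finset Y) (F F' : Y → Y → ℝ) :
    ds I T (fun y z => F y z + F' y z) = ds I T F + ds I T F' := by
  unfold ds
  rw [← sum_add_distrib]
  refine sum_congr rfl fun y _ => ?_
  rw [← sum_add_distrib]
  refine sum_congr rfl fun s _ => ?_
  split_ifs <;> simp

theorem ds_mul (T : Finset Y) (c : ℝ) (F : Y → Y → ℝ) :
    ds I T (fun y z => c * F y z) = c * ds I T F := by
  unfold ds
  rw [mul_sum]
  refine sum_congr rfl fun y _ => ?_
  rw [mul_sum]
  refine sum_congr rfl fun s _ => ?_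
  split_ifs <;> simp

theorem ds_nonneg {T : Finset Y} {F : Y → Y → ℝ} (h : ∀ y z, 0 ≤ F y z) : 0 ≤ ds I T F := by
  refine sum_nonneg fun y _ => sum_nonneg fun s _ => ?_
  split_ifs
  · exact h _ _
  · exact le_rfl

theorem es_mono {T : Finset Y} {f f' : Y → ℝ} (h : ∀ y ∈ T, I.err y → f y ≤ f' y) :
    es I T f ≤ es I T f' := by
  refine sum_le_sum fun y hy => ?_
  split_ifs with hE
  · exact h y hy hE
  · exact le_rfl

theorem es_congr {T : Finset Y} {f f' : Y → ℝ} (h : ∀ y ∈ T, I.err y → f y = f' y) :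
    es I T f = es I T f' :=
  le_antisymm (es_mono fun y hy hs => (h y hy hs).le) (es_mono fun y hy hs => (h y hy hs).ge)

theorem es_add (T : Finset Y) (f f' : Y → ℝ) :
    es I T (fun y => f y + f' y) = es I T f + es I T f' := by
  unfold es
  rw [← sum_add_distrib]
  refine sum_congr rfl fun y _ => ?_
  split_ifs <;> simp

theorem es_mul (T : Finset Y) (c : ℝ) (f : Y → ℝ) :
    es I T (fun y => c * f y) = c * es I T f := by
  unfold es
  rw [mul_sum]
  refine sum_congr rfl fun y _ => ?_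
  split_ifs <;> simp

theorem es_nonneg {T : Finset Y} {f : Y → ℝ} (h : ∀ y, 0 ≤ f y) : 0 ≤ es I T f := by
  refine sum_nonneg fun y _ => ?_
  split_ifs
  · exact h _
  · exact le_rfl

theorem es_le {T : Finset Y} {f : Y → ℝ} (h : ∀ y, 0 ≤ f y) : es I T f ≤ ∑ y ∈ T, f y := by
  refine sum_le_sum fun y _ => ?_
  split_ifs
  · exact le_rfl
  · exact h _

theorem ds_swap (T : Finset Y) (F : Y → Y → ℝ) :
    ds I T (fun y z => if z ∈ T then F y z else 0) =
      ds I T (fun y z => if z ∈ T then F z y else 0) := by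
  classical
  have key : ∀ F : Y → Y → ℝ, ds I T (fun y z => if z ∈ T then F y z else 0) =
      ∑ p ∈ (T ×ˢ (univ : Finset S)).filter (fun p => I.E p.1 p.2 ∧ I.mv p.1 p.2 ∈ T),
        F p.1 (I.mv p.1 p.2) := by
    intro F
    rw [sum_filter, sum_product]
    refine sum_congr rfl fun y _ => sum_congr rfl fun s _ => ?_
    by_cases h1 : I.E y s <;> by_cases h2 : I.mv y s ∈ T <;> simp [h1, h2]
  rw [key, key (fun y z => F z y)]
  have hm : ∀ p ∈ (T ×ˢ (univ : Finset S)).filter (fun p => I.E p.1 p.2 ∧ I.mv p.1 p.2 ∈ T),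
      (I.mv p.1 p.2, I.bar p.2) ∈
        (T ×ˢ (univ : Finset S)).filter (fun p => I.E p.1 p.2 ∧ I.mv p.1 p.2 ∈ T) := by
    intro p hp
    simp only [mem_filter, mem_product, mem_univ, and_true] at hp ⊢
    obtain ⟨h1, h2⟩ := I.symm _ _ hp.2.1
    exact ⟨hp.2.2, h1, h2.symm ▸ hp.1⟩
  have hi : ∀ p ∈ (T ×ˢ (univ : Finset S)).filter (fun p => I.E p.1 p.2 ∧ I.mv p.1 p.2 ∈ T),
      (I.mv (I.mv p.1 p.2) (I.bar p.2), I.bar (I.bar p.2)) = p := by
    intro p hp
    rw [(I.symm _ _ (mem_filter.1 hp).2.1).2, I.bar_bar]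
  refine sum_nbij' (fun p => (I.mv p.1 p.2, I.bar p.2)) (fun p => (I.mv p.1 p.2, I.bar p.2))
    hm hm hi hi fun p hp => ?_
  rw [(I.symm _ _ (mem_filter.1 hp).2.1).2]

theorem ds_snd_le {T : Finset Y} {h : Y → ℝ} (h0 : ∀ y, 0 ≤ h y) (hT : ∀ y, y ∉ T → h y = 0) :
    ds I T (fun _ z => h z) ≤ ds I T (fun y _ => h y) := by
  have h1 : ds I T (fun _ z => h z) = ds I T (fun y z => if z ∈ T then h z else 0) :=
    ds_congr fun y _ s _ => by
      split_ifs with hz
      · rfl
      · exact hT _ hz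
  rw [h1, ds_swap T fun _ z => h z]
  refine ds_mono fun y _ s _ => ?_
  split_ifs
  · exact le_rfl
  · exact h0 y

theorem ds_fst_le {T : Finset Y} {h : Y → ℝ} (h0 : ∀ y, 0 ≤ h y) :
    ds I T (fun y _ => h y) ≤ Fintype.card S * ∑ y ∈ T, h y := by
  unfold ds
  rw [mul_sum]
  refine sum_le_sum fun y _ => ?_
  rw [← card_univ, ← nsmul_eq_mul]
  refine sum_le_card_nsmul _ _ _ fun s _ => ?_
  split_ifs
  · exact le_rfl
  · exact h0 y

theorem bdry_eq {T B : Finset Y} (hB : B ⊆ T) : (bdry I.mv I.E I.err B : ℝ) =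
    ds I T (fun y z => if y ∈ B ∧ z ∉ B then 1 else 0) +
      es I T (fun y => if y ∈ B then 1 else 0) := by
  unfold bdry ds es
  rw [card_filter, card_filter, sum_product]
  push_cast
  refine congrArg₂ _ ?_ ?_
  · refine (sum_congr rfl fun y hy => sum_congr rfl fun s _ => ?_).trans
      (sum_subset hB fun y _ hy => sum_eq_zero fun s _ => by simp [hy])
    by_cases h1 : I.E y s <;> by_cases h2 : I.mv y s ∈ B <;> simp [h1, h2, hy]
  · refine (sum_congr rfl fun y hy => ?_).trans (sum_subset hB fun y _ hy => by simp [hy])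
    simp [hy]

theorem coarea (T : Finset Y) (n : ℕ) : ∀ (B : Finset Y) (g : Y → ℝ), B.card = n → B ⊆ T →
    (∀ y, 0 ≤ g y) → (∀ y, y ∉ B → g y = 0) → (∀ b ∈ I.blocks, 2 * (B ∩ b).card ≤ b.card) →
    ∑ y ∈ T, g y ≤ M * (ds I T (fun y z => max (g y - g z) 0) + es I T g) := by
  induction n with
  | zero =>
    intro B g hn _ hg0 hg _
    rw [card_eq_zero] at hn
    rw [sum_eq_zero fun y _ => hg y (by simp [hn])]
    exact mul_nonneg (Nat.cast_nonneg _)
      (add_nonneg (ds_nonneg fun _ _ => le_max_right _ _) (es_nonneg hg0))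
  | succ n ih =>
    intro B g hn hB hg0 hg hb
    obtain ⟨x, hx, hmin⟩ := exists_min_image B g (card_pos.1 (by omega))
    set g' : Y → ℝ := fun y => g y - g x * if y ∈ B then 1 else 0 with hg'
    have h1 := ih (B.erase x) g' (by rw [card_erase_of_mem hx]; omega)
      ((erase_subset _ _).trans hB)
      (fun y => by
        by_cases hy : y ∈ B
        · simp only [hg', if_pos hy]; linarith [hmin y hy]
        · simp only [hg', if_neg hy]; linarith [hg0 y])
      (fun y hy => by
        by_cases hyx : y = x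
        · simp [hg', hyx, hx]
        · have hy' : y ∉ B := fun h => hy (mem_erase.2 ⟨hyx, h⟩)
          simp [hg', hy', hg y hy'])
      (fun b hb' => le_trans (Nat.mul_le_mul_left _ (card_le_card
        (inter_subset_inter_right (erase_subset _ _)))) (hb b hb'))
    have h2 : (B.card : ℝ) ≤ M * (bdry I.mv I.E I.err B : ℝ) := by exact_mod_cast I.iso B hb
    rw [bdry_eq hB] at h2
    have h3 : ∑ y ∈ T, g y = ∑ y ∈ T, g' y + g x * B.card := by
      simp only [hg', sum_sub_distrib, ← mul_sum, sum_ite_mem, inter_eq_right.2 hB, sum_const,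
        nsmul_eq_mul, mul_one]
      ring
    have h4 : ds I T (fun y z => max (g' y - g' z) 0) +
        g x * ds I T (fun y z => if y ∈ B ∧ z ∉ B then 1 else 0) ≤
        ds I T (fun y z => max (g y - g z) 0) := by
      rw [← ds_mul, ← ds_add]
      refine ds_mono fun y _ s _ => ?_
      generalize I.mv y s = z
      have := hg0 x
      have := hg0 z
      by_cases hy : y ∈ B <;> by_cases hz : z ∈ B
      · simp [hg', hy, hz]
      · have := hmin y hy
        simp only [hg', hy, hz, hg z hz, if_true, if_false, not_false_iff, and_self]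
        rw [max_eq_left (by linarith), max_eq_left (by linarith)]
        linarith
      · have := hmin z hz
        simp only [hg', hy, hz, hg y hy, if_true, if_false, false_and]
        rw [max_eq_right (by linarith), max_eq_right (by linarith)]
        linarith
      · simp [hg', hy, hz]
    have h5 : es I T g' + g x * es I T (fun y => if y ∈ B then 1 else 0) = es I T g := by
      rw [← es_mul, ← es_add]
      exact es_congr fun y _ _ => by simp only [hg']; ring
    have h6 := mul_le_mul_of_nonneg_left h2 (hg0 x)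
    have h7 := mul_le_mul_of_nonneg_left h4 (Nat.cast_nonneg M : (0 : ℝ) ≤ M)
    rw [h3, ← h5]
    nlinarith

theorem step2 {T B : Finset Y} (hB : B ⊆ T) (ξ : Y → ℝ) (hξ : ∀ y, y ∉ B → ξ y = 0)
    (hb : ∀ b ∈ I.blocks, 2 * (B ∩ b).card ≤ b.card) :
    ∑ y ∈ T, ξ y ^ 2 ≤ (2 * M * (4 * M * Fintype.card S + 2) + 1) *
      (ds I T (fun y z => (ξ y - ξ z) ^ 2) / 2 + es I T (fun y => ξ y ^ 2)) := by
  have h1 := coarea (I := I) T _ B (fun y => ξ y ^ 2) rfl hB (fun y => sq_nonneg _)
    (fun y hy => by rw [hξ y hy]; norm_num) hb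
  set σ : ℝ := (Fintype.card S : ℝ) with hσ
  have hσ0 : 0 ≤ σ := Nat.cast_nonneg _
  have hM0 : (0 : ℝ) ≤ M := Nat.cast_nonneg _
  set t : ℝ := 4 * M * σ + 1 with ht
  have ht0 : 0 < t := by positivity
  have h2 : t * ds I T (fun y z => max (ξ y ^ 2 - ξ z ^ 2) 0) ≤
      t ^ 2 / 2 * ds I T (fun y z => (ξ y - ξ z) ^ 2) +
        (ds I T (fun y _ => ξ y ^ 2) + ds I T (fun _ z => ξ z ^ 2)) := by
    rw [← ds_mul, ← ds_mul, ← ds_add, ← ds_add]
    refine ds_mono fun y _ s _ => ?_
    generalize ξ y = a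
    generalize ξ (I.mv y s) = b
    rcases le_total (a ^ 2 - b ^ 2) 0 with h | h
    · rw [max_eq_right h, mul_zero]; positivity
    · rw [max_eq_left h]
      nlinarith [sq_nonneg (t * (a - b) - (a + b)), sq_nonneg (a - b)]
  have h3 := ds_snd_le (I := I) (T := T) (h := fun y => ξ y ^ 2) (fun y => sq_nonneg _)
    (fun y hy => by rw [hξ y fun h => hy (hB h)]; norm_num)
  have h4 := ds_fst_le (I := I) (T := T) (h := fun y => ξ y ^ 2) (fun y => sq_nonneg _)
  have h5 : 0 ≤ ds I T (fun y z => (ξ y - ξ z) ^ 2) := ds_nonneg fun _ _ => sq_nonneg _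
  have h6 : 0 ≤ es I T (fun y => ξ y ^ 2) := es_nonneg fun _ => sq_nonneg _
  have h7 : 0 ≤ ∑ y ∈ T, ξ y ^ 2 := sum_nonneg fun _ _ => sq_nonneg _
  rw [← hσ] at h4
  generalize ∑ y ∈ T, ξ y ^ 2 = N at *
  generalize ds I T (fun y z => (ξ y - ξ z) ^ 2) = D at *
  generalize es I T (fun y => ξ y ^ 2) = R at *
  generalize ds I T (fun y z => max (ξ y ^ 2 - ξ z ^ 2) 0) = P at *
  have h8 : t * P ≤ t ^ 2 / 2 * D + 2 * σ * N := by linarith
  have h9 : t * N ≤ M * (t ^ 2 / 2 * D + 2 * σ * N) + t * M * R := by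
    nlinarith [mul_le_mul_of_nonneg_left h1 ht0.le, mul_le_mul_of_nonneg_left h8 hM0]
  have h10 : t * N ≤ t * (M * t * D + 2 * M * R) := by
    have : 2 * (M * (2 * σ * N)) ≤ t * N := by rw [ht]; nlinarith
    nlinarith
  have h11 := le_of_mul_le_mul_left h10 ht0
  have h12 : 4 * M * σ + 2 = t + 1 := by rw [ht]; ring
  rw [h12]
  nlinarith [mul_nonneg hM0 h5, mul_nonneg (mul_nonneg hM0 ht0.le) h6]

open Classical in
theorem form_eq {T : Finset Y} (η : Y →₀ ℝ) (hT : η.support ⊆ T) (ξ : Y → ℝ) :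
    (η.sum fun y r => r * ((∑ s, if I.E y s then ξ y - ξ (I.mv y s) else 0) +
      if I.err y then ξ y else 0)) =
      ds I T (fun y z => η y * (ξ y - ξ z)) + es I T (fun y => η y * ξ y) := by
  rw [Finsupp.sum_of_support_subset _ hT _ fun _ _ => by rw [zero_mul]]
  unfold ds es
  rw [← sum_add_distrib]
  refine sum_congr rfl fun y _ => ?_
  simp only [mul_add, mul_sum, mul_ite, mul_zero]

theorem half_le {T : Finset Y} (η : Y → ℝ) (hT : ∀ y, y ∉ T → η y = 0) :
    ds I T (fun y z => (η y - η z) ^ 2) / 2 ≤ ds I T (fun y z => η y * (η y - η z)) := by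
  have h3 := ds_snd_le (I := I) (T := T) (h := fun y => η y ^ 2) (fun y => sq_nonneg _)
    (fun y hy => by rw [hT y hy]; norm_num)
  have h4 : ds I T (fun y z => (η y - η z) ^ 2) + ds I T (fun y _ => η y ^ 2) =
      2 * ds I T (fun y z => η y * (η y - η z)) + ds I T (fun _ z => η z ^ 2) := by
    rw [← ds_mul, ← ds_add, ← ds_add]
    exact ds_congr fun y _ s _ => by ring
  linarith

end Vale.Agent.P089.Cheeger
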