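import Mathlib
import Vale.Agent.P089.CheegerA

/-! P089: the Cheeger inequality for functions of mean zero on blocks. -/

namespace Vale.Agent.P089

open Finset

namespace Cheeger

theorem exists_median {Y : Type} (b : Finset Y) (f : Y → ℝ) :
    ∃ m : ℝ, 2 * (b.filter fun y => m < f y).card ≤ b.card ∧
      2 * (b.filter fun y => f y < m).card ≤ b.card ∧ ((∀ y ∈ b, f y = 0) → m = 0) := by
  by_cases h0 : ∀ y ∈ b, f y = 0
  · refine ⟨0, ?_, ?_, fun _ => rfl⟩
    · rw [filter_false_of_mem fun y hy => by rw [h0 y hy]; exact lt_irrefl _]; simp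
    · rw [filter_false_of_mem fun y hy => by rw [h0 y hy]; exact lt_irrefl _]; simp
  have hne : b.Nonempty := by
    by_contra hc
    exact h0 fun y hy => absurd ⟨y, hy⟩ hc
  obtain ⟨x, hx, hxm⟩ := exists_max_image b f hne
  obtain ⟨y0, hy0, hmin⟩ := exists_min_image
    (b.filter fun y => 2 * (b.filter fun z => f y < f z).card ≤ b.card) f
    ⟨x, mem_filter.2 ⟨hx, by
      rw [filter_false_of_mem fun z hz => not_lt.2 (hxm z hz)]; simp⟩⟩
  refine ⟨f y0, (mem_filter.1 hy0).2, ?_, fun h => absurd h h0⟩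
  by_contra hc
  obtain ⟨y1, hy1, hmax⟩ := exists_max_image (b.filter fun y => f y < f y0) f
    (card_pos.1 (by omega))
  have h1 : (b.filter fun z => f y1 < f z) ⊆ b.filter fun y => ¬ f y < f y0 := by
    intro z hz
    obtain ⟨hz1, hz2⟩ := mem_filter.1 hz
    exact mem_filter.2 ⟨hz1, fun h => (hmax z (mem_filter.2 ⟨hz1, h⟩)).not_gt hz2⟩
  have h2 := card_le_card h1
  have h3 := card_filter_add_card_filter_not (s := b) fun y => f y < f y0
  have h4 := hmin y1 (mem_filter.2 ⟨(mem_filter.1 hy1).1, by omega⟩)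
  exact h4.not_gt (mem_filter.1 hy1).2

variable {Y S : Type} [Fintype S] [DecidableEq Y] {M : ℕ} (I : IsoGraph Y S M)

open Classical in
/-- The block containing `y`, or the empty set. -/
noncomputable def blk (y : Y) : Finset Y :=
  if h : ∃ b ∈ I.blocks, y ∈ b then h.choose else ∅

variable {I}

theorem blk_eq {b : Finset Y} (hb : b ∈ I.blocks) {y : Y} (hy : y ∈ b) : blk I y = b := by
  have h : ∃ b ∈ I.blocks, y ∈ b := ⟨b, hb, hy⟩
  rw [blk, dif_pos h]
  exact I.disj _ h.choose_spec.1 _ hb y h.choose_spec.2 hy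

theorem blk_cases (y : Y) : (blk I y ∈ I.blocks ∧ y ∈ blk I y) ∨
    (blk I y = ∅ ∧ ∀ b ∈ I.blocks, y ∉ b) := by
  by_cases h : ∃ b ∈ I.blocks, y ∈ b
  · obtain ⟨b, hb, hy⟩ := h
    rw [blk_eq hb hy]
    exact Or.inl ⟨hb, hy⟩
  · exact Or.inr ⟨by rw [blk, dif_neg h], fun b hb hy => h ⟨b, hb, hy⟩⟩

theorem blk_mv {y : Y} {s : S} (h : I.E y s) : blk I (I.mv y s) = blk I y := by
  rcases blk_cases (I := I) y with ⟨h1, h2⟩ | ⟨h1, h2⟩
  · exact blk_eq h1 ((I.closed _ h1 y h2).2 s h)
  · rcases blk_cases (I := I) (I.mv y s) with ⟨h3, h4⟩ | ⟨h3, -⟩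
    · have h5 := (I.closed _ h3 _ h4).2 _ (I.symm y s h).1
      rw [(I.symm y s h).2] at h5
      exact absurd h5 (h2 _ h3)
    · rw [h1, h3]

end Cheeger

open Cheeger

theorem cheegerS : CheegerStmt := by
  intro σ M
  refine ⟨(2 * M * (4 * M * σ + 2) + 1 : ℝ)⁻¹, by positivity, ?_⟩
  intro Y S _ _ I hσ η hη
  choose med hmed1 hmed2 hmed0 using fun b : Finset Y => exists_median b η
  set T : Finset Y := η.support ∪ η.support.biUnion (blk I) with hT
  have hsT : η.support ⊆ T := subset_union_left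
  have hη0 : ∀ y, y ∉ T → η y = 0 := fun y hy => Finsupp.notMem_support_iff.1 fun h => hy (hsT h)
  have hme : med ∅ = 0 := hmed0 ∅ fun y hy => absurd hy (notMem_empty y)
  have hμ0 : ∀ y, y ∉ T → med (blk I y) = 0 := by
    intro y hy
    rcases blk_cases (I := I) y with ⟨h1, h2⟩ | ⟨h1, -⟩
    · refine hmed0 _ fun x hx => ?_
      by_contra hc
      refine hy (mem_union_right _ (mem_biUnion.2 ⟨x, Finsupp.mem_support_iff.2 hc, ?_⟩))
      rw [blk_eq h1 hx]; exact h2
    · rw [h1, hme]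
  have horth : ∑ y ∈ T, η y * med (blk I y) = 0 := by
    rw [← sum_fiberwise_of_maps_to (g := blk I) (t := T.image (blk I))
      fun y hy => mem_image_of_mem _ hy]
    refine sum_eq_zero fun b hb => ?_
    obtain ⟨x, -, rfl⟩ := mem_image.1 hb
    rw [sum_congr rfl (g := fun y => η y * med (blk I x))
      fun y hy => by rw [(mem_filter.1 hy).2], ← sum_mul]
    rcases blk_cases (I := I) x with ⟨h1, h2⟩ | ⟨h1, -⟩
    · rw [sum_subset (s₂ := blk I x), hη _ h1, zero_mul]
      · intro y hy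
        rcases blk_cases (I := I) y with ⟨-, h4⟩ | ⟨h3, -⟩
        · exact (mem_filter.1 hy).2 ▸ h4
        · rw [← (mem_filter.1 hy).2, h3] at h2
          exact absurd h2 (notMem_empty x)
      · intro y hy hy'
        exact hη0 y fun h => hy' (mem_filter.2 ⟨h, blk_eq h1 hy⟩)
    · rw [h1, hme, mul_zero]
  set ζ : Y → ℝ := fun y => η y - med (blk I y) with hζ
  have hζ0 : ∀ y, y ∉ T → ζ y = 0 := fun y hy => by simp only [hζ, hη0 y hy, hμ0 y hy, sub_zero]
  have hN : nsq η ≤ ∑ y ∈ T, ζ y ^ 2 := by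
    rw [nsq, Finsupp.sum_of_support_subset _ hsT _ fun _ _ => by norm_num]
    have h1 : ∑ y ∈ T, ζ y ^ 2 = ∑ y ∈ T, η y ^ 2 - 2 * ∑ y ∈ T, η y * med (blk I y) +
        ∑ y ∈ T, med (blk I y) ^ 2 := by
      rw [mul_sum, ← sum_sub_distrib, ← sum_add_distrib]
      exact sum_congr rfl fun y _ => by simp only [hζ]; ring
    have h2 : 0 ≤ ∑ y ∈ T, med (blk I y) ^ 2 := sum_nonneg fun _ _ => sq_nonneg _
    rw [h1, horth]
    linarith
  have hp := step2 (I := I) (filter_subset (fun y => 0 < ζ y) T) (fun y => max (ζ y) 0)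
    (fun y hy => by
      by_cases hyT : y ∈ T
      · exact max_eq_right (not_lt.1 fun h => hy (mem_filter.2 ⟨hyT, h⟩))
      · rw [hζ0 y hyT, max_self])
    (fun b hb => le_trans (Nat.mul_le_mul_left _ (card_le_card fun y hy => by
      obtain ⟨h1, h2⟩ := mem_inter.1 hy
      have h3 := (mem_filter.1 h1).2
      simp only [hζ, blk_eq hb h2] at h3
      exact mem_filter.2 ⟨h2, by linarith⟩)) (hmed1 b))
  have hm := step2 (I := I) (filter_subset (fun y => ζ y < 0) T) (fun y => min (ζ y) 0)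
    (fun y hy => by
      by_cases hyT : y ∈ T
      · exact min_eq_right (not_lt.1 fun h => hy (mem_filter.2 ⟨hyT, h⟩))
      · rw [hζ0 y hyT, min_self])
    (fun b hb => le_trans (Nat.mul_le_mul_left _ (card_le_card fun y hy => by
      obtain ⟨h1, h2⟩ := mem_inter.1 hy
      have h3 := (mem_filter.1 h1).2
      simp only [hζ, blk_eq hb h2] at h3
      exact mem_filter.2 ⟨h2, by linarith⟩)) (hmed2 b))
  have hsq : ∀ a : ℝ, max a 0 ^ 2 + min a 0 ^ 2 = a ^ 2 := fun a => by
    rcases le_total a 0 with h | h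
    · rw [max_eq_right h, min_eq_left h]; ring
    · rw [max_eq_left h, min_eq_right h]; ring
  have h1 : ∑ y ∈ T, max (ζ y) 0 ^ 2 + ∑ y ∈ T, min (ζ y) 0 ^ 2 = ∑ y ∈ T, ζ y ^ 2 := by
    rw [← sum_add_distrib]
    exact sum_congr rfl fun y _ => hsq _
  have h2 : es I T (fun y => max (ζ y) 0 ^ 2) + es I T (fun y => min (ζ y) 0 ^ 2) =
      es I T (fun y => η y * η y) := by
    rw [← es_add]
    refine es_congr fun y _ he => ?_
    rw [hsq]
    rcases blk_cases (I := I) y with ⟨h1, h2⟩ | ⟨h1, -⟩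
    · exact absurd he (I.closed _ h1 y h2).1
    · simp only [hζ, h1, hme, sub_zero, sq]
  have h3 : ds I T (fun y z => (max (ζ y) 0 - max (ζ z) 0) ^ 2) +
      ds I T (fun y z => (min (ζ y) 0 - min (ζ z) 0) ^ 2) ≤
      ds I T (fun y z => (η y - η z) ^ 2) := by
    rw [← ds_add]
    refine ds_mono fun y _ s hs => ?_
    have h4 : η y - η (I.mv y s) = ζ y - ζ (I.mv y s) := by simp only [hζ, blk_mv hs]; ring
    rw [h4]
    generalize ζ y = a
    generalize ζ (I.mv y s) = b
    rcases le_total a 0 with h | h <;> rcases le_total b 0 with h' | h'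
    · rw [max_eq_right h, min_eq_left h, max_eq_right h', min_eq_left h']; nlinarith
    · rw [max_eq_right h, min_eq_left h, max_eq_left h', min_eq_right h']; nlinarith
    · rw [max_eq_left h, min_eq_right h, max_eq_right h', min_eq_left h']; nlinarith
    · rw [max_eq_left h, min_eq_right h, max_eq_left h', min_eq_right h']; nlinarith
  have h4 := half_le (I := I) (T := T) η hη0
  have h5 := form_eq (I := I) η hsT η
  have h6 : (η.sum fun y r => r * ((∑ s, @ite _ (I.E y s) (Classical.propDecidable _)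
      (r - η (I.mv y s)) 0) + @ite _ (I.err y) (Classical.propDecidable _) r 0)) =
      ds I T (fun y z => η y * (η y - η z)) + es I T (fun y => η y * η y) := h5
  rw [h6, inv_mul_le_iff₀ (by positivity)]
  rw [hσ] at hp hm
  have hC : (0 : ℝ) ≤ 2 * M * (4 * M * σ + 2) + 1 := by positivity
  refine hN.trans (h1.ge.trans ((add_le_add hp hm).trans ?_))
  rw [← mul_add]
  exact mul_le_mul_of_nonneg_left (by linarith) hC

end Vale.Agent.P089
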