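import Mathlib
import Vale.Agent.P089.BaseB

/- P089 part B: the cutoff projections and the Clifford trick. -/

namespace Vale.Agent.P089

namespace Cliff

theorem sum_shift {α M : Type} [AddCommMonoid M] (e : α ≃ α) (s : Finset α) {f g : α → M}
    (h1 : ∀ x ∈ s, e x ∉ s → f x = 0) (h2 : ∀ x, x ∉ s → e x ∈ s → g (e x) = 0)
    (h3 : ∀ x ∈ s, e x ∈ s → f x = g (e x)) : ∑ x ∈ s, f x = ∑ x ∈ s, g x := by
  rw [Finset.sum_congr_of_eq_on_inter (s₂ := s.map e.symm.toEmbedding) (g := fun x => g (e x))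
    (fun x hx h => h1 x hx (by simpa using h)) (fun x hx h => h2 x h (by simpa using hx))
    fun x hx h => h3 x hx (by simpa using h), Finset.sum_map]
  simp

theorem sq_sum {ι E : Type} [Ring E] (s : Finset ι) (x : ι → E)
    (h : ∀ j l, j ≠ l → x j * x l + x l * x j = 0) :
    (∑ j ∈ s, x j) * ∑ j ∈ s, x j = ∑ j ∈ s, x j * x j := by
  classical
  induction s using Finset.induction_on with
  | empty => simp
  | insert a s ha ih =>
    have : x a * ∑ j ∈ s, x j + (∑ j ∈ s, x j) * x a = 0 := by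
      rw [Finset.mul_sum, Finset.sum_mul, ← Finset.sum_add_distrib]
      exact Finset.sum_eq_zero fun j hj => h a j fun e => ha (e ▸ hj)
    rw [Finset.sum_insert ha, Finset.sum_insert ha, ← ih, add_mul, mul_add, mul_add, add_assoc,
      ← add_assoc (x a * ∑ j ∈ s, x j), this, zero_add]

variable {n : ℕ}

/-- flip one coordinate -/
def fl (j : Fin n) (ε : Fin n → Bool) : Fin n → Bool := Function.update ε j (!ε j)

theorem fl_self (j : Fin n) (ε : Fin n → Bool) : fl j ε j = !ε j := Function.update_self ..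

theorem fl_ne {j l : Fin n} (h : l ≠ j) (ε : Fin n → Bool) : fl j ε l = ε l :=
  Function.update_of_ne h ..

theorem fl_fl (j : Fin n) (ε : Fin n → Bool) : fl j (fl j ε) = ε := by simp [fl]

theorem fl_comm {j l : Fin n} (h : j ≠ l) (ε : Fin n → Bool) : fl j (fl l ε) = fl l (fl j ε) := by
  rw [fl, fl_ne h, fl, fl, fl_ne h.symm, fl, Function.update_comm h]

/-- a sign -/
def sg (T : Finset (Fin n)) (ε : Fin n → Bool) : ℤ := ∏ l ∈ T, if ε l then -1 else 1

theorem sg_sq (T : Finset (Fin n)) (ε : Fin n → Bool) : sg T ε * sg T ε = 1 := by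
  rw [sg, ← Finset.prod_mul_distrib]
  exact Finset.prod_eq_one fun l _ => by split_ifs <;> rfl

theorem sg_out {T : Finset (Fin n)} {j : Fin n} (h : j ∉ T) (ε : Fin n → Bool) :
    sg T (fl j ε) = sg T ε :=
  Finset.prod_congr rfl fun l hl => by rw [fl_ne (ne_of_mem_of_not_mem hl h)]

theorem sg_in {T : Finset (Fin n)} {j : Fin n} (h : j ∈ T) (ε : Fin n → Bool) :
    sg T (fl j ε) = -sg T ε := by
  have := sg_out (Finset.notMem_erase j T) ε
  rw [sg, sg] at this
  rw [sg, sg, ← Finset.mul_prod_erase _ _ h, ← Finset.mul_prod_erase _ _ h, this, fl_self]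
  cases ε j <;> simp

theorem alg {E : Type} [Ring E] (hn : 0 < n) (G : AddSubgroup E) (p : (Fin n → Bool) → E)
    (d : Fin n → Bool → E) (N : Fin n → E) (h0 : ∀ ε j e, p ε * d j e ∈ G)
    (h1 : ∀ ε, p ε * p ε = p ε) (h2 : ∀ ε j, d j (ε j) * p (fl j ε) = p ε * d j (ε j))
    (h3 : ∀ j e, d j e * d j (!e) = N j) (h4 : ∀ j l e e', j ≠ l → Commute (d j e) (d l e'))
    (h5 : ∀ ε, p ε * ∑ j, N j = p ε) :
    ∃ (par : (Fin n → Bool) → Bool) (W : Matrix (Fin n → Bool) (Fin n → Bool) E),
      (∑ ε, (if par ε then (1 : ℂ) else -1)) = 0 ∧ (∀ ε δ, W ε δ ∈ G) ∧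
      (∀ ε δ, par ε = par δ → W ε δ = 0) ∧ (∀ ε δ, W ε δ * p δ = W ε δ) ∧
      (∀ ε δ, p ε * W ε δ = W ε δ) ∧ W * W = Matrix.diagonal p := by
  let V : Fin n → Matrix (Fin n → Bool) (Fin n → Bool) E := fun j => Matrix.of fun ε δ =>
    if ε = fl j δ then sg (Finset.Iio j) δ • (p ε * d j (ε j)) else 0
  have h6 (ε j) : p ε * d j (ε j) * p (fl j ε) = p ε * d j (ε j) := by
    rw [mul_assoc, h2, ← mul_assoc, h1]
  have hV (j l ε δ) : (V j * V l) ε δ = if ε = fl j (fl l δ) then
      (sg (Finset.Iio j) (fl l δ) * sg (Finset.Iio l) δ) • (p ε * (d j (ε j) * d l (fl l δ l)))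
      else 0 := by
    rw [Matrix.mul_apply, Finset.sum_eq_single (fl l δ) (fun γ _ h => by simp [V, h]) (by simp)]
    simp only [V, Matrix.of_apply, if_true]
    split_ifs with h
    · rw [smul_mul_smul_comm, ← mul_assoc, ← mul_assoc, show fl l δ = fl j ε by rw [h, fl_fl], h6]
    · rw [zero_mul]
  have hs (ε : Fin n → Bool) : sg Finset.univ ε = 1 ∨ sg Finset.univ ε = -1 :=
    mul_self_eq_one_iff.1 (sg_sq _ ε)
  refine ⟨fun ε => decide (sg Finset.univ ε = 1), ∑ j, V j, ?_, fun ε δ => ?_, fun ε δ h => ?_,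
    fun ε δ => ?_, fun ε δ => ?_, ?_⟩
  · refine Finset.sum_involution (fun ε _ => fl ⟨0, hn⟩ ε) (fun ε _ => ?_) (fun ε _ _ h => ?_)
      (fun _ _ => Finset.mem_univ _) fun ε _ => fl_fl _ ε
    · rcases hs ε with h | h <;> simp [h, sg_in (Finset.mem_univ _)]
    · simpa [fl_self] using congrFun h ⟨0, hn⟩
  · rw [Matrix.sum_apply]
    refine G.sum_mem fun j _ => ?_
    simp only [V, Matrix.of_apply]
    split_ifs
    exacts [G.zsmul_mem (h0 _ _ _) _, G.zero_mem]
  · rw [Matrix.sum_apply]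
    refine Finset.sum_eq_zero fun j _ => if_neg ?_
    rintro rfl
    dsimp only at h
    rw [sg_in (Finset.mem_univ _)] at h
    rcases hs δ with h' | h' <;> simp [h'] at h
  · rw [Matrix.sum_apply, Finset.sum_mul]
    refine Finset.sum_congr rfl fun j _ => ?_
    simp only [V, Matrix.of_apply]
    split_ifs with h
    · rw [smul_mul_assoc, show δ = fl j ε by rw [h, fl_fl], h6]
    · rw [zero_mul]
  · rw [Matrix.sum_apply, Finset.mul_sum]
    refine Finset.sum_congr rfl fun j _ => ?_
    simp only [V, Matrix.of_apply]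
    split_ifs with h
    · rw [mul_smul_comm, ← mul_assoc, h1]
    · rw [mul_zero]
  · rw [sq_sum]
    · ext ε δ
      simp only [Matrix.sum_apply, hV, fl_fl, Matrix.diagonal_apply]
      split_ifs with h
      · subst h
        simp only [sg_out Finset.notMem_Iio_self, sg_sq, one_smul, fl_self, h3]
        rw [← Finset.mul_sum, h5]
      · exact Finset.sum_const_zero
    · intro j l hjl
      wlog h : l < j generalizing j l
      · rw [add_comm]; exact this l j hjl.symm (lt_of_le_of_ne (not_lt.1 h) hjl)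
      ext ε δ
      rw [Matrix.add_apply, hV, hV, fl_comm hjl.symm, Matrix.zero_apply]
      split_ifs with e
      · have e1 : fl l δ l = ε l := by rw [e, fl_ne hjl.symm]
        have e2 : fl j δ j = ε j := by rw [e, fl_comm hjl, fl_ne hjl]
        rw [e1, e2, sg_in (Finset.mem_Iio.2 h), sg_out (by simpa using h.le), (h4 _ _ _ _ hjl).eq,
          ← add_smul, neg_mul, mul_comm, neg_add_cancel, zero_smul]
      · exact add_zero _

variable {Γ A D Λ : Type} [Group Γ] [NonUnitalCommRing A] [Ring D] [Group Λ]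

/-- the generators -/
noncomputable def am (C : CovRep Γ A D) (g : Γ) (l : Λ) : A →+ MonoidAlgebra D Λ where
  toFun f := MonoidAlgebra.single l (C.π f * C.U g)
  map_zero' := by simp
  map_add' f f' := by rw [map_add, add_mul, MonoidAlgebra.single_add]

theorem am_mul (C : CovRep Γ A D) (g g' : Γ) (l l' : Λ) (f f' : A) :
    am C g l f * am C g' l' f' = am C (g * g') (l * l') (f * C.act g f') := by
  simp only [am, AddMonoidHom.coe_mk, ZeroHom.coe_mk, MonoidAlgebra.single_mul_single, map_mul]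
  rw [mul_assoc, ← mul_assoc (C.U g), C.cov, mul_assoc, mul_assoc]

theorem pk_eq (C : CovRep Γ A D) (c : A) (S : Finset Γ) (κ : Γ → Λ) :
    pk C c S κ = ∑ g ∈ S, am C g (κ g) (c * C.act g c) := rfl

theorem idem (C : CovRep Γ A D) {c : A} (Q : Cut C.act c) {κ : Γ → Λ} (h : MulOn Q.S κ) :
    pk C c Q.S κ * pk C c Q.S κ = pk C c Q.S κ := by
  have e (g k) : c * C.act g c * C.act g (c * C.act k c) =
      C.act g c * C.act g c * (c * C.act (g * k) c) := by
    rw [map_mul (C.act g), map_mul C.act, RingAut.mul_apply]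
    simp only [mul_comm, mul_left_comm]
  rw [pk_eq, Finset.sum_mul_sum, Finset.sum_congr rfl fun g hg => sum_shift (Equiv.mulLeft g) Q.S
    (g := fun k => am C k (κ k) (C.act g c * C.act g c * (c * C.act k c))) (fun k _ hk => ?_)
    (fun k hk _ => ?_) fun k hk hk' => ?_, Finset.sum_comm]
  · refine Finset.sum_congr rfl fun k _ => ?_
    rw [← map_sum, ← Finset.sum_mul, ← mul_assoc, mul_comm _ c, Q.pou]
  · rw [am_mul, e, Q.supp (g * k) hk, mul_zero, map_zero]
  · rw [Equiv.coe_mulLeft, ← e, Q.supp k hk, map_zero, mul_zero, map_zero]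
  · rw [am_mul, e, ← h g hg k hk hk']; rfl

end Cliff

open Cliff in
theorem cliffS : CliffStmt := by
  intro Γ A D _ _ _ C c Q
  refine ⟨fun Λ _ κ h => idem C Q h, fun Λ _ κ θ hκ hθ => ?_⟩
  let t : Bool → Finset Γ → Λ := fun e B => if e then θ B else (θ B)⁻¹
  have hw {B} (h : ¬ (B ⊆ Q.S ∧ B.Nonempty)) : c * Q.w B = 0 := by
    by_contra h'
    exact h (Q.w_supp B h')
  refine alg (Finset.card_pos.2 ⟨1, Q.one_mem⟩) _ (fun ε => pk C c Q.S fun g j => κ (ε j) g)
    (fun j e => ∑ B ∈ Q.S.powersetCard (j + 1), am C 1 (Pi.mulSingle j (t e B)) (Q.w B))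
    (fun j => am C 1 1 (∑ B ∈ Q.S.powersetCard (j + 1), Q.w B * Q.w B)) (fun ε j e => ?_)
    (fun ε => idem C Q fun g hg h hh hgh => funext fun j => hκ _ g hg h hh hgh) (fun ε j => ?_)
    (fun j e => ?_) (fun j l e e' h => ?_) fun ε => ?_
  · rw [pk_eq, Finset.sum_mul_sum]
    refine sum_mem fun g _ => sum_mem fun B _ => ?_
    rw [am_mul]
    exact AddSubgroup.subset_closure ⟨_, _, _, rfl⟩
  · rw [pk_eq, pk_eq, Finset.sum_mul_sum, Finset.sum_mul_sum, Finset.sum_comm]
    refine Finset.sum_congr rfl fun g hg => (sum_shift (Equiv.mulLeft g).finsetCongr _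
      (fun B hB h => ?_) (fun B hB h => ?_) fun B hB h => ?_).symm
    · rw [am_mul, Q.w_act, mul_right_comm, hw, zero_mul, map_zero]
      refine fun h' => h (Finset.mem_powersetCard.2 ⟨h'.1, ?_⟩)
      exact (Finset.card_map _).trans (Finset.mem_powersetCard.1 hB).2
    · change am C 1 _ (Q.w (lmul g B)) * _ = 0
      rw [am_mul, map_one, RingAut.one_apply, ← Q.w_act, mul_left_comm, ← map_mul, mul_comm _ c, hw,
        map_zero, mul_zero, map_zero]
      refine fun h' => hB (Finset.mem_powersetCard.2 ⟨h'.1, ?_⟩)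
      exact (Finset.card_map _).symm.trans (Finset.mem_powersetCard.1 h).2
    · change _ = am C 1 (Pi.mulSingle (M := fun _ => Λ) j (t (ε j) (lmul g B))) (Q.w (lmul g B)) * _
      obtain ⟨b1, b2⟩ := Finset.mem_powersetCard.1 hB
      have e := hθ g hg B (Finset.card_pos.1 (by omega)) b1 (Finset.mem_powersetCard.1 h).1
      rw [am_mul, am_mul, map_one, RingAut.one_apply, Q.w_act, mul_comm _ (Q.w _), mul_one, one_mul]
      congr 2
      ext l
      by_cases hl : l = j
      · subst hl
        simp only [Pi.mul_apply, Pi.mulSingle_eq_same, fl_self, t]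
        cases ε l
        · simp only [Bool.false_eq_true, if_false, Bool.not_false]
          rw [eq_inv_mul_iff_mul_eq, ← mul_assoc, e, mul_inv_cancel_right]
        · exact e.symm
      · simp only [Pi.mul_apply, Pi.mulSingle_eq_of_ne hl, fl_ne hl, mul_one, one_mul]
  · rw [Finset.sum_mul_sum, map_sum]
    refine Finset.sum_congr rfl fun B hB => ?_
    rw [Finset.sum_eq_single_of_mem B hB fun B' hB' h => ?_]
    · rw [am_mul, map_one, RingAut.one_apply, mul_one, ← Pi.mulSingle_mul]
      cases e <;> simp [t]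
    · rw [am_mul, map_one, RingAut.one_apply, Q.w_orth _ _ ((Finset.mem_powersetCard.1 hB).2.trans
        (Finset.mem_powersetCard.1 hB').2.symm) h.symm, map_zero]
  · refine Commute.sum_left _ _ _ fun B _ => Commute.sum_right _ _ _ fun B' _ => ?_
    rw [Commute, SemiconjBy, am_mul, am_mul, map_one, RingAut.one_apply, RingAut.one_apply,
      (Pi.mulSingle_commute h _ _).eq, mul_comm (Q.w B)]
  · have e := Q.w_sum
    rw [Finset.sum_powerset, Finset.sum_range_succ', Finset.sum_range, Finset.powersetCard_zero,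
      Finset.sum_singleton, mul_add, ← mul_assoc, hw (by simp), zero_mul, add_zero] at e
    rw [← map_sum, pk_eq, Finset.sum_mul]
    refine Finset.sum_congr rfl fun g _ => ?_
    rw [am_mul, mul_one, mul_one, mul_assoc, ← map_mul, e]

end Vale.Agent.P089
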