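import Mathlib
import Vale.Agent.P089.Base

namespace Vale.Agent.P089

open Finset

namespace Code

variable {W S : Type} [Fintype W] [Fintype S]

/-- the pairing as a bilinear form -/
noncomputable def bil (W S : Type) [Fintype W] [Fintype S] :
    LinearMap.BilinForm (ZMod 2) (W → S → ZMod 2) :=
  LinearMap.mk₂ (ZMod 2) pair
    (fun a b c => by simp only [pair, Pi.add_apply, add_mul, sum_add_distrib])
    (fun c a b => by simp only [pair, Pi.smul_apply, smul_eq_mul, mul_sum, mul_assoc])
    (fun a b c => by simp only [pair, Pi.add_apply, mul_add, sum_add_distrib])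
    (fun c a b => by simp only [pair, Pi.smul_apply, smul_eq_mul, mul_sum, mul_left_comm])

theorem bil_apply (d z : W → S → ZMod 2) : bil W S d z = pair d z := rfl

theorem pair_add (a b c : W → S → ZMod 2) : pair (a + b) c = pair a c + pair b c := by
  simp only [pair, Pi.add_apply, add_mul, sum_add_distrib]

theorem pair_single [DecidableEq W] [DecidableEq S] (w : W) (s : S) (z : W → S → ZMod 2) :
    pair (Pi.single w (Pi.single s 1)) z = z w s := by
  rw [pair, sum_eq_single w, sum_eq_single s]
  · simp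
  · intro s' _ h; simp [h]
  · simp
  · intro w' _ h; simp [h]
  · simp

theorem bil_nondeg : (bil W S).Nondegenerate := by
  classical
  have h1 : ∀ z : W → S → ZMod 2, (∀ d, pair d z = 0) → z = 0 := fun z h => by
    funext w s
    rw [← pair_single w s z]
    exact h _
  have h2 : ∀ d z : W → S → ZMod 2, pair d z = pair z d := fun d z => by
    simp only [pair, mul_comm]
  exact ⟨fun z h => h1 z fun d => (h2 d z).trans (h d), fun z h => h1 z h⟩

theorem zm2 (x : ZMod 2) : x = 0 ∨ x = 1 := by revert x; decide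

theorem half {V : Type} [AddCommGroup V] [DecidableEq V] (H : Finset V) (φ : V → ZMod 2)
    (hφ : ∀ a b, φ (a + b) = φ a + φ b) (h0 : V) (h1 : φ h0 = 1) (hH : ∀ h ∈ H, h + h0 ∈ H) :
    2 * (H.filter fun h => φ h = 0).card = H.card := by
  have key : ∀ c c' : ZMod 2, c + 1 = c' →
      (H.filter fun h => φ h = c).card ≤ (H.filter fun h => φ h = c').card := by
    intro c c' hc
    refine card_le_card_of_injOn (fun h => h + h0) (fun h hh => ?_) fun a _ b _ e =>
      add_right_cancel e
    obtain ⟨a1, a2⟩ := mem_filter.mp hh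
    exact mem_filter.mpr ⟨hH h a1, by rw [hφ, a2, h1, hc]⟩
  have h2 := card_filter_add_card_filter_not (s := H) fun h => φ h = 0
  have h3 : (H.filter fun h => ¬ φ h = 0) = H.filter fun h => φ h = 1 :=
    filter_congr fun h _ => by rcases zm2 (φ h) with e | e <;> simp [e]
  rw [h3] at h2
  have h4 := key 0 1 (by decide)
  have h5 := key 1 0 (by decide)
  omega

open Classical in
theorem card_low : (univ.filter fun z : W → S → ZMod 2 =>
    8 * (univ.filter fun w => z w ≠ 0).card ≤ Fintype.card W).card ≤
    2 ^ (Fintype.card W + Fintype.card S * (Fintype.card W / 8)) := by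
  have h1 : (univ.filter fun z : W → S → ZMod 2 =>
      8 * (univ.filter fun w => z w ≠ 0).card ≤ Fintype.card W) ⊆
      (univ.filter fun T : Finset W => T.card ≤ Fintype.card W / 8).biUnion fun T =>
        Fintype.piFinset fun w => if w ∈ T then univ else {0} := by
    intro z hz
    have h2 := (mem_filter.mp hz).2
    refine mem_biUnion.mpr ⟨univ.filter fun w => z w ≠ 0, mem_filter.mpr ⟨mem_univ _, by omega⟩,
      Fintype.mem_piFinset.mpr fun w => ?_⟩
    split_ifs with h
    · exact mem_univ _
    · simpa using h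
  refine (card_le_card h1).trans ((card_biUnion_le_card_mul _ _
    ((2 ^ Fintype.card S) ^ (Fintype.card W / 8)) fun T hT => ?_).trans ?_)
  · rw [Fintype.card_piFinset]
    simp only [apply_ite card, card_univ, Fintype.card_fun, ZMod.card, card_singleton]
    rw [prod_ite_mem, univ_inter, prod_const]
    exact Nat.pow_le_pow_right (by positivity) (mem_filter.mp hT).2
  · rw [pow_add, pow_mul]
    refine Nat.mul_le_mul_right _ ((card_filter_le _ _).trans (le_of_eq ?_))
    rw [card_univ, Fintype.card_finset]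

theorem card_det {V : Type} [AddCommGroup V] [Module (ZMod 2) V] [DecidableEq V] {m : ℕ}
    (H : Finset V) (l : Fin m → ZMod 2) (hl : l ≠ 0) (z : V) :
    ((Fintype.piFinset fun _ : Fin m => H).filter fun ρ => ∑ j, l j • ρ j = z).card * H.card ≤
      H.card ^ m := by
  obtain ⟨j0, hj0⟩ := Function.ne_iff.mp hl
  have hj1 : l j0 = 1 := (zm2 _).resolve_left hj0
  rw [← card_product, ← Fintype.card_piFinset_const]
  refine card_le_card_of_injOn (fun p => Function.update p.1 j0 p.2) (fun p hp => ?_)
    fun p hp p' hp' e => ?_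
  · obtain ⟨a1, a2⟩ := mem_product.mp hp
    refine Fintype.mem_piFinset.mpr fun j => ?_
    by_cases h : j = j0
    · subst h; simpa using a2
    · simp only [Function.update_of_ne h]
      exact Fintype.mem_piFinset.mp (mem_filter.mp a1).1 j
  · have b1 := (mem_filter.mp (mem_product.mp hp).1).2
    have b2 := (mem_filter.mp (mem_product.mp hp').1).2
    have b3 : ∀ j, j ≠ j0 → p.1 j = p'.1 j := fun j h => by
      simpa only [Function.update_of_ne h] using congrFun e j
    refine Prod.ext (funext fun j => ?_) (by simpa using congrFun e j0)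
    by_cases h : j = j0
    · subst h
      rw [← add_sum_erase _ _ (mem_univ j), hj1, one_smul] at b1 b2
      rw [sum_congr rfl fun i hi => by rw [b3 i (ne_of_mem_erase hi)]] at b1
      exact add_right_cancel (b1.trans b2.symm)
    · exact b3 j h

end Code

open Code in
theorem codeS : CodeStmt := by
  classical
  intro W S _ _ a e hS hW ha he1 he2
  obtain ⟨w0⟩ := hW
  have hW0 : 0 < Fintype.card W := Fintype.card_pos_iff.mpr ⟨w0⟩
  obtain ⟨N, hN⟩ : ∃ N, N = Fintype.card W * Fintype.card S := ⟨_, rfl⟩
  obtain ⟨t, ht⟩ : ∃ t, t = Fintype.card W + Fintype.card S * (Fintype.card W / 8) := ⟨_, rfl⟩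
  have hN1 : 16 * Fintype.card W ≤ N := by rw [hN, mul_comm]; exact Nat.mul_le_mul_left _ hS
  have ht1 : 16 * t ≤ 3 * N := by
    have : Fintype.card S * (8 * (Fintype.card W / 8)) ≤ Fintype.card S * Fintype.card W :=
      Nat.mul_le_mul_left _ (Nat.mul_div_le _ _)
    nlinarith
  rw [← hN] at he1 he2
  obtain ⟨m, hm⟩ : ∃ m, m = N - e := ⟨_, rfl⟩
  set Low := univ.filter fun z : W → S → ZMod 2 =>
    8 * (univ.filter fun w => z w ≠ 0).card ≤ Fintype.card W with hLow
  have hL : Low.card ≤ 2 ^ t := ht ▸ card_low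
  set H := univ.filter fun h : W → S → ZMod 2 => pair h a = 0 with hH
  have hV : Fintype.card (W → S → ZMod 2) = 2 ^ N := by
    rw [Fintype.card_fun, Fintype.card_fun, ZMod.card, ← pow_mul, mul_comm, hN]
  have hHc : H.card = 2 ^ (N - 1) := by
    obtain ⟨s0, hs0⟩ := Function.ne_iff.mp (ha w0)
    have h1 := half univ (fun h => pair h a) (fun x y => pair_add x y a)
      (Pi.single w0 (Pi.single s0 1)) ((pair_single _ _ _).trans ((zm2 _).resolve_left hs0))
      fun _ _ => mem_univ _
    rw [card_univ, hV, ← hH, show N = N - 1 + 1 by omega, pow_succ] at h1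
    omega
  have hH0 : 0 < H.card := by rw [hHc]; positivity
  set Ω := Fintype.piFinset fun _ : Fin m => H with hΩ
  have hΩc : Ω.card = H.card ^ m := Fintype.card_piFinset_const _ _
  have b1 : ∀ z ∈ Low.erase 0, (Ω.filter fun ρ => ∀ j, pair (ρ j) z = 0).card * 2 ^ m ≤
      H.card ^ m := by
    intro z hz
    obtain ⟨hz0, hz1⟩ := mem_erase.mp hz
    obtain ⟨h0, a1, a2⟩ : ∃ h0, pair h0 a = 0 ∧ pair h0 z = 1 := by
      obtain ⟨w, hw⟩ := Function.ne_iff.mp hz0
      obtain ⟨s, hs⟩ := Function.ne_iff.mp hw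
      have hs1 : z w s = 1 := (zm2 _).resolve_left hs
      rcases zm2 (a w s) with h | h
      · exact ⟨Pi.single w (Pi.single s 1), (pair_single _ _ _).trans h,
          (pair_single _ _ _).trans hs1⟩
      · obtain ⟨w', hw'⟩ : ∃ w', z w' = 0 := by
          by_contra hcon
          push Not at hcon
          have := (mem_filter.mp hz1).2
          rw [filter_true_of_mem fun w _ => hcon w, card_univ] at this
          omega
        obtain ⟨s', hs'⟩ := Function.ne_iff.mp (ha w')
        refine ⟨Pi.single w (Pi.single s 1) + Pi.single w' (Pi.single s' 1), ?_, ?_⟩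
        · rw [pair_add, pair_single, pair_single, h, (zm2 _).resolve_left hs']
          decide
        · rw [pair_add, pair_single, pair_single, hs1, hw', Pi.zero_apply, add_zero]
    have h1 := half H (fun h => pair h z) (fun x y => pair_add x y z) h0 a2 fun h hh =>
      mem_filter.mpr ⟨mem_univ _, by rw [pair_add, a1, (mem_filter.mp hh).2, add_zero]⟩
    rw [← h1, mul_pow, mul_comm, ← Fintype.card_piFinset_const]
    refine Nat.mul_le_mul_left _ (card_le_card fun ρ hρ => Fintype.mem_piFinset.mpr fun j => ?_)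
    exact mem_filter.mpr ⟨Fintype.mem_piFinset.mp (mem_filter.mp hρ).1 j, (mem_filter.mp hρ).2 j⟩
  set B1 := (Low.erase 0).biUnion fun z => Ω.filter fun ρ => ∀ j, pair (ρ j) z = 0 with hB1
  set B2 := ((univ.erase (0 : Fin m → ZMod 2)) ×ˢ Low).biUnion fun p =>
    Ω.filter fun ρ => ∑ j, p.1 j • ρ j = p.2 with hB2
  have c1 : 4 * B1.card ≤ H.card ^ m := by
    have a1 : B1.card * 2 ^ m ≤ 2 ^ t * H.card ^ m := by
      refine (Nat.mul_le_mul_right _ card_biUnion_le).trans ?_
      rw [sum_mul]
      refine (sum_le_card_nsmul _ _ _ b1).trans ?_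
      exact Nat.mul_le_mul_right _ (card_erase_le.trans hL)
    have a2 : 4 * 2 ^ t ≤ 2 ^ m := by
      rw [show 4 * 2 ^ t = 2 ^ (t + 2) by ring]
      exact Nat.pow_le_pow_right two_pos (by omega)
    refine Nat.le_of_mul_le_mul_left ?_ (show 0 < 2 ^ t by positivity)
    nlinarith [Nat.mul_le_mul_left B1.card a2]
  have c2 : 4 * B2.card ≤ H.card ^ m := by
    have a1 : B2.card * H.card ≤ 2 ^ (m + t) * H.card ^ m := by
      refine (Nat.mul_le_mul_right _ card_biUnion_le).trans ?_
      rw [sum_mul]
      refine (sum_le_card_nsmul _ _ _ fun p hp =>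
        card_det H p.1 (ne_of_mem_erase (mem_product.mp hp).1) p.2).trans ?_
      refine Nat.mul_le_mul_right _ ?_
      rw [card_product, pow_add]
      refine Nat.mul_le_mul (card_erase_le.trans (le_of_eq ?_)) hL
      rw [card_univ, Fintype.card_fun, ZMod.card, Fintype.card_fin]
    have a2 : 4 * 2 ^ (m + t) ≤ H.card := by
      rw [hHc, show 4 * 2 ^ (m + t) = 2 ^ (m + t + 2) by ring]
      exact Nat.pow_le_pow_right two_pos (by omega)
    refine Nat.le_of_mul_le_mul_left ?_ (show 0 < 2 ^ (m + t) by positivity)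
    nlinarith [Nat.mul_le_mul_left B2.card a2]
  obtain ⟨ρ, hρ, hρ'⟩ := exists_mem_notMem_of_card_lt_card (s := B1 ∪ B2) (t := Ω) (by
    have := card_union_le B1 B2
    have : 0 < H.card ^ m := by positivity
    omega)
  let L : (Fin m → ZMod 2) →ₗ[ZMod 2] (W → S → ZMod 2) := Fintype.linearCombination (ZMod 2) ρ
  have hLa : ∀ l, L l = ∑ j, l j • ρ j := fun l => Fintype.linearCombination_apply _ _ _
  have hlow : ∀ l, L l ∈ Low → l = 0 := by
    intro l hl
    by_contra h0
    exact hρ' (mem_union_right _ (mem_biUnion.mpr ⟨(l, L l), mem_product.mpr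
      ⟨mem_erase.mpr ⟨h0, mem_univ _⟩, hl⟩, mem_filter.mpr ⟨hρ, (hLa l).symm⟩⟩))
  have hinj : Function.Injective L := (injective_iff_map_eq_zero L).mpr fun l hl =>
    hlow l (by rw [hl]; exact mem_filter.mpr ⟨mem_univ _, by simp⟩)
  refine ⟨LinearMap.range L, ?_, ?_, fun z hz hz' => ?_, ?_⟩
  · rintro _ ⟨l, rfl⟩
    rw [hLa, ← bil_apply, map_sum, LinearMap.sum_apply]
    refine sum_eq_zero fun j _ => ?_
    rw [map_smul, LinearMap.smul_apply, bil_apply,
      (mem_filter.mp (Fintype.mem_piFinset.mp hρ j)).2, smul_zero]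
  · rintro _ ⟨l, rfl⟩ hl
    rw [hlow l (mem_filter.mpr ⟨mem_univ _, hl⟩), map_zero]
  · by_contra h0
    refine hρ' (mem_union_left _ (mem_biUnion.mpr ⟨z, mem_erase.mpr ⟨h0,
      mem_filter.mpr ⟨mem_univ _, hz'⟩⟩, mem_filter.mpr ⟨hρ, fun j => hz _ ⟨Pi.single j 1, ?_⟩⟩⟩))
    exact (Fintype.linearCombination_apply_single _ _ _ _).trans (one_smul _ _)
  · have h1 := LinearMap.BilinForm.finrank_orthogonal (bil_nondeg (W := W) (S := S))
      (LinearMap.range L)
    have h2 := Module.natCard_eq_pow_finrank (K := ZMod 2)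
      (V := (bil W S).orthogonal (LinearMap.range L))
    have h3 : Module.finrank (ZMod 2) (W → S → ZMod 2) = N := by
      rw [Module.finrank_pi_fintype, sum_const, card_univ, Module.finrank_fintype_fun_eq_card,
        smul_eq_mul, hN]
    rw [h1, LinearMap.finrank_range_of_inj hinj, h3, Module.finrank_fin_fun, Nat.card_zmod,
      show N - m = e by omega] at h2
    exact h2

end Vale.Agent.P089
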