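import Mathlib
import Vale.Agent.P089.Base

/-! P089: the expanding core of a graph in which large sets are joined. -/

namespace Vale.Agent.P089

open Finset

theorem coreS : CoreStmt := by
  classical
  intro S bar Γ m hm hJ hW
  set N : Finset ℕ → Finset ℕ :=
    fun U => Γ.W.filter fun w => ∃ a ∈ U, ∃ s, Γ.st a s = some w with hN
  have hNm : ∀ U w, w ∈ N U ↔ w ∈ Γ.W ∧ ∃ a ∈ U, ∃ s, Γ.st a s = some w := fun U w => by
    rw [hN, mem_filter]
  have hbig : ∀ U T : Finset ℕ, U ⊆ Γ.W → T ⊆ Γ.W → m ≤ U.card →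
      T.card < U.card + ((N U ∩ T) \ U).card + m := by
    intro U T hU hT hmU
    have h1 : (T \ (U ∪ N U)).card < m := by
      by_contra hc
      obtain ⟨a, ha, b, hb, s, hs⟩ := hJ U _ hU (sdiff_subset.trans hT) hmU (not_lt.1 hc)
      obtain ⟨hb1, hb2⟩ := mem_sdiff.1 hb
      exact hb2 (mem_union_right _ ((hNm U b).2 ⟨hT hb1, a, ha, s, hs⟩))
    have h2 : T ⊆ U ∪ ((N U ∩ T) \ U) ∪ (T \ (U ∪ N U)) := by
      intro x hx
      simp only [mem_union, mem_sdiff, mem_inter]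
      tauto
    have h3 := (card_le_card h2).trans ((card_union_le _ _).trans
      (Nat.add_le_add_right (card_union_le _ _) _))
    omega
  obtain ⟨U0, hU0, hmax⟩ := exists_max_image
    (Γ.W.powerset.filter fun U => U.card ≤ 2 * m ∧ (N U \ U).card ≤ 2 * U.card) card
    ⟨∅, mem_filter.2 ⟨empty_mem_powerset _, by simp, by simp [hN]⟩⟩
  obtain ⟨hU0W, hU01, hU02⟩ := mem_filter.1 hU0
  rw [mem_powerset] at hU0W
  have hsmall : U0.card < m := by
    by_contra hc
    have h1 := hbig U0 Γ.W hU0W subset_rfl (not_lt.1 hc)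
    have h2 : ((N U0 ∩ Γ.W) \ U0).card ≤ (N U0 \ U0).card :=
      card_le_card (sdiff_subset_sdiff inter_subset_left subset_rfl)
    omega
  have hcard : (Γ.W \ U0).card + U0.card = Γ.W.card := card_sdiff_add_card_eq_card hU0W
  have hexp : ∀ U ⊆ Γ.W \ U0, U.Nonempty → U.card ≤ m →
      2 * U.card < ((N U ∩ (Γ.W \ U0)) \ U).card := by
    intro U hU hne hUm
    have hd : Disjoint U U0 := disjoint_left.2 fun x hx => (mem_sdiff.1 (hU hx)).2
    have hc : (U ∪ U0).card = U.card + U0.card := card_union_of_disjoint hd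
    have hpos := hne.card_pos
    by_contra hcon
    have h1 : N (U ∪ U0) \ (U ∪ U0) ⊆ ((N U ∩ (Γ.W \ U0)) \ U) ∪ (N U0 \ U0) := by
      intro x hx
      obtain ⟨hx1, hx2⟩ := mem_sdiff.1 hx
      obtain ⟨hxW, a, ha, s, hs⟩ := (hNm _ _).1 hx1
      rw [mem_union, not_or] at hx2
      rcases mem_union.1 ha with ha | ha
      · exact mem_union_left _ (mem_sdiff.2 ⟨mem_inter.2 ⟨(hNm _ _).2 ⟨hxW, a, ha, s, hs⟩,
          mem_sdiff.2 ⟨hxW, hx2.2⟩⟩, hx2.1⟩)
      · exact mem_union_right _ (mem_sdiff.2 ⟨(hNm _ _).2 ⟨hxW, a, ha, s, hs⟩, hx2.2⟩)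
    have h2 := (card_le_card h1).trans (card_union_le _ _)
    have h3 := hmax (U ∪ U0) (mem_filter.2 ⟨mem_powerset.2
      (union_subset (hU.trans sdiff_subset) hU0W), by omega, by omega⟩)
    omega
  refine ⟨Γ.W \ U0, sdiff_subset, by omega, fun v hv => ?_, fun U hU hU2 => ?_⟩
  · have h1 := hexp {v} (singleton_subset_iff.2 hv) (singleton_nonempty v) (by simpa using hm)
    rw [card_singleton] at h1
    obtain ⟨T, hT, hT3⟩ := exists_subset_card_eq (show 3 ≤ _ from h1)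
    refine ⟨T, fun w hw => (mem_inter.1 (mem_sdiff.1 (hT hw)).1).2, hT3, fun w hw => ?_⟩
    obtain ⟨-, a, ha, s, hs⟩ := (hNm _ _).1 (mem_inter.1 (mem_sdiff.1 (hT hw)).1).1
    exact ⟨s, mem_singleton.1 ha ▸ hs⟩
  · refine ⟨(N U ∩ (Γ.W \ U0)) \ U, fun w hw => (mem_inter.1 (mem_sdiff.1 hw).1).2, ?_,
      fun w hw => ⟨(mem_sdiff.1 hw).2, ((hNm _ _).1 (mem_inter.1 (mem_sdiff.1 hw).1).1).2⟩⟩
    rcases U.eq_empty_or_nonempty with rfl | hne
    · simp
    by_cases hUm : U.card ≤ m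
    · have := hexp U hU hne hUm
      omega
    · have := hbig U (Γ.W \ U0) (hU.trans sdiff_subset) sdiff_subset (by omega)
      omega

end Vale.Agent.P089
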