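import Mathlib
import Vale.Agent.P089.BaseB

namespace Vale.Agent.P089

namespace Index

variable {R : Type} [Ring R] {t : TrSet R}

theorem tau_zero (t : TrSet R) : t.τ 0 = 0 := by
  have h := t.add 0 t.I.zero_mem 0 t.I.zero_mem
  rw [add_zero] at h
  linear_combination -h

theorem tau_neg {a : R} (ha : a ∈ t.I) : t.τ (-a) = -t.τ a := by
  have h := t.add a ha (-a) (t.I.neg_mem ha)
  rw [add_neg_cancel, tau_zero] at h
  linear_combination -h

theorem tau_sub {a b : R} (ha : a ∈ t.I) (hb : b ∈ t.I) : t.τ (a - b) = t.τ a - t.τ b := by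
  rw [sub_eq_add_neg, t.add a ha (-b) (t.I.neg_mem hb), tau_neg hb, sub_eq_add_neg]

theorem left_of {P Q T : R} (hQ : Q * Q = Q) (h : Q * T * P = T) : Q * T = T := by
  calc Q * T = Q * (Q * T * P) := by rw [h]
    _ = (Q * Q) * T * P := by noncomm_ring
    _ = T := by rw [hQ, h]

theorem right_of {P Q T : R} (hP : P * P = P) (h : Q * T * P = T) : T * P = T := by
  calc T * P = (Q * T * P) * P := by rw [h]
    _ = Q * T * (P * P) := by noncomm_ring
    _ = T := by rw [hP, h]

/-- The parametrix need not be normalised. -/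
theorem mk' {P Q T : R} (S : R) {z : ℂ} (hP : P * P = P) (hQ : Q * Q = Q) (hT : Q * T * P = T)
    (ha : P - S * T ∈ t.I) (hb : Q - T * S ∈ t.I)
    (hz : z = t.τ (P - S * T) - t.τ (Q - T * S)) : HasInd t P Q T z := by
  have hQT := left_of hQ hT
  have hTP := right_of hP hT
  have e1 : P - P * S * Q * T = P * (P - S * T) := by
    rw [mul_sub, hP, mul_assoc (P * S) Q T, hQT, mul_assoc]
  have e2 : Q - T * (P * S * Q) = (Q - T * S) * Q := by
    rw [sub_mul, hQ, ← mul_assoc, ← mul_assoc, hTP]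
  have e3 : (P - S * T) * P = P - S * T := by rw [sub_mul, hP, mul_assoc, hTP]
  have e4 : Q * (Q - T * S) = Q - T * S := by rw [mul_sub, hQ, ← mul_assoc, hQT]
  refine ⟨hP, hQ, hT, P * S * Q, ?_, ?_, ?_, ?_⟩
  · calc P * (P * S * Q) * Q = (P * P) * S * (Q * Q) := by noncomm_ring
      _ = P * S * Q := by rw [hP, hQ]
  · rw [e1]; exact t.I.mul_mem_left _ _ ha
  · rw [e2]; exact t.I.mul_mem_right _ _ hb
  · rw [e1, e2, ← t.comm _ ha, t.comm _ hb, e3, e4, hz]

theorem uniq {P Q T : R} {z z' : ℂ} (h : HasInd t P Q T z) (h' : HasInd t P Q T z') :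
    z = z' := by
  obtain ⟨hP, hQ, -, S, hS, ha, hb, hz⟩ := h
  obtain ⟨-, -, -, S', hS', ha', hb', hz'⟩ := h'
  have hPS := left_of hP hS
  have hSQ := right_of hQ hS'
  have hd : S' - S ∈ t.I := by
    have e : S' - S = S' * (Q - T * S) - (P - S' * T) * S := by
      rw [mul_sub, sub_mul, hPS, hSQ]; noncomm_ring
    rw [e]
    exact t.I.sub_mem (t.I.mul_mem_left _ _ hb) (t.I.mul_mem_right _ _ ha')
  have h1 := tau_sub ha ha'
  have h2 := tau_sub hb hb'
  have h3 := t.comm _ hd T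
  have e1 : P - S * T - (P - S' * T) = (S' - S) * T := by noncomm_ring
  have e2 : Q - T * S - (Q - T * S') = T * (S' - S) := by noncomm_ring
  rw [e1] at h1
  rw [e2] at h2
  rw [hz, hz']
  linear_combination h3 - h1 + h2

theorem ipert {P Q T T' : R} {z : ℂ} (h : HasInd t P Q T z) (hT' : Q * T' * P = T')
    (hj : T' - T ∈ t.I) : HasInd t P Q T' z := by
  obtain ⟨hP, hQ, -, S, hS, ha, hb, hz⟩ := h
  have e1 : P - S * T' = (P - S * T) - S * (T' - T) := by noncomm_ring
  have e2 : Q - T' * S = (Q - T * S) - (T' - T) * S := by noncomm_ring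
  have m1 := t.I.mul_mem_left S _ hj
  have m2 := t.I.mul_mem_right _ S hj
  refine ⟨hP, hQ, hT', S, hS, ?_, ?_, ?_⟩
  · rw [e1]; exact t.I.sub_mem ha m1
  · rw [e2]; exact t.I.sub_mem hb m2
  · rw [e1, e2, tau_sub ha m1, tau_sub hb m2, t.comm _ hj S, hz]; ring

theorem mul {P Q Q' T T' : R} {z z' : ℂ} (h : HasInd t P Q T z) (h' : HasInd t Q Q' T' z') :
    HasInd t P Q' (T' * T) (z + z') := by
  obtain ⟨hP, hQ, hT, S, hS, ha, hb, hz⟩ := h
  obtain ⟨-, hQ', hT', S', hS', ha', hb', hz'⟩ := h'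
  have hQT := left_of hQ hT
  have hTP := right_of hP hT
  have hQT' := left_of hQ' hT'
  have hTQ' := right_of hQ hT'
  have hQS' := left_of hQ hS'
  have hSQ := right_of hQ hS
  have e1 : P - S * S' * (T' * T) = (P - S * T) + S * (Q - S' * T') * T := by
    rw [mul_sub, hSQ]; noncomm_ring
  have e2 : Q' - T' * T * (S * S') = (Q' - T' * S') + T' * (Q - T * S) * S' := by
    rw [mul_sub, hTQ']; noncomm_ring
  have m1 := t.I.mul_mem_left S _ ha'
  have m2 := t.I.mul_mem_left T' _ hb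
  have m3 := t.I.mul_mem_right _ T m1
  have m4 := t.I.mul_mem_right _ S' m2
  have e3 : T * (S * (Q - S' * T')) = (Q - S' * T') - (Q - T * S) * (Q - S' * T') := by
    have : Q * (Q - S' * T') = Q - S' * T' := by rw [mul_sub, hQ, ← mul_assoc, hQS']
    rw [sub_mul, this]; noncomm_ring
  have e4 : S' * (T' * (Q - T * S)) = (Q - T * S) - (Q - S' * T') * (Q - T * S) := by
    have : Q * (Q - T * S) = Q - T * S := by rw [mul_sub, hQ, ← mul_assoc, hQT]
    rw [sub_mul, this]; noncomm_ring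
  refine mk' (S * S') hP hQ' ?_ ?_ ?_ ?_
  · rw [← mul_assoc, hQT', mul_assoc, hTP]
  · rw [e1]; exact t.I.add_mem ha m3
  · rw [e2]; exact t.I.add_mem hb' m4
  · rw [e1, e2, t.add _ ha _ m3, t.add _ hb' _ m4, t.comm _ m1, t.comm _ m2, e3, e4,
      tau_sub ha' (t.I.mul_mem_left _ _ ha'), tau_sub hb (t.I.mul_mem_left _ _ hb),
      t.comm _ hb, hz, hz']
    ring

theorem add {P Q T P' Q' T' : R} {z z' : ℂ} (h : HasInd t P Q T z) (h' : HasInd t P' Q' T' z')
    (h1 : P * P' = 0) (h2 : P' * P = 0) (h3 : Q * Q' = 0) (h4 : Q' * Q = 0) :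
    HasInd t (P + P') (Q + Q') (T + T') (z + z') := by
  obtain ⟨hP, hQ, hT, S, hS, ha, hb, hz⟩ := h
  obtain ⟨hP', hQ', hT', S', hS', ha', hb', hz'⟩ := h'
  have hQT := left_of hQ hT
  have hTP := right_of hP hT
  have hQT' := left_of hQ' hT'
  have hTP' := right_of hP' hT'
  have hPS := left_of hP hS
  have hSQ := right_of hQ hS
  have hPS' := left_of hP' hS'
  have hSQ' := right_of hQ' hS'
  have z1 : Q * T' = 0 := by rw [← hQT', ← mul_assoc, h3, zero_mul]
  have z2 : Q' * T = 0 := by rw [← hQT, ← mul_assoc, h4, zero_mul]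
  have z3 : T * P' = 0 := by rw [← hTP, mul_assoc, h1, mul_zero]
  have z4 : T' * P = 0 := by rw [← hTP', mul_assoc, h2, mul_zero]
  have z5 : S * T' = 0 := by rw [← hSQ, mul_assoc, z1, mul_zero]
  have z6 : S' * T = 0 := by rw [← hSQ', mul_assoc, z2, mul_zero]
  have z7 : T * S' = 0 := by rw [← hPS', ← mul_assoc, z3, zero_mul]
  have z8 : T' * S = 0 := by rw [← hPS, ← mul_assoc, z4, zero_mul]
  have e1 : P + P' - (S + S') * (T + T') = (P - S * T) + (P' - S' * T') := by
    rw [add_mul, mul_add, mul_add, z5, z6]; noncomm_ring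
  have e2 : Q + Q' - (T + T') * (S + S') = (Q - T * S) + (Q' - T' * S') := by
    rw [add_mul, mul_add, mul_add, z7, z8]; noncomm_ring
  refine mk' (S + S') ?_ ?_ ?_ ?_ ?_ ?_
  · rw [add_mul, mul_add, mul_add, hP, hP', h1, h2]; simp
  · rw [add_mul, mul_add, mul_add, hQ, hQ', h3, h4]; simp
  · have : (Q + Q') * (T + T') = T + T' := by
      rw [add_mul, mul_add, mul_add, hQT, hQT', z1, z2]; simp
    rw [this, add_mul, mul_add, mul_add, hTP, hTP', z3, z4]; simp
  · rw [e1]; exact t.I.add_mem ha ha'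
  · rw [e2]; exact t.I.add_mem hb hb'
  · rw [e1, e2, t.add _ ha _ ha', t.add _ hb _ hb', hz, hz']; ring

theorem iso {P Q T : R} (S : R) (hP : P * P = P) (hQ : Q * Q = Q) (hT : Q * T * P = T)
    (h1 : S * T = P) (h2 : T * S = Q) : HasInd t P Q T 0 := by
  refine mk' S hP hQ hT ?_ ?_ ?_
  · rw [h1, sub_self]; exact t.I.zero_mem
  · rw [h2, sub_self]; exact t.I.zero_mem
  · rw [h1, h2, sub_self, sub_self, sub_self]

theorem unit {P Q T x : R} {z : ℂ} (h : HasInd t P Q T z) (hx : IsUnit (1 + x))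
    (hq : Q * x * Q = x) : HasInd t P Q (T + x * T) z := by
  obtain ⟨hP, hQ, hT, S, hS, ha, hb, hz⟩ := h
  obtain ⟨u, hu⟩ := hx
  have hQT := left_of hQ hT
  have hTP := right_of hP hT
  have hQx := left_of hQ hq
  have hxQ := right_of hQ hq
  have y1 : (↑u⁻¹ : R) * (1 + x) = 1 := by rw [← hu]; simp
  have y2 : (1 + x) * (↑u⁻¹ : R) = 1 := by rw [← hu]; simp
  generalize (↑u⁻¹ : R) = y at y1 y2
  have e1 : P - S * y * (T + x * T) = P - S * T := by
    calc P - S * y * (T + x * T) = P - S * (y * (1 + x)) * T := by noncomm_ring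
      _ = P - S * T := by rw [y1, mul_one]
  have e2 : Q - (T + x * T) * (S * y) = (1 + x) * (Q - T * S) * y := by
    have c : (1 + x) * Q = Q * (1 + x) := by rw [add_mul, mul_add, hQx, hxQ]; simp
    have : (1 + x) * Q * y = Q := by rw [c, mul_assoc, y2, mul_one]
    rw [mul_sub, sub_mul, this]; noncomm_ring
  have m1 := t.I.mul_mem_left (1 + x) _ hb
  refine mk' (S * y) hP hQ ?_ ?_ ?_ ?_
  · rw [mul_add, hQT, ← mul_assoc, hQx, add_mul, mul_assoc, hTP]
  · rw [e1]; exact ha
  · rw [e2]; exact t.I.mul_mem_right _ _ m1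
  · rw [e1, e2, t.comm _ m1, ← mul_assoc, y1, one_mul, hz]

theorem ex {P Q T : R} (S : R) (hP : P * P = P) (hQ : Q * Q = Q) (hT : Q * T * P = T)
    (ha : P - S * T ∈ t.K) (hb : Q - T * S ∈ t.K) : ∃ z, HasInd t P Q T z := by
  have hQT := left_of hQ hT
  have hTP := right_of hP hT
  obtain ⟨i, hi, u, hu⟩ := t.jac _ (t.K.neg_mem ha)
  obtain ⟨i', hi', u', hu'⟩ := t.jac _ (t.K.neg_mem hb)
  have y1 : (↑u⁻¹ : R) * (1 + -(P - S * T) - i) = 1 := by rw [← hu]; simp
  have y2 : (1 + -(Q - T * S) - i') * (↑u'⁻¹ : R) = 1 := by rw [← hu']; simp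
  generalize (↑u⁻¹ : R) = w at y1
  generalize (↑u'⁻¹ : R) = w' at y2
  have e1 : P - w * S * T = -(w * i * P) := by
    have h : w * (1 + -(P - S * T) - i) * P = w * (P - P * P) + w * S * (T * P) - w * i * P := by
      noncomm_ring
    rw [y1, one_mul, hP, hTP, sub_self, mul_zero, zero_add] at h
    rw [sub_eq_iff_eq_add]
    calc P = w * S * T - w * i * P := h
      _ = _ := by noncomm_ring
  have e2 : Q - T * (S * w') = -(Q * i' * w') := by
    have h : Q * ((1 + -(Q - T * S) - i') * w') =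
        (Q - Q * Q) * w' + Q * T * (S * w') - Q * i' * w' := by noncomm_ring
    rw [y2, mul_one, hQ, hQT, sub_self, zero_mul, zero_add] at h
    rw [sub_eq_iff_eq_add]
    calc Q = T * (S * w') - Q * i' * w' := h
      _ = _ := by noncomm_ring
  have m1 : P - w * S * T ∈ t.I := by
    rw [e1]; exact t.I.neg_mem (t.I.mul_mem_right _ _ (t.I.mul_mem_left _ _ hi))
  have m2 : Q - T * (S * w') ∈ t.I := by
    rw [e2]; exact t.I.neg_mem (t.I.mul_mem_right _ _ (t.I.mul_mem_left _ _ hi'))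
  generalize w * S = A at m1
  generalize S * w' = B at m2
  refine ⟨_, mk' (A * Q) hP hQ hT ?_ ?_ rfl⟩
  · rw [mul_assoc, hQT]; exact m1
  · have e : Q - T * (A * Q) = (Q - T * B) + T * ((P - A * T) * B - A * (Q - T * B)) := by
      have : T * ((P - A * T) * B - A * (Q - T * B)) = (T * P) * B - T * (A * Q) := by
        noncomm_ring
      rw [this, hTP]; noncomm_ring
    rw [e]
    exact t.I.add_mem m2 (t.I.mul_mem_left _ _
      (t.I.sub_mem (t.I.mul_mem_right _ _ m1) (t.I.mul_mem_left _ _ m2)))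

/-- A unit which is a corner perturbation of the identity has a corner of index zero. -/
theorem corner {Q x i : R} (hQ : Q * Q = Q) (hx : x ∈ t.K) (hQx : Q * x = x) (hxQ : x * Q = x)
    (hi : i ∈ t.I) (hu : IsUnit (1 + x - i)) : HasInd t Q Q (Q + x - Q * i * Q) 0 := by
  have hE : (1 - Q) * (1 - Q) = 1 - Q := by
    rw [mul_sub, sub_mul, sub_mul, hQ]; simp
  have hT : Q * (Q + x - Q * i * Q) * Q = Q + x - Q * i * Q := by
    calc Q * (Q + x - Q * i * Q) * Q = Q * Q * Q + Q * x * Q - (Q * Q) * i * (Q * Q) := by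
          noncomm_ring
      _ = _ := by rw [hQ, hQ, hQx, hxQ]
  have mq : Q * i * Q ∈ t.I := t.I.mul_mem_right _ _ (t.I.mul_mem_left _ _ hi)
  have hk : Q - (Q + x - Q * i * Q) ∈ t.K := by
    have e : Q - (Q + x - Q * i * Q) = Q * i * Q - x := by noncomm_ring
    rw [e]; exact t.K.sub_mem (t.le mq) hx
  obtain ⟨w, hw⟩ := ex (t := t) 1 hQ hQ hT (by rw [one_mul]; exact hk) (by rw [mul_one]; exact hk)
  have h1 : HasInd t (1 - Q) (1 - Q) (1 - Q) 0 := iso (1 - Q) hE hE (by rw [hE, hE]) hE hE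
  have o1 : Q * (1 - Q) = 0 := by rw [mul_sub, hQ]; simp
  have o2 : (1 - Q) * Q = 0 := by rw [sub_mul, hQ]; simp
  have h2 := add hw h1 o1 o2 o1 o2
  rw [add_sub_cancel, add_zero] at h2
  obtain ⟨u, hu⟩ := hu
  have h3 : HasInd t 1 1 (u : R) 0 := iso (↑u⁻¹ : R) (by simp) (by simp) (by simp) (by simp) (by simp)
  have h4 : HasInd t 1 1 (Q + x - Q * i * Q + (1 - Q)) 0 := by
    refine ipert h3 (by simp) ?_
    have e : Q + x - Q * i * Q + (1 - Q) - (u : R) = i - Q * i * Q := by rw [hu]; noncomm_ring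
    rw [e]; exact t.I.sub_mem hi mq
  rw [← uniq h2 h4]; exact hw

theorem kpert {P Q T T' : R} {z : ℂ} (h : HasInd t P Q T z) (hT' : Q * T' * P = T')
    (hk : T' - T ∈ t.K) : HasInd t P Q T' z := by
  have h0 := h
  obtain ⟨hP, hQ, hT, S, hS, ha, hb, hz⟩ := h0
  have hQT := left_of hQ hT
  have hTP := right_of hP hT
  have hQT' := left_of hQ hT'
  have hTP' := right_of hP hT'
  have hSQ := right_of hQ hS
  have hx := t.K.mul_mem_right _ S hk
  obtain ⟨i, hi, hu⟩ := t.jac _ hx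
  have hc := corner hQ hx (by rw [← mul_assoc, mul_sub, hQT, hQT']) (by rw [mul_assoc, hSQ]) hi hu
  have hm := mul h hc
  rw [add_zero] at hm
  refine ipert hm hT' ?_
  have e : T' - (Q + (T' - T) * S - Q * i * Q) * T = (T' - T) * (P - S * T) + Q * i * T := by
    have e1 : (Q + (T' - T) * S - Q * i * Q) * T =
        Q * T + (T' - T) * S * T - Q * i * (Q * T) := by noncomm_ring
    have e2 : (T' - T) * (P - S * T) = T' * P - T * P - (T' - T) * S * T := by noncomm_ring
    rw [e1, e2, hQT, hTP, hTP']; noncomm_ring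
  rw [e]
  exact t.I.add_mem (t.I.mul_mem_left _ _ ha) (t.I.mul_mem_right _ _ (t.I.mul_mem_left _ _ hi))

theorem equiv {P Q T P' Q' T' u u' v v' : R} {z : ℂ} (h : HasInd t P Q T z) (hP' : P' * P' = P')
    (hQ' : Q' * Q' = Q') (hT' : Q' * T' * P' = T') (h1 : u' * u = P) (h2 : u * u' = P')
    (h3 : v' * v = Q) (h4 : v * v' = Q') (hk : T' * u - v * T ∈ t.K) : HasInd t P' Q' T' z := by
  obtain ⟨hP, hQ, hT, S, hS, ha, hb, hz⟩ := h
  have hQT := left_of hQ hT
  have hTP := right_of hP hT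
  have hTP' := right_of hP' hT'
  have hPS := left_of hP hS
  have a1 : u * P * u' = P' := by
    calc u * P * u' = (u * u') * (u * u') := by rw [← h1]; noncomm_ring
      _ = P' := by rw [h2, hP']
  have a2 : v * Q * v' = Q' := by
    calc v * Q * v' = (v * v') * (v * v') := by rw [← h3]; noncomm_ring
      _ = Q' := by rw [h4, hQ']
  have e1 : P' - u * S * v' * (v * T * u') = u * (P - S * T) * u' := by
    have : u * S * v' * (v * T * u') = u * S * ((v' * v) * T) * u' := by noncomm_ring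
    rw [this, h3, hQT, mul_sub, sub_mul, a1]; noncomm_ring
  have e2 : Q' - v * T * u' * (u * S * v') = v * (Q - T * S) * v' := by
    have : v * T * u' * (u * S * v') = v * T * ((u' * u) * S) * v' := by noncomm_ring
    rw [this, h1, hPS, mul_sub, sub_mul, a2]; noncomm_ring
  have m1 := t.I.mul_mem_left u _ ha
  have m2 := t.I.mul_mem_left v _ hb
  have h'' : HasInd t P' Q' (v * T * u') z := by
    refine mk' (u * S * v') hP' hQ' ?_ ?_ ?_ ?_
    · calc Q' * (v * T * u') * P' = v * ((v' * v) * T * (u' * u)) * u' := by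
            rw [← h4, ← h2]; noncomm_ring
        _ = v * T * u' := by rw [h3, h1, hT]
    · rw [e1]; exact t.I.mul_mem_right _ _ m1
    · rw [e2]; exact t.I.mul_mem_right _ _ m2
    · have b1 : u' * (u * (P - S * T)) = P - S * T := by
        rw [← mul_assoc, h1, mul_sub, hP, ← mul_assoc, hPS]
      have b2 : v' * (v * (Q - T * S)) = Q - T * S := by
        rw [← mul_assoc, h3, mul_sub, hQ, ← mul_assoc, hQT]
      rw [e1, e2, t.comm _ m1, t.comm _ m2, b1, b2, hz]
  refine kpert h'' hT' ?_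
  have e : T' - v * T * u' = (T' * u - v * T) * u' := by
    rw [sub_mul, mul_assoc T' u u', h2, hTP']
  rw [e]; exact t.K.mul_mem_right _ _ hk

end Index

theorem indexS : IndexStmt := fun _ _ _ =>
  { ex := fun _ _ _ S hP hQ hT ha hb => Index.ex S hP hQ hT ha hb
    uniq := fun _ _ _ _ _ h h' => Index.uniq h h'
    equiv := fun _ _ _ _ _ _ _ _ _ _ _ h a b c d e f g k => Index.equiv h a b c d e f g k
    add := fun _ _ _ _ _ _ _ _ h h' a b c d => Index.add h h' a b c d
    iso := fun _ _ _ S a b c d e => Index.iso S a b c d e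
    unit := fun _ _ _ _ _ h a b => Index.unit h a b }

theorem nearS : NearStmt := by
  intro _ R _ _ t P Q T z h
  have h0 := h
  obtain ⟨hP, hQ, hT, S, hS, ha, -, -⟩ := h0
  have hpos : (0 : ℝ) < ‖S‖ + 1 := by positivity
  refine ⟨(‖S‖ + 1)⁻¹, inv_pos.2 hpos, fun T' hT' hd => ?_⟩
  have hQT := Index.left_of hQ hT
  have hTP := Index.right_of hP hT
  have hQT' := Index.left_of hQ hT'
  have hTP' := Index.right_of hP hT'
  have hSQ := Index.right_of hQ hS
  have hn : ‖-((T' - T) * S)‖ < 1 := by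
    rw [norm_neg]
    have h1 := norm_mul_le (T' - T) S
    have h2 : ‖T' - T‖ * (‖S‖ + 1) < 1 := by
      have := mul_lt_mul_of_pos_right hd hpos
      rwa [inv_mul_cancel₀ hpos.ne'] at this
    nlinarith [norm_nonneg (T' - T)]
  have hu : IsUnit (1 + (T' - T) * S) := by
    have := (Units.oneSub _ hn).isUnit
    rwa [Units.val_oneSub, sub_neg_eq_add] at this
  have h1 := Index.unit h hu (by
    rw [mul_assoc, mul_assoc, hSQ, ← mul_assoc, mul_sub, hQT, hQT'])
  refine Index.ipert h1 hT' ?_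
  have e : T' - (T + (T' - T) * S * T) = (T' - T) * (P - S * T) := by
    have : (T' - T) * (P - S * T) = T' * P - T * P - (T' - T) * S * T := by noncomm_ring
    rw [this, hTP, hTP']; noncomm_ring
  rw [e]; exact t.I.mul_mem_left _ _ ha

end Vale.Agent.P089
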