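import Mathlib
import Vale.Agent.P089.BaseB
import Vale.Agent.P089.Index

namespace Vale.Agent.P089

namespace Count

section Alg

variable {R : Type} [Ring R]

/-- The corner embedding of three by three matrices. -/
def Phi (v v' : ℕ → R) (A : Matrix (Fin 3) (Fin 3) R) : R :=
  ∑ j : Fin 3, (∑ i : Fin 3, v i * A i j) * v' j

theorem Phi_mul {v v' : ℕ → R} (h : ∀ n m, v' n * v m = if n = m then 1 else 0)
    (A B : Matrix (Fin 3) (Fin 3) R) : Phi v v' (A * B) = Phi v v' A * Phi v v' B := by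
  let V : Matrix Unit (Fin 3) R := Matrix.of fun _ i => v i
  let V' : Matrix (Fin 3) Unit R := Matrix.of fun j _ => v' j
  have hV : V' * V = 1 := by
    ext i j
    simp [V, V', Matrix.mul_apply, h, Matrix.one_apply, Fin.ext_iff]
  have hP : ∀ C : Matrix (Fin 3) (Fin 3) R, Phi v v' C = (V * C * V') () () := by
    intro C; simp [Phi, V, V', Matrix.mul_apply]
  have e : V * (A * B) * V' = (V * A * V') * (V * B * V') := by
    calc V * (A * B) * V' = V * A * (V' * V) * B * V' := by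
          rw [hV, Matrix.mul_one, Matrix.mul_assoc V A B]
      _ = _ := by simp only [Matrix.mul_assoc]
  rw [hP, hP, hP, e, Matrix.mul_apply]
  simp

theorem Phi_sub (v v' : ℕ → R) (A B : Matrix (Fin 3) (Fin 3) R) :
    Phi v v' (A - B) = Phi v v' A - Phi v v' B := by
  simp [Phi, mul_sub, sub_mul, Finset.sum_sub_distrib]

theorem Phi_mem {v v' : ℕ → R} {M : Subring R} {N : AddSubgroup R}
    (hN : ∀ a ∈ M, ∀ k ∈ N, a * k ∈ N ∧ k * a ∈ N) (hv : ∀ n, v n ∈ M ∧ v' n ∈ M)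
    {A : Matrix (Fin 3) (Fin 3) R} (hA : ∀ i j, A i j ∈ N) : Phi v v' A ∈ N :=
  N.sum_mem fun j _ => (hN _ (hv _).2 _ (N.sum_mem fun i _ => (hN _ (hv _).1 _ (hA i j)).1)).2

theorem mul_mem {M : Subring R} {N : AddSubgroup R}
    (hN : ∀ a ∈ M, ∀ k ∈ N, a * k ∈ N ∧ k * a ∈ N) {A B C : Matrix (Fin 3) (Fin 3) R}
    (hA : ∀ i j, A i j ∈ M) (hB : ∀ i j, B i j ∈ N) (hC : ∀ i j, C i j ∈ M) (i j : Fin 3) :
    (A * B * C) i j ∈ N := by
  rw [Matrix.mul_apply]
  refine N.sum_mem fun k _ => (hN _ (hC k j) _ ?_).2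
  rw [Matrix.mul_apply]
  exact N.sum_mem fun l _ => (hN _ (hA i l) _ (hB l k)).1

variable {t : TrSet R}

theorem stab {v v' : ℕ → R} (h : ∀ n m, v' n * v m = if n = m then 1 else 0) {P Q T : R} {z : ℂ}
    (hi : HasInd t P Q T z) :
    HasInd t (Phi v v' !![P, 0, 0; 0, 0, 0; 0, 0, 1 - Q]) (Phi v v' !![0, 0, 0; 0, Q, 0; 0, 0, 1 - Q])
      (Phi v v' !![0, 0, 0; T, 0, 0; 0, 0, 1 - Q]) z := by
  have hP := hi.1
  have hQ := hi.2.1
  have hT := hi.2.2.1
  have hQT := Index.left_of hQ hT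
  have hTP := Index.right_of hP hT
  have hE : (1 - Q) * (1 - Q) = 1 - Q := by rw [mul_sub, sub_mul, sub_mul, hQ]; simp
  have d : ∀ n, v' n * v n = 1 := fun n => by rw [h, if_pos rfl]
  have o : ∀ n m, n ≠ m → v' n * v m = 0 := fun n m hn => by rw [h, if_neg hn]
  have c : ∀ (i j k : ℕ) (x y : R), v i * x * v' j * (v j * y * v' k) = v i * (x * y) * v' k := by
    intro i j k x y
    calc v i * x * v' j * (v j * y * v' k) = v i * x * (v' j * v j) * y * v' k := by noncomm_ring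
      _ = _ := by rw [d]; noncomm_ring
  have c0 : ∀ (i j l k : ℕ) (x y : R), j ≠ l → v i * x * v' j * (v l * y * v' k) = 0 := by
    intro i j l k x y hj
    calc v i * x * v' j * (v l * y * v' k) = v i * x * (v' j * v l) * y * v' k := by noncomm_ring
      _ = _ := by rw [o _ _ hj]; simp
  have h1 : HasInd t (v 0 * P * v' 0) (v 1 * Q * v' 1) (v 1 * T * v' 0) z := by
    refine Index.equiv (u := v 0 * P) (u' := P * v' 0) (v := v 1 * Q) (v' := Q * v' 1) hi
      ?_ ?_ ?_ ?_ ?_ ?_ ?_ ?_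
    · rw [c, hP]
    · rw [c, hQ]
    · rw [c, c, hT]
    · calc P * v' 0 * (v 0 * P) = P * (v' 0 * v 0) * P := by noncomm_ring
        _ = P := by rw [d, mul_one, hP]
    · calc v 0 * P * (P * v' 0) = v 0 * (P * P) * v' 0 := by noncomm_ring
        _ = _ := by rw [hP]
    · calc Q * v' 1 * (v 1 * Q) = Q * (v' 1 * v 1) * Q := by noncomm_ring
        _ = Q := by rw [d, mul_one, hQ]
    · calc v 1 * Q * (Q * v' 1) = v 1 * (Q * Q) * v' 1 := by noncomm_ring
        _ = _ := by rw [hQ]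
    · have : v 1 * T * v' 0 * (v 0 * P) - v 1 * Q * T =
          v 1 * (T * (v' 0 * v 0) * P) - v 1 * (Q * T) := by noncomm_ring
      rw [this, d, mul_one, hTP, hQT, sub_self]; exact t.K.zero_mem
  have hF : v 2 * (1 - Q) * v' 2 * (v 2 * (1 - Q) * v' 2) = v 2 * (1 - Q) * v' 2 := by rw [c, hE]
  have h2 : HasInd t (v 2 * (1 - Q) * v' 2) (v 2 * (1 - Q) * v' 2) (v 2 * (1 - Q) * v' 2) 0 :=
    Index.iso _ hF hF (by rw [hF, hF]) hF hF
  have h3 := Index.add h1 h2 (c0 _ _ _ _ _ _ (by norm_num)) (c0 _ _ _ _ _ _ (by norm_num))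
    (c0 _ _ _ _ _ _ (by norm_num)) (c0 _ _ _ _ _ _ (by norm_num))
  rw [add_zero] at h3
  simpa [Phi, Fin.sum_univ_three] using h3

/-- Every index is the index of a pair of idempotents whose second member is fixed. -/
theorem normal {v v' : ℕ → R} (h : ∀ n m, v' n * v m = if n = m then 1 else 0) {M : Subring R}
    {N : AddSubgroup R} (hN : ∀ a ∈ M, ∀ k ∈ N, a * k ∈ N ∧ k * a ∈ N)
    (hv : ∀ n, v n ∈ M ∧ v' n ∈ M) {P Q T S : R} {z : ℂ} (hPM : P ∈ M) (hQM : Q ∈ M)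
    (hTM : T ∈ M) (hSM : S ∈ M) (hS : P * S * Q = S) (ha : P - S * T ∈ N) (hb : Q - T * S ∈ N)
    (hi : HasInd t P Q T z) :
    ∃ E, E * E = E ∧ E - v 1 * v' 1 ∈ N ∧ HasInd t E (v 1 * v' 1) (v 1 * v' 1 * E) z := by
  have hP := hi.1
  have hQ := hi.2.1
  have hT := hi.2.2.1
  have hQT := Index.left_of hQ hT
  have hTP := Index.right_of hP hT
  have hPS := Index.left_of hP hS
  have hE : (1 - Q) * (1 - Q) = 1 - Q := by rw [mul_sub, sub_mul, sub_mul, hQ]; simp
  have o1 : Q * (1 - Q) = 0 := by rw [mul_sub, hQ]; simp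
  have o2 : (1 - Q) * Q = 0 := by rw [sub_mul, hQ]; simp
  obtain ⟨a, hadef⟩ : ∃ a, a = P - S * T := ⟨_, rfl⟩
  have haP : a * P = a := by rw [hadef, sub_mul, hP, mul_assoc, hTP]
  have hST : S * T = P - a := by rw [hadef]; simp
  rw [← hadef] at ha
  have key : a * a + (1 + a) * S * T = P := by
    rw [mul_assoc, hST, mul_sub, add_mul, haP]; noncomm_ring
  set Pt : Matrix (Fin 3) (Fin 3) R := !![P, 0, 0; 0, 0, 0; 0, 0, 1 - Q] with hPt
  set Qt : Matrix (Fin 3) (Fin 3) R := !![0, 0, 0; 0, Q, 0; 0, 0, 1 - Q] with hQt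
  set Tt : Matrix (Fin 3) (Fin 3) R := !![0, 0, 0; T, 0, 0; 0, 0, 1 - Q] with hTt
  obtain ⟨U, hU⟩ : ∃ U : Matrix (Fin 3) (Fin 3) R, U = !![a, 0, 0; T, 0, 0; 0, 0, 1 - Q] := ⟨_, rfl⟩
  obtain ⟨U', hU'⟩ : ∃ U : Matrix (Fin 3) (Fin 3) R,
    U = !![a, (1 + a) * S, 0; 0, 0, 0; 0, 0, 1 - Q] := ⟨_, rfl⟩
  obtain ⟨r, hr⟩ : ∃ U : Matrix (Fin 3) (Fin 3) R,
    U = !![1, 0, 0; 0, Q, 1 - Q; 0, 1 - Q, Q] := ⟨_, rfl⟩
  have m1 : U' * U = Pt := by
    rw [hU, hU', hPt, Matrix.mul_fin_three]; simp [key, hE]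
  have m2 : r * r = 1 := by
    rw [hr, Matrix.mul_fin_three, Matrix.one_fin_three]; simp [hQ, hE, o1, o2]
  have m3 : r * Qt * r = !![0, 0, 0; 0, 1, 0; 0, 0, 0] := by
    rw [hr, hQt, Matrix.mul_fin_three, Matrix.mul_fin_three]; simp [hQ, hE, o1, o2]
  have m4 : Qt * Qt = Qt := by rw [hQt, Matrix.mul_fin_three]; simp [hQ, hE]
  have m5 : U * Pt = U := by rw [hU, hPt, Matrix.mul_fin_three]; simp [haP, hTP, hE]
  have m6 : Qt * U = Tt := by rw [hU, hQt, hTt, Matrix.mul_fin_three]; simp [hQT, hE]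
  have m7 : Qt * Tt = Tt := by rw [hQt, hTt, Matrix.mul_fin_three]; simp [hQT, hE]
  have m8 : U * U' - Qt =
      !![a * a, a * ((1 + a) * S), 0; T * a, T * ((1 + a) * S) - Q, 0; 0, 0, 0] := by
    rw [hU, hU', hQt, Matrix.mul_fin_three]
    ext i j
    fin_cases i <;> fin_cases j <;> simp [hE]
  have e0 : v 1 * v' 1 = Phi v v' (r * Qt * r) := by rw [m3]; simp [Phi, Fin.sum_univ_three]
  have rr : ∀ X : Matrix (Fin 3) (Fin 3) R, r * (r * X) = X := fun X => by
    rw [← Matrix.mul_assoc, m2, Matrix.one_mul]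
  have hEE : r * (U * U') * r * (r * (U * U') * r) = r * (U * U') * r := by
    calc r * (U * U') * r * (r * (U * U') * r) = r * (U * (U' * U) * U') * r := by
          simp only [Matrix.mul_assoc, rr]
      _ = _ := by rw [m1, m5]
  have hQQ : r * Qt * r * (r * Qt * r) = r * Qt * r := by
    calc r * Qt * r * (r * Qt * r) = r * (Qt * Qt) * r := by simp only [Matrix.mul_assoc, rr]
      _ = _ := by rw [m4]
  have hE2 : Phi v v' (r * (U * U') * r) * Phi v v' (r * (U * U') * r) =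
      Phi v v' (r * (U * U') * r) := by rw [← Phi_mul h, hEE]
  have he2 : v 1 * v' 1 * (v 1 * v' 1) = v 1 * v' 1 := by rw [e0, ← Phi_mul h, hQQ]
  refine ⟨Phi v v' (r * (U * U') * r), hE2, ?_, ?_⟩
  · rw [e0, ← Phi_sub, ← Matrix.sub_mul, ← Matrix.mul_sub]
    have hrM : ∀ i j, r i j ∈ M := by
      have := M.sub_mem M.one_mem hQM
      intro i j
      rw [hr]
      fin_cases i <;> fin_cases j <;> simp [this, hQM, M.one_mem, M.zero_mem]
    refine Phi_mem hN hv (mul_mem hN hrM ?_ hrM)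
    have haM : a ∈ M := by
      rw [hadef]; exact M.sub_mem hPM (M.mul_mem hSM hTM)
    have n1 : a * a ∈ N := (hN _ haM _ ha).1
    have n2 : a * ((1 + a) * S) ∈ N := (hN _ (M.mul_mem (M.add_mem M.one_mem haM) hSM) _ ha).2
    have n3 : T * a ∈ N := (hN _ hTM _ ha).1
    have n4 : T * ((1 + a) * S) - Q ∈ N := by
      have : T * ((1 + a) * S) - Q = T * a * S - (Q - T * S) := by noncomm_ring
      rw [this]; exact N.sub_mem (hN _ hSM _ n3).2 hb
    intro i j
    rw [m8]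
    fin_cases i <;> fin_cases j <;> simp [n1, n2, n3, n4, N.zero_mem]
  · refine Index.equiv (u := Phi v v' (r * U)) (u' := Phi v v' (U' * r)) (v := Phi v v' (r * Qt))
      (v' := Phi v v' (Qt * r)) (stab h hi) hE2 he2 ?_ ?_ ?_ ?_ ?_ ?_
    · rw [← mul_assoc, he2, mul_assoc, hE2]
    · rw [← Phi_mul h]; simp only [Matrix.mul_assoc, rr]; rw [m1]
    · rw [← Phi_mul h]; simp only [Matrix.mul_assoc]
    · rw [← Phi_mul h]; simp only [Matrix.mul_assoc, rr]; rw [m4]
    · rw [← Phi_mul h, e0]; simp only [Matrix.mul_assoc]; rw [← Matrix.mul_assoc Qt Qt, m4]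
    · rw [e0, ← Phi_mul h, ← Phi_mul h, ← Phi_mul h]
      have : r * Qt * r * (r * (U * U') * r) * (r * U) = r * Qt * Tt := by
        calc r * Qt * r * (r * (U * U') * r) * (r * U) = r * (Qt * (U * (U' * U))) := by
              simp only [Matrix.mul_assoc, rr]
          _ = _ := by rw [m1, m5, m6, Matrix.mul_assoc, m7]
      rw [this, sub_self]; exact t.K.zero_mem

end Alg

theorem near {R : Type} [NormedRing R] [CompleteSpace R] {t : TrSet R} {E e : R} {z : ℂ}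
    (he : e * e = e) (hi : HasInd t E e (e * E) z) : ∃ δ : ℝ, 0 < δ ∧ ∀ E', E' * E' = E' →
      E' - E ∈ t.K → ‖E' - E‖ < δ → HasInd t E' e (e * E') z := by
  have hE := hi.1
  have hpos : (0 : ℝ) < ‖E + E - 1‖ + 1 := by positivity
  refine ⟨(‖E + E - 1‖ + 1)⁻¹, inv_pos.2 hpos, fun E' hE' hk hd => ?_⟩
  have hn : ‖-((E' - E) * (E + E - 1))‖ < 1 := by
    rw [norm_neg]
    have h1 := norm_mul_le (E' - E) (E + E - 1)
    have h2 : ‖E' - E‖ * (‖E + E - 1‖ + 1) < 1 := by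
      have := mul_lt_mul_of_pos_right hd hpos
      rwa [inv_mul_cancel₀ hpos.ne'] at this
    nlinarith [norm_nonneg (E' - E)]
  have hu : IsUnit (1 + (E' - E) * (E + E - 1)) := by
    have := (Units.oneSub _ hn).isUnit
    rwa [Units.val_oneSub, sub_neg_eq_add] at this
  obtain ⟨u, hu⟩ := hu
  have y1 : (↑u⁻¹ : R) * (1 + (E' - E) * (E + E - 1)) = 1 := by rw [← hu]; simp
  have y2 : (1 + (E' - E) * (E + E - 1)) * (↑u⁻¹ : R) = 1 := by rw [← hu]; simp
  generalize (↑u⁻¹ : R) = y at y1 y2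
  have w1 : (1 + (E' - E) * (E + E - 1)) * E = E' * E := by
    have : (1 + (E' - E) * (E + E - 1)) * E = E + (E' - E) * (E * E + E * E - E) := by
      noncomm_ring
    rw [this, hE, add_sub_cancel_right, sub_mul, hE]; simp
  have w2 : E' * (1 + (E' - E) * (E + E - 1)) = E' * E := by
    have : E' * (1 + (E' - E) * (E + E - 1)) =
        E' + (E' * E') * (E + E - 1) - E' * (E * E + E * E - E) := by noncomm_ring
    rw [this, hE, hE']; noncomm_ring
  generalize 1 + (E' - E) * (E + E - 1) = w at y1 y2 w1 w2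
  refine Index.equiv (u := E' * E) (u' := E * y) (v := e) (v' := e) hi hE' he ?_ ?_ ?_ he he ?_
  · rw [← mul_assoc, he, mul_assoc, hE']
  · rw [← w1, mul_assoc, ← mul_assoc y, y1, one_mul, hE]
  · rw [mul_assoc, ← mul_assoc E, hE, ← mul_assoc, ← w2, mul_assoc, y2, mul_one]
  · have : e * E' * (E' * E) - e * (e * E) = e * (E' - E) * E := by
      have h1 : e * E' * (E' * E) = e * (E' * E') * E := by noncomm_ring
      have h2 : e * (E' - E) * E = e * E' * E - e * (E * E) := by noncomm_ring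
      rw [h1, h2, hE, hE', ← mul_assoc, he]
    rw [this]; exact t.K.mul_mem_right _ _ (t.K.mul_mem_left _ _ hk)

end Count

theorem countS : CountStmt := by
  intro _ R _ _ t M N hsep hNK hN v v' hv h
  classical
  set e := v 1 * v' 1 with he
  let Id : Set R := {E | E * E = E ∧ E - e ∈ N}
  have hId : TopologicalSpace.IsSeparable Id := by
    refine (hsep.image (f := fun x => x + e) (by fun_prop)).mono ?_
    rintro E ⟨-, hE⟩
    exact ⟨E - e, hE, by simp⟩
  obtain ⟨D, hDI, hDc, hD⟩ := hId.exists_countable_dense_subset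
  let f : R → ℂ := fun E => if hh : ∃ z, HasInd t E e (e * E) z then hh.choose else 0
  refine (hDc.image f).mono ?_
  rintro z ⟨P, hP, Q, hQ, T, hT, S, hS, ha, hb, hi⟩
  have hPP := hi.1
  have hQQ := hi.2.1
  have hQT := Index.left_of hQQ hi.2.2.1
  have hTP := Index.right_of hPP hi.2.2.1
  have e1 : P - P * S * Q * T = P * (P - S * T) := by
    rw [mul_sub, hPP, mul_assoc (P * S) Q T, hQT, mul_assoc]
  have e2 : Q - T * (P * S * Q) = (Q - T * S) * Q := by
    rw [sub_mul, hQQ, ← mul_assoc, ← mul_assoc, hTP]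
  obtain ⟨E, hE, hEN, hiE⟩ := Count.normal (S := P * S * Q) h hN hv hP hQ hT
    (M.mul_mem (M.mul_mem hP hS) hQ)
    (by calc P * (P * S * Q) * Q = (P * P) * S * (Q * Q) := by noncomm_ring
          _ = P * S * Q := by rw [hPP, hQQ])
    (by rw [e1]; exact (hN _ hP _ ha).1) (by rw [e2]; exact (hN _ hQ _ hb).2) hi
  obtain ⟨δ, hδ, hn⟩ := Count.near hiE.2.1 hiE
  obtain ⟨E', hE'D, hd⟩ := Metric.mem_closure_iff.1 (hD (show E ∈ Id from ⟨hE, hEN⟩)) δ hδ
  obtain ⟨hE', hE'N⟩ := hDI hE'D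
  have hi' := hn E' hE' (by
    have : E' - E = (E' - e) - (E - e) := by abel
    rw [this]; exact hNK _ (N.sub_mem hE'N hEN)) (by rwa [← dist_eq_norm, dist_comm])
  have hh : ∃ z, HasInd t E' e (e * E') z := ⟨z, hi'⟩
  refine ⟨E', hE'D, ?_⟩
  simp only [f, dif_pos hh]
  exact Index.uniq hh.choose_spec hi'

end Vale.Agent.P089
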