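import Mathlib
import Vale.Agent.P089.BaseB

namespace Vale.Agent.P089

open scoped ZeroAtInfty

namespace Geom

variable {G Z : Type} [Group G] [TopologicalSpace Z] [MulAction G Z]

/-- A compactly supported real function as a complex function vanishing at infinity. -/
noncomputable def mk0 (f : Z → ℝ) (hc : Continuous f) (hs : HasCompactSupport f) : C₀(Z, ℂ) where
  toFun z := (f z : ℂ)
  continuous_toFun := Complex.continuous_ofReal.comp hc
  zero_at_infty' := (hs.comp_left (g := Complex.ofReal) Complex.ofReal_zero).is_zero_at_infty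

@[simp] theorem mk0_apply (f : Z → ℝ) (hc hs) (z : Z) : mk0 f hc hs z = (f z : ℂ) := rfl

theorem near_finite [LocallyCompactSpace Z] [ProperlyDiscontinuousSMul G Z] {f : Z → ℝ}
    (hs : HasCompactSupport f) (z : Z) :
    ∃ K ∈ nhds z, {g : G | ∃ y ∈ K, f (g⁻¹ • y) ≠ 0}.Finite := by
  obtain ⟨K, hK, hz⟩ := exists_compact_mem_nhds z
  refine ⟨K, hz, (ProperlyDiscontinuousSMul.finite_disjoint_inter_image (Γ := G) hs hK).subset ?_⟩
  rintro g ⟨y, hy, h⟩
  exact ⟨y, ⟨g⁻¹ • y, subset_tsupport _ h, smul_inv_smul g y⟩, hy⟩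

theorem locFin [LocallyCompactSpace Z] [ProperlyDiscontinuousSMul G Z] {f : Z → ℝ}
    (hs : HasCompactSupport f) :
    LocallyFinite fun g : G => Function.support fun z => f (g⁻¹ • z) ^ 2 := by
  intro z
  obtain ⟨K, hK, hf⟩ := near_finite (G := G) hs z
  refine ⟨K, hK, hf.subset ?_⟩
  rintro g ⟨y, h1, h2⟩
  exact ⟨y, h2, fun h => h1 (by simp [h])⟩

end Geom

open Geom

theorem cutoffS : CutoffStmt := by
  intro G Z _ _ _ _ _ _ _ _
  have hK : ∃ K : Set Z, IsCompact K ∧ ∀ z, ∃ g : G, g⁻¹ • z ∈ K := by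
    choose k hk hk' using fun z : Z => exists_compact_mem_nhds z
    let q : Z → MulAction.orbitRel.Quotient G Z := Quotient.mk (MulAction.orbitRel G Z)
    have hq : IsOpenMap q := isOpenMap_quotient_mk'_mul
    obtain ⟨s, hs⟩ := isCompact_univ.elim_finite_subcover (fun z => q '' interior (k z))
      (fun z => hq _ isOpen_interior) (by
        intro y _
        obtain ⟨z, rfl⟩ := Quotient.exists_rep y
        exact Set.mem_iUnion.2 ⟨z, z, mem_interior_iff_mem_nhds.2 (hk' z), rfl⟩)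
    refine ⟨⋃ z ∈ s, k z, s.isCompact_biUnion fun z _ => hk z, fun z => ?_⟩
    obtain ⟨x, hx, y, hy, e⟩ := Set.mem_iUnion₂.1 (hs (Set.mem_univ (q z)))
    obtain ⟨g, hg⟩ : y ∈ MulAction.orbit G z := MulAction.orbitRel_apply.1 (Quotient.exact e)
    refine ⟨g⁻¹, Set.mem_iUnion₂.2 ⟨x, hx, ?_⟩⟩
    have hg' : g • z = y := hg
    rw [inv_inv, hg']
    exact interior_subset hy
  obtain ⟨K, hK, hcov⟩ := hK
  obtain ⟨f, h1, -, hs, h01⟩ := exists_continuous_one_zero_of_isCompact hK isClosed_empty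
    (Set.disjoint_empty K)
  let s : Z → ℝ := fun z => ∑ᶠ g : G, f (g⁻¹ • z) ^ 2
  have hlf := locFin (G := G) hs
  have hsc : Continuous s := continuous_finsum (fun g => by fun_prop) hlf
  have hsp : ∀ z, 0 < s z := by
    intro z
    obtain ⟨g, hg⟩ := hcov z
    exact finsum_pos' (fun _ => sq_nonneg _) ⟨g, by rw [h1 hg]; simp⟩ (hlf.point_finite z)
  have hsi : ∀ (g : G) z, s (g⁻¹ • z) = s z := by
    intro g z
    simp only [s]
    rw [← finsum_comp_equiv (Equiv.mulLeft g) (f := fun h : G => f (h⁻¹ • z) ^ 2)]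
    simp [mul_smul]
  have hcc : Continuous fun z => f z / √(s z) :=
    f.continuous.div hsc.sqrt fun z => (Real.sqrt_pos.2 (hsp z)).ne'
  have hcs : HasCompactSupport fun z => f z / √(s z) := by
    simp only [div_eq_mul_inv]
    exact hs.mul_right
  refine ⟨⟨fun z => f z / √(s z), hcc, hcs, fun z => div_nonneg (h01 z).1 (Real.sqrt_nonneg _),
    fun z => ?_, fun g => mk0 (fun z => f z / √(s z) * (f (g⁻¹ • z) / √(s (g⁻¹ • z))))
      (hcc.mul (hcc.comp (continuous_const_smul g⁻¹))) hcs.mul_right, fun g z => rfl⟩⟩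
  simp only [hsi, div_pow, Real.sq_sqrt (hsp z).le]
  simp only [div_eq_mul_inv]
  rw [← finsum_mul]
  exact mul_inv_cancel₀ (hsp z).ne'

end Vale.Agent.P089
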