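import Mathlib
import Vale.Agent.P089.Crea

namespace Vale.Agent.P089

open Finset Crea

theorem depthS : DepthStmt := by
  classical
  intro S V _ F G _ C i0 O ω B
  rw [filter_congr (q := fun y => d O y = 1) fun y _ => d_one_iff O y]
  set R := 200 * Fintype.card S with hR
  let BD := (B ×ˢ (univ : Finset S)).filter fun p => Edge C.x F.bar ω p.1 p.2 ∧ p.1 * C.x p.2 ∉ B
  let ER := B.filter (Err C.x F.bar F.deg ω)
  let FO := (B ×ˢ (univ : Finset S)).filter fun p => p.1 * C.x p.2 ∈ B ∧
    d O (p.1 * C.x p.2) = 1 ∧ Down O (p.1 * C.x p.2) (F.bar p.2)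
  have hinj : ∀ (j : ℕ) (A : Finset (G × S)), j ≤ R → (∀ p ∈ A, p.1 * C.x p.2 ∈ B ∧
      d O (p.1 * C.x p.2) = j ∧ Down O (p.1 * C.x p.2) (F.bar p.2)) →
      A.card ≤ (B.filter fun y => d O y = j).card := by
    intro j A hj hA
    apply card_le_card_of_injOn (fun p => p.1 * C.x p.2)
    · intro p hp
      have := hA p hp
      simp only [coe_filter, Set.mem_setOf_eq]
      exact ⟨this.1, this.2.1⟩
    · intro p hp p' hp' e
      exact up_inj O (hA p hp).2.2 (hA p' hp').2.2 e (by rw [(hA p hp).2.1]; exact hj)
  have main := arith (fun j => (B.filter fun y => d O y = j).card)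
    (fun j => (FO.filter fun p => d O p.1 = j).card)
    (fun j => (BD.filter fun p => d O p.1 = j).card + (ER.filter fun y => d O y = j).card)
    R B.card (BD.card + ER.card) ?_ ?_ ?_ (sum_fiber_le _ _ _)
  · have e : bdry (fun y s => y * C.x s) (Edge C.x F.bar ω) (Err C.x F.bar F.deg ω) B =
        BD.card + ER.card := by
      unfold bdry
      congr
    rw [e]
    calc _ ≤ _ := main
      _ = _ := by rw [hR]; ring
  · intro j hj hjR
    let OK := (B.filter fun y => d O y = j).filter fun y => ¬ Err C.x F.bar F.deg ω y
    let D := (OK ×ˢ (univ : Finset S)).filter fun p => ω p.1 p.2 = 1 ∧ ¬ Down O p.1 p.2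
    let OW := (B ×ˢ (univ : Finset S)).filter fun p => p.1 * C.x p.2 ∈ B ∧
      d O (p.1 * C.x p.2) = j + 1 ∧ Down O (p.1 * C.x p.2) (F.bar p.2)
    have h1 : 2 * OK.card ≤ D.card := by
      rw [card_eq_sum_card_fiberwise (s := D) (t := OK) (f := Prod.fst)
        (fun p hp => (mem_product.1 (mem_filter.1 hp).1).1), mul_comm, ← smul_eq_mul, ← sum_const]
      apply sum_le_sum
      intro y hy
      have hy' := mem_filter.1 hy
      have hne := hy'.2
      have hdy := (mem_filter.1 hy'.1).2
      have h3 : 3 ≤ (univ.filter fun s => ω y s = 1).card := by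
        unfold Err at hne
        exact (not_not.1 hne).1
      have h4 : ((univ.filter fun s => ω y s = 1).filter fun s => Down O y s).card ≤ 1 := by
        rw [card_le_one]
        intro a ha b hb
        exact down_uniq O (by omega) (mem_filter.1 ha).2 (mem_filter.1 hb).2
      have h5 := card_filter_add_card_filter_not (s := univ.filter fun s => ω y s = 1)
        (fun s => Down O y s)
      have h6 : ((univ.filter fun s => ω y s = 1).filter fun s => ¬ Down O y s).card ≤
          (D.filter fun p => p.1 = y).card := by
        apply card_le_card_of_injOn (fun s => (y, s))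
        · intro s hs
          simp only [coe_filter, mem_filter, mem_univ, true_and, Set.mem_setOf_eq] at hs
          simp only [D, coe_filter, mem_filter, mem_product, mem_univ, and_true, Set.mem_setOf_eq]
          exact ⟨hy, hs⟩
        · intro a _ b _ e
          exact (Prod.mk.inj e).2
      omega
    have h2 : D ⊆ (BD.filter fun p => d O p.1 = j) ∪ OW ∪ (FO.filter fun p => d O p.1 = j) := by
      intro p hp
      simp only [D, OK, mem_filter, mem_product, mem_univ, and_true] at hp
      obtain ⟨⟨⟨hB, hd⟩, hne⟩, hs, hn⟩ := hp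
      simp only [BD, OW, FO, mem_union, mem_filter, mem_product, mem_univ, and_true]
      by_cases hin : p.1 * C.x p.2 ∈ B
      · cases hst : F.st (cv O p.1) p.2 with
        | none => exact Or.inr ⟨⟨hB, hin, foreign O hne hs hst⟩, hd⟩
        | some w => exact Or.inl (Or.inr ⟨hB, hin, hd ▸ own_up O hst hn⟩)
      · exact Or.inl (Or.inl ⟨⟨hB, edge_of hne hs, hin⟩, hd⟩)
    have h3 := (card_le_card h2).trans ((card_union_le _ _).trans
      (Nat.add_le_add_right (card_union_le _ _) _))
    have h4 : OW.card ≤ (B.filter fun y => d O y = j + 1).card :=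
      hinj (j + 1) OW (by omega) fun p hp => (mem_filter.1 hp).2
    have h5 := card_filter_add_card_filter_not (s := B.filter fun y => d O y = j)
      (fun y => Err C.x F.bar F.deg ω y)
    have h6 : ((B.filter fun y => d O y = j).filter fun y => Err C.x F.bar F.deg ω y).card =
        (ER.filter fun y => d O y = j).card := by
      rw [filter_comm]
    have h7 : OK.card = ((B.filter fun y => d O y = j).filter
      fun y => ¬ Err C.x F.bar F.deg ω y).card := rfl
    show 2 * (B.filter fun y => d O y = j).card ≤ (B.filter fun y => d O y = j + 1).card +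
      (FO.filter fun p => d O p.1 = j).card +
      2 * ((BD.filter fun p => d O p.1 = j).card + (ER.filter fun y => d O y = j).card)
    omega
  · have := F.cardS
    exact (sum_fiber_le _ _ _).trans (hinj 1 FO (by omega) fun p hp => (mem_filter.1 hp).2)
  · rw [sum_add_distrib]
    exact Nat.add_le_add (sum_fiber_le _ _ _) (sum_fiber_le _ _ _)

end Vale.Agent.P089
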