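import Mathlib
import Vale.Agent.P089.BaseB

/-
P089 part B: the descent of a Fredholm module compressed by the cutoff projection.
-/

namespace Vale.Agent.P089

open scoped ZeroAtInfty

namespace Desc

section Ring

variable {R : Type} [Ring R]

theorem neg_a (F P Q : R) : F * -P - -Q * F = -(F * P - Q * F) := by noncomm_ring

theorem neg_b (F P : R) : F * -P = -(F * P) := mul_neg F P

theorem idem_a {P Q : R} (F F' : R) (hPP : P * P = P) (hQQ : Q * Q = Q) :
    P - (F' * Q) * (Q * F * P) = F' * (F * P - Q * F) * P - (F' * F - 1) * P := by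
  have h2 : (F' * Q) * (Q * F * P) = F' * (Q * Q) * F * P := by noncomm_ring
  have h3 : F' * (F * P - Q * F) * P = F' * F * (P * P) - F' * Q * F * P := by noncomm_ring
  rw [h2, h3, hQQ, hPP]
  noncomm_ring

theorem idem_b {Q : R} (P F F' : R) (hQQ : Q * Q = Q) : Q - (Q * F * P) * (F' * Q) =
    -(Q * ((F * F' - 1) * Q)) - Q * (F * P - Q * F) * (F' * Q) := by
  have h2 : Q * ((F * F' - 1) * Q) = Q * F * F' * Q - Q * Q := by noncomm_ring
  have h3 : Q * (F * P - Q * F) * (F' * Q) =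
      Q * F * P * (F' * Q) - Q * Q * F * F' * Q := by noncomm_ring
  rw [h2, h3, hQQ]
  noncomm_ring

theorem idem_c {P : R} (Q F F' : R) (hPP : P * P = P) :
    P * F' * Q * (Q * F * P) - P = -(P * (P - F' * Q * (Q * F * P))) := by
  rw [mul_sub, hPP]
  noncomm_ring

theorem idem_d {P : R} (Q F F' : R) (hPP : P * P = P) :
    Q * F * P * (P * F' * Q) - Q = -(Q - Q * F * P * (F' * Q)) := by
  have h2 : Q * F * P * (P * F' * Q) = Q * F * (P * P) * (F' * Q) := by noncomm_ring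
  rw [h2, hPP, neg_sub]

end Ring

section Tens

variable {Λ H : Type} [Group Λ] [NormedAddCommGroup H] [InnerProductSpace ℂ H]

theorem tens_sub (X Y : H →L[ℂ] H) (g : Λ) : tens (X - Y) g = tens X g - tens Y g :=
  Subtype.ext (tensL_sub X Y g)

theorem tens_one : tens (1 : H →L[ℂ] H) (1 : Λ) = 1 := Subtype.ext tensL_one

theorem tens_mem_KR {X : H →L[ℂ] H} (hX : IsCompactOperator X) (g : Λ) : tens X g ∈ KR Λ H :=
  tensL_mem_KG hX g

theorem Psi_mem_MG {D : Type} [Ring D] (f : D →+* (H →L[ℂ] H)) (y : MonoidAlgebra D Λ) :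
    Psi f Λ y ∈ MG Λ H := by
  induction y using MonoidAlgebra.induction_linear with
  | zero => rw [map_zero]; exact zero_mem _
  | add a b ha hb => rw [map_add]; exact add_mem ha hb
  | single g d => rw [Psi_single]; exact tens_mem_MG _ _

end Tens

variable {G Z H : Type} [Group G] [TopologicalSpace Z] [MulAction G Z]
  [NormedAddCommGroup H] [InnerProductSpace ℂ H] [CompleteSpace H]

theorem cpt_gen (x : Fred G Z H) (act : G →* RingAut C₀(Z, ℂ))
    (hact : ∀ g f z, act g f z = f (g⁻¹ • z)) (f : C₀(Z, ℂ)) (g : G) :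
    IsCompactOperator (x.F * (x.π f * x.U g) - x.ρ f * x.V g * x.F : H →L[ℂ] H) := by
  have h0 : ∀ z, f z = act g⁻¹ f (g⁻¹ • z) := fun z => by rw [hact]; simp
  have h1 := x.covU g _ f h0
  have h2 := x.covV g _ f h0
  have h3 : x.U g⁻¹ * x.U g = 1 := by rw [← map_mul, inv_mul_cancel, map_one]
  have h4 : x.U g⁻¹ * (x.π f * x.U g) = x.π (act g⁻¹ f) := by
    rw [← h1, ← mul_assoc, h3, one_mul]
  have h5 : x.F * (x.π f * x.U g) - x.ρ f * x.V g * x.F =
      x.V g * (x.F * x.π (act g⁻¹ f) - x.ρ (act g⁻¹ f) * x.F) -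
        (x.V g * x.F * x.U g⁻¹ - x.F) * x.π f * x.U g := by
    rw [← h2, ← h4]
    noncomm_ring
  rw [h5]
  exact (cpt_mul_left (X := x.V g) (x.comm _)).sub (cpt_mul_right (X := x.U g) (x.equi g f))

theorem gd_facts (x : Fred G Z H) (act : G →* RingAut C₀(Z, ℂ))
    (hact : ∀ g f z, act g f z = f (g⁻¹ • z)) (Λ : Type) [Group Λ]
    {y : MonoidAlgebra ((H →L[ℂ] H) × (H →L[ℂ] H)) Λ} (hy : y ∈ Gd (x.covRep act hact) Λ) :
    tens x.F 1 * PsiP H Λ y - PsiM H Λ y * tens x.F 1 ∈ KR Λ H ∧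
      (tens (star x.F) 1 * tens x.F 1 - 1) * PsiP H Λ y ∈ KR Λ H ∧
      (tens x.F 1 * tens (star x.F) 1 - 1) * PsiM H Λ y ∈ KR Λ H := by
  induction hy using AddSubgroup.closure_induction with
  | mem y hy =>
    obtain ⟨l, f, g, rfl⟩ := hy
    have hP : PsiP H Λ (MonoidAlgebra.single l ((x.covRep act hact).π f * (x.covRep act hact).U g))
        = tens (x.π f * x.U g) l := Psi_single _ _ _
    have hQ : PsiM H Λ (MonoidAlgebra.single l ((x.covRep act hact).π f * (x.covRep act hact).U g))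
        = tens (x.ρ f * x.V g) l := Psi_single _ _ _
    rw [hP, hQ, ← tens_one]
    simp only [tens_mul, ← tens_sub, one_mul, mul_one]
    refine ⟨tens_mem_KR (cpt_gen x act hact f g) l, tens_mem_KR ?_ l, tens_mem_KR ?_ l⟩
    · rw [← mul_assoc]
      exact cpt_mul_right (x.left f)
    · rw [← mul_assoc]
      exact cpt_mul_right (x.right f)
  | zero => simp
  | add a b _ _ ha hb =>
    rw [map_add, map_add, mul_add, mul_add, mul_add, add_mul, add_sub_add_comm]
    exact ⟨add_mem ha.1 hb.1, add_mem ha.2.1 hb.2.1, add_mem ha.2.2 hb.2.2⟩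
  | neg a _ ha =>
    rw [map_neg, map_neg, neg_a, neg_b, neg_b]
    exact ⟨neg_mem ha.1, neg_mem ha.2.1, neg_mem ha.2.2⟩

omit [CompleteSpace H] in
theorem idem_facts {Λ : Type} [Group Λ] {P Q F F' : RG Λ H} (hP : P ∈ MG Λ H) (hQ : Q ∈ MG Λ H)
    (hF' : F' ∈ MG Λ H) (hPP : P * P = P) (hQQ : Q * Q = Q) (ha : F * P - Q * F ∈ KR Λ H)
    (hb : (F' * F - 1) * P ∈ KR Λ H) (hc : (F * F' - 1) * Q ∈ KR Λ H) :
    P - (F' * Q) * (Q * F * P) ∈ KR Λ H ∧ Q - (Q * F * P) * (F' * Q) ∈ KR Λ H := by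
  constructor
  · rw [idem_a F F' hPP hQQ]
    exact sub_mem (KR_mul_MG (MG_mul_KR hF' ha) hP) hb
  · rw [idem_b P F F' hQQ]
    exact sub_mem (neg_mem (MG_mul_KR hQ hc)) (KR_mul_MG (MG_mul_KR hQ ha) (mul_mem hF' hQ))

theorem proj_facts (π : C₀(Z, ℂ) →⋆ₙₐ[ℂ] (H →L[ℂ] H)) (U : G →* (H →L[ℂ] H))
    (hU : ∀ g, star (U g) = U g⁻¹)
    (hcov : ∀ (g : G) (f f' : C₀(Z, ℂ)), (∀ z, f' z = f (g⁻¹ • z)) → U g * π f = π f' * U g)
    (c : Cutoff G Z) (S : Finset G) (hS : ∀ g, g ∉ S → c.p g = 0) :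
    star (∑ g ∈ S, tensL (π (c.p g) * U g) g) = ∑ g ∈ S, tensL (π (c.p g) * U g) g ∧
      ∀ (h : G) (ξ : H), (∑ g ∈ S, tensL (π (c.p g) * U g) g) (Jl G H h ξ) =
        ∑ᶠ g : G, Jl G H (g * h) (π (c.p g) (U g ξ)) := by
  constructor
  · have h1 : ∀ g : G, star (tensL (π (c.p g) * U g) g) = tensL (π (c.p g⁻¹) * U g⁻¹) g⁻¹ := by
      intro g
      have h2 : star (c.p g) = c.p g := by
        ext z
        simp [c.p_eq]
      rw [star_tensL, star_mul, hU, ← map_star, h2, hcov g⁻¹ (c.p g) (c.p g⁻¹)]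
      intro z
      simp [c.p_eq, mul_comm]
    have h2 : ∀ g : G, g ∉ S → tensL (π (c.p g) * U g) g = 0 := by
      intro g hg
      rw [hS g hg, map_zero, zero_mul, tensL_zero]
    rw [star_sum, ← finsum_eq_sum_of_support_subset (fun g => star (tensL (π (c.p g) * U g) g))
      (fun g hg => by
        by_contra hn
        exact hg (by simp only [h2 g hn, star_zero])),
      ← finsum_eq_sum_of_support_subset (fun g => tensL (π (c.p g) * U g) g)
      (fun g hg => by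
        by_contra hn
        exact hg (h2 g hn))]
    simp only [h1]
    exact finsum_comp_equiv (Equiv.inv G) (f := fun g => tensL (π (c.p g) * U g) g)
  · intro h ξ
    rw [finsum_eq_sum_of_support_subset (s := S) _ (fun g hg => by
      by_contra hn
      exact hg (by simp [hS g hn])), sum_apply]
    refine Finset.sum_congr rfl fun g _ => ?_
    rw [tensL_Jl]
    rfl

end Desc

open Desc in
theorem descS : DescStmt := by
  intro G Z H _ _ _ _ _ _ x act hact
  have part1 : ∀ (Λ : Type) [Group Λ], ∀ y ∈ Gd (x.covRep act hact) Λ, y * y = y →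
      PsiP H Λ y - (tens (star x.F) 1 * PsiM H Λ y) *
            (PsiM H Λ y * tens x.F 1 * PsiP H Λ y) ∈ KR Λ H ∧
          PsiM H Λ y - (PsiM H Λ y * tens x.F 1 * PsiP H Λ y) *
            (tens (star x.F) 1 * PsiM H Λ y) ∈ KR Λ H := by
    intro Λ _ y hy hyy
    obtain ⟨ha, hb, hc⟩ := gd_facts x act hact Λ hy
    exact idem_facts (Psi_mem_MG _ y) (Psi_mem_MG _ y) (tens_mem_MG _ _)
      (by rw [← map_mul, hyy]) (by rw [← map_mul, hyy]) ha hb hc
  refine ⟨fun Λ _ => ⟨fun y => ⟨Psi_mem_MG _ y, Psi_mem_MG _ y⟩, fun y hy =>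
    ⟨(gd_facts x act hact Λ hy).1, part1 Λ y hy⟩⟩, fun c c0 hc0 Q hyy => ?_⟩
  have hp : ∀ g, c.p g = c0 * act g c0 := by
    intro g
    ext z
    simp [c.p_eq, hact, hc0]
  have hS : ∀ g, g ∉ Q.S → c.p g = 0 := fun g hg => (hp g).trans (Q.supp g hg)
  have hy : pk (x.covRep act hact) c0 Q.S id ∈ Gd (x.covRep act hact) G :=
    sum_mem fun g _ => AddSubgroup.subset_closure ⟨_, _, _, rfl⟩
  have hP : (PsiP H G (pk (x.covRep act hact) c0 Q.S id)).1 =
      ∑ g ∈ Q.S, tensL (x.π (c.p g) * x.U g) g := by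
    rw [pk, map_sum, AddSubmonoidClass.coe_finsetSum]
    refine Finset.sum_congr rfl fun g _ => ?_
    rw [Psi_single, hp]
    rfl
  have hQ : (PsiM H G (pk (x.covRep act hact) c0 Q.S id)).1 =
      ∑ g ∈ Q.S, tensL (x.ρ (c.p g) * x.V g) g := by
    rw [pk, map_sum, AddSubmonoidClass.coe_finsetSum]
    refine Finset.sum_congr rfl fun g _ => ?_
    rw [Psi_single, hp]
    rfl
  have fP := proj_facts x.π x.U x.unitU x.covU c Q.S hS
  have fQ := proj_facts x.ρ x.V x.unitV x.covV c Q.S hS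
  rw [← hP] at fP
  rw [← hQ] at fQ
  obtain ⟨k1, k2⟩ := part1 G _ hy hyy
  have mP : PsiP H G (pk (x.covRep act hact) c0 Q.S id) ∈ MG G H := Psi_mem_MG _ _
  have mQ : PsiM H G (pk (x.covRep act hact) c0 Q.S id) ∈ MG G H := Psi_mem_MG _ _
  have iP : PsiP H G (pk (x.covRep act hact) c0 Q.S id) *
      PsiP H G (pk (x.covRep act hact) c0 Q.S id) = PsiP H G (pk (x.covRep act hact) c0 Q.S id) := by
    rw [← map_mul, hyy]
  have iQ : PsiM H G (pk (x.covRep act hact) c0 Q.S id) *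
      PsiM H G (pk (x.covRep act hact) c0 Q.S id) = PsiM H G (pk (x.covRep act hact) c0 Q.S id) := by
    rw [← map_mul, hyy]
  generalize PsiP H G (pk (x.covRep act hact) c0 Q.S id) = P at *
  generalize PsiM H G (pk (x.covRep act hact) c0 Q.S id) = R at *
  have hT : star (R * tens x.F 1 * P).1 = (P * tens (star x.F) 1 * R).1 := by
    change star (R.1 * tensL x.F 1 * P.1) = P.1 * tensL (star x.F) 1 * R.1
    rw [star_mul, star_mul, fP.1, fQ.1, star_tensL, inv_one, mul_assoc]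
  have mT' : R * tens x.F 1 * P ∈ MG G H := mul_mem (mul_mem mQ (tens_mem_MG _ _)) mP
  have mT : IsMul (Jl G H) (R * tens x.F 1 * P).1 := mT'
  constructor
  · refine ⟨⟨P.1, R.1, (R * tens x.F 1 * P).1, mP, mQ, mT,
      congrArg Subtype.val iP, fP.1, congrArg Subtype.val iQ, fQ.1, ?_, ?_, ?_⟩,
      fP.2, fQ.2, tensL x.F 1, isTens_iff.2 rfl, rfl⟩
    · have h1 : R * (R * tens x.F 1 * P) * P = R * tens x.F 1 * P := by
        rw [← mul_assoc, ← mul_assoc, iQ, mul_assoc, iP]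
      exact congrArg Subtype.val h1
    · have h2 := neg_mem (MG_mul_KR mP k1)
      rw [← idem_c _ _ _ iP] at h2
      rw [hT]
      exact isCpt_iff.2 h2
    · have h2 := neg_mem k2
      rw [← idem_d _ _ _ iP] at h2
      rw [hT]
      exact isCpt_iff.2 h2
  · intro a ha
    have h1 : a.P = P.1 := HG.ext_op fun h ξ => (ha.even h ξ).trans (fP.2 h ξ).symm
    have h2 : a.Q = R.1 := HG.ext_op fun h ξ => (ha.odd h ξ).trans (fQ.2 h ξ).symm
    obtain ⟨D, hD, hT'⟩ := ha.op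
    refine ⟨h1, h2, ?_⟩
    rw [hT', h1, h2, isTens_iff.1 hD]
    rfl

end Vale.Agent.P089
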