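import Mathlib
import Vale.Agent.P089.Base

/- Reading words in labelled graphs; one stage of the construction of the family. -/

namespace Vale.Agent.P089.Family

open Finset Vale.Agent.P089

section Words

variable {V V' S S' : Type}

theorem rd_cons {st : V → S → Option V} {v x : V} {s : S} {u : List S} :
    rd st v (s :: u) = some x ↔ ∃ w, st v s = some w ∧ rd st w u = some x := by
  simp only [rd, Option.bind_eq_some_iff]

theorem rd_some {st : V → S → Option V} {v : V} {u : List S} :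
    (rd st v u).isSome = true ↔ ∃ x, rd st v u = some x := Option.isSome_iff_exists

theorem rd_map {st : V → S → Option V} {st' : V' → S' → Option V'} (f : V → V') (g : S → S')
    (h : ∀ v s w, st v s = some w → st' (f v) (g s) = some (f w)) {u : List S} {v x : V}
    (hu : rd st v u = some x) : rd st' (f v) (u.map g) = some (f x) := by
  induction u generalizing v with
  | nil => simp only [rd, Option.some.injEq] at hu; subst hu; rfl
  | cons s u ih =>
    obtain ⟨w, h1, h2⟩ := rd_cons.1 hu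
    exact rd_cons.2 ⟨f w, h _ _ _ h1, ih h2⟩

theorem rd_mono {st st' : V → S → Option V}
    (h : ∀ v s w, st v s = some w → st' v s = some w) {u : List S} {v x : V}
    (hu : rd st v u = some x) : rd st' v u = some x := by
  simpa using rd_map (st' := st') id id h hu

theorem rd_app {st : V → S → Option V} {u u' : List S} {v w x : V} (h : rd st v u = some w)
    (h' : rd st w u' = some x) : rd st v (u ++ u') = some x := by
  induction u generalizing v with
  | nil => simp only [rd, Option.some.injEq] at h; subst h; exact h'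
  | cons s u ih =>
    obtain ⟨y, h1, h2⟩ := rd_cons.1 h
    exact rd_cons.2 ⟨y, h1, ih h2⟩

theorem rd_take {st : V → S → Option V} {u : List S} {v x : V} (h : rd st v u = some x) (n : ℕ) :
    ∃ y, rd st v (u.take n) = some y := by
  induction u generalizing v n with
  | nil => exact ⟨v, by simp [rd]⟩
  | cons s u ih =>
    obtain ⟨w, h1, h2⟩ := rd_cons.1 h
    cases n with
    | zero => exact ⟨v, rfl⟩
    | succ n =>
      obtain ⟨y, hy⟩ := ih h2 n
      exact ⟨y, rd_cons.2 ⟨w, h1, hy⟩⟩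

theorem rd_rev {st : V → S → Option V} {bar : S → S}
    (symm : ∀ v s w, st v s = some w → st w (bar s) = some v) {u : List S} {v x : V}
    (h : rd st v u = some x) : ∃ u', rd st x u' = some v := by
  induction u generalizing v with
  | nil => simp only [rd, Option.some.injEq] at h; subst h; exact ⟨[], rfl⟩
  | cons s u ih =>
    obtain ⟨w, h1, h2⟩ := rd_cons.1 h
    obtain ⟨u', hu'⟩ := ih h2
    exact ⟨u' ++ [bar s], rd_app hu' (rd_cons.2 ⟨v, symm _ _ _ h1, rfl⟩)⟩

theorem red_map {st : V → S → Option V} {bar : S → S} {bar' : S' → S'} (g : S → S')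
    (hg : ∀ s, g (bar s) = bar' (g s))
    (symm : ∀ v s w, st v s = some w → st w (bar s) = some v)
    (uniq : ∀ v s s' w w', st v s = some w → st v s' = some w' → g s = g s' → s = s')
    {u : List S} {v x : V} (hr : Red bar u) (h : rd st v u = some x) : Red bar' (u.map g) := by
  induction u generalizing v with
  | nil => exact List.IsChain.nil
  | cons a u ih =>
    obtain ⟨w, h1, h2⟩ := rd_cons.1 h
    cases u with
    | nil => exact List.IsChain.singleton _
    | cons b u =>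
      obtain ⟨y, h3, -⟩ := rd_cons.1 h2
      have hr' := List.isChain_cons_cons.1 hr
      refine List.isChain_cons_cons.2 ⟨fun e => hr'.1 ?_, ih hr'.2 h2⟩
      exact uniq w _ _ _ _ h3 (symm _ _ _ h1) (e.trans (hg a).symm)

theorem mem_lab [Fintype S] {st : V → S → Option V} {v : V} {s : S} :
    s ∈ lab st v ↔ ∃ w, st v s = some w := by
  simp [lab, Option.isSome_iff_exists]

theorem exists_words [Fintype S] {st : V → S → Option V} {d : ℕ}
    (hd : ∀ v, (lab st v).card ≤ d) (n : ℕ) (v : V) :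
    ∃ T : Finset (List S), T.card ≤ d ^ n ∧ (∀ u ∈ T, u.length = n) ∧
      ∀ u x, u.length = n → rd st v u = some x → u ∈ T := by
  classical
  induction n generalizing v with
  | zero => exact ⟨{[]}, by simp, by simp, fun u x hu _ => by simpa using hu⟩
  | succ n ih =>
    choose T h1 h2 h3 using ih
    refine ⟨(lab st v).biUnion fun s => (T ((st v s).getD v)).image (s :: ·), ?_, ?_, ?_⟩
    · refine (card_biUnion_le_card_mul _ _ (d ^ n) fun s _ => card_image_le.trans (h1 _)).trans ?_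
      rw [pow_succ']
      exact Nat.mul_le_mul_right _ (hd v)
    · intro u hu
      obtain ⟨s, -, hs⟩ := mem_biUnion.1 hu
      obtain ⟨t, ht, rfl⟩ := mem_image.1 hs
      rw [List.length_cons, h2 _ _ ht]
    · rintro (_ | ⟨s, u⟩) x hu hx
      · simp at hu
      · obtain ⟨w, h4, h5⟩ := rd_cons.1 hx
        refine mem_biUnion.2 ⟨s, mem_lab.2 ⟨w, h4⟩, mem_image.2 ⟨u, ?_, rfl⟩⟩
        rw [h4]
        exact h3 w u x (by simpa using hu) h5

theorem exists_ball [Fintype S] {st : V → S → Option V} {d : ℕ}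
    (hd : ∀ v, (lab st v).card ≤ d) (n : ℕ) (v : V) :
    ∃ Q : Finset V, Q.card ≤ (d + 1) ^ n ∧ ∀ u x, u.length ≤ n → rd st v u = some x → x ∈ Q := by
  classical
  induction n generalizing v with
  | zero =>
    refine ⟨{v}, by simp, fun u x hu hx => ?_⟩
    obtain rfl : u = [] := by simpa using hu
    simp only [rd, Option.some.injEq] at hx
    simp [hx]
  | succ n ih =>
    choose Q h1 h2 using ih
    refine ⟨insert v ((lab st v).biUnion fun s => Q ((st v s).getD v)), ?_, ?_⟩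
    · refine (card_insert_le _ _).trans ?_
      have h3 := (card_biUnion_le_card_mul (lab st v) (fun s => Q ((st v s).getD v)) _
        fun s _ => h1 _).trans (Nat.mul_le_mul_right _ (hd v))
      have h4 : 1 ≤ (d + 1) ^ n := Nat.one_le_pow _ _ (Nat.succ_pos d)
      rw [pow_succ]
      nlinarith
    · rintro (_ | ⟨s, u⟩) x hu hx
      · simp only [rd, Option.some.injEq] at hx
        simp [hx]
      · obtain ⟨w, h4, h5⟩ := rd_cons.1 hx
        refine mem_insert_of_mem (mem_biUnion.2 ⟨s, mem_lab.2 ⟨w, h4⟩, ?_⟩)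
        rw [h4]
        exact h2 w u x (by simpa using hu) h5

theorem conn_of_expand {st : V → S → Option V} {bar : S → S}
    (symm : ∀ v s w, st v s = some w → st w (bar s) = some v) {K : Finset V}
    (hK : ∀ v ∈ K, ∀ s w, st v s = some w → w ∈ K)
    (ex : ∀ U : Finset V, U ⊆ K → 2 * U.card ≤ K.card →
      ∃ N : Finset V, U.card ≤ 2 * N.card ∧ ∀ w ∈ N, w ∉ U ∧ ∃ v ∈ U, ∃ s, st v s = some w)
    {v w : V} (hv : v ∈ K) (hw : w ∈ K) : ∃ u, rd st v u = some w := by
  classical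
  have key : ∀ v ∈ K, K.card < 2 * (K.filter fun x => ∃ u, rd st v u = some x).card := by
    intro v hv
    by_contra hc
    obtain ⟨N, h1, h2⟩ := ex _ (filter_subset _ _) (not_lt.1 hc)
    have h3 : 0 < (K.filter fun x => ∃ u, rd st v u = some x).card :=
      card_pos.2 ⟨v, mem_filter.2 ⟨hv, [], rfl⟩⟩
    obtain ⟨y, hy⟩ := card_pos.1 (show 0 < N.card by omega)
    obtain ⟨h4, x, hx, s, hs⟩ := h2 y hy
    obtain ⟨h5, u, hu⟩ := mem_filter.1 hx
    exact h4 (mem_filter.2 ⟨hK x h5 s y hs, u ++ [s], rd_app hu (rd_cons.2 ⟨y, hs, rfl⟩)⟩)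
  have h1 := key v hv
  have h2 := key w hw
  obtain ⟨x, hx⟩ := inter_nonempty_of_card_lt_card_add_card
    (filter_subset (fun x => ∃ u, rd st v u = some x) K)
    (filter_subset (fun x => ∃ u, rd st w u = some x) K) (by omega)
  obtain ⟨h3, h4⟩ := mem_inter.1 hx
  obtain ⟨u, hu⟩ := (mem_filter.1 h3).2
  obtain ⟨u', hu'⟩ := (mem_filter.1 h4).2
  obtain ⟨u'', hu''⟩ := rd_rev symm hu'
  exact ⟨_, rd_app hu hu''⟩

end Words

/-- The properties of one graph of the family. -/
structure Good {T : Type} [Fintype T] {bar : T → T} (d B L : ℕ) (F : Finset (List T))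
    (Γ : FG bar) : Prop where
  girth : Girth Γ (10 * L)
  self : ∀ v v' u x x', v ≠ v' → Red bar u → rd Γ.st v u = some x → rd Γ.st v' u = some x' →
    u.length < L
  avoid : ∀ u ∈ F, Red bar u → ∀ v ∈ Γ.W, rd Γ.st v u = none
  three : ∀ v ∈ Γ.W, 3 ≤ (lab Γ.st v).card
  deg : ∀ v, (lab Γ.st v).card ≤ d
  expand : ∀ U ⊆ Γ.W, 2 * U.card ≤ Γ.W.card → ∃ N ⊆ Γ.W, U.card ≤ 2 * N.card ∧
    ∀ w ∈ N, w ∉ U ∧ ∃ v ∈ U, ∃ s, Γ.st v s = some w
  le : Γ.W.card ≤ B ^ L
  ge : 8 * (d + 1) ^ (2 * L) ≤ Γ.W.card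

/-- The induced subgraph. -/
def restr {T : Type} {bar : T → T} (Γ : FG bar) (W : Finset ℕ) : FG bar where
  W := W
  st v s := (Γ.st v s).filter fun w => decide (v ∈ W ∧ w ∈ W)
  symm v s w h := by
    simp only [Option.filter_eq_some_iff, decide_eq_true_eq] at h ⊢
    exact ⟨Γ.symm _ _ _ h.1, h.2.2, h.2.1⟩
  mem v s w h := by
    simp only [Option.filter_eq_some_iff, decide_eq_true_eq] at h
    exact h.2.1

theorem restr_st {T : Type} {bar : T → T} (Γ : FG bar) (W : Finset ℕ) (v : ℕ) (s : T) (w : ℕ) :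
    (restr Γ W).st v s = some w ↔ Γ.st v s = some w ∧ v ∈ W ∧ w ∈ W := by
  simp only [restr, Option.filter_eq_some_iff, decide_eq_true_eq]

theorem stage (h2 : Rand2Stmt) (h3 : CoreStmt) {S : Type} [Fintype S] {bar : S → S}
    {sg : S → Bool} {B r L : ℕ} (hs : Signed bar sg) (hL : 1 ≤ L) (hB : 1 ≤ B)
    (hS : 1 ≤ Fintype.card S) (hr : 16 * (B ^ 2 * Fintype.card S) ≤ r)
    (h1 : ∃ (Γ : FG bar) (m : ℕ), Girth Γ (10 * L) ∧ Joined Γ m ∧ 80 * m ≤ Γ.W.card ∧
      Γ.W.card ≤ B ^ L ∧ (Fintype.card S + 1) ^ (2 * L) ≤ m)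
    (F : Finset (List (S × Fin (r ^ 3)))) (hF : ∀ u ∈ F, u.length ≤ L)
    (hw : ∑ u ∈ F, ((r ^ 3 : ℕ) : ℝ)⁻¹ ^ u.length ≤ 1 / 16) :
    ∃ Γ : FG (fun p : S × Fin (r ^ 3) => (bar p.1, p.2)), Good (Fintype.card S) B L F Γ := by
  classical
  obtain ⟨Γ₁, m, g1, j1, a1, a2, a3⟩ := h1
  obtain ⟨Γ₂, ⟨i1, i2, i3, i4⟩, b1, b2, b3⟩ := h2 S bar sg B r L hs hL hB hS hr Γ₁ g1 a2 F hF hw
  have hm : 1 ≤ m := (Nat.one_le_pow _ _ (Nat.succ_pos _)).trans a3
  have j2 : Joined Γ₂ m := fun A A' hA hA' c1 c2 => by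
    obtain ⟨a, ha, b, hb, s, h⟩ := j1 A A' (hA.trans i1) (hA'.trans i1) c1 c2
    obtain ⟨c, hc⟩ := i4 a (hA ha) b (hA' hb) s h
    exact ⟨a, ha, b, hb, _, hc⟩
  have uq : ∀ v s s' w w', Γ₂.st v s = some w → Γ₂.st v s' = some w' → s.1 = s'.1 → s = s' := by
    rintro v ⟨s, c⟩ ⟨s', c'⟩ w w' e1 e2 (rfl : s = s')
    rw [i3 v s c c' (by simp [e1]) (by simp [e2])]
  have g2 : Girth Γ₂ (10 * L) := fun v u hu hne h => by
    have := g1 v (u.map Prod.fst) (red_map Prod.fst (fun _ => rfl) Γ₂.symm uq hu h)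
      (by simpa using hne) (rd_map (st' := Γ₁.st) id Prod.fst (fun v s w e => i2 v s.1 s.2 w e) h)
    simpa using this
  obtain ⟨W, c1, c2, c3, c4⟩ := h3 _ _ Γ₂ m hm j2 (by omega)
  have mono : ∀ v s w, (restr Γ₂ W).st v s = some w → Γ₂.st v s = some w := fun v s w h =>
    ((restr_st _ _ _ _ _).1 h).1
  refine ⟨restr Γ₂ W, fun v u hu hne h => g2 v u hu hne (rd_mono mono h),
    fun v v' u x x' hv hu e1 e2 => b3 v v' u hv hu (rd_some.2 ⟨_, rd_mono mono e1⟩)
      (rd_some.2 ⟨_, rd_mono mono e2⟩), fun u hu hr v hv => ?_, fun v hv => ?_, fun v => ?_,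
    fun U hU hc => ?_, (card_le_card (c1.trans i1)).trans a2, ?_⟩
  · refine Option.eq_none_iff_forall_ne_some.2 fun x hx => ?_
    have := rd_mono mono hx
    rw [b2 u hu hr v (c1 hv)] at this
    exact absurd this (by simp)
  · obtain ⟨N, n1, n2, n3⟩ := c3 v hv
    refine n2.ge.trans (le_trans (card_le_card fun w hw => ?_)
      (card_image_le (f := fun s => ((restr Γ₂ W).st v s).getD 0)))
    obtain ⟨s, h⟩ := n3 w hw
    have h' := (restr_st Γ₂ W v s w).2 ⟨h, hv, n1 hw⟩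
    exact mem_image.2 ⟨s, mem_lab.2 ⟨w, h'⟩, by rw [h']; rfl⟩
  · refine card_le_card_of_injOn Prod.fst (fun _ _ => mem_coe.2 (mem_univ _)) fun s h s' h' e => ?_
    obtain ⟨w, hw⟩ := mem_lab.1 (mem_coe.1 h)
    obtain ⟨w', hw'⟩ := mem_lab.1 (mem_coe.1 h')
    exact uq v s s' w w' (mono _ _ _ hw) (mono _ _ _ hw') e
  · obtain ⟨N, n1, n2, n3⟩ := c4 U hU hc
    refine ⟨N, n1, n2, fun w hw => ⟨(n3 w hw).1, ?_⟩⟩
    obtain ⟨v, hv, s, h⟩ := (n3 w hw).2
    exact ⟨v, hv, s, (restr_st Γ₂ W v s w).2 ⟨h, hU hv, n1 hw⟩⟩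
  · change _ ≤ W.card
    omega

theorem exists_chain {α : Type} (P : ℕ → α → Prop) (R : α → α → Prop) (h0 : ∃ x, P 0 x)
    (hs : ∀ j x, P j x → ∃ y, P (j + 1) y ∧ R x y) :
    ∃ f : ℕ → α, (∀ j, P j (f j)) ∧ ∀ j, R (f j) (f (j + 1)) := by
  choose g h1 h2 using hs
  obtain ⟨x, hx⟩ := h0
  let f : ∀ j, {x // P j x} := fun j =>
    Nat.rec ⟨x, hx⟩ (fun j y => ⟨g j y.1 y.2, h1 j y.1 y.2⟩) j
  exact ⟨fun j => (f j).1, fun j => (f j).2, fun j => h2 j (f j).1 (f j).2⟩

end Vale.Agent.P089.Family
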