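import Mathlib
import Vale.Agent.P089.Base
import Vale.Agent.P089.FamilyA

/- The family of labelled expanders. -/

namespace Vale.Agent.P089

open Finset

namespace Family

/-- A sequence of graphs over a common alphabet. -/
structure Seq {T : Type} [Fintype T] (bar : T → T) (d B : ℕ) where
  L : ℕ → ℕ
  F : ℕ → Finset (List T)
  Γ : ℕ → FG bar
  good : ∀ j, Good d B (L j) (F j) (Γ j)
  L0 : 200 * (Fintype.card T * ((d + 1) * (d + 1))) + 1 ≤ L 0
  Ls : ∀ j, L (j + 1) = L j + 4 * (Γ j).W.card + 1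
  Fs : ∀ j, F j ⊆ F (j + 1)
  new : ∀ j u v x, u.length = L j → v ∈ (Γ j).W → rd (Γ j).st v u = some x → u ∈ F (j + 1)

theorem exists_seq {T : Type} [Fintype T] {bar : T → T} {d B q : ℕ} (hq0 : 0 < q)
    (hq : 32 * (B * d) ≤ q)
    (h : ∀ L, 1 ≤ L → ∀ F : Finset (List T), (∀ u ∈ F, u.length ≤ L) →
      ∑ u ∈ F, ((q : ℕ) : ℝ)⁻¹ ^ u.length ≤ 1 / 16 → ∃ Γ : FG bar, Good d B L F Γ) :
    Nonempty (Seq bar d B) := by
  classical
  obtain ⟨f, h1, h2⟩ := exists_chain (α := ℕ × Finset (List T) × FG bar)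
    (fun j x => j + 1 ≤ x.1 ∧ 200 * (Fintype.card T * ((d + 1) * (d + 1))) + 1 ≤ x.1 ∧
      (∀ u ∈ x.2.1, u.length ≤ x.1) ∧
      ∑ u ∈ x.2.1, ((q : ℕ) : ℝ)⁻¹ ^ u.length ≤ 1 / 16 - 1 / 16 * (1 / 2) ^ j ∧
      Good d B x.1 x.2.1 x.2.2)
    (fun x y => y.1 = x.1 + 4 * x.2.2.W.card + 1 ∧ x.2.1 ⊆ y.2.1 ∧
      ∀ u v z, u.length = x.1 → v ∈ x.2.2.W → rd x.2.2.st v u = some z → u ∈ y.2.1)
    (by
      obtain ⟨Γ, hΓ⟩ := h (200 * (Fintype.card T * ((d + 1) * (d + 1))) + 1) (by omega) ∅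
        (by simp) (by simp)
      exact ⟨(_, ∅, Γ), by simp, le_rfl, by simp, by simp, hΓ⟩)
    (by
      rintro j ⟨L, F, Γ⟩ ⟨a1, a2, a3, a4, a5⟩
      dsimp only at a1 a2 a3 a4 a5
      choose Tw b1 b2 b3 using exists_words a5.deg L
      let N := Γ.W.biUnion Tw
      have hN : N.card ≤ (B * d) ^ L := by
        rw [mul_pow, mul_comm]
        refine (card_biUnion_le_card_mul _ _ _ fun v _ => b1 v).trans ?_
        rw [mul_comm]
        exact Nat.mul_le_mul_left _ a5.le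
      have hNl : ∀ u ∈ N, u.length = L := fun u hu => by
        obtain ⟨v, -, hv⟩ := mem_biUnion.1 hu
        exact b2 v u hv
      have hq' : (0 : ℝ) < q := by exact_mod_cast hq0
      have hw : ∑ u ∈ N, ((q : ℕ) : ℝ)⁻¹ ^ u.length ≤ 1 / 16 * (1 / 2) ^ (j + 1) := by
        rw [sum_congr rfl fun u hu => by rw [hNl u hu], sum_const, nsmul_eq_mul]
        have e1 : (N.card : ℝ) ≤ ((B * d : ℕ) : ℝ) ^ L := by exact_mod_cast hN
        have e2 : ((B * d : ℕ) : ℝ) * (q : ℝ)⁻¹ ≤ 1 / 32 := by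
          rw [← div_eq_mul_inv, div_le_div_iff₀ hq' (by norm_num)]
          have : ((32 * (B * d) : ℕ) : ℝ) ≤ q := by exact_mod_cast hq
          push_cast at this ⊢
          linarith
        calc (N.card : ℝ) * (q : ℝ)⁻¹ ^ L ≤ ((B * d : ℕ) : ℝ) ^ L * (q : ℝ)⁻¹ ^ L :=
              mul_le_mul_of_nonneg_right e1 (by positivity)
          _ ≤ (1 / 32) ^ L := by
              rw [← mul_pow]; exact pow_le_pow_left₀ (by positivity) e2 L
          _ ≤ (1 / 32) ^ (j + 1) := pow_le_pow_of_le_one (by norm_num) (by norm_num) a1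
          _ = (1 / 16) ^ (j + 1) * (1 / 2) ^ (j + 1) := by rw [← mul_pow]; norm_num
          _ ≤ 1 / 16 * (1 / 2) ^ (j + 1) := by
              refine mul_le_mul_of_nonneg_right ?_ (by positivity)
              simpa using pow_le_pow_of_le_one (a := (1 / 16 : ℝ)) (by norm_num) (by norm_num)
                (Nat.le_add_left 1 j)
      have hw2 : ∑ u ∈ F ∪ N, ((q : ℕ) : ℝ)⁻¹ ^ u.length ≤ 1 / 16 - 1 / 16 * (1 / 2) ^ (j + 1) := by
        have e1 := sum_union_inter (s₁ := F) (s₂ := N) (f := fun u => ((q : ℕ) : ℝ)⁻¹ ^ u.length)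
        have e2 : 0 ≤ ∑ u ∈ F ∩ N, ((q : ℕ) : ℝ)⁻¹ ^ u.length := sum_nonneg fun _ _ => by positivity
        rw [pow_succ] at hw ⊢
        linarith
      have hl : ∀ u ∈ F ∪ N, u.length ≤ L + 4 * Γ.W.card + 1 := fun u hu => by
        rcases mem_union.1 hu with hu | hu
        · have := a3 u hu; omega
        · have := hNl u hu; omega
      obtain ⟨Γ', hΓ'⟩ := h (L + 4 * Γ.W.card + 1) (by omega) (F ∪ N) hl
        (hw2.trans (sub_le_self _ (by positivity)))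
      refine ⟨(L + 4 * Γ.W.card + 1, F ∪ N, Γ'), ⟨?_, ?_, hl, hw2, hΓ'⟩, rfl, subset_union_left,
        fun u v z e1 e2 e3 => mem_union_right _ (mem_biUnion.2 ⟨v, e2, b3 v u z e1 e3⟩)⟩
      · dsimp only; omega
      · dsimp only; omega)
  exact ⟨⟨fun j => (f j).1, fun j => (f j).2.1, fun j => (f j).2.2, fun j => (h1 j).2.2.2.2,
    (h1 0).2.1, fun j => (h2 j).1, fun j => (h2 j).2.1, fun j => (h2 j).2.2⟩⟩

namespace Seq

variable {T : Type} [Fintype T] {bar : T → T} {d B : ℕ} (Q : Seq bar d B)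

theorem L_mono : Monotone Q.L := monotone_nat_of_le_succ fun j => by rw [Q.Ls]; omega

theorem F_mono : Monotone Q.F := monotone_nat_of_le_succ Q.Fs

theorem cross {i j v v' x x' : ℕ} (hij : i < j) (hv : v ∈ (Q.Γ i).W) (hv' : v' ∈ (Q.Γ j).W)
    {u : List T} (hu : Red bar u) (h : rd (Q.Γ i).st v u = some x)
    (h' : rd (Q.Γ j).st v' u = some x') : u.length < Q.L i := by
  by_contra hc
  obtain ⟨y, hy⟩ := rd_take h (Q.L i)
  obtain ⟨y', hy'⟩ := rd_take h' (Q.L i)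
  have h1 := Q.F_mono (Nat.succ_le_of_lt hij)
    (Q.new i _ v y (List.length_take_of_le (not_lt.1 hc)) hv hy)
  rw [(Q.good j).avoid _ h1 (hu.take _) v' hv'] at hy'
  exact absurd hy' (by simp)

/-- The vertices. -/
def V : Type := {p : ℕ × ℕ // p.2 ∈ (Q.Γ p.1).W}

/-- The number of labels at a vertex. -/
def nl (p : Q.V) : Fin (d + 1) :=
  ⟨(lab (Q.Γ p.1.1).st p.1.2).card, Nat.lt_succ_of_le ((Q.good _).deg _)⟩

/-- The edges. -/
def Rel (p : Q.V) (s : T × (Fin (d + 1) × Fin (d + 1))) (p' : Q.V) : Prop :=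
  p'.1.1 = p.1.1 ∧ (Q.Γ p.1.1).st p.1.2 s.1 = some p'.1.2 ∧ s.2 = (Q.nl p, Q.nl p')

open Classical in
/-- The step function. -/
noncomputable def st (p : Q.V) (s : T × (Fin (d + 1) × Fin (d + 1))) : Option Q.V :=
  if h : ∃ p', Q.Rel p s p' then some h.choose else none

theorem rel_uniq {p p' p'' : Q.V} {s s' : T × (Fin (d + 1) × Fin (d + 1))} (h : Q.Rel p s p')
    (h' : Q.Rel p s' p'') (e : s.1 = s'.1) : p' = p'' :=
  Subtype.ext (Prod.ext (h.1.trans h'.1.symm)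
    (Option.some_injective _ (h.2.1.symm.trans (e ▸ h'.2.1))))

theorem st_iff {p p' : Q.V} {s : T × (Fin (d + 1) × Fin (d + 1))} :
    Q.st p s = some p' ↔ Q.Rel p s p' := by
  unfold st
  split_ifs with h
  · rw [Option.some.injEq]
    exact ⟨fun e => e ▸ h.choose_spec, fun e => Q.rel_uniq h.choose_spec e rfl⟩
  · exact ⟨fun e => absurd e (by simp), fun e => absurd ⟨_, e⟩ h⟩

theorem st_symm (p : Q.V) (s : T × (Fin (d + 1) × Fin (d + 1))) (p' : Q.V)
    (h : Q.st p s = some p') : Q.st p' (bar s.1, s.2.swap) = some p := by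
  obtain ⟨h1, h2, h3⟩ := Q.st_iff.1 h
  refine Q.st_iff.2 ⟨h1.symm, ?_, by rw [h3]; rfl⟩
  rw [h1]
  exact (Q.Γ _).symm _ _ _ h2

theorem st_uniq (p : Q.V) (s s' : T × (Fin (d + 1) × Fin (d + 1))) (w w' : Q.V)
    (h : Q.st p s = some w) (h' : Q.st p s' = some w') (e : s.1 = s'.1) : s = s' := by
  have h1 := Q.st_iff.1 h
  have h2 := Q.st_iff.1 h'
  obtain rfl := Q.rel_uniq h1 h2 e
  exact Prod.ext e (h1.2.2.trans h2.2.2.symm)

theorem st_lift (p : Q.V) {t : T} {w : ℕ} (h : (Q.Γ p.1.1).st p.1.2 t = some w) :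
    ∃ (s : T × (Fin (d + 1) × Fin (d + 1))) (p' : Q.V), s.1 = t ∧ p'.1 = (p.1.1, w) ∧
      Q.st p s = some p' :=
  let p' : Q.V := ⟨(p.1.1, w), (Q.Γ _).mem _ _ _ ((Q.Γ _).symm _ _ _ h)⟩
  ⟨(t, (Q.nl p, Q.nl p')), p', rfl, rfl, Q.st_iff.2 ⟨rfl, h, rfl⟩⟩

theorem rd_down {u : List (T × (Fin (d + 1) × Fin (d + 1)))} {p x : Q.V}
    (h : rd Q.st p u = some x) : rd (Q.Γ p.1.1).st p.1.2 (u.map Prod.fst) = some x.1.2 := by
  induction u generalizing p with
  | nil => simp only [rd, Option.some.injEq] at h; subst h; rfl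
  | cons s u ih =>
    obtain ⟨w, h1, h2⟩ := rd_cons.1 h
    obtain ⟨h3, h4, -⟩ := Q.st_iff.1 h1
    exact rd_cons.2 ⟨w.1.2, h4, h3 ▸ ih h2⟩

theorem red_down {u : List (T × (Fin (d + 1) × Fin (d + 1)))} {p x : Q.V}
    (hu : Red (fun s => (bar s.1, s.2.swap)) u) (h : rd Q.st p u = some x) :
    Red bar (u.map Prod.fst) :=
  red_map Prod.fst (fun _ => rfl) Q.st_symm Q.st_uniq hu h

theorem card_lab (p : Q.V) : (lab Q.st p).card = (lab (Q.Γ p.1.1).st p.1.2).card := by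
  refine card_bij (fun s _ => s.1) (fun s hs => ?_) (fun s hs s' hs' e => ?_) fun t ht => ?_
  · obtain ⟨w, hw⟩ := mem_lab.1 hs
    exact mem_lab.2 ⟨_, (Q.st_iff.1 hw).2.1⟩
  · obtain ⟨w, hw⟩ := mem_lab.1 hs
    obtain ⟨w', hw'⟩ := mem_lab.1 hs'
    exact Q.st_uniq p s s' w w' hw hw' e
  · obtain ⟨w, hw⟩ := mem_lab.1 ht
    obtain ⟨s, p', e, -, h⟩ := Q.st_lift p hw
    exact ⟨s, mem_lab.2 ⟨p', h⟩, e⟩

/-- The components. -/
def K (i : ℕ) : Finset Q.V :=
  (Q.Γ i).W.attach.map ⟨fun x => ⟨(i, x.1), x.2⟩, fun _ _ e =>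
    Subtype.ext (congrArg (fun p : Q.V => p.1.2) e)⟩

theorem card_K (i : ℕ) : (Q.K i).card = (Q.Γ i).W.card := by rw [K, card_map, card_attach]

theorem mem_K (p : Q.V) (i : ℕ) : p ∈ Q.K i ↔ p.1.1 = i := by
  refine ⟨fun h => ?_, ?_⟩
  · obtain ⟨x, -, rfl⟩ := mem_map.1 h
    rfl
  · rintro rfl
    exact mem_map.2 ⟨⟨p.1.2, p.2⟩, mem_attach _ _, rfl⟩

theorem expand (i : ℕ) (U : Finset Q.V) (hU : U ⊆ Q.K i) (hc : 2 * U.card ≤ (Q.K i).card) :
    ∃ N : Finset Q.V, U.card ≤ 2 * N.card ∧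
      ∀ w ∈ N, w ∉ U ∧ ∃ v ∈ U, ∃ s, Q.st v s = some w := by
  classical
  have hi : ∀ p ∈ U, p.1.1 = i := fun p hp => (Q.mem_K p i).1 (hU hp)
  have e : (U.image fun p => p.1.2).card = U.card :=
    card_image_of_injOn fun p hp p' hp' e =>
      Subtype.ext (Prod.ext ((hi p hp).trans (hi p' hp').symm) e)
  obtain ⟨N, n1, n2, n3⟩ := (Q.good i).expand (U.image fun p => p.1.2) (fun v hv => by
    obtain ⟨p, hp, rfl⟩ := mem_image.1 hv
    exact hi p hp ▸ p.2) (by rw [e, ← Q.card_K]; exact hc)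
  refine ⟨(Q.K i).filter fun p => p.1.2 ∈ N, ?_, fun w hw => ?_⟩
  · rw [← e]
    refine n2.trans (Nat.mul_le_mul_left _ (le_trans (card_le_card fun v hv => ?_)
      (card_image_le (f := fun p : Q.V => p.1.2))))
    exact mem_image.2 ⟨⟨(i, v), n1 hv⟩, mem_filter.2 ⟨(Q.mem_K _ _).2 rfl, hv⟩, rfl⟩
  · obtain ⟨h1, h2⟩ := mem_filter.1 hw
    obtain ⟨h3, v, hv, t, ht⟩ := n3 _ h2
    obtain ⟨p, hp, rfl⟩ := mem_image.1 hv
    refine ⟨fun h => h3 (mem_image_of_mem _ h), p, hp, ?_⟩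
    obtain ⟨s, p', -, e', h⟩ := Q.st_lift p (t := t) (w := w.1.2) (by rw [hi p hp]; exact ht)
    obtain rfl : p' = w :=
      Subtype.ext (e'.trans (Prod.ext ((hi p hp).trans ((Q.mem_K w i).1 h1).symm) rfl))
    exact ⟨s, h⟩

theorem st_comp (v : Q.V) (s : T × (Fin (d + 1) × Fin (d + 1))) (w : Q.V)
    (h : Q.st v s = some w) : w.1.1 = v.1.1 := (Q.st_iff.1 h).1

open Classical in
/-- The family. -/
noncomputable def fam (hb : ∀ s, bar (bar s) = s) (hT : 16 ≤ Fintype.card T) :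
    Fam (T × (Fin (d + 1) × Fin (d + 1))) Q.V where
  bar s := (bar s.1, s.2.swap)
  bar_bar s := by simp [hb]
  st := Q.st
  symm := Q.st_symm
  comp p := p.1.1
  K := Q.K
  mem_K := Q.mem_K
  st_comp := Q.st_comp
  conn v w h := conn_of_expand (bar := fun s => (bar s.1, s.2.swap)) Q.st_symm (K := Q.K v.1.1)
    (fun x hx s y hy => (Q.mem_K _ _).2 ((Q.st_comp x s y hy).trans ((Q.mem_K _ _).1 hx)))
    (Q.expand _) ((Q.mem_K _ _).2 rfl) ((Q.mem_K _ _).2 h.symm)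
  len := Q.L
  len_ge i := by
    have h1 := Q.L0
    have h2 := Q.L_mono (Nat.zero_le i)
    simp only [Fintype.card_prod, Fintype.card_fin]
    omega
  girth v u hu hne h := by
    simpa using (Q.good _).girth _ _ (Q.red_down hu h) (by simpa using hne) (Q.rd_down h)
  piece v v' u hv hu h h' := by
    obtain ⟨x, hx⟩ := rd_some.1 h
    obtain ⟨x', hx'⟩ := rd_some.1 h'
    have h1 := Q.red_down hu hx
    have h2 := Q.rd_down hx
    have h3 := Q.rd_down hx'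
    rw [← List.length_map Prod.fst]
    rcases lt_trichotomy v.1.1 v'.1.1 with hl | hl | hl
    · exact Q.cross hl v.2 v'.2 h1 h2 h3
    · exact (Q.good _).self _ _ _ _ _ (fun e => hv (Subtype.ext (Prod.ext hl e))) h1 h2 (hl ▸ h3)
    · exact (Q.cross hl v'.2 v.2 h1 h3 h2).trans_le (Q.L_mono hl.le)
  deg s := if ∃ v, (Q.st v s).isSome = true then s.2.1 else 0
  deg_eq v s h := by
    rw [if_pos ⟨v, h⟩, Q.card_lab]
    obtain ⟨w, hw⟩ := Option.isSome_iff_exists.1 h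
    rw [(Q.st_iff.1 hw).2.2]
    rfl
  deg_used s h := by
    by_contra hc
    exact h (if_neg hc)
  three v := by rw [Q.card_lab]; exact (Q.good _).three _ v.2
  expand := Q.expand
  ball v P hP := by
    obtain ⟨R, h1, h2⟩ := exists_ball (st := Q.st) (d := d)
      (fun p => by rw [Q.card_lab]; exact (Q.good _).deg _) (2 * Q.L v.1.1) v
    have h3 : P.card ≤ R.card := card_le_card fun x hx => by
      obtain ⟨u, hu, h⟩ := hP x hx
      exact h2 u x hu.le h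
    rw [Q.card_K]
    exact (Nat.mul_le_mul_left 8 (h3.trans h1)).trans (Q.good _).ge
  grow i := by
    rw [Q.card_K, Q.card_K]
    have h1 := (Q.good (i + 1)).ge
    have h2 := (Q.good (i + 1)).three
    have h3 := (Q.good (i + 1)).deg
    have h4 : 0 < (d + 1) ^ (2 * Q.L (i + 1)) := by positivity
    obtain ⟨v, hv⟩ := card_pos.1 (show 0 < (Q.Γ (i + 1)).W.card by omega)
    have h5 : 2 ≤ d + 1 := by have := (h2 v hv).trans (h3 v); omega
    have h6 := (Nat.lt_two_pow_self (n := 2 * Q.L (i + 1))).trans_le (Nat.pow_le_pow_left h5 _)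
    have h7 := Q.Ls i
    omega
  pos := by
    rw [Q.card_K]
    exact lt_of_lt_of_le (by positivity) (Q.good 0).ge
  cardS := by
    simp only [Fintype.card_prod, Fintype.card_fin]
    exact hT.trans (Nat.le_mul_of_pos_right _ (by positivity))

end Seq

end Family

theorem familyS : FamilyStmt := by
  rintro ⟨S, _, bar, sg, B, hs, hS, hB, h1⟩ h2 h3
  obtain ⟨r, hr⟩ : ∃ r, r = 16 * (B ^ 2 * Fintype.card S) := ⟨_, rfl⟩
  have a1 : B * Fintype.card S ≤ B ^ 2 * Fintype.card S :=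
    Nat.mul_le_mul_right _ (by nlinarith)
  have a2 : 1 ≤ B * Fintype.card S := Nat.mul_pos hB (by omega)
  have a3 : 16 ≤ r := by omega
  have a4 : 2 * r ≤ r ^ 3 := by
    have : 2 ≤ r ^ 2 := by nlinarith
    rw [pow_succ]
    exact Nat.mul_le_mul_right _ this
  obtain ⟨Q⟩ := Family.exists_seq (bar := fun p : S × Fin (r ^ 3) => (bar p.1, p.2))
    (d := Fintype.card S) (B := B) (q := r ^ 3) (by omega) (by omega)
    fun L hL F hF hw => Family.stage h2 h3 hs hL hB (by omega) hr.ge (h1 L hL) F hF hw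
  exact ⟨_, _, _, ⟨Q.fam (fun s => by simp [hs.1]) (by
    simp only [Fintype.card_prod, Fintype.card_fin]
    exact hS.trans (Nat.le_mul_of_pos_right _ (by omega)))⟩⟩

end Vale.Agent.P089
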