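import Mathlib
import Vale.Agent.P089.StepA
import Vale.Agent.P089.Words

namespace Vale.Agent.P089

open Step

namespace Final

variable {S V : Type} [Fintype S]

theorem K_pos (F : Fam S V) (i : ℕ) : 0 < (F.K i).card := by
  induction i with
  | zero => exact F.pos
  | succ i ih => have := F.grow i; omega

/-- A base point of each component. -/
noncomputable def base (F : Fam S V) (i : ℕ) : V := (Finset.card_pos.1 (K_pos F i)).choose

theorem comp_base (F : Fam S V) (i : ℕ) : F.comp (base F i) = i :=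
  (F.mem_K _ _).1 (Finset.card_pos.1 (K_pos F i)).choose_spec

theorem countV (F : Fam S V) : Countable V := by
  have : (Set.univ : Set V) = ⋃ i, (F.K i : Set V) := by
    ext v
    simp only [Set.mem_univ, Set.mem_iUnion, Finset.mem_coe, true_iff]
    exact ⟨_, (F.mem_K v _).2 rfl⟩
  rw [← Set.countable_univ_iff, this]
  exact Set.countable_iUnion fun i => (F.K i).countable_toSet

/-- The relators. -/
def rels (F : Fam S V) : Set (FreeGroup V) :=
  {r | (∃ i, r = FreeGroup.of (base F i)) ∨ ∃ v s w v' w', F.st v s = some w ∧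
    F.st v' s = some w' ∧ r = (FreeGroup.of v)⁻¹ * FreeGroup.of w *
      ((FreeGroup.of v')⁻¹ * FreeGroup.of w')⁻¹}

abbrev Gp (F : Fam S V) : Type := PresentedGroup (rels F)

/-- The generators. -/
def ff (F : Fam S V) (v : V) : Gp F := PresentedGroup.of v

theorem ff_base (F : Fam S V) (i : ℕ) : ff F (base F i) = 1 :=
  PresentedGroup.one_of_mem (rels := rels F) (Or.inl ⟨i, rfl⟩)

theorem ff_rel (F : Fam S V) {v w v' w' : V} {s : S} (h : F.st v s = some w)
    (h' : F.st v' s = some w') : (ff F v)⁻¹ * ff F w = (ff F v')⁻¹ * ff F w' := by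
  have := PresentedGroup.one_of_mem (rels := rels F) (Or.inr ⟨v, s, w, v', w', h, h', rfl⟩)
  rw [map_mul, map_inv, mul_inv_eq_one, map_mul, map_mul, map_inv, map_inv] at this
  exact this

open Classical in
/-- The labelled generators. -/
noncomputable def xx (F : Fam S V) (s : S) : Gp F :=
  if h : ∃ p : V × V, F.st p.1 s = some p.2 then (ff F h.choose.1)⁻¹ * ff F h.choose.2 else 1

theorem xx_eq (F : Fam S V) {v w : V} {s : S} (h : F.st v s = some w) :
    xx F s = (ff F v)⁻¹ * ff F w := by
  have h1 : ∃ p : V × V, F.st p.1 s = some p.2 := ⟨(v, w), h⟩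
  rw [xx, dif_pos h1]
  exact ff_rel F h1.choose_spec h

/-- The small cancellation group with its data. -/
noncomputable def sc (F : Fam S V) : SC F (Gp F) where
  x := xx F
  f := ff F
  x_bar s := by
    by_cases h : ∃ p : V × V, F.st p.1 s = some p.2
    · obtain ⟨p, hp⟩ := h
      rw [xx_eq F hp, xx_eq F (F.symm _ _ _ hp)]
      simp
    · have h' : ¬ ∃ p : V × V, F.st p.1 (F.bar s) = some p.2 := by
        rintro ⟨p, hp⟩
        have := F.symm _ _ _ hp
        rw [F.bar_bar] at this
        exact h ⟨(p.2, p.1), this⟩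
      rw [xx, xx, dif_neg h, dif_neg h', inv_one]
  f_st v s w h := by rw [xx_eq F h]; simp

variable {G : Type} [Group G] {F : Fam S V} {f : V → G} {b : V} {J : Set (Cp V G)}

theorem pos_rd (hJ : Inv F f b J) {c c' : Cp V G} (hc : c ∈ J) (hc' : c' ∈ J) (u : List S) :
    ∀ {v w : V}, In F c v → In F c' v → c.pos v = c'.pos v → rd F.st v u = some w →
      c.pos w = c'.pos w := by
  induction u with
  | nil => intro v w _ _ e h; obtain rfl : v = w := Option.some.inj h; exact e
  | cons s u ih =>
    intro v w h1 h2 e h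
    obtain ⟨x, e1, e2⟩ := Words.rd_cons_inv h
    exact ih (in_st h1 e1) (in_st h2 e1) (hJ.fold c hc c' hc' v v s x x h1 h2 e e1 e1) e2

theorem cover_unique (hJ : Inv F f b J) {c c' : Cp V G} (hc : c ∈ J) (hc' : c' ∈ J) {v : V}
    (h1 : In F c v) (h2 : In F c' v) (e : c.pos v = c'.pos v) : c = c' := by
  classical
  have s1 := (hJ.isDep c hc).small
  have s2 := (hJ.isDep c' hc').small
  rw [← h1] at s1
  rw [← h2] at s2
  have hp := K_pos F (F.comp v)
  have : ∃ w ∈ F.K (F.comp v), c.dep w ≠ 0 ∧ c'.dep w ≠ 0 := by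
    by_contra hn
    have hsub : F.K (F.comp v) ⊆ ((F.K (F.comp v)).filter fun v => c.dep v = 0) ∪
        ((F.K (F.comp v)).filter fun v => c'.dep v = 0) := by
      intro w hw
      simp only [Finset.mem_union, Finset.mem_filter]
      by_contra h3
      exact hn ⟨w, hw, fun h => h3 (Or.inl ⟨hw, h⟩), fun h => h3 (Or.inr ⟨hw, h⟩)⟩
    have := (Finset.card_le_card hsub).trans (Finset.card_union_le _ _)
    omega
  obtain ⟨w, hw, d1, d2⟩ := this
  have hw' := (F.mem_K _ _).1 hw
  obtain ⟨u, hu⟩ := F.conn v w hw'.symm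
  have e2 := pos_rd hJ hc hc' u h1 h2 e hu
  rw [hJ.new c hc w (hw'.trans h1) d1, hJ.new c' hc' w (hw'.trans h2) d2] at e2
  exact (new_inj hJ hc hc' e2).1

/-- A complete state. -/
structure Full (F : Fam S V) (f : V → G) (b : V) (J : Set (Cp V G)) : Prop where
  inv : Inv F f b J
  all : ∀ y, Vert F J y → ∀ w, Cov F J y w

abbrev Y (F : Fam S V) (J : Set (Cp V G)) : Type := {y // Vert F J y}

/-- The copy covering `y` at `v`. -/
noncomputable def cov (H : Full F f b J) (y : Y F J) (v : V) : Cp V G := (H.all y.1 y.2 v).choose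

theorem cov_mem (H : Full F f b J) (y : Y F J) (v : V) : cov H y v ∈ J :=
  (H.all y.1 y.2 v).choose_spec.1

theorem cov_in (H : Full F f b J) (y : Y F J) (v : V) : In F (cov H y v) v :=
  (H.all y.1 y.2 v).choose_spec.2.1

theorem cov_pos (H : Full F f b J) (y : Y F J) (v : V) : (cov H y v).pos v = y.1 :=
  (H.all y.1 y.2 v).choose_spec.2.2

theorem cov_eq (H : Full F f b J) {y : Y F J} {v : V} {c : Cp V G} (hc : c ∈ J) (hv : In F c v)
    (e : c.pos v = y.1) : cov H y v = c :=
  cover_unique H.inv (cov_mem H y v) hc (cov_in H y v) hv ((cov_pos H y v).trans e.symm)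

/-- Moving inside the covering copy. -/
noncomputable def T (H : Full F f b J) (v w : V) (h : F.comp w = F.comp v) (y : Y F J) : Y F J :=
  ⟨(cov H y v).pos w, w, _, cov_mem H y v, h.trans (cov_in H y v), rfl⟩

theorem T_T (H : Full F f b J) {v w x : V} (h : F.comp w = F.comp v) (h' : F.comp x = F.comp w)
    (y : Y F J) : T H w x h' (T H v w h y) = T H v x (h'.trans h) y := by
  apply Subtype.ext
  show (cov H (T H v w h y) w).pos x = (cov H y v).pos x
  rw [cov_eq H (cov_mem H y v) (h.trans (cov_in H y v)) rfl]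

theorem T_self (H : Full F f b J) (v : V) (y : Y F J) : T H v v rfl y = y :=
  Subtype.ext (cov_pos H y v)

/-- The move as a permutation. -/
noncomputable def TP (H : Full F f b J) (v w : V) (h : F.comp w = F.comp v) :
    Equiv.Perm (Y F J) where
  toFun := T H v w h
  invFun := T H w v h.symm
  left_inv y := by rw [T_T, T_self]
  right_inv y := by rw [T_T, T_self]

theorem T_fold (H : Full F f b J) {v w v' w' : V} {s : S} (h : F.st v s = some w)
    (h' : F.st v' s = some w') (y : Y F J) :
    T H v w (F.st_comp _ _ _ h) y = T H v' w' (F.st_comp _ _ _ h') y :=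
  Subtype.ext (H.inv.fold _ (cov_mem H y v) _ (cov_mem H y v') v v' s w w' (cov_in H y v)
    (cov_in H y v') ((cov_pos H y v).trans (cov_pos H y v').symm) h h')

/-- Images of the generators. -/
noncomputable def gen (H : Full F f b J) (v : V) : (Equiv.Perm (Y F J))ᵐᵒᵖ :=
  MulOpposite.op (TP H (base F (F.comp v)) v (comp_base F _).symm)

theorem gen_div (H : Full F f b J) {v w : V} (h : F.comp w = F.comp v) (y : Y F J) :
    ((gen H v)⁻¹ * gen H w).unop y = T H v w h y := by
  have hb : base F (F.comp w) = base F (F.comp v) := by rw [h]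
  show T H (base F (F.comp w)) w (comp_base F _).symm (T H v (base F (F.comp v)) (comp_base F _) y) = _
  have key : ∀ (x : V) (_ : x = base F (F.comp v)) (p : F.comp w = F.comp x),
      T H x w p (T H v (base F (F.comp v)) (comp_base F _) y) = T H v w h y := by
    rintro x rfl p
    rw [T_T]
  exact key _ hb _

theorem gen_rel (H : Full F f b J) : ∀ r ∈ rels F, FreeGroup.lift (gen H) r = 1 := by
  rintro r (⟨i, rfl⟩ | ⟨v, s, w, v', w', h, h', rfl⟩)
  · rw [FreeGroup.lift_apply_of]
    apply MulOpposite.unop_injective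
    ext y : 1
    show T H (base F (F.comp (base F i))) (base F i) (comp_base F _).symm y = y
    have key : ∀ (x : V) (_ : x = base F i) (p : F.comp (base F i) = F.comp x),
        T H x (base F i) p y = y := by
      rintro x rfl p
      exact T_self H _ y
    exact key _ (by rw [comp_base]) _
  · simp only [map_mul, map_inv, FreeGroup.lift_apply_of]
    rw [mul_inv_eq_one]
    apply MulOpposite.unop_injective
    ext y : 1
    rw [gen_div H (F.st_comp _ _ _ h), gen_div H (F.st_comp _ _ _ h'), T_fold H h h']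

variable {J : Set (Cp V (Gp F))}

/-- The right action of the group on the vertices. -/
noncomputable def act (H : Full F (ff F) b J) (y : Y F J) (g : Gp F) : Y F J :=
  (PresentedGroup.toGroup (gen_rel H) g).unop y

theorem act_mul (H : Full F (ff F) b J) (y : Y F J) (g g' : Gp F) :
    act H y (g * g') = act H (act H y g) g' := by
  simp [act]

theorem act_one (H : Full F (ff F) b J) (y : Y F J) : act H y 1 = y := by
  simp [act]

theorem act_div (H : Full F (ff F) b J) {v w : V} (h : F.comp w = F.comp v) (y : Y F J) :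
    act H y ((ff F v)⁻¹ * ff F w) = T H v w h y := by
  rw [← gen_div H h]
  simp [act, ff]

theorem phi_T (H : Full F (ff F) b J) {v w : V} (h : F.comp w = F.comp v) (y : Y F J) :
    (T H v w h y).1.φ (ff F) = y.1.φ (ff F) * ((ff F v)⁻¹ * ff F w) := by
  show ((cov H y v).pos w).φ _ = _
  rw [H.inv.grp _ (cov_mem H y v) w (h.trans (cov_in H y v)), ← cov_pos H y v,
    H.inv.grp _ (cov_mem H y v) v (cov_in H y v)]
  simp [mul_assoc]

theorem phi_act (H : Full F (ff F) b J) (g : Gp F) :
    ∀ y : Y F J, (act H y g).1.φ (ff F) = y.1.φ (ff F) * g := by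
  have hg : g ∈ Subgroup.closure (Set.range (PresentedGroup.of : V → Gp F)) := by
    rw [PresentedGroup.closure_range_of]
    trivial
  induction hg using Subgroup.closure_induction with
  | mem x hx =>
    obtain ⟨v, rfl⟩ := hx
    intro y
    have e : (PresentedGroup.of v : Gp F) = (ff F (base F (F.comp v)))⁻¹ * ff F v := by
      rw [ff_base]; simp [ff]
    rw [e, act_div H (comp_base F _).symm, phi_T]
  | one => intro y; rw [act_one, mul_one]
  | mul x x' _ _ ih ih' => intro y; rw [act_mul, ih', ih, mul_assoc]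
  | inv x _ ih =>
    intro y
    have := ih (act H y x⁻¹)
    rw [← act_mul, inv_mul_cancel, act_one] at this
    rw [this]
    simp

/-- The base vertex. -/
def y00 (H : Full F (ff F) b J) : Y F J :=
  ⟨(first F (Gp F) b).pos b, b, _, H.inv.first_mem, rfl, rfl⟩

theorem orbit (H : Full F (ff F) b J) : ∀ (n : ℕ) (c : Cp V (Gp F)) (_ : c ∈ J), c.lev = n →
    ∀ v, In F c v → ∃ g, (act H (y00 H) g).1 = c.pos v := by
  intro n
  induction n using Nat.strong_induction_on with
  | _ n ih =>
  intro c hc hn v hv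
  have h0 : ∃ g, (act H (y00 H) g).1 = c.pos c.v0 := by
    rcases H.inv.gate c hc with rfl | ⟨-, hd⟩
    · exact ⟨1, by rw [act_one]; rfl⟩
    · obtain ⟨c', hc', v', h1, h2, h3, h4, -⟩ := H.inv.old c hc c.v0 rfl hd
      rw [h3, ← H.inv.new c' hc' v' h1 h2]
      exact ih _ (hn ▸ h4) c' hc' rfl v' h1
  obtain ⟨g, hg⟩ := h0
  refine ⟨g * ((ff F c.v0)⁻¹ * ff F v), ?_⟩
  rw [act_mul, act_div H hv]
  show (cov H _ c.v0).pos v = _
  rw [cov_eq H hc rfl hg.symm]

theorem phi_o {i : ℕ} (H : Full F (ff F) (base F i) J) (g : Gp F) :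
    (act H (y00 H) g).1.φ (ff F) = g := by
  rw [phi_act]
  show 1 * ff F (base F i) * g = g
  rw [ff_base]
  simp

theorem phi_inj {i : ℕ} (H : Full F (ff F) (base F i) J) {c c' : Cp V (Gp F)} (hc : c ∈ J)
    (hc' : c' ∈ J) {v v' : V} (hv : In F c v) (hv' : In F c' v')
    (e : c.g * ff F v = c'.g * ff F v') : c.pos v = c'.pos v' := by
  obtain ⟨g, hg⟩ := orbit H _ c hc rfl v hv
  obtain ⟨g', hg'⟩ := orbit H _ c' hc' rfl v' hv'
  rw [← H.inv.grp c hc v hv, ← H.inv.grp c' hc' v' hv', ← hg, ← hg', phi_o, phi_o] at e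
  rw [← hg, ← hg', e]

/-- The copy with group element `g` of the component `j`. -/
noncomputable def cp (H : Full F (ff F) b J) (g : Gp F) (j : ℕ) : Cp V (Gp F) :=
  cov H (act H (y00 H) g) (base F j)

theorem cp_mem (H : Full F (ff F) b J) (g : Gp F) (j : ℕ) : cp H g j ∈ J := cov_mem H _ _

theorem cp_comp (H : Full F (ff F) b J) (g : Gp F) (j : ℕ) : F.comp (cp H g j).v0 = j :=
  (cov_in H (act H (y00 H) g) (base F j)).symm.trans (comp_base F j)

theorem cp_in (H : Full F (ff F) b J) (g : Gp F) (v : V) : In F (cp H g (F.comp v)) v :=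
  (cp_comp H g _).symm

theorem cp_g {i : ℕ} (H : Full F (ff F) (base F i) J) (g : Gp F) (j : ℕ) : (cp H g j).g = g := by
  have := H.inv.grp _ (cp_mem H g j) (base F j) (cov_in H _ _)
  rw [ff_base, mul_one] at this
  rw [← this]
  unfold cp
  rw [cov_pos, phi_o]

theorem cp_eq {i : ℕ} (H : Full F (ff F) (base F i) J) {c : Cp V (Gp F)} (hc : c ∈ J) {v : V}
    (hv : In F c v) : cp H c.g (F.comp v) = c :=
  cover_unique H.inv (cp_mem H _ _) hc (cp_in H _ v) hv
    (phi_inj H (cp_mem H _ _) hc (cp_in H _ v) hv (by rw [cp_g]))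

/-- The order structure. -/
noncomputable def ord {i : ℕ} (H : Full F (ff F) (base F i) J) : Ord (sc F) i where
  dep g v := (cp H g (F.comp v)).dep v
  lev g j := (cp H g j).lev
  isDep g j := by
    classical
    have hD := H.inv.isDep _ (cp_mem H g j)
    rw [cp_comp] at hD
    constructor
    · have := hD.small
      rwa [Finset.filter_congr (q := fun v => (cp H g (F.comp v)).dep v = 0)
        (fun v hv => by rw [(F.mem_K _ _).1 hv])] at this
    · intro v s w hv hs
      rw [F.st_comp _ _ _ hs, hv]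
      exact hD.lip v s w hv hs
    · intro v s s' w w' hv h1 h2 hs hs' h3 h4
      rw [F.st_comp _ _ _ hs] at h3
      rw [F.st_comp _ _ _ hs'] at h4
      rw [hv] at h1 h2 h3 h4
      exact hD.down v s s' w w' hv h1 h2 hs hs' h3 h4
  inj v w h e := by
    have h2 : In F (cp H 1 (F.comp v)) w := h.symm.trans (cp_in H 1 v)
    exact H.inv.inj _ (cp_mem H 1 _) v w (cp_in H 1 v) h2
      (phi_inj H (cp_mem H 1 _) (cp_mem H 1 _) (cp_in H 1 v) h2 (congrArg _ e))
  creator y := by
    obtain ⟨c, hc, v, hv, hd, e⟩ := creator H.inv (act H (y00 H) y).2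
    refine ⟨c.g, v, ?_, by rw [cp_eq H hc hv]; exact hd⟩
    rw [← phi_o H y, e]
    rfl
  other g v g' v' e hne hd := by
    have hp := phi_inj H (cp_mem H g _) (cp_mem H g' _) (cp_in H g v) (cp_in H g' v')
      (by rw [cp_g, cp_g]; exact e)
    rw [H.inv.new _ (cp_mem H g _) v (cp_in H g v) hd] at hp
    have hd' : (cp H g' (F.comp v')).dep v' = 0 := by
      by_contra h
      rw [H.inv.new _ (cp_mem H g' _) v' (cp_in H g' v') h] at hp
      obtain ⟨e1, e2⟩ := new_inj H.inv (cp_mem H g _) (cp_mem H g' _) hp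
      apply hne
      have := congrArg Cp.g e1
      rw [cp_g, cp_g] at this
      rw [this, e2]
    obtain ⟨c, hc, w, -, -, h3, h4, -⟩ := H.inv.old _ (cp_mem H g' _) v' (cp_in H g' v') hd'
    obtain ⟨e1, -⟩ := new_inj H.inv (cp_mem H g _) hc (hp.trans h3)
    exact ⟨hd', e1 ▸ h4⟩
  first v hv := by
    have h1 : In F (first F (Gp F) (base F i)) v := hv.trans (comp_base F i).symm
    have := cp_eq H H.inv.first_mem h1
    have e : (first F (Gp F) (base F i)).g = 1 := rfl
    rw [e] at this
    rw [this]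
    simp [first]
  up g v s hd hn := by
    rintro ⟨v', hv'⟩
    obtain ⟨w', hw'⟩ := Option.isSome_iff_exists.1 hv'
    obtain ⟨c', hc', h1, h2⟩ := H.all _ ⟨v, _, cp_mem H g _, cp_in H g v, rfl⟩ v'
    obtain ⟨c, hc, a, a', ha, e, hs, d1, d2⟩ :=
      H.inv.up _ (cp_mem H g _) c' hc' v v' s w' (cp_in H g v) hd h1 h2 hw' hn
    refine ⟨c.g, a, a', ?_, hs, by rw [cp_eq H hc ha]; exact d1,
      by rw [cp_eq H hc (in_st ha hs)]; exact d2⟩
    have := H.inv.grp c hc a ha
    rw [e, H.inv.grp _ (cp_mem H g _) v (cp_in H g v), cp_g] at this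
    exact this.symm

end Final

open Final

theorem finalS : FinalStmt := by
  intro hZ S V _ F
  have := countV F
  refine ⟨Gp F, inferInstance, ?_, sc F, fun i => ?_⟩
  · exact (PresentedGroup.mk_surjective (rels F)).countable
  · obtain ⟨J, h1, h2⟩ := hZ S V (Gp F) F (sc F) (base F i)
    exact ⟨ord ⟨h1, h2⟩⟩

end Vale.Agent.P089
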