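import Mathlib
import Vale.Agent.P089.CheegerA

/-! P089: the spectral gap of the averaging operator. -/

namespace Vale.Agent.P089

open Finset Cheeger

namespace Gap

variable {Y : Type}

/-- The Euclidean inner product of finitely supported functions. -/
noncomputable def ip : LinearMap.BilinForm ℝ (Y →₀ ℝ) :=
  Finsupp.linearCombination ℝ fun y => (Finsupp.lapply y : (Y →₀ ℝ) →ₗ[ℝ] ℝ)

theorem ip_apply (η ξ : Y →₀ ℝ) : ip η ξ = η.sum fun y r => r * ξ y := by
  simp [ip, Finsupp.linearCombination_apply, Finsupp.sum, LinearMap.sum_apply]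

theorem ip_eq {η : Y →₀ ℝ} {T : Finset Y} (h : η.support ⊆ T) (ξ : Y →₀ ℝ) :
    ip η ξ = ∑ y ∈ T, η y * ξ y := by
  rw [ip_apply, Finsupp.sum_of_support_subset _ h _ fun _ _ => by rw [zero_mul]]

theorem ip_comm (η ξ : Y →₀ ℝ) : ip η ξ = ip ξ η := by
  classical
  rw [ip_eq (T := η.support ∪ ξ.support) subset_union_left,
    ip_eq (T := η.support ∪ ξ.support) subset_union_right]
  exact sum_congr rfl fun y _ => mul_comm _ _

theorem nsq_eq (η : Y →₀ ℝ) : nsq η = ip η η := by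
  rw [ip_eq subset_rfl]
  exact sum_congr rfl fun y _ => sq _

theorem nsq_nonneg (η : Y →₀ ℝ) : 0 ≤ nsq η := sum_nonneg fun _ _ => sq_nonneg _

theorem sq_le_nsq (η : Y →₀ ℝ) (y : Y) : η y ^ 2 ≤ nsq η := by
  by_cases hy : y ∈ η.support
  · exact single_le_sum (f := fun y => η y ^ 2) (fun _ _ => sq_nonneg _) hy
  · rw [Finsupp.notMem_support_iff.1 hy]
    simpa using nsq_nonneg η

theorem ip_single (y : Y) (ξ : Y →₀ ℝ) : ip (Finsupp.single y 1) ξ = ξ y := by
  simp [ip]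

/-- Indicator function of a finite set. -/
noncomputable def one (b : Finset Y) : Y →₀ ℝ := ∑ y ∈ b, Finsupp.single y 1

theorem one_apply [DecidableEq Y] (b : Finset Y) (y : Y) : one b y = if y ∈ b then 1 else 0 := by
  simp [one, Finsupp.finsetSum_apply, Finsupp.single_apply]

theorem ip_one (b : Finset Y) (ξ : Y →₀ ℝ) : ip (one b) ξ = ∑ y ∈ b, ξ y := by
  rw [one, map_sum, LinearMap.sum_apply]
  exact sum_congr rfl fun y _ => ip_single y ξ

theorem contr {A : Module.End ℝ (Y →₀ ℝ)} (hs : ∀ η ξ, ip η (A ξ) = ip ξ (A η))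
    (h0 : ∀ η, 0 ≤ ip η (A η)) {θ : ℝ} {η : Y →₀ ℝ} (h1 : ip η (A η) ≤ θ * nsq η)
    (h2 : ip (A η) (A (A η)) ≤ θ * nsq (A η)) : nsq (A η) ≤ θ ^ 2 * nsq η := by
  have h3 := LinearMap.BilinForm.apply_mul_apply_le_of_forall_zero_le
    (ip.compl₂ A : LinearMap.BilinForm ℝ (Y →₀ ℝ)) h0 η (A η)
  simp only [LinearMap.compl₂_apply] at h3
  rw [hs η (A η), ← nsq_eq] at h3
  rcases (nsq_nonneg (A η)).eq_or_lt with h | h
  · rw [← h]; exact mul_nonneg (sq_nonneg _) (nsq_nonneg _)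
  · have h4 := h3.trans (mul_le_mul h1 h2 (h0 _) ((h0 _).trans h1))
    refine le_of_mul_le_mul_right (h4.trans (le_of_eq ?_)) h
    ring

variable {S : Type} [Fintype S] [DecidableEq Y] {M : ℕ} {I : IsoGraph Y S M}
  {A : Module.End ℝ (Y →₀ ℝ)}

theorem ip_A (hA : IsAvg I.mv I.E I.err A) {η : Y →₀ ℝ} {T : Finset Y} (h : η.support ⊆ T)
    (ξ : Y →₀ ℝ) : ip η (A ξ) = ip η ξ - (2 * Fintype.card S + 1 : ℝ)⁻¹ *
      (ds I T (fun y z => η y * (ξ y - ξ z)) + es I T (fun y => η y * ξ y)) := by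
  rw [← form_eq η h, ip_apply, ip_apply]
  simp only [Finsupp.sum, hA ξ, mul_sub, sum_sub_distrib]
  rw [mul_sum]
  exact congrArg _ (sum_congr rfl fun y _ => mul_left_comm _ _ _)

theorem ip_A_symm (hA : IsAvg I.mv I.E I.err A) (η ξ : Y →₀ ℝ) : ip η (A ξ) = ip ξ (A η) := by
  rw [ip_A hA (T := η.support ∪ ξ.support) subset_union_left,
    ip_A hA (T := η.support ∪ ξ.support) subset_union_right, ip_comm η ξ]
  have key : ∀ η ξ : Y →₀ ℝ, ∀ T : Finset Y, ξ.support ⊆ T →
      ds I T (fun y z => η y * (ξ y - ξ z)) = ds I T (fun y _ => η y * ξ y) +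
        (-1) * ds I T (fun y z => if z ∈ T then η y * ξ z else 0) := by
    intro η ξ T hT
    rw [← ds_mul, ← ds_add]
    refine ds_congr fun y _ s _ => ?_
    split_ifs with hz
    · ring
    · rw [Finsupp.notMem_support_iff.1 fun h => hz (hT h)]; ring
  rw [key η ξ _ subset_union_right, key ξ η _ subset_union_left, ds_swap _ fun y z => η y * ξ z]
  simp only [mul_comm (η _) (ξ _)]

theorem ip_A_bounds (hA : IsAvg I.mv I.E I.err A) (η : Y →₀ ℝ) :
    0 ≤ ip η (A η) ∧ ip η (A η) ≤ nsq η := by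
  rw [ip_A hA subset_rfl, ← nsq_eq]
  have hT : ∀ y, y ∉ η.support → η y = 0 := fun y hy => Finsupp.notMem_support_iff.1 hy
  have h1 := half_le (I := I) η hT
  have h2 : 0 ≤ ds I η.support (fun y z => (η y - η z) ^ 2) := ds_nonneg fun _ _ => sq_nonneg _
  have h3 : 0 ≤ es I η.support (fun y => η y * η y) := es_nonneg fun _ => mul_self_nonneg _
  have h4 : es I η.support (fun y => η y * η y) ≤ nsq η :=
    (es_le fun _ => mul_self_nonneg _).trans (le_of_eq (sum_congr rfl fun y _ => (sq _).symm))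
  have h5 := ds_snd_le (I := I) (T := η.support) (h := fun y => η y ^ 2) (fun y => sq_nonneg _)
    (fun y hy => by rw [hT y hy]; norm_num)
  have h6 : ds I η.support (fun y _ => η y ^ 2) ≤ Fintype.card S * nsq η :=
    ds_fst_le (h := fun y => η y ^ 2) fun y => sq_nonneg _
  have h7 : ds I η.support (fun y z => η y * (η y - η z)) ≤
      3 / 2 * ds I η.support (fun y _ => η y ^ 2) +
        1 / 2 * ds I η.support (fun _ z => η z ^ 2) := by
    rw [← ds_mul, ← ds_mul, ← ds_add]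
    exact ds_mono fun y _ s _ => by nlinarith [sq_nonneg (η y + η (I.mv y s))]
  have hc : (0 : ℝ) < 2 * Fintype.card S + 1 := by positivity
  constructor
  · rw [sub_nonneg, inv_mul_le_iff₀ hc]
    linarith
  · rw [sub_le_self_iff]
    exact mul_nonneg (inv_nonneg.2 hc.le) (by linarith)

theorem A_one (hA : IsAvg I.mv I.E I.err A) {b : Finset Y} (hb : b ∈ I.blocks) :
    A (one b) = one b := by
  ext y
  rw [hA, sum_eq_zero, sub_eq_self, zero_add]
  · split_ifs with he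
    · rw [one_apply, if_neg fun hy => (I.closed b hb y hy).1 he, mul_zero]
    · rw [mul_zero]
  · intro s _
    split_ifs with hE
    · have : I.mv y s ∈ b ↔ y ∈ b := by
        refine ⟨fun h => ?_, fun h => (I.closed b hb y h).2 s hE⟩
        have h5 := (I.closed b hb _ h).2 _ (I.symm y s hE).1
        rwa [(I.symm y s hE).2] at h5
      simp only [one_apply, this, sub_self]
    · rfl

theorem sum_A (hA : IsAvg I.mv I.E I.err A) {b : Finset Y} (hb : b ∈ I.blocks) (η : Y →₀ ℝ) :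
    ∑ y ∈ b, A η y = ∑ y ∈ b, η y := by
  rw [← ip_one, ← ip_one, ip_A_symm hA, A_one hA hb, ip_comm]

end Gap

open Gap

theorem gapS : GapStmt := by
  intro hC σ M
  obtain ⟨κ, hκ, hC⟩ := hC σ M
  set θ : ℝ := max 0 (1 - (2 * σ + 1 : ℝ)⁻¹ * κ) with hθ
  have hθ0 : 0 ≤ θ := le_max_left _ _
  have hθ1 : θ < 1 := max_lt one_pos (sub_lt_self _ (by positivity))
  refine ⟨θ, hθ0, hθ1, ?_⟩
  intro Y S _ _ I hσ A hA
  have hq : ∀ η : Y →₀ ℝ, (∀ b ∈ I.blocks, ∑ y ∈ b, η y = 0) → ip η (A η) ≤ θ * nsq η := by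
    intro η hη
    have h1 : κ * nsq η ≤ ds I η.support (fun y z => η y * (η y - η z)) +
        es I η.support (fun y => η y * η y) :=
      (hC Y S I hσ η hη).trans (form_eq (I := I) η subset_rfl η).le
    rw [ip_A hA subset_rfl, ← nsq_eq, hσ]
    have h2 := mul_le_mul_of_nonneg_left h1 (show (0 : ℝ) ≤ (2 * σ + 1 : ℝ)⁻¹ by positivity)
    have h3 := mul_le_mul_of_nonneg_right (le_max_right 0 (1 - (2 * σ + 1 : ℝ)⁻¹ * κ))
      (nsq_nonneg η)
    linarith
  have hpow : ∀ (k : ℕ) (η : Y →₀ ℝ), (∀ b ∈ I.blocks, ∑ y ∈ b, η y = 0) →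
      nsq ((A ^ k) η) ≤ (θ ^ k) ^ 2 * nsq η := by
    intro k
    induction k with
    | zero => intro η _; simp
    | succ k ih =>
      intro η hη
      have h1 : ∀ b ∈ I.blocks, ∑ y ∈ b, A η y = 0 := fun b hb => by rw [sum_A hA hb, hη b hb]
      have h2 := contr (ip_A_symm hA) (fun η => (ip_A_bounds hA η).1) (hq η hη) (hq _ h1)
      rw [pow_succ, Module.End.mul_apply]
      refine (ih _ h1).trans ((mul_le_mul_of_nonneg_left h2 (sq_nonneg _)).trans (le_of_eq ?_))
      ring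
  have hpt : ∀ (k : ℕ) (η : Y →₀ ℝ), (∀ b ∈ I.blocks, ∑ y ∈ b, η y = 0) → nsq η ≤ 1 → ∀ y,
      |(A ^ k) η y| ≤ θ ^ k := by
    intro k η hη h1 y
    refine abs_le_of_sq_le_sq ?_ (pow_nonneg hθ0 k)
    exact (sq_le_nsq _ y).trans ((hpow k η hη).trans (mul_le_of_le_one_right (sq_nonneg _) h1))
  refine ⟨fun η ξ => ?_, fun η k => ?_, fun y k b hb hy => ?_, fun y k hy => ?_⟩
  · rw [← ip_apply, ← ip_apply, ip_comm, ip_A_symm hA]
  · have h1 : ∀ b ∈ I.blocks, ∑ y ∈ b, (A η - η) y = 0 := fun b hb => by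
      simp only [Finsupp.sub_apply, sum_sub_distrib, sum_A hA hb, sub_self]
    have h2 := contr (θ := 1) (ip_A_symm hA) (fun η => (ip_A_bounds hA η).1)
      (by simpa using (ip_A_bounds hA η).2) (by simpa using (ip_A_bounds hA (A η)).2)
    have h3 : nsq (A η - η) ≤ 4 * nsq η := by
      have h4 := nsq_nonneg (A η + η)
      simp only [nsq_eq, map_add, map_sub, LinearMap.add_apply, LinearMap.sub_apply] at h2 h4 ⊢
      linarith
    have h5 : (θ ^ k) ^ 2 ≤ θ ^ k := by
      rw [sq]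
      exact mul_le_of_le_one_left (pow_nonneg hθ0 k) (pow_le_one₀ hθ0 hθ1.le)
    refine (hpow k _ h1).trans ((mul_le_mul h5 h3 (nsq_nonneg _) (pow_nonneg hθ0 k)).trans
      (le_of_eq ?_))
    ring
  · have hc : (b.card : ℝ) ≠ 0 := Nat.cast_ne_zero.2 (card_pos.2 ⟨y, hy⟩).ne'
    set ξ : Y →₀ ℝ := Finsupp.single y 1 - (b.card : ℝ)⁻¹ • one b with hξ
    have h1 : ∀ b' ∈ I.blocks, ∑ z ∈ b', ξ z = 0 := by
      intro b' hb'
      simp only [hξ, Finsupp.sub_apply, Finsupp.smul_apply, sum_sub_distrib, smul_eq_mul,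
        ← mul_sum, one_apply, Finsupp.single_apply, sum_ite_eq, sum_ite_mem, sum_const,
        nsmul_eq_mul, mul_one]
      by_cases hbb : b' = b
      · rw [hbb, if_pos hy, inter_self, inv_mul_cancel₀ hc, sub_self]
      · rw [if_neg fun h => hbb (I.disj _ hb' _ hb y h hy), show b' ∩ b = ∅ from
          eq_empty_of_forall_notMem fun z hz =>
            hbb (I.disj _ hb' _ hb z (mem_inter.1 hz).1 (mem_inter.1 hz).2)]
        simp
    have h2 : nsq ξ ≤ 1 := by
      have h5 : ∀ ζ, ip ξ ζ = ζ y - (b.card : ℝ)⁻¹ • ∑ z ∈ b, ζ z := fun ζ => by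
        rw [hξ, map_sub, map_smul, LinearMap.sub_apply, LinearMap.smul_apply, ip_one, ip_single]
      rw [nsq_eq, h5, h1 b hb]
      simp [hξ, one_apply, hy]
    have h3 : (A ^ k) (one b) = one b := by
      induction k with
      | zero => rfl
      | succ k ih => rw [pow_succ, Module.End.mul_apply, A_one hA hb, ih]
    have h4 := hpt k ξ h1 h2 y
    rwa [hξ, map_sub, map_smul, h3, Finsupp.sub_apply, Finsupp.smul_apply, one_apply, if_pos hy,
      smul_eq_mul, mul_one] at h4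
  · refine hpt k _ (fun b hb => sum_eq_zero fun z hz => ?_) ?_ y
    · rw [Finsupp.single_apply, if_neg]
      rintro rfl
      exact hy b hb hz
    · rw [nsq_eq, ip_single, Finsupp.single_eq_same]

end Vale.Agent.P089
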