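import Mathlib
import Vale.Agent.P089.CutoffEx

namespace Vale.Agent.P089

open scoped ZeroAtInfty

namespace Geom

variable {G Z : Type} [Group G] [TopologicalSpace Z] [MulAction G Z]

theorem mem_lmul {g a : G} {B : Finset G} : a ∈ lmul g B ↔ g⁻¹ * a ∈ B := by
  simp [lmul, Finset.mem_map_equiv]

theorem lmul_mul (g h : G) (B : Finset G) : lmul (g * h) B = lmul g (lmul h B) := by
  ext a
  simp [mem_lmul, mul_assoc]

theorem lmul_one (B : Finset G) : lmul 1 B = B := by
  ext a
  simp [mem_lmul]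

/-- Left translation of finite sets as an equivalence. -/
def lmulE (g : G) : Finset G ≃ Finset G where
  toFun := lmul g
  invFun := lmul g⁻¹
  left_inv B := by rw [← lmul_mul, inv_mul_cancel, lmul_one]
  right_inv B := by rw [← lmul_mul, mul_inv_cancel, lmul_one]

/-- Translation of functions. -/
noncomputable def tl [ContinuousConstSMul G Z] (g : G) (f : C₀(Z, ℂ)) : C₀(Z, ℂ) :=
  f.comp (Homeomorph.smul g⁻¹).toCocompactMap

theorem tl_apply [ContinuousConstSMul G Z] (g : G) (f : C₀(Z, ℂ)) (z : Z) :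
    tl g f z = f (g⁻¹ • z) := rfl

/-- The translation action. -/
noncomputable def act (G Z : Type) [Group G] [TopologicalSpace Z] [MulAction G Z]
    [ContinuousConstSMul G Z] : G →* RingAut C₀(Z, ℂ) where
  toFun g :=
    { toFun := tl g
      invFun := tl g⁻¹
      left_inv := fun f => by ext z; simp [tl_apply]
      right_inv := fun f => by ext z; simp [tl_apply]
      map_mul' := fun f f' => by ext z; simp [tl_apply]
      map_add' := fun f f' => by ext z; simp [tl_apply] }
  map_one' := by ext f z; exact congrArg f (by simp)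
  map_mul' g h := by ext f z; exact congrArg f (by simp [mul_smul])

theorem act_apply [ContinuousConstSMul G Z] (g : G) (f : C₀(Z, ℂ)) (z : Z) :
    act G Z g f z = f (g⁻¹ • z) := rfl

theorem c0_sum {α : Type} (s : Finset α) (f : α → C₀(Z, ℂ)) (z : Z) :
    (∑ a ∈ s, f a) z = ∑ a ∈ s, f a z := by
  classical
  induction s using Finset.induction_on with
  | empty => simp
  | insert a s ha ih => simp [Finset.sum_insert ha, ih]

open Classical in
/-- The barycentric function of a finite set. -/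
noncomputable def u (c : Z → ℝ) (S B : Finset G) (z : Z) : ℝ :=
  if B.Nonempty then ∏ a ∈ B, (c (a⁻¹ • z) *
    ∏ s ∈ S, if a * s ∈ B then 1 else max (c (a⁻¹ • z) - c ((a * s)⁻¹ • z)) 0) else 0

variable {c : Z → ℝ} {S : Finset G}

theorem u_cont [ContinuousConstSMul G Z] (hc : Continuous c) (B : Finset G) :
    Continuous (u c S B) := by
  unfold u
  split_ifs
  · refine continuous_finsetProd _ fun a _ => (by fun_prop : Continuous _).mul
      (continuous_finsetProd _ fun s _ => ?_)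
    split_ifs <;> fun_prop
  · exact continuous_const

omit [TopologicalSpace Z] in
theorem u_ne {B : Finset G} {z : Z} (h : u c S B z ≠ 0) : B.Nonempty ∧ ∀ a ∈ B,
    c (a⁻¹ • z) ≠ 0 ∧ ∀ s ∈ S, a * s ∉ B → c ((a * s)⁻¹ • z) < c (a⁻¹ • z) := by
  unfold u at h
  split_ifs at h with hB
  · refine ⟨hB, fun a ha => ?_⟩
    have h1 := Finset.prod_ne_zero_iff.1 h a ha
    refine ⟨left_ne_zero_of_mul h1, fun s hs hn => ?_⟩
    have h2 := Finset.prod_ne_zero_iff.1 (right_ne_zero_of_mul h1) s hs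
    rw [if_neg hn] at h2
    by_contra h3
    exact h2 (max_eq_right (by linarith))
  · exact absurd rfl h

omit [TopologicalSpace Z] in
theorem u_lmul (g : G) (B : Finset G) (z : Z) : u c S (lmul g B) z = u c S B (g⁻¹ • z) := by
  unfold u
  have hne : (lmul g B).Nonempty ↔ B.Nonempty := Finset.map_nonempty
  by_cases hB : B.Nonempty
  · rw [if_pos hB, if_pos (hne.2 hB)]
    refine (Finset.prod_map _ _ _).trans (Finset.prod_congr rfl fun a _ => ?_)
    have e : ∀ s, g * a * s ∈ lmul g B ↔ a * s ∈ B := fun s => by simp [mem_lmul, mul_assoc]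
    simp only [Equiv.coe_toEmbedding, Equiv.coe_mulLeft, mul_inv_rev, mul_smul]
    congr 1
    refine Finset.prod_congr rfl fun s _ => ?_
    by_cases h : a * s ∈ B
    · exact (if_pos ((e s).2 h)).trans (if_pos h).symm
    · exact (if_neg fun h' => h ((e s).1 h')).trans (if_neg h).symm
  · rw [if_neg hB, if_neg (fun h => hB (hne.1 h))]

theorem u_supp [ContinuousConstSMul G Z] [T2Space Z] (hs : HasCompactSupport c) (B : Finset G) :
    HasCompactSupport (u c S B) := by
  by_cases hB : B.Nonempty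
  · obtain ⟨a, ha⟩ := hB
    refine (hs.comp_homeomorph (Homeomorph.smul a⁻¹)).mono fun z hz => ?_
    exact ((u_ne hz).2 a ha).1
  · have : u c S B = 0 := by
      funext z
      simp [u, hB]
    rw [this]
    exact HasCompactSupport.zero

omit [TopologicalSpace Z] in
theorem u_lt (h0 : ∀ z, 0 ≤ c z) (hS : ∀ (g : G) z, c z ≠ 0 → c (g⁻¹ • z) ≠ 0 → g ∈ S)
    {B : Finset G} {z : Z} (h : u c S B z ≠ 0) {a g : G} (ha : a ∈ B) (hg : g ∉ B) :
    c (g⁻¹ • z) < c (a⁻¹ • z) := by
  obtain ⟨h1, h2⟩ := (u_ne h).2 a ha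
  by_cases h3 : c (g⁻¹ • z) = 0
  · rw [h3]
    exact lt_of_le_of_ne (h0 _) h1.symm
  · have := h2 (a⁻¹ * g) (hS _ _ h1 (by simpa [smul_smul] using h3)) (by simpa using hg)
    simpa using this

omit [TopologicalSpace Z] in
theorem u_pos (h0 : ∀ z, 0 ≤ c z) {B : Finset G} {z : Z} (hB : B.Nonempty)
    (h : ∀ g, g ∈ B ↔ c (g⁻¹ • z) ≠ 0) : u c S B z ≠ 0 := by
  unfold u
  rw [if_pos hB]
  refine Finset.prod_ne_zero_iff.2 fun a ha => mul_ne_zero ((h a).1 ha)
    (Finset.prod_ne_zero_iff.2 fun s _ => ?_)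
  split_ifs with h1
  · exact one_ne_zero
  · have h2 : c ((a * s)⁻¹ • z) = 0 := by
      by_contra h3
      exact h1 ((h _).2 h3)
    rw [h2, sub_zero, max_eq_left (h0 _)]
    exact (h a).1 ha

theorem u_locFin [LocallyCompactSpace Z] [ProperlyDiscontinuousSMul G Z]
    (hs : HasCompactSupport c) :
    LocallyFinite fun B : Finset G => Function.support fun z => u c S B z ^ 2 := by
  intro z
  obtain ⟨K, hK, hf⟩ := near_finite (G := G) hs z
  refine ⟨K, hK, (hf.toFinset.powerset.finite_toSet).subset ?_⟩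
  rintro B ⟨y, h1, h2⟩
  have h3 : u c S B y ≠ 0 := fun h => h1 (by simp [h])
  refine Finset.mem_coe.2 (Finset.mem_powerset.2 fun a ha => hf.mem_toFinset.2 ?_)
  exact ⟨y, h2, ((u_ne h3).2 a ha).1⟩

end Geom

open Geom

theorem geomS : GeomStmt := by
  classical
  intro G Z _ _ _ _ _ _ _ c
  have hfin : {g : G | ∃ z, c.c z ≠ 0 ∧ c.c (g⁻¹ • z) ≠ 0}.Finite := by
    refine (ProperlyDiscontinuousSMul.finite_disjoint_inter_image (Γ := G) c.supp c.supp).subset ?_
    rintro g ⟨y, hy, h⟩
    exact ⟨y, ⟨g⁻¹ • y, subset_tsupport _ h, smul_inv_smul g y⟩, subset_tsupport _ hy⟩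
  let S : Finset G := insert 1 hfin.toFinset
  have hS : ∀ (g : G) z, c.c z ≠ 0 → c.c (g⁻¹ • z) ≠ 0 → g ∈ S := fun g z h1 h2 =>
    Finset.mem_insert_of_mem (hfin.mem_toFinset.2 ⟨z, h1, h2⟩)
  let N : Z → ℝ := fun z => ∑ᶠ B : Finset G, u c.c S B z ^ 2
  have hlf := u_locFin (S := S) c.supp
  have hNc : Continuous N := continuous_finsum (fun B => (u_cont c.cont B).pow 2) hlf
  have hNp : ∀ z, 0 < N z := by
    intro z
    have hf : {g : G | c.c (g⁻¹ • z) ≠ 0}.Finite :=
      ((locFin (G := G) c.supp).point_finite z).subset fun g hg => pow_ne_zero 2 hg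
    have hne : hf.toFinset.Nonempty := by
      by_contra h
      have h2 : ∀ g : G, c.c (g⁻¹ • z) = 0 := fun g => by
        by_contra h3
        exact h ⟨g, hf.mem_toFinset.2 h3⟩
      have := c.sum z
      simp [h2] at this
    exact finsum_pos' (fun _ => sq_nonneg _) ⟨hf.toFinset, pow_pos (lt_of_le_of_ne
      (abs_nonneg _) (abs_ne_zero.2 (u_pos c.nonneg hne fun g => hf.mem_toFinset)).symm) 2 |>.trans_eq
        (sq_abs _)⟩ (hlf.point_finite z)
  have hNi : ∀ (g : G) z, N (g⁻¹ • z) = N z := by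
    intro g z
    simp only [N]
    rw [← finsum_comp_equiv (lmulE g) (f := fun B : Finset G => u c.c S B z ^ 2)]
    simp only [← u_lmul]
    rfl
  have hsq : ∀ z, √(N z) ≠ 0 := fun z => (Real.sqrt_pos.2 (hNp z)).ne'
  let w : Finset G → C₀(Z, ℂ) := fun B => mk0 (fun z => u c.c S B z * (√(N z))⁻¹)
    ((u_cont c.cont B).mul (hNc.sqrt.inv₀ hsq)) (u_supp c.supp B).mul_right
  refine ⟨act G Z, mk0 c.c c.cont c.supp, act_apply, fun z => rfl,
    ⟨⟨S, Finset.mem_insert_self _ _, ?_, ?_, w, ?_, ?_, ?_, ?_⟩⟩⟩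
  · intro g hg
    ext z
    simp only [ZeroAtInftyContinuousMap.mul_apply, act_apply, mk0_apply,
      ZeroAtInftyContinuousMap.zero_apply, mul_eq_zero, Complex.ofReal_eq_zero]
    by_contra h
    exact hg (hS g z (fun h1 => h (Or.inl h1)) fun h1 => h (Or.inr h1))
  · ext z
    simp only [ZeroAtInftyContinuousMap.mul_apply, act_apply, mk0_apply, c0_sum]
    by_cases h : c.c z = 0
    · simp [h]
    · have := c.sum z
      rw [finsum_eq_sum_of_support_subset (s := S) _ fun g hg =>
        hS g z h fun h1 => hg (by simp [h1])] at this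
      simp only [sq] at this
      exact_mod_cast (by rw [this, mul_one] : c.c z * ∑ g ∈ S, c.c (g⁻¹ • z) * c.c (g⁻¹ • z) = c.c z)
  · intro g B
    ext z
    simp only [w, act_apply, mk0_apply, hNi, u_lmul]
  · intro B B' hc hne
    ext z
    simp only [w, ZeroAtInftyContinuousMap.mul_apply, mk0_apply,
      ZeroAtInftyContinuousMap.zero_apply, mul_eq_zero, Complex.ofReal_eq_zero]
    by_contra h
    have h1 : u c.c S B z ≠ 0 := fun h1 => h (Or.inl (Or.inl h1))
    have h2 : u c.c S B' z ≠ 0 := fun h1 => h (Or.inr (Or.inl h1))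
    obtain ⟨a, ha, ha'⟩ : ∃ a ∈ B, a ∉ B' := by
      by_contra h3
      exact hne (Finset.eq_of_subset_of_card_le (fun a ha => by
        by_contra h4
        exact h3 ⟨a, ha, h4⟩) hc.ge)
    obtain ⟨a', hb, hb'⟩ : ∃ a ∈ B', a ∉ B := by
      by_contra h3
      exact hne (Finset.eq_of_subset_of_card_le (fun a ha => by
        by_contra h4
        exact h3 ⟨a, ha, h4⟩) hc.le).symm
    exact lt_asymm (u_lt c.nonneg hS h1 ha hb') (u_lt c.nonneg hS h2 hb ha')
  · intro B hB
    obtain ⟨z, hz⟩ : ∃ z, c.c z ≠ 0 ∧ u c.c S B z ≠ 0 := by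
      by_contra h
      apply hB
      ext z
      simp only [w, ZeroAtInftyContinuousMap.mul_apply, mk0_apply,
        ZeroAtInftyContinuousMap.zero_apply, mul_eq_zero, Complex.ofReal_eq_zero]
      by_contra h3
      exact h ⟨z, fun h1 => h3 (Or.inl h1), fun h1 => h3 (Or.inr (Or.inl h1))⟩
    exact ⟨fun a ha => hS a z hz.1 ((u_ne hz.2).2 a ha).1, (u_ne hz.2).1⟩
  · ext z
    simp only [w, ZeroAtInftyContinuousMap.mul_apply, mk0_apply, c0_sum]
    by_cases h : c.c z = 0
    · simp [h]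
    · have e : N z = ∑ B ∈ S.powerset, u c.c S B z ^ 2 :=
        finsum_eq_sum_of_support_subset _ fun B hB => Finset.mem_coe.2 (Finset.mem_powerset.2
          fun a ha => hS a z h ((u_ne (S := S) fun h1 => hB (by simp [h1])).2 a ha).1)
      have e2 : ∑ B ∈ S.powerset, u c.c S B z * (√(N z))⁻¹ * (u c.c S B z * (√(N z))⁻¹) = 1 := by
        simp only [← sq, mul_pow, inv_pow, Real.sq_sqrt (hNp z).le]
        rw [← Finset.sum_mul, ← e, mul_inv_cancel₀ (hNp z).ne']
      exact_mod_cast (by rw [e2, mul_one] : c.c z * ∑ B ∈ S.powerset,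
        u c.c S B z * (√(N z))⁻¹ * (u c.c S B z * (√(N z))⁻¹) = c.c z)

end Vale.Agent.P089
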