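import Mathlib
import Vale.Agent.P089.BaseB

namespace Vale.Agent.P089

namespace GroupB

/-- The relations given by a finite multiplication table. -/
def rels (d : Finset (ℕ × ℕ × ℕ)) : Set (FreeGroup ℕ) :=
  {r | ∃ t ∈ d, r = FreeGroup.of t.1 * FreeGroup.of t.2.1 * (FreeGroup.of t.2.2)⁻¹}

theorem of_mul {d : Finset (ℕ × ℕ × ℕ)} {i j k : ℕ} (h : (i, j, k) ∈ d) :
    (PresentedGroup.of k : PresentedGroup (rels d)) = PresentedGroup.of i * PresentedGroup.of j := by
  have h1 : PresentedGroup.mk (rels d)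
      (FreeGroup.of i * FreeGroup.of j * (FreeGroup.of k)⁻¹) = 1 :=
    PresentedGroup.one_of_mem ⟨_, h, rfl⟩
  rw [map_mul, map_mul, map_inv, mul_inv_eq_one] at h1
  exact h1.symm

theorem mem_lmul {Γ : Type} [Group Γ] {g x : Γ} {A : Finset Γ} : x ∈ lmul g A ↔ g⁻¹ * x ∈ A := by
  simp [lmul, Finset.mem_map_equiv]

theorem lmul_lmul {Γ : Type} [Group Γ] (g h : Γ) (A : Finset Γ) :
    lmul g (lmul h A) = lmul (g * h) A := by
  ext x
  simp only [mem_lmul, mul_inv_rev, mul_assoc]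

theorem lmul_one {Γ : Type} [Group Γ] (A : Finset Γ) : lmul 1 A = A := by
  ext x
  simp only [mem_lmul, inv_one, one_mul]

/-- The diagonal action. -/
def rho {P Γ : Type} [Group P] [Group Γ] (q : P →* Γ) : P →* Equiv.Perm (P × Γ) where
  toFun x := Equiv.prodCongr (Equiv.mulLeft x) (Equiv.mulLeft (q x))
  map_one' := by ext p <;> simp
  map_mul' x y := by ext p <;> simp [mul_assoc]

/-- The action on the second factor. -/
def iota (P Γ : Type) [Group Γ] : Γ →* Equiv.Perm (P × Γ) where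
  toFun g := Equiv.prodCongr (Equiv.refl P) (Equiv.mulLeft g)
  map_one' := by ext p <;> simp
  map_mul' x y := by ext p <;> simp [mul_assoc]

end GroupB

theorem groupS : GroupStmt := by
  classical
  refine ⟨Finset (ℕ × ℕ × ℕ), inferInstance, fun d => PresentedGroup (GroupB.rels d),
    fun d => inferInstance, fun d => (PresentedGroup.mk_surjective _).countable, ?_⟩
  intro Γ _ S
  let S' : Finset Γ := S ∪ (S ×ˢ S).image fun p => p.1 * p.2⁻¹
  have hS : ∀ g ∈ S, g ∈ S' := fun g hg => Finset.mem_union_left _ hg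
  have hS2 : ∀ g ∈ S, ∀ h ∈ S, g * h⁻¹ ∈ S' := fun g hg h hh =>
    Finset.mem_union_right _ (Finset.mem_image.2 ⟨(g, h), Finset.mem_product.2 ⟨hg, hh⟩, rfl⟩)
  obtain ⟨de, hde⟩ := Set.countable_iff_exists_subset_range.1 S'.countable_toSet
  let en : Γ → ℕ := Function.invFun de
  have hen : ∀ g ∈ S', de (en g) = g := fun g hg => Function.invFun_eq (hde hg)
  let d : Finset (ℕ × ℕ × ℕ) := ((S' ×ˢ S').filter fun p => p.1 * p.2 ∈ S').image
    fun p => (en p.1, en p.2, en (p.1 * p.2))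
  have hrel : ∀ r ∈ GroupB.rels d, FreeGroup.lift de r = 1 := by
    rintro _ ⟨t, ht, rfl⟩
    obtain ⟨p, hp, rfl⟩ := Finset.mem_image.1 ht
    obtain ⟨h1, h2⟩ := Finset.mem_filter.1 hp
    obtain ⟨h3, h4⟩ := Finset.mem_product.1 h1
    simp only [map_mul, map_inv, FreeGroup.lift_apply_of, hen _ h2, hen _ h3, hen _ h4,
      mul_inv_cancel]
  let σ : Γ → PresentedGroup (GroupB.rels d) := fun g => PresentedGroup.of (en g)
  let q : PresentedGroup (GroupB.rels d) →* Γ := PresentedGroup.toGroup hrel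
  have hσ : ∀ g ∈ S', ∀ h ∈ S', g * h ∈ S' → σ (g * h) = σ g * σ h := fun g hg h hh hgh =>
    GroupB.of_mul (Finset.mem_image.2
      ⟨(g, h), Finset.mem_filter.2 ⟨Finset.mem_product.2 ⟨hg, hh⟩, hgh⟩, rfl⟩)
  have hq : ∀ g ∈ S, q (σ g) = g := fun g hg =>
    (PresentedGroup.toGroup.of hrel).trans (hen g (hS g hg))
  let base : Finset Γ → Γ := fun C => Classical.epsilon fun y => lmul y C ⊆ S
  have hbase : ∀ C y, lmul y C ⊆ S → lmul (base C) C ⊆ S := fun C y hy =>
    Classical.epsilon_spec (p := fun y => lmul y C ⊆ S) ⟨y, hy⟩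
  refine ⟨d, σ, q, Equiv.Perm (PresentedGroup (GroupB.rels d) × Γ), inferInstance, GroupB.rho q,
    GroupB.iota _ Γ, fun B => Equiv.prodCongrLeft fun y =>
      Equiv.mulLeft (σ (y * (base (lmul y⁻¹ B))⁻¹)),
    fun g hg h hh hgh => hσ g (hS g hg) h (hS h hh) (hS _ hgh), hq, ?_, ?_, ?_⟩
  · intro x y h
    have := congrArg (fun e : Equiv.Perm (PresentedGroup (GroupB.rels d) × Γ) => (e (1, 1)).1) h
    simpa [GroupB.rho] using this
  · intro x y h
    have := congrArg (fun e : Equiv.Perm (PresentedGroup (GroupB.rels d) × Γ) => (e (1, 1)).2) h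
    simpa [GroupB.iota] using this
  · intro g hg B hB hBS hgB
    refine Equiv.ext fun p => ?_
    obtain ⟨a, y⟩ := p
    have h1 : lmul (g * y)⁻¹ (lmul g B) = lmul y⁻¹ B := by
      rw [GroupB.lmul_lmul, mul_inv_rev, inv_mul_cancel_right]
    have h2 : lmul (base (lmul y⁻¹ B)) (lmul y⁻¹ B) ⊆ S := by
      refine hbase _ y ?_
      rw [GroupB.lmul_lmul, mul_inv_cancel, GroupB.lmul_one]
      exact hBS
    obtain ⟨b, hb⟩ := hB
    have h3 : base (lmul y⁻¹ B) * (y⁻¹ * b) ∈ S :=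
      h2 (GroupB.mem_lmul.2 (GroupB.mem_lmul.2 (by simpa using hb)))
    have h4 : g * b ∈ S := hgB (GroupB.mem_lmul.2 (by simpa using hb))
    have h5 : y * (base (lmul y⁻¹ B))⁻¹ ∈ S' := by
      have := hS2 _ (hBS hb) _ h3
      simpa [mul_assoc] using this
    have h6 : g * (y * (base (lmul y⁻¹ B))⁻¹) ∈ S' := by
      have := hS2 _ h4 _ h3
      simpa [mul_assoc] using this
    have h7 := hσ g (hS g hg) _ h5 h6
    change (σ (g * y * (base (lmul (g * y)⁻¹ (lmul g B)))⁻¹) * a, g * y) =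
      (σ g * (σ (y * (base (lmul y⁻¹ B))⁻¹) * a), q (σ g) * y)
    rw [h1, hq g hg, mul_assoc g y, h7, mul_assoc]

end Vale.Agent.P089
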