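import Mathlib
import Vale.Agent.P089.Base

namespace Vale.Agent.P089

namespace Haar

open MeasureTheory

/-- The sign character. -/
noncomputable def sg (t : ZMod 2) : ℝ := if t = 0 then 1 else -1

theorem z2 (t : ZMod 2) : t = 0 ∨ t = 1 := by revert t; decide

theorem sg_add (s t : ZMod 2) : sg (s + t) = sg s * sg t := by
  have h : (1 : ZMod 2) + 1 = 0 := by decide
  rcases z2 s with rfl | rfl <;> rcases z2 t with rfl | rfl <;> simp [sg, h]

theorem add_eq_zero_z2 (s t : ZMod 2) : s + t = 0 ↔ s = t := by revert s t; decide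

/-- The pairing of finitely supported functions. -/
noncomputable def ip {Y : Type} (η ξ : Y →₀ ℝ) : ℝ := η.sum fun y r => r * ξ y

section ip

variable {Y : Type}

theorem ip_add_left (η η' ξ : Y →₀ ℝ) : ip (η + η') ξ = ip η ξ + ip η' ξ :=
  Finsupp.sum_add_index' (fun _ => zero_mul _) fun _ _ _ => add_mul _ _ _

theorem ip_add_right (η ξ ξ' : Y →₀ ℝ) : ip η (ξ + ξ') = ip η ξ + ip η ξ' := by
  simp [ip, mul_add]

theorem ip_zero_left (ξ : Y →₀ ℝ) : ip 0 ξ = 0 := by simp [ip]

theorem ip_zero_right (ξ : Y →₀ ℝ) : ip ξ 0 = 0 := by simp [ip]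

theorem ip_single (y : Y) (r : ℝ) (ξ : Y →₀ ℝ) : ip (Finsupp.single y r) ξ = r * ξ y :=
  Finsupp.sum_single_index (zero_mul _)

theorem ip_single_right (η : Y →₀ ℝ) (y : Y) : ip η (Finsupp.single y 1) = η y := by
  classical
  induction η using Finsupp.induction_linear with
  | zero => simp [ip]
  | add a b ha hb => rw [ip_add_left, ha, hb, Finsupp.add_apply]
  | single a r =>
    rw [ip_single, Finsupp.single_apply, Finsupp.single_apply]
    by_cases h : y = a
    · simp [h]
    · simp [h, Ne.symm h]

theorem nsq_eq (η : Y →₀ ℝ) : nsq η = ip η η :=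
  Finset.sum_congr rfl fun _ _ => pow_two _

end ip

section meas

variable {X : Type} [AddCommGroup X] [TopologicalSpace X] [IsTopologicalAddGroup X]
  [CompactSpace X] [MeasurableSpace X] [BorelSpace X] (μ : Measure X) [IsProbabilityMeasure μ]
  [μ.IsAddLeftInvariant]

omit [AddCommGroup X] [IsTopologicalAddGroup X] [μ.IsAddLeftInvariant] in
theorem integrable_cont {f : X → ℝ} (hf : Continuous f) : Integrable f μ :=
  hf.integrable_of_hasCompactSupport (HasCompactSupport.of_compactSpace f)

omit [CompactSpace X] in
open Classical in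
theorem integral_sg (ch : X →+ ZMod 2) : ∫ ω, sg (ch ω) ∂μ = if ch = 0 then 1 else 0 := by
  by_cases h : ch = 0
  · simp [h, sg]
  · rw [if_neg h]
    obtain ⟨z, hz⟩ : ∃ z, ch z ≠ 0 := by
      by_contra h0
      push Not at h0
      exact h (AddMonoidHom.ext h0)
    have h1 := integral_add_left_eq_self (μ := μ) (fun ω => sg (ch ω)) z
    simp only [map_add, sg_add] at h1
    rw [show sg (ch z) = -1 from if_neg hz, integral_const_mul] at h1
    linarith

theorem real_coset (N : AddSubgroup X) (hN : IsOpen (N : Set X)) (z : X) :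
    μ.real {ω | ω - z ∈ N} = (N.index : ℝ)⁻¹ := by
  have := N.quotient_finite_of_isOpen hN
  have : N.FiniteIndex := AddSubgroup.finiteIndex_of_finite_quotient
  have h1 := AddSubgroup.index_mul_measure N hN.measurableSet μ
  have h2 : {ω | ω - z ∈ N} = (fun ω => -z + ω) ⁻¹' (N : Set X) := by
    ext ω
    simp [neg_add_eq_sub]
  rw [Measure.real, h2, measure_preimage_add]
  have h3 := congrArg ENNReal.toReal h1
  rw [ENNReal.toReal_mul, measure_univ, ENNReal.toReal_natCast, ENNReal.toReal_one] at h3
  exact eq_inv_of_mul_eq_one_right h3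

end meas

section main

variable {G S : Type} [Group G] [Fintype S] {X : AddSubgroup (G → S → ZMod 2)} {Γ : Type}
  [Group Γ] (R : Rep X Γ)

theorem app_single (ω : X) (g : Γ) (r : ℝ) :
    R.π ω (MonoidAlgebra.single g r) (Finsupp.single 1 1) =
      Finsupp.single (R.pt g) (r * sg (R.χ g ω)) := by
  have : MonoidAlgebra.single g r = r • (MonoidAlgebra.single g 1 : MonoidAlgebra ℝ Γ) := by
    simp
  rw [this, map_smul, LinearMap.smul_apply, R.app, Finsupp.smul_single, smul_eq_mul]
  rfl

theorem planch [CompactSpace X] [MeasurableSpace X] [BorelSpace X] (μ : Measure X)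
    [IsProbabilityMeasure μ] [μ.IsAddLeftInvariant] (b b' : MonoidAlgebra ℝ Γ) :
    Continuous (fun ω => ip (R.π ω b (Finsupp.single 1 1)) (R.π ω b' (Finsupp.single 1 1))) ∧
    ∫ ω, ip (R.π ω b (Finsupp.single 1 1)) (R.π ω b' (Finsupp.single 1 1)) ∂μ =
      ip b.coeff b'.coeff := by
  classical
  induction b using MonoidAlgebra.induction_linear with
  | zero => simp [ip_zero_left, continuous_const]
  | add x y hx hy =>
    simp only [map_add, LinearMap.add_apply, ip_add_left, MonoidAlgebra.coeff_add]
    exact ⟨hx.1.add hy.1, by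
      rw [integral_add (integrable_cont μ hx.1) (integrable_cont μ hy.1), hx.2, hy.2]⟩
  | single g r =>
    induction b' using MonoidAlgebra.induction_linear with
    | zero => simp [ip_zero_right, continuous_const]
    | add x y hx hy =>
      simp only [map_add, LinearMap.add_apply, ip_add_right, MonoidAlgebra.coeff_add]
      exact ⟨hx.1.add hy.1, by
        rw [integral_add (integrable_cont μ hx.1) (integrable_cont μ hy.1), hx.2, hy.2]⟩
    | single g' r' =>
      simp only [app_single, ip_single, MonoidAlgebra.coeff_single, Finsupp.single_apply]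
      by_cases h : R.pt g' = R.pt g
      · simp only [if_pos h]
        have e : (fun ω : X => r * sg (R.χ g ω) * (r' * sg (R.χ g' ω))) =
            fun ω => r * r' * sg ((R.χ g' + R.χ g) ω) := by
          funext ω
          rw [AddMonoidHom.add_apply, sg_add]
          ring
        rw [e]
        refine ⟨continuous_const.mul ((continuous_of_discreteTopology (f := sg)).comp
          ((R.cont g').add (R.cont g))), ?_⟩
        rw [integral_const_mul, integral_sg]
        by_cases hg : g' = g
        · have : R.χ g' + R.χ g = 0 := by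
            ext ω
            exact (add_eq_zero_z2 _ _).2 (by rw [hg])
          rw [if_pos this, if_pos hg, mul_one]
        · have : ¬ R.χ g' + R.χ g = 0 := fun h0 => hg (R.inj _ _ h (AddMonoidHom.ext fun ω =>
            (add_eq_zero_z2 _ _).1 (DFunLike.congr_fun h0 ω)))
          rw [if_neg this, if_neg hg, mul_zero, mul_zero]
      · have hg : ¬ g' = g := fun h0 => h (by rw [h0])
        simp [h, hg, continuous_const]

end main

end Haar

open Haar MeasureTheory in
theorem haarS : HaarStmt := by
  intro G S _ _ _ X hX Γ _ R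
  have : CompactSpace X := isCompact_iff_compactSpace.1 hX.isCompact
  borelize ↥X
  let μ : Measure X := Measure.addHaarMeasure ⊤
  have : IsProbabilityMeasure μ := ⟨Measure.addHaarMeasure_self⟩
  have hp := planch R μ
  refine ⟨fun b b' c h => ?_, fun a h γ => ?_, fun b J _ N z c ε hN h => ?_⟩
  · simp only [nsq_eq] at h ⊢
    rw [← (hp b b).2, ← (hp b' b').2, ← integral_const_mul]
    exact integral_mono (integrable_cont μ (hp b b).1)
      (integrable_cont μ (continuous_const.mul (hp b' b').1)) h
  · have h1 := (hp (a * MonoidAlgebra.single γ 1) 1).2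
    have h2 := (hp (MonoidAlgebra.single γ 1) a).2
    have e : ∀ ω : X, ip (R.π ω (a * MonoidAlgebra.single γ 1) (Finsupp.single 1 1))
        (R.π ω 1 (Finsupp.single 1 1)) = ip (R.π ω (MonoidAlgebra.single γ 1)
          (Finsupp.single 1 1)) (R.π ω a (Finsupp.single 1 1)) := fun ω => by
      rw [map_mul, map_one]
      exact h ω _ _
    simp only [e] at h1
    rw [h2, MonoidAlgebra.one_def, MonoidAlgebra.coeff_single, MonoidAlgebra.coeff_single,
      ip_single, ip_single_right, MonoidAlgebra.coeff_mul_single_apply] at h1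
    simpa using h1.symm
  · obtain ⟨h1, h2⟩ := hp 1 b
    simp only [map_one, Module.End.one_apply, ip_single, one_mul] at h1 h2
    rw [MonoidAlgebra.one_def, MonoidAlgebra.coeff_single, ip_single, one_mul] at h2
    have hm : ∀ j, MeasurableSet {ω' : X | ω' - z j ∈ N j} := fun j =>
      ((hN j).preimage (continuous_sub_right (z j))).measurableSet
    have hi : ∀ j, Integrable (Set.indicator {ω' : X | ω' - z j ∈ N j} fun _ => c j) μ :=
      fun j => (integrable_const (c j)).indicator (hm j)
    have h3 : ∫ ω, ∑ j, Set.indicator {ω' : X | ω' - z j ∈ N j} (fun _ => c j) ω ∂μ =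
        ∑ j, c j / (N j).index := by
      rw [integral_finsetSum _ fun j _ => hi j]
      refine Finset.sum_congr rfl fun j _ => ?_
      rw [integral_indicator_const _ (hm j), real_coset μ _ (hN j), smul_eq_mul, mul_comm,
        div_eq_mul_inv]
    rw [← h2, ← h3, ← integral_sub (integrable_cont μ h1) (integrable_finsetSum _ fun j _ => hi j)]
    have h4 := norm_integral_le_of_norm_le_const (μ := μ)
      (Filter.Eventually.of_forall fun ω => (Real.norm_eq_abs _).trans_le (h ω))
    rwa [probReal_univ, mul_one, Real.norm_eq_abs] at h4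

end Vale.Agent.P089
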