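import Mathlib
import Vale.Agent.P089.BaseB

/-
P089 part B: induction along an injective group homomorphism preserves the index.
-/

namespace Vale.Agent.P089

namespace Ind

variable {Γ Λ H : Type} [Group Γ] [Group Λ] [NormedAddCommGroup H] [InnerProductSpace ℂ H]

/-- Right cosets of the range. -/
abbrev Cos (ρ : Γ →* Λ) : Type := Quotient (QuotientGroup.rightRel ρ.range)

/-- The decomposition of the big group into right cosets. -/
noncomputable def dec (ρ : Γ →* Λ) (hρ : Function.Injective ρ) : Cos ρ × Γ ≃ Λ :=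
  Equiv.ofBijective (fun p => ρ p.2 * p.1.out) (by
    constructor
    · rintro ⟨c, x⟩ ⟨d, y⟩ h
      have h' : ρ x * c.out = ρ y * d.out := h
      have hcd : c = d := by
        rw [← Quotient.out_eq c, ← Quotient.out_eq d]
        apply Quotient.sound
        show QuotientGroup.rightRel ρ.range c.out d.out
        rw [QuotientGroup.rightRel_apply]
        refine ⟨y⁻¹ * x, ?_⟩
        rw [map_mul, map_inv, eq_mul_inv_iff_mul_eq, mul_assoc, h', inv_mul_cancel_left]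
      subst hcd
      rw [hρ (mul_right_cancel h')]
    · intro l
      have h : QuotientGroup.rightRel ρ.range (Quotient.mk (QuotientGroup.rightRel ρ.range) l).out l :=
        Quotient.mk_out l
      rw [QuotientGroup.rightRel_apply] at h
      obtain ⟨x, hx⟩ := h
      refine ⟨(Quotient.mk _ l, x), ?_⟩
      show ρ x * _ = l
      rw [hx, inv_mul_cancel_right])

theorem dec_apply (ρ : Γ →* Λ) (hρ : Function.Injective ρ) (c : Cos ρ) (x : Γ) :
    dec ρ hρ (c, x) = ρ x * c.out := rfl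

theorem summable_dec (ρ : Γ →* Λ) (hρ : Function.Injective ρ) {f : Λ → ℝ} (hf : ∀ l, 0 ≤ f l) :
    Summable f ↔ (∀ c : Cos ρ, Summable fun x => f (ρ x * c.out)) ∧
      Summable fun c : Cos ρ => ∑' x, f (ρ x * c.out) := by
  rw [← (dec ρ hρ).summable_iff]
  exact summable_prod_of_nonneg (f := f ∘ dec ρ hρ) fun p => hf _

theorem tsum_dec (ρ : Γ →* Λ) (hρ : Function.Injective ρ) {f : Λ → ℝ} (hf : Summable f) :
    ∑' l, f l = ∑' c : Cos ρ, ∑' x, f (ρ x * c.out) := by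
  rw [← (dec ρ hρ).tsum_eq]
  exact ((dec ρ hρ).summable_iff.2 hf).tsum_prod

section
omit [InnerProductSpace ℂ H]

theorem sl_summable (ρ : Γ →* Λ) (hρ : Function.Injective ρ) (ξ : HG Λ H) (l : Λ) :
    Summable fun x : Γ => ‖ξ (ρ x * l)‖ ^ 2 :=
  (HG.summable ξ).comp_injective (i := fun x : Γ => ρ x * l)
    fun _ _ h => hρ (mul_right_cancel h)

/-- The slice of a vector along a coset. -/
noncomputable def sl (ρ : Γ →* Λ) (hρ : Function.Injective ρ) (ξ : HG Λ H) (l : Λ) : HG Γ H :=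
  HG.mk (fun x => ξ (ρ x * l)) (sl_summable ρ hρ ξ l)

@[simp] theorem sl_apply (ρ : Γ →* Λ) (hρ : Function.Injective ρ) (ξ : HG Λ H) (l : Λ) (x : Γ) :
    sl ρ hρ ξ l x = ξ (ρ x * l) := rfl

theorem sl_add (ρ : Γ →* Λ) (hρ : Function.Injective ρ) (ξ η : HG Λ H) (l : Λ) :
    sl ρ hρ (ξ + η) l = sl ρ hρ ξ l + sl ρ hρ η l := by
  ext x
  simp

end

variable (ρ : Γ →* Λ) (hρ : Function.Injective ρ)

theorem sl_smul (c : ℂ) (ξ : HG Λ H) (l : Λ) : sl ρ hρ (c • ξ) l = c • sl ρ hρ ξ l := by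
  ext x
  simp

theorem sl_shift (ξ : HG Λ H) (l : Λ) (y : Γ) :
    sl ρ hρ ξ (ρ y * l) = rt H y (sl ρ hρ ξ l) := by
  ext x
  simp [mul_assoc]

theorem sl_rt (ξ : HG Λ H) (l g : Λ) : sl ρ hρ (rt H g ξ) l = sl ρ hρ ξ (l * g) := by
  ext x
  simp [mul_assoc]

theorem app_shift (X : RG Γ H) (ξ : HG Λ H) (l : Λ) (y : Γ) :
    X.1 (sl ρ hρ ξ (ρ y * l)) 1 = X.1 (sl ρ hρ ξ l) y := by
  have h := congrArg (fun A : HG Γ H →L[ℂ] HG Γ H => A (sl ρ hρ ξ l) 1) (mem_RG.1 X.2 y)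
  simp only [mul_apply_eq_comp, rt_apply, one_mul] at h
  rw [sl_shift, h]

theorem coset_le (X : RG Γ H) (ξ : HG Λ H) (l : Λ) :
    ∑' x : Γ, ‖X.1 (sl ρ hρ ξ (ρ x * l)) 1‖ ^ 2 ≤ ‖X.1‖ ^ 2 * ∑' x : Γ, ‖ξ (ρ x * l)‖ ^ 2 := by
  simp only [app_shift]
  rw [← HG.norm_sq]
  have h : ∑' x : Γ, ‖ξ (ρ x * l)‖ ^ 2 = ‖sl ρ hρ ξ l‖ ^ 2 := (HG.norm_sq (sl ρ hρ ξ l)).symm
  rw [h, ← mul_pow]
  exact pow_le_pow_left₀ (norm_nonneg _) (X.1.le_opNorm _) 2

theorem coset_summable (X : RG Γ H) (ξ : HG Λ H) :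
    Summable fun c : Cos ρ => ∑' x : Γ, ‖X.1 (sl ρ hρ ξ (ρ x * c.out)) 1‖ ^ 2 :=
  Summable.of_nonneg_of_le (fun _ => tsum_nonneg fun _ => by positivity)
    (fun c => coset_le ρ hρ X ξ c.out)
    (((summable_dec ρ hρ fun _ => by positivity).1 (HG.summable ξ)).2.mul_left _)

theorem ind_summable (X : RG Γ H) (ξ : HG Λ H) :
    Summable fun l : Λ => ‖X.1 (sl ρ hρ ξ l) 1‖ ^ 2 := by
  refine (summable_dec ρ hρ fun _ => by positivity).2 ⟨fun c => ?_, coset_summable ρ hρ X ξ⟩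
  simp only [app_shift]
  exact HG.summable _

/-- The induced operator. -/
noncomputable def indL (X : RG Γ H) : HG Λ H →L[ℂ] HG Λ H :=
  LinearMap.mkContinuous
    { toFun := fun ξ => HG.mk (fun l => X.1 (sl ρ hρ ξ l) 1) (ind_summable ρ hρ X ξ)
      map_add' := fun ξ η => by ext h; simp [sl_add]
      map_smul' := fun c ξ => by ext h; simp [sl_smul] } ‖X.1‖ (fun ξ => by
    apply le_of_sq_le_sq _ (by positivity)
    rw [mul_pow, HG.norm_sq, HG.norm_sq]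
    show ∑' l : Λ, ‖X.1 (sl ρ hρ ξ l) 1‖ ^ 2 ≤ _
    rw [tsum_dec ρ hρ (ind_summable ρ hρ X ξ), tsum_dec ρ hρ (HG.summable ξ), ← tsum_mul_left]
    exact Summable.tsum_le_tsum (fun c => coset_le ρ hρ X ξ c.out) (coset_summable ρ hρ X ξ)
      (((summable_dec ρ hρ fun _ => by positivity).1 (HG.summable ξ)).2.mul_left _))

theorem indL_apply (X : RG Γ H) (ξ : HG Λ H) (l : Λ) :
    indL ρ hρ X ξ l = X.1 (sl ρ hρ ξ l) 1 := rfl

theorem sl_indL (X : RG Γ H) (ξ : HG Λ H) (l : Λ) :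
    sl ρ hρ (indL ρ hρ X ξ) l = X.1 (sl ρ hρ ξ l) := by
  ext x
  rw [sl_apply, indL_apply, app_shift]

theorem indL_mem (X : RG Γ H) : indL ρ hρ X ∈ RG Λ H :=
  mem_RG.2 fun g => by
    ext ξ l
    simp only [mul_apply_eq_comp, rt_apply, indL_apply, sl_rt]

/-- Induction as a ring homomorphism. -/
noncomputable def indHom : RG Γ H →+* RG Λ H where
  toFun X := ⟨indL ρ hρ X, indL_mem ρ hρ X⟩
  map_one' := Subtype.ext (by
    ext ξ l
    simp [indL_apply])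
  map_mul' X Y := Subtype.ext (by
    ext ξ l
    show indL ρ hρ (X * Y) ξ l = indL ρ hρ X (indL ρ hρ Y ξ) l
    rw [indL_apply, indL_apply, sl_indL]
    rfl)
  map_zero' := Subtype.ext (by
    ext ξ l
    simp [indL_apply])
  map_add' X Y := Subtype.ext (by
    ext ξ l
    simp [indL_apply])

theorem indHom_tens (X : H →L[ℂ] H) (g : Γ) : indHom ρ hρ (tens X g) = tens X (ρ g) :=
  Subtype.ext (by
    ext ξ l
    show indL ρ hρ (tens X g) ξ l = tensL X (ρ g) ξ l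
    rw [indL_apply]
    show tensL X g (sl ρ hρ ξ l) 1 = _
    simp)

theorem sl_Jl (v : H) : sl ρ hρ (Jl Λ H 1 v) 1 = Jl Γ H 1 v := by
  ext x
  rw [sl_apply, mul_one]
  by_cases e : x = 1
  · subst e
    rw [map_one, Jl_self, Jl_self]
  · rw [Jl_ne e, Jl_ne]
    intro e'
    exact e (hρ (by rw [e', map_one]))

theorem phi_indHom (b : HilbertBasis ℕ ℂ H) (Y : RG Γ H) : phi b (indHom ρ hρ Y) = phi b Y := by
  unfold phi
  rw [inner_Jl, inner_Jl]
  show inner ℂ (b 0) (indL ρ hρ Y (Jl Λ H 1 (b 0)) 1) = _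
  rw [indL_apply, sl_Jl]

theorem indHom_eR (b : HilbertBasis ℕ ℂ H) : indHom ρ hρ (eR Γ b) = eR Λ b := by
  unfold eR
  rw [indHom_tens, map_one]

theorem tau_zero {R : Type} [Ring R] (t : TrSet R) : t.τ 0 = 0 := by
  have h := t.add 0 t.I.zero_mem 0 t.I.zero_mem
  rw [add_zero] at h
  exact left_eq_add.1 h

theorem tau_neg {R : Type} [Ring R] (t : TrSet R) {a : R} (ha : a ∈ t.I) : t.τ (-a) = -t.τ a := by
  have h := t.add a ha (-a) (t.I.neg_mem ha)
  rw [add_neg_cancel, tau_zero] at h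
  exact eq_neg_of_add_eq_zero_right h.symm

theorem transfer {R R' : Type} [Ring R] [Ring R'] (Φ : R →+* R') (t : TrSet R) (t' : TrSet R')
    (e : R) (hI : t.I = TwoSidedIdeal.span {e}) (he : Φ e ∈ t'.I)
    (hτ : ∀ X Y, t'.τ (Φ (X * e * Y)) = t.τ (X * e * Y)) {a : R} (ha : a ∈ t.I) :
    Φ a ∈ t'.I ∧ t'.τ (Φ a) = t.τ a := by
  have key : ∀ a ∈ TwoSidedIdeal.span {e}, a ∈ t.I ∧ Φ a ∈ t'.I ∧
      ∀ X Y, t'.τ (Φ (X * a * Y)) = t.τ (X * a * Y) := by
    intro a ha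
    induction ha using TwoSidedIdeal.span_induction with
    | mem x hx =>
      rw [Set.mem_singleton_iff.1 hx]
      exact ⟨hI ▸ TwoSidedIdeal.subset_span rfl, he, hτ⟩
    | zero =>
      refine ⟨t.I.zero_mem, by rw [map_zero]; exact t'.I.zero_mem, fun X Y => ?_⟩
      rw [mul_zero, zero_mul, map_zero, tau_zero, tau_zero]
    | add x y _ _ hx hy =>
      refine ⟨t.I.add_mem hx.1 hy.1, by rw [map_add]; exact t'.I.add_mem hx.2.1 hy.2.1,
        fun X Y => ?_⟩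
      have m : ∀ a ∈ t.I, X * a * Y ∈ t.I := fun a ha =>
        t.I.mul_mem_right _ _ (t.I.mul_mem_left _ _ ha)
      have m' : ∀ a, Φ a ∈ t'.I → Φ (X * a * Y) ∈ t'.I := fun a ha => by
        rw [map_mul, map_mul]
        exact t'.I.mul_mem_right _ _ (t'.I.mul_mem_left _ _ ha)
      rw [mul_add, add_mul, map_add, t.add _ (m x hx.1) _ (m y hy.1),
        t'.add _ (m' x hx.2.1) _ (m' y hy.2.1), hx.2.2, hy.2.2]
    | neg x _ hx =>
      refine ⟨t.I.neg_mem hx.1, by rw [map_neg]; exact t'.I.neg_mem hx.2.1, fun X Y => ?_⟩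
      have := hx.2.2 (-X) Y
      rwa [neg_mul, ← mul_neg] at this
    | left_absorb r x _ hx =>
      refine ⟨t.I.mul_mem_left _ _ hx.1, by rw [map_mul]; exact t'.I.mul_mem_left _ _ hx.2.1,
        fun X Y => ?_⟩
      have := hx.2.2 (X * r) Y
      rwa [mul_assoc X r x] at this
    | right_absorb r x _ hx =>
      refine ⟨t.I.mul_mem_right _ _ hx.1, by rw [map_mul]; exact t'.I.mul_mem_right _ _ hx.2.1,
        fun X Y => ?_⟩
      have := hx.2.2 X (r * Y)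
      rwa [← mul_assoc, mul_assoc X x r] at this
  obtain ⟨_, h1, h2⟩ := key a (hI ▸ ha)
  refine ⟨h1, ?_⟩
  have := h2 1 1
  rwa [one_mul, mul_one] at this

end Ind

theorem indS : IndStmt := by
  intro Γ Λ H _ _ _ _ _ b ρ hρ
  refine ⟨Ind.indHom ρ hρ, Ind.indHom_tens ρ hρ, ?_⟩
  intro t t' ht ht' P Q T z ⟨hP, hQ, hT, S, hS, h1, h2, hz⟩
  have he : Ind.indHom ρ hρ (eR Γ b) ∈ t'.I := by
    rw [Ind.indHom_eR, ht'.I_eq]
    exact TwoSidedIdeal.subset_span rfl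
  have hτ : ∀ X Y, t'.τ (Ind.indHom ρ hρ (X * eR Γ b * Y)) = t.τ (X * eR Γ b * Y) := by
    intro X Y
    rw [map_mul, map_mul, Ind.indHom_eR, ht'.τ_eq, ht.τ_eq, ← map_mul, Ind.phi_indHom]
  have k1 := Ind.transfer (Ind.indHom ρ hρ) t t' _ ht.I_eq he hτ h1
  have k2 := Ind.transfer (Ind.indHom ρ hρ) t t' _ ht.I_eq he hτ h2
  rw [map_sub, map_mul] at k1 k2
  refine ⟨by rw [← map_mul, hP], by rw [← map_mul, hQ], by rw [← map_mul, ← map_mul, hT],
    Ind.indHom ρ hρ S, by rw [← map_mul, ← map_mul, hS], k1.1, k2.1, ?_⟩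
  rw [k1.2, k2.2, hz]

end Vale.Agent.P089
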