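import Mathlib
import Vale.Agent.P089.Base

/-! P089: irrationality of a lacunary binary series. -/

namespace Vale.Agent.P089

open Finset

theorem irrS : IrrStmt := by
  intro e h0 h2
  have h1 : ∀ i, i + 1 ≤ e i := by
    intro i
    induction i with
    | zero => exact h0
    | succ i ih => have := h2 i; omega
  have h3 : ∀ n j, e n + j ≤ e (j + n) := by
    intro n j
    induction j with
    | zero => simp
    | succ j ih =>
      have := h2 (j + n)
      have := h1 (j + n)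
      rw [show j + 1 + n = j + n + 1 by ring]
      omega
  have hle : ∀ {a b : ℕ}, a ≤ b → (2 : ℝ)⁻¹ ^ b ≤ (2 : ℝ)⁻¹ ^ a := fun h =>
    pow_le_pow_of_le_one (by norm_num) (by norm_num) h
  have hgeo : Summable fun i : ℕ => (2 : ℝ)⁻¹ ^ i := summable_geometric_of_lt_one (by norm_num)
    (by norm_num)
  have hs : Summable fun i => (2 : ℝ)⁻¹ ^ e i :=
    Summable.of_nonneg_of_le (fun i => by positivity) (fun i => hle (by have := h1 i; omega)) hgeo
  rintro ⟨r, hr⟩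
  set n := 2 * r.den with hn
  have hsplit := hs.sum_add_tsum_nat_add (n + 1)
  set T := ∑' j, (2 : ℝ)⁻¹ ^ e (j + (n + 1)) with hT
  have hsT : Summable fun j => (2 : ℝ)⁻¹ ^ e (j + (n + 1)) :=
    (summable_nat_add_iff (f := fun i => (2 : ℝ)⁻¹ ^ e i) (n + 1)).2 hs
  have hT0 : 0 < T := hsT.tsum_pos (fun _ => by positivity) 0 (by positivity)
  have hT1 : T ≤ (2 : ℝ)⁻¹ ^ e (n + 1) * 2 := by
    have h4 : T ≤ ∑' j : ℕ, (2 : ℝ)⁻¹ ^ e (n + 1) * (2 : ℝ)⁻¹ ^ j :=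
      hsT.tsum_le_tsum (fun j => by rw [← pow_add]; exact hle (h3 _ _)) (hgeo.mul_left _)
    rwa [tsum_mul_left, tsum_geometric_inv_two] at h4
  have hint : ((r.num * 2 ^ e n - r.den * ∑ i ∈ range (n + 1), 2 ^ (e n - e i) : ℤ) : ℝ) =
      r.den * 2 ^ e n * T := by
    have h5 : ∀ i ∈ range (n + 1), (2 : ℝ) ^ (e n - e i) = 2 ^ e n * (2 : ℝ)⁻¹ ^ e i := by
      intro i hi
      have h6 : e i ≤ e n := by
        have := h3 i (n - i)
        rw [Nat.sub_add_cancel (by have := mem_range.1 hi; omega)] at this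
        omega
      rw [pow_sub₀ _ two_ne_zero h6, inv_pow]
    have h7 : (r.num : ℝ) = r.den * (r : ℝ) := by
      rw [mul_comm]; exact_mod_cast (Rat.mul_den_eq_num r).symm
    push_cast
    rw [sum_congr rfl h5, ← mul_sum, h7, hr, ← hsplit]
    ring
  have hd : (0 : ℝ) < r.den := by exact_mod_cast r.den_pos
  have hpos : (0 : ℝ) < r.den * 2 ^ e n * T := by positivity
  rw [← hint] at hpos
  have h8 : (1 : ℝ) ≤ r.den * 2 ^ e n * T := by
    rw [← hint]
    exact_mod_cast (show (0 : ℤ) < _ by exact_mod_cast hpos)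
  have h9 : (2 : ℝ)⁻¹ ^ e (n + 1) ≤ (2 : ℝ)⁻¹ ^ e n * (2 : ℝ)⁻¹ ^ e n := by
    rw [← pow_add]; exact hle (by have := h2 n; omega)
  have h10 : (2 : ℝ) * r.den < 2 ^ e n := by
    have : 2 * r.den < 2 ^ e n := lt_of_lt_of_le (by have := h1 n; omega) (e n).lt_two_pow_self.le
    exact_mod_cast this
  have h11 : (2 : ℝ) ^ e n * (2 : ℝ)⁻¹ ^ e n = 1 := by rw [← mul_pow]; norm_num
  have h12 : (0 : ℝ) < (2 : ℝ)⁻¹ ^ e n := by positivity
  have h13 : r.den * 2 ^ e n * T ≤ r.den * 2 ^ e n * ((2 : ℝ)⁻¹ ^ e n * (2 : ℝ)⁻¹ ^ e n * 2) :=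
    mul_le_mul_of_nonneg_left (hT1.trans (by linarith)) (by positivity)
  have h14 : (r.den : ℝ) * 2 ^ e n * ((2 : ℝ)⁻¹ ^ e n * (2 : ℝ)⁻¹ ^ e n * 2) =
      2 * r.den * (2 : ℝ)⁻¹ ^ e n := by
    linear_combination (2 * r.den * (2 : ℝ)⁻¹ ^ e n) * h11
  nlinarith [mul_lt_mul_of_pos_right h10 h12]

end Vale.Agent.P089
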