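import Mathlib
import Vale.Agent.P089.Base

namespace Vale.Agent.P089

namespace Lim

open scoped InnerProductSpace
open Filter Topology

variable {G : Type} [Group G]

open Classical in
/-- The basis vector at `g`. -/
noncomputable def dl (g : G) : L2 G := lp.single 2 g (1 : ℂ)

omit [Group G] in
open Classical in
theorem dl_apply (g h : G) : dl g h = if h = g then 1 else 0 := by
  simp [dl, Pi.single_apply]

omit [Group G] in
open Classical in
theorem inner_dl_left (g : G) (ξ : L2 G) : ⟪dl g, ξ⟫_ℂ = ξ g := by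
  unfold dl
  rw [lp.inner_single_left]
  simp

omit [Group G] in
open Classical in
theorem hasSum_dl (ξ : L2 G) : HasSum (fun g => ξ g • dl g) ξ := by
  have h := lp.hasSum_single (p := 2) (by norm_num) ξ
  have e : (fun g => ξ g • dl g) = fun g => (lp.single 2 g (ξ g) : L2 G) := by
    funext g
    apply lp.ext
    funext k
    simp only [lp.coeFn_smul, Pi.smul_apply, dl_apply, lp.single_apply, Pi.single_apply]
    split_ifs <;> simp
  rwa [e]

omit [Group G] in
theorem op_ext {S T : L2 G →L[ℂ] L2 G} (h : ∀ g, S (dl g) = T (dl g)) : S = T := by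
  ext1 ξ
  have h1 := (hasSum_dl ξ).map S S.continuous
  have h2 := (hasSum_dl ξ).map T T.continuous
  refine h1.unique ?_
  have e : (S ∘ fun g => ξ g • dl g) = T ∘ fun g => ξ g • dl g := by
    funext g
    simp [h g]
  rwa [e]

omit [Group G] in
theorem star_apply_dl (T : L2 G →L[ℂ] L2 G) (g h : G) :
    star T (dl g) h = (starRingEnd ℂ) (T (dl h) g) := by
  rw [← inner_dl_left, ← inner_dl_left, ContinuousLinearMap.star_eq_adjoint,
    ContinuousLinearMap.adjoint_inner_right, inner_conj_symm]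

theorem mem_translate (g : G) (ξ : L2 G) : Memℓp (fun h : G => ξ (g⁻¹ * h)) 2 :=
  memℓp_gen ((Equiv.mulLeft g⁻¹).summable_iff.2 ((lp.memℓp ξ).summable (by norm_num)))

theorem bounded_translate (g : G) :
    IsBoundedLinearMap ℂ (fun ξ : L2 G => (⟨fun h => ξ (g⁻¹ * h), mem_translate g ξ⟩ : L2 G)) where
  map_add _ _ := rfl
  map_smul _ _ := rfl
  bound := ⟨1, one_pos, fun ξ => by
    rw [one_mul, lp.norm_eq_tsum_rpow (by norm_num), lp.norm_eq_tsum_rpow (by norm_num)]
    apply le_of_eq
    congr 1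
    exact (Equiv.mulLeft g⁻¹).tsum_eq fun h => ‖ξ h‖ ^ (2 : ENNReal).toReal⟩

/-- The left regular representation. -/
noncomputable def lam : G →* (L2 G →L[ℂ] L2 G) where
  toFun g := (bounded_translate g).toContinuousLinearMap
  map_one' := by
    ext ξ h
    change ξ (1⁻¹ * h) = ξ h
    rw [inv_one, one_mul]
  map_mul' g g' := by
    ext ξ h
    change ξ ((g * g')⁻¹ * h) = ξ (g'⁻¹ * (g⁻¹ * h))
    rw [mul_inv_rev, mul_assoc]

theorem lam_apply (g : G) (ξ : L2 G) (h : G) : lam g ξ h = ξ (g⁻¹ * h) := rfl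

/-- The left regular representation of the real group ring. -/
noncomputable def Lam : MonoidAlgebra ℝ G →+* (L2 G →L[ℂ] L2 G) :=
  MonoidAlgebra.liftNCRingHom ((algebraMap ℂ (L2 G →L[ℂ] L2 G)).comp Complex.ofRealHom) lam
    fun r _ => Algebra.commutes (r : ℂ) _

theorem Lam_single (g : G) (r : ℝ) : Lam (MonoidAlgebra.single g r) = (r : ℂ) • lam g :=
  (MonoidAlgebra.liftNCRingHom_single _ _ _ g r).trans (Algebra.smul_def (r : ℂ) _).symm

theorem Lam_dl (c : MonoidAlgebra ℝ G) (g h : G) : Lam c (dl g) h = (c.coeff (h * g⁻¹) : ℝ) := by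
  classical
  induction c using MonoidAlgebra.induction_linear with
  | zero => simp
  | add x y hx hy => simp [hx, hy]
  | single m r =>
    have e : m⁻¹ * h = g ↔ m = h * g⁻¹ := by
      rw [inv_mul_eq_iff_eq_mul, eq_mul_inv_iff_mul_eq, eq_comm]
    rw [Lam_single, smul_apply, lp.coeFn_smul, Pi.smul_apply, lam_apply,
      dl_apply, MonoidAlgebra.coeff_single, Finsupp.single_apply, if_congr e rfl rfl]
    split_ifs <;> simp

theorem Lam_mem (c : MonoidAlgebra ℝ G) : Lam c ∈ Submodule.span ℂ (leftReg G) := by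
  induction c using MonoidAlgebra.induction_linear with
  | zero => simp
  | add x y hx hy => rw [map_add]; exact add_mem hx hy
  | single m r =>
    rw [Lam_single]
    exact Submodule.smul_mem _ _ (Submodule.subset_span ⟨m, fun _ _ => rfl⟩)

theorem star_Lam {a : MonoidAlgebra ℝ G} (h : ∀ γ, a.coeff γ⁻¹ = a.coeff γ) :
    star (Lam a) = Lam a := by
  refine op_ext fun g => lp.ext (funext fun k => ?_)
  rw [star_apply_dl, Lam_dl, Lam_dl, Complex.conj_ofReal, ← h]
  simp

omit [Group G] in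
theorem hasSum_nsq (b : G →₀ ℝ) : HasSum (fun h => b h ^ 2) (nsq b) :=
  hasSum_sum_of_ne_finset_zero fun h hh => by rw [Finsupp.notMem_support_iff.1 hh]; simp

theorem norm_emb (b b' : MonoidAlgebra ℝ G) :
    ‖Lam b (dl 1) + Complex.I • Lam b' (dl 1)‖ ^ 2 = nsq b.coeff + nsq b'.coeff := by
  have h1 := lp.hasSum_norm (p := 2) (by norm_num) (Lam b (dl 1) + Complex.I • Lam b' (dl 1))
  simp only [ENNReal.toReal_ofNat, Real.rpow_ofNat] at h1
  refine h1.unique ?_
  have e : (fun h => ‖(Lam b (dl 1) + Complex.I • Lam b' (dl 1) : L2 G) h‖ ^ 2) =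
      fun h => b.coeff h ^ 2 + b'.coeff h ^ 2 := by
    funext h
    rw [lp.coeFn_add, lp.coeFn_smul, Pi.add_apply, Pi.smul_apply, Lam_dl, Lam_dl, inv_one,
      mul_one, smul_eq_mul, mul_comm, Complex.sq_norm, Complex.normSq_add_mul_I]
  rw [e]
  exact (hasSum_nsq _).add (hasSum_nsq _)

theorem exists_emb (ξ : L2 G) (s : Finset G) : ∃ b b' : MonoidAlgebra ℝ G,
    ∑ g ∈ s, ξ g • dl g = Lam b (dl 1) + Complex.I • Lam b' (dl 1) := by
  classical
  induction s using Finset.induction_on with
  | empty => exact ⟨0, 0, by simp⟩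
  | insert g s hg ih =>
    obtain ⟨b, b', h⟩ := ih
    have e : lam g (dl 1) = dl g := by
      apply lp.ext
      funext k
      rw [lam_apply, dl_apply, dl_apply]
      exact if_congr (by rw [inv_mul_eq_one, eq_comm]) rfl rfl
    refine ⟨MonoidAlgebra.single g (ξ g).re + b, MonoidAlgebra.single g (ξ g).im + b', ?_⟩
    rw [Finset.sum_insert hg, h]
    simp only [map_add, Lam_single, add_apply,
      smul_apply, e, smul_add, smul_smul]
    conv_lhs => rw [← Complex.re_add_im (ξ g), add_smul, mul_comm]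
    abel

theorem norm_Lam_le (c : MonoidAlgebra ℝ G) {K : ℝ} (hK : 0 ≤ K)
    (h : ∀ b : MonoidAlgebra ℝ G, nsq (c * b).coeff ≤ K ^ 2 * nsq b.coeff) : ‖Lam c‖ ≤ K := by
  refine ContinuousLinearMap.opNorm_le_bound _ hK fun ξ => ?_
  have hc : IsClosed {η : L2 G | ‖Lam c η‖ ≤ K * ‖η‖} :=
    isClosed_le (by fun_prop) (by fun_prop)
  refine hc.mem_of_tendsto (hasSum_dl ξ) (Eventually.of_forall fun s => ?_)
  obtain ⟨b, b', e⟩ := exists_emb ξ s
  rw [e, Set.mem_ofPred_eq]
  refine (pow_le_pow_iff_left₀ (norm_nonneg _) (by positivity) two_ne_zero).1 ?_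
  have e2 : ∀ d, Lam c (Lam d (dl 1)) = Lam (c * d) (dl 1) := fun d => by
    rw [map_mul]; rfl
  rw [map_add, map_smul, e2, e2, mul_pow, norm_emb, norm_emb, mul_add]
  exact add_le_add (h b) (h b')

theorem tr_eq (T : L2 G →L[ℂ] L2 G) : tr G T = T (dl 1) 1 := inner_dl_left 1 _

end Lim

open Lim Filter Topology in
theorem limS : LimStmt := by
  intro G _ a θ t hs h0 h1 hb ht
  have hd : ∀ k : ℕ, dist (Lam a ^ k) (Lam a ^ (k + 1)) ≤ 2 * √θ ^ k := fun k => by
    have e : Lam a ^ (k + 1) - Lam a ^ k = Lam (a ^ k * (a - 1)) := by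
      rw [map_mul, map_pow, map_sub, map_one, mul_sub, mul_one, pow_succ]
    rw [dist_comm, dist_eq_norm, e]
    refine norm_Lam_le _ (by positivity) fun b => ?_
    rw [mul_assoc, sub_mul, one_mul, mul_pow, ← pow_mul, mul_comm k, pow_mul, Real.sq_sqrt h0]
    refine (hb b k).trans (le_of_eq ?_)
    norm_num
  have hθ : √θ < 1 := by rwa [Real.sqrt_lt' one_pos, one_pow]
  obtain ⟨p, hp⟩ := cauchySeq_tendsto_of_complete (cauchySeq_of_le_geometric _ _ hθ hd)
  refine ⟨p, mem_closure_of_tendsto hp (Eventually.of_forall fun k => ?_), ?_, ?_, ?_⟩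
  · rw [← map_pow]
    exact Lam_mem _
  · refine tendsto_nhds_unique (hp.mul hp) ?_
    have h2 : Tendsto (fun k : ℕ => k + k) atTop atTop :=
      tendsto_atTop_mono (fun k => Nat.le_add_left k k) tendsto_id
    simpa only [Function.comp_def, pow_add] using hp.comp h2
  · refine tendsto_nhds_unique hp.star ?_
    simpa only [star_pow, star_Lam hs] using hp
  · have hc : Continuous (tr G) := by
      unfold tr
      fun_prop
    refine tendsto_nhds_unique ((hc.tendsto p).comp hp) ?_
    have e : (tr G ∘ fun k => Lam a ^ k) = fun k => (((a ^ k).coeff 1 : ℝ) : ℂ) := by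
      funext k
      rw [Function.comp_apply, tr_eq, ← map_pow, Lam_dl, inv_one, mul_one]
    rw [e]
    exact (Complex.continuous_ofReal.tendsto t).comp ht

end Vale.Agent.P089
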