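import Mathlib
import Vale.Agent.P089.BaseB

namespace Vale.Agent.P089

namespace Loc

theorem pk_mem {Γ A D Λ : Type} [Group Γ] [NonUnitalCommRing A] [Ring D] [Group Λ]
    (C : CovRep Γ A D) (c : A) (S : Finset Γ) (κ : Γ → Λ) : pk C c S κ ∈ Gd C Λ :=
  AddSubgroup.sum_mem _ fun g _ => AddSubgroup.subset_closure ⟨κ g, _, g, rfl⟩

theorem pk_congr {Γ A D Λ : Type} [Group Γ] [NonUnitalCommRing A] [Ring D] [Group Λ]
    (C : CovRep Γ A D) (c : A) (S : Finset Γ) {κ κ' : Γ → Λ} (h : ∀ g ∈ S, κ g = κ' g) :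
    pk C c S κ = pk C c S κ' :=
  Finset.sum_congr rfl fun g hg => by rw [h g hg]

theorem rh_sum {R R' α : Type} [Ring R] [Ring R'] (Φ : R →+* R') (S : Finset α) (f : α → R) :
    Φ (∑ a ∈ S, f a) = ∑ a ∈ S, Φ (f a) := map_sum Φ f S

theorem rh_mul3 {R R' : Type} [Ring R] [Ring R'] (Φ : R →+* R') (a b c : R) :
    Φ (a * b * c) = Φ a * Φ b * Φ c := by rw [map_mul, map_mul]

theorem ex_ind {E R : Type} [Ring E] [Ring R] {t : TrSet R} (h : IndexFacts t) (f g : E →+* R)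
    (F F' : R) (y : E) (hy : y * y = y) (h1 : f y - F' * g y * (g y * F * f y) ∈ t.K)
    (h2 : g y - g y * F * f y * (F' * g y) ∈ t.K) : ∃ z, HasInd t (f y) (g y) (g y * F * f y) z := by
  have p1 : f y * f y = f y := by rw [← map_mul, hy]
  have p2 : g y * g y = g y := by rw [← map_mul, hy]
  refine h.ex _ _ _ _ p1 p2 ?_ h1 h2
  rw [← mul_assoc, ← mul_assoc, p2, mul_assoc _ _ (f y), p1]

theorem mat_apply (hMat : MatConcl) {E R ι : Type} [Ring E] [Ring R] [Fintype ι] [DecidableEq ι]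
    (t : TrSet R) (v v' : ℕ → R) (hv : ∀ n m, v' n * v m = if n = m then 1 else 0)
    (f g : E →+* R) (F : R) (par : ι → Bool) (y : ι → E) (W : Matrix ι ι E) (z : ι → ℂ)
    (hz : ∀ i, HasInd t (f (y i)) (g (y i)) (g (y i) * F * f (y i)) (z i))
    (hk : ∀ i j, F * f (W i j) - g (W i j) * F ∈ t.K)
    (hodd : ∀ i j, par i = par j → W i j = 0) (hW1 : ∀ i j, W i j * y j = W i j)
    (hW2 : ∀ i j, y i * W i j = W i j) (hWW : W * W = Matrix.diagonal y) :
    ∑ i, (if par i then z i else -z i) = 0 := by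
  have hsq : ∀ f : E →+* R, W.map f * W.map f = Matrix.diagonal fun ε => f (y ε) := by
    intro f
    rw [← Matrix.map_mul, hWW, Matrix.diagonal_map (map_zero f)]
  refine hMat _ t v v' hv _ par _ _ _ z (W.map f) (W.map g) hz (hsq _) (hsq _)
    (fun i j h => by rw [Matrix.map_apply, hodd i j h, map_zero])
    (fun i j h => by rw [Matrix.map_apply, hodd i j h, map_zero]) fun i j => ?_
  simp only [Matrix.map_apply]
  have a1 : g (W i j) * g (y j) = g (W i j) := by rw [← map_mul, hW1]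
  have a2 : f (W i j) * f (y j) = f (W i j) := by rw [← map_mul, hW1]
  have a3 : g (y i) * g (W i j) = g (W i j) := by rw [← map_mul, hW2]
  have a4 : f (y i) * f (W i j) = f (W i j) := by rw [← map_mul, hW2]
  have k2 := t.K.neg_mem (t.K.mul_mem_left (g (y i)) _ (t.K.mul_mem_right _ (f (y j)) (hk i j)))
  have e : -(g (y i) * ((F * f (W i j) - g (W i j) * F) * f (y j))) =
      g (W i j) * (g (y j) * F * f (y j)) - g (y i) * F * f (y i) * f (W i j) := by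
    rw [sub_mul, mul_sub, neg_sub, mul_assoc F, a2, mul_assoc _ _ (f (W i j)),
      a4, ← mul_assoc, ← mul_assoc, a3, ← mul_assoc, ← mul_assoc, ← mul_assoc, a1]
  rwa [e] at k2

theorem Phi_pk {Γ A D P Λ H : Type} [Group Γ] [NonUnitalCommRing A] [Ring D] [Group P] [Group Λ]
    [NormedAddCommGroup H] [InnerProductSpace ℂ H] (C : CovRep Γ A D) (c : A) (S : Finset Γ)
    (κ : Γ → P) (f : D →+* (H →L[ℂ] H)) (ρ : P →* Λ) (Φ : RG P H →+* RG Λ H)
    (hΦ : ∀ X g, Φ (tens X g) = tens X (ρ g)) :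
    Φ (Psi f P (pk C c S κ)) = Psi f Λ (pk C c S fun g => ρ (κ g)) := by
  unfold pk
  rw [rh_sum, rh_sum, rh_sum]
  simp only [Psi_single, hΦ]

theorem sign_sum {ι : Type} [Fintype ι] [DecidableEq ι] (par : ι → Bool) (i0 : ι) (z : ι → ℂ)
    (a b : ℂ) (h0 : z i0 = a) (h1 : ∀ i, i ≠ i0 → z i = b)
    (hs : (∑ i, (if par i then (1 : ℂ) else -1)) = 0)
    (hz : ∑ i, (if par i then z i else -z i) = 0) : a = b := by
  have e : ∀ i, (if par i then z i else -z i) =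
      (if par i then (1 : ℂ) else -1) * b + if i = i0 then
        (if par i0 then (1 : ℂ) else -1) * (a - b) else 0 := by
    intro i
    by_cases hi : i = i0
    · subst hi
      rw [h0]
      cases par i <;> simp
      ring
    · rw [h1 i hi]
      cases par i <;> simp [hi]
  simp only [e, Finset.sum_add_distrib, ← Finset.sum_mul, hs, zero_mul, zero_add,
    Finset.sum_ite_eq', Finset.mem_univ, if_true] at hz
  cases h : par i0 <;> simp [h] at hz
  · linear_combination -hz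
  · linear_combination hz

end Loc

open Loc

theorem locS : LocStmt := by
  classical
  intro hIdx hMat hCount hVN hSep hInd hCliff hGroup hGeom hDesc H _ _ _ b
  obtain ⟨D, _, P, _, _, hP⟩ := hGroup
  obtain ⟨⟨v, v', hv⟩, hsep⟩ := hSep H b
  have hvv : ∀ (Λ : Type) [Group Λ] (n m : ℕ), (tens (v' n) 1 * tens (v m) 1 : RG Λ H) =
      if n = m then 1 else 0 := by
    intro Λ _ n m
    show tensHom Λ H (v' n) * tensHom Λ H (v m) = _
    rw [← map_mul, hv]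
    split_ifs <;> simp
  choose tP htP using fun d => hVN (P d) H b
  refine ⟨⋃ d, {z : ℂ | ∃ P' ∈ MG (P d) H, ∃ Q ∈ MG (P d) H, ∃ T ∈ MG (P d) H, ∃ S ∈ MG (P d) H,
    P' - S * T ∈ KR (P d) H ∧ Q - T * S ∈ KR (P d) H ∧ HasInd (tP d) P' Q T z},
    Set.countable_iUnion fun d => hCount _ (tP d) (MG (P d) H) (KR (P d) H) (hsep _)
      (htP d).K_ge (fun a ha k hk => ⟨MG_mul_KR ha hk, KR_mul_MG hk ha⟩)
      (fun n => tens (v n) 1) (fun n => tens (v' n) 1)
      (fun n => ⟨tens_mem_MG _ _, tens_mem_MG _ _⟩) (hvv _), ?_⟩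
  intro G Z _ _ _ _ _ _ _ x c
  obtain ⟨act, c0, hact, hc0, ⟨Q⟩⟩ := hGeom G Z c
  obtain ⟨hD1, hD2⟩ := hDesc G Z H x act hact
  set C := x.covRep act hact with hC
  obtain ⟨hidem, hcl⟩ := hCliff G _ _ C c0 Q
  obtain ⟨hex, hall⟩ := hD2 c c0 hc0 Q (hidem G id fun _ _ _ _ _ => rfl)
  refine ⟨hex, fun t ht a ha => ?_⟩
  obtain ⟨e1, e2, e3⟩ := hall a ha
  have hind : ∀ (Λ : Type) [Group Λ] (t : TrSet (RG Λ H)), Std b t → ∀ κ : G → Λ, MulOn Q.S κ →
      ∃ z, HasInd t (PsiP H Λ (pk C c0 Q.S κ)) (PsiM H Λ (pk C c0 Q.S κ))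
        (PsiM H Λ (pk C c0 Q.S κ) * tens x.F 1 * PsiP H Λ (pk C c0 Q.S κ)) z := by
    intro Λ _ t ht κ hκ
    have hy := hidem Λ κ hκ
    obtain ⟨h1, h2⟩ := ((hD1 Λ).2 _ (pk_mem C c0 Q.S κ)).2 hy
    exact ex_ind (hIdx _ t) _ _ _ _ _ hy (ht.K_ge _ h1) (ht.K_ge _ h2)
  obtain ⟨zG, hzG⟩ := hind G t ht id fun _ _ _ _ _ => rfl
  refine ⟨_, _, _, zG, e1.symm, e2.symm, e3.symm, hzG, ?_⟩
  obtain ⟨d, σ, q, Λ, _, ρ, ι, θ, hσ, hq, hρ, hι, hθ⟩ := hP G Q.S
  obtain ⟨zP, hzP⟩ := hind (P d) (tP d) (htP d) σ hσ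
  suffices hz : zG = zP by
    rw [hz]
    obtain ⟨h1, h2⟩ := ((hD1 (P d)).2 _ (pk_mem C c0 Q.S σ)).2 (hidem _ σ hσ)
    have m1 := ((hD1 (P d)).1 (pk C c0 Q.S σ)).1
    have m2 := ((hD1 (P d)).1 (pk C c0 Q.S σ)).2
    exact Set.mem_iUnion.2 ⟨d, _, m1, _, m2, _,
      Subring.mul_mem _ (Subring.mul_mem _ m2 (tens_mem_MG _ _)) m1, _,
      Subring.mul_mem _ (tens_mem_MG _ _) m2, h1, h2, hzP⟩
  let κ : Bool → G → Λ := fun e g => if e then ρ (σ g) else ι g
  have hκ : ∀ e, MulOn Q.S (κ e) := by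
    intro e g hg h hh hgh
    cases e
    · exact map_mul ι g h
    · show ρ (σ (g * h)) = ρ (σ g) * ρ (σ h)
      rw [hσ g hg h hh hgh, map_mul]
  obtain ⟨par, W, hsum, hGd, hodd, hW1, hW2, hWW⟩ := hcl Λ κ θ hκ hθ
  obtain ⟨t', ht'⟩ := hVN (Fin Q.S.card → Λ) H b
  have hn : 0 < Q.S.card := Finset.card_pos.2 ⟨1, Q.one_mem⟩
  let y : (Fin Q.S.card → Bool) → MonoidAlgebra _ (Fin Q.S.card → Λ) :=
    fun ε => pk C c0 Q.S (fun g j => κ (ε j) g)
  let z : (Fin Q.S.card → Bool) → ℂ := fun ε => if ε = fun _ => false then zG else zP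
  have hz : ∀ ε, HasInd t' (PsiP H _ (y ε)) (PsiM H _ (y ε))
      (PsiM H _ (y ε) * tens x.F 1 * PsiP H _ (y ε)) (z ε) := by
    intro ε
    by_cases hε : ε = fun _ => false
    · let ι' : G →* (Fin Q.S.card → Λ) := MonoidHom.pi fun _ => ι
      obtain ⟨Φ, hΦ, hΦ'⟩ := hInd G _ H b ι' fun g g' e => hι (congrFun e ⟨0, hn⟩)
      have := hΦ' t t' ht ht' _ _ _ _ hzG
      rw [rh_mul3, hΦ, map_one, Phi_pk C c0 Q.S id _ ι' Φ hΦ,
        Phi_pk C c0 Q.S id _ ι' Φ hΦ] at this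
      simp only [z, if_pos hε]
      subst hε
      exact this
    · let ρ' : P d →* (Fin Q.S.card → Λ) := MonoidHom.pi fun j => if ε j then ρ else ι.comp q
      obtain ⟨j, hj⟩ : ∃ j, ε j = true := by
        by_contra h
        exact hε (funext fun j => by simpa using fun h' => h ⟨j, h'⟩)
      obtain ⟨Φ, hΦ, hΦ'⟩ := hInd (P d) _ H b ρ' fun g g' e => hρ (by
        have := congrFun e j
        simpa [ρ', hj] using this)
      have := hΦ' (tP d) t' (htP d) ht' _ _ _ _ hzP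
      have e : pk C c0 Q.S (fun g => ρ' (σ g)) = y ε := pk_congr C c0 Q.S fun g hg => by
        funext l
        cases h : ε l <;> simp [ρ', κ, h, hq g hg]
      rw [rh_mul3, hΦ, map_one, Phi_pk C c0 Q.S σ _ ρ' Φ hΦ,
        Phi_pk C c0 Q.S σ _ ρ' Φ hΦ, e] at this
      simp only [z, if_neg hε]
      exact this
  have := mat_apply hMat t' (fun n => tens (v n) 1) (fun n => tens (v' n) 1) (hvv _)
    (PsiP H _) (PsiM H _) (tens x.F 1) par y W z hz
    (fun i j => ht'.K_ge _ ((hD1 _).2 _ (hGd i j)).1) hodd hW1 hW2 hWW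
  exact sign_sum par (fun _ => false) z zG zP (if_pos rfl) (fun i hi => if_neg hi) hsum this

end Vale.Agent.P089
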