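import Mathlib
import Vale.Agent.P089.Base

namespace Vale.Agent.P089

open Finset

namespace Rand1

/-- first moment: prescribing sets of values at distinct coordinates -/
theorem card_event {X Y ι : Type} [Fintype X] [Fintype Y] [Fintype ι] [DecidableEq X]
    [DecidableEq Y] [Nonempty Y] (c : ι → X) (hc : Function.Injective c) (V : ι → Finset Y)
    (E : (X → Y) → Prop) [DecidablePred E] (hE : ∀ ψ, E ψ → ∀ t, ψ (c t) ∈ V t) (q : ℝ)
    (hq : ∀ t, ((V t).card : ℝ) ≤ q * Fintype.card Y) :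
    ((univ.filter E).card : ℝ) ≤ Fintype.card (X → Y) * q ^ Fintype.card ι := by
  classical
  have hY : (0 : ℝ) < Fintype.card Y := by exact_mod_cast Fintype.card_pos
  have h1 : univ.filter E ⊆ Fintype.piFinset (Function.extend c V fun _ => univ) := by
    intro ψ hψ
    rw [Fintype.mem_piFinset]
    intro x
    by_cases hx : ∃ t, c t = x
    · obtain ⟨t, rfl⟩ := hx
      rw [hc.extend_apply]
      exact hE ψ (mem_filter.mp hψ).2 t
    · rw [Function.extend_apply' _ _ _ hx]
      exact mem_univ _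
  have h2 : ∏ t, (((V t).card : ℝ) / Fintype.card Y) =
      ∏ x, (((Function.extend c V (fun _ => univ) x).card : ℝ) / Fintype.card Y) := by
    refine Fintype.prod_of_injective c hc _ _ (fun x hx => ?_) fun t => by rw [hc.extend_apply]
    rw [Function.extend_apply' _ _ _ hx, card_univ, div_self hY.ne']
  have h3 : ∏ t, (((V t).card : ℝ) / Fintype.card Y) ≤ q ^ Fintype.card ι := by
    rw [← card_univ (α := ι), ← prod_const]
    exact prod_le_prod (fun t _ => by positivity) fun t _ => (div_le_iff₀ hY).mpr (hq t)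
  rw [h2, prod_div_distrib, prod_const, card_univ, div_le_iff₀ (pow_pos hY _)] at h3
  refine (Nat.cast_le.mpr (card_le_card h1)).trans ?_
  rw [Fintype.card_piFinset, Fintype.card_fun]
  push_cast
  rw [mul_comm]
  exact h3

theorem sum_event {Ω I : Type} [Fintype Ω] [Fintype I] (E : I → Ω → Prop)
    [∀ i ψ, Decidable (E i ψ)] (b : ℝ) (h : ∀ i, ((univ.filter (E i)).card : ℝ) ≤ b) :
    ∑ ψ, ((univ.filter fun i => E i ψ).card : ℝ) ≤ Fintype.card I * b := by
  simp only [card_filter, Nat.cast_sum] at h ⊢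
  rw [sum_comm]
  refine (sum_le_sum fun i _ => h i).trans (le_of_eq ?_)
  rw [sum_const, card_univ, nsmul_eq_mul]

variable {n k D : ℕ}

/-- the coordinate deciding a dart -/
def cd (v : Fin n) (s : Fin k × Fin D × Bool) (w : Fin n) : Fin n × Fin k :=
  (if s.2.2 then v else w, s.1)

/-- the value prescribed by a dart -/
def vl (v : Fin n) (s : Fin k × Fin D × Bool) (w : Fin n) : Fin n × Fin D :=
  (if s.2.2 then w else v, s.2.1)

/-- the involution of the alphabet -/
def br (s : Fin k × Fin D × Bool) : Fin k × Fin D × Bool := (s.1, s.2.1, !s.2.2)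

/-- closed trails -/
def Ev (ψ : Fin n × Fin k → Fin n × Fin D) {l : ℕ}
    (p : Fin (l + 1) → Fin n × (Fin k × Fin D × Bool)) : Prop :=
  (Function.Injective fun t => cd (p t).1 (p t).2 (p (t + 1)).1) ∧
    ∀ t, ψ (cd (p t).1 (p t).2 (p (t + 1)).1) = vl (p t).1 (p t).2 (p (t + 1)).1

theorem ex_psi (m L : ℕ) (hk : k = 20100) (hD : D = 100 * k) (hn : n = 100 * m)
    (hm : (4 * k) ^ (10 * L) ≤ m) : ∃ (ψ : Fin n × Fin k → Fin n × Fin D) (Bad : Finset (Fin n)),
      Bad.card < 20 * m ∧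
      (∀ v v' i w d, ψ (v, i) = (w, d) → ψ (v', i) = (w, d) → w ∉ Bad → v = v') ∧
      (∀ l < 10 * L, ∀ p : Fin (l + 1) → Fin n × (Fin k × Fin D × Bool), Ev ψ p → (p 0).1 ∈ Bad) ∧
      ∀ A B : Finset (Fin n), m ≤ A.card → m ≤ B.card → ∃ a ∈ A, ∃ i, (ψ (a, i)).1 ∈ B := by
  classical
  have hk0 : 0 < k := by omega
  have hm0 : 0 < m := lt_of_lt_of_le (by positivity) hm
  have hD0 : 0 < D := by omega
  have hn0 : 0 < n := by omega
  have : Nonempty (Fin n × Fin D) := ⟨(⟨0, hn0⟩, ⟨0, hD0⟩)⟩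
  have hk' : (0 : ℝ) < k := by exact_mod_cast hk0
  have hm' : (1 : ℝ) ≤ m := by exact_mod_cast hm0
  have hD' : (D : ℝ) = 100 * k := by exact_mod_cast hD
  have hn' : (n : ℝ) = 100 * m := by exact_mod_cast hn
  have hY : (Fintype.card (Fin n × Fin D) : ℝ) = n * D := by simp
  set Ω : ℝ := (Fintype.card (Fin n × Fin k → Fin n × Fin D) : ℝ) with hΩ
  have hΩ0 : 0 < Ω := by rw [hΩ]; exact_mod_cast Fintype.card_pos
  have hone : (1 : ℝ) ≤ ((n : ℝ) * D)⁻¹ * Fintype.card (Fin n × Fin D) := by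
    rw [hY, inv_mul_cancel₀ (by rw [hn', hD']; positivity)]
  let E1 : Fin n × Fin n × Fin k × Fin n × Fin D → (Fin n × Fin k → Fin n × Fin D) → Prop :=
    fun i ψ => i.1 ≠ i.2.1 ∧ ψ (i.1, i.2.2.1) = i.2.2.2 ∧ ψ (i.2.1, i.2.2.1) = i.2.2.2
  let E3 : Finset (Fin n) × Finset (Fin n) → (Fin n × Fin k → Fin n × Fin D) → Prop :=
    fun i ψ => m ≤ i.1.card ∧ m ≤ i.2.card ∧ ∀ a ∈ i.1, ∀ j, (ψ (a, j)).1 ∉ i.2
  have b1 : ∑ ψ, ((univ.filter fun i => E1 i ψ).card : ℝ) ≤ m * Ω := by
    refine (sum_event E1 (Ω * ((n : ℝ) * D)⁻¹ ^ 2) fun i => ?_).trans (le_of_eq ?_)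
    · by_cases h : i.1 = i.2.1
      · rw [filter_false_of_mem fun ψ _ h' => h'.1 h, card_empty, Nat.cast_zero]
        positivity
      · have := card_event (fun b : Bool => (if b then i.1 else i.2.1, i.2.2.1))
          (fun b b' e => by
            cases b <;> cases b' <;> simp_all [eq_comm]) (fun _ => {i.2.2.2}) (E1 i)
          (fun ψ hψ b => by
            cases b
            · exact mem_singleton.mpr hψ.2.2
            · exact mem_singleton.mpr hψ.2.1) _
          (fun _ => by rw [card_singleton, Nat.cast_one]; exact hone)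
        rwa [Fintype.card_bool] at this
    · simp only [Fintype.card_prod, Fintype.card_fin]
      push_cast
      rw [hn', hD']
      field_simp
  have b2 : ∀ l < 10 * L, ∑ ψ, ((univ.filter
      fun p : Fin (l + 1) → Fin n × (Fin k × Fin D × Bool) => Ev ψ p).card : ℝ) ≤
      (2 * k) ^ (10 * L) * Ω := by
    intro l hl
    refine (sum_event (fun (p : Fin (l + 1) → Fin n × (Fin k × Fin D × Bool)) ψ => Ev ψ p)
      (Ω * ((n : ℝ) * D)⁻¹ ^ (l + 1)) fun p => ?_).trans ?_
    · by_cases h : Function.Injective fun t => cd (p t).1 (p t).2 (p (t + 1)).1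
      · have := card_event _ h (fun t => {vl (p t).1 (p t).2 (p (t + 1)).1}) (fun ψ => Ev ψ p)
          (fun ψ hψ t => mem_singleton.mpr (hψ.2 t)) _
          (fun _ => by rw [card_singleton, Nat.cast_one]; exact hone)
        rwa [Fintype.card_fin] at this
      · rw [filter_false_of_mem fun ψ _ h' => h h'.1, card_empty, Nat.cast_zero]
        positivity
    · rw [Fintype.card_fun]
      simp only [Fintype.card_prod, Fintype.card_fin, Fintype.card_bool]
      push_cast
      rw [mul_comm Ω, ← mul_assoc, ← mul_pow]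
      refine mul_le_mul_of_nonneg_right ?_ hΩ0.le
      have e : (n : ℝ) * (k * (D * 2)) * ((n : ℝ) * D)⁻¹ = 2 * k := by
        rw [hn', hD']; field_simp
      rw [e]
      have : (1 : ℝ) ≤ k := by exact_mod_cast hk0
      exact pow_le_pow_right₀ (by linarith) (by omega)
  have b3 : ∑ ψ, ((univ.filter fun i => E3 i ψ).card : ℝ) ≤ 1 / 2 * Ω := by
    refine (sum_event E3 (Ω * (99 / 100 : ℝ) ^ (m * k)) fun i => ?_).trans ?_
    · by_cases h : m ≤ i.1.card ∧ m ≤ i.2.card
      · have := card_event (fun t : i.1 × Fin k => ((t.1 : Fin n), t.2))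
          (fun t t' e => Prod.ext (Subtype.ext (Prod.mk.inj e).1) (Prod.mk.inj e).2)
          (fun _ => i.2ᶜ ×ˢ univ) (E3 i)
          (fun ψ hψ t => mem_product.mpr ⟨mem_compl.mpr (hψ.2.2 _ t.1.2 _), mem_univ _⟩) (99 / 100)
          (fun _ => by
            have a1 : (m : ℝ) ≤ i.2.card := by exact_mod_cast h.2
            have a2 : i.2.card ≤ n := (card_le_univ _).trans (Fintype.card_fin n).le
            rw [hY, card_product, card_compl, card_univ, Fintype.card_fin, Fintype.card_fin,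
              Nat.cast_mul, Nat.cast_sub a2, ← mul_assoc]
            exact mul_le_mul_of_nonneg_right (by linarith) (by positivity))
        refine this.trans (mul_le_mul_of_nonneg_left ?_ hΩ0.le)
        rw [Fintype.card_prod, Fintype.card_coe, Fintype.card_fin]
        exact pow_le_pow_of_le_one (by norm_num) (by norm_num) (Nat.mul_le_mul_right _ h.1)
      · rw [filter_false_of_mem fun ψ _ h' => h ⟨h'.1, h'.2.1⟩, card_empty, Nat.cast_zero]
        positivity
    · rw [mul_comm Ω, ← mul_assoc]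
      refine mul_le_mul_of_nonneg_right ?_ hΩ0.le
      rw [Fintype.card_prod, Fintype.card_finset, Fintype.card_fin]
      have a1 : (99 / 100 : ℝ) ^ (m * k) ≤ (1 / 2) ^ (201 * m) := by
        rw [show m * k = 100 * (201 * m) by rw [hk]; ring, pow_mul]
        exact pow_le_pow_left₀ (by positivity) (by norm_num) _
      have a2 : ((2 ^ n * 2 ^ n : ℕ) : ℝ) * (1 / 2) ^ (201 * m) = (1 / 2) ^ m := by
        rw [show 201 * m = n + n + m by omega, pow_add, pow_add]
        push_cast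
        rw [← mul_assoc, mul_mul_mul_comm, ← mul_pow]
        norm_num
      refine (mul_le_mul_of_nonneg_left a1 (by positivity)).trans (a2.le.trans ?_)
      exact pow_le_of_le_one (by norm_num) (by norm_num) hm0.ne'
  have b4 : ((10 * L : ℕ) : ℝ) * (2 * k) ^ (10 * L) ≤ m := by
    have a1 : 10 * L * (2 * k) ^ (10 * L) ≤ m := by
      refine le_trans ?_ hm
      rw [show 4 * k = 2 * (2 * k) by ring, mul_pow 2 (2 * k)]
      exact Nat.mul_le_mul_right _ Nat.lt_two_pow_self.le
    exact_mod_cast a1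
  obtain ⟨ψ, -, hψ⟩ := exists_lt_of_sum_lt (s := univ) (f := fun ψ =>
    ((univ.filter fun i => E1 i ψ).card : ℝ) + ∑ l ∈ range (10 * L), ((univ.filter
      fun p : Fin (l + 1) → Fin n × (Fin k × Fin D × Bool) => Ev ψ p).card : ℝ) +
      20 * m * ((univ.filter fun i => E3 i ψ).card : ℝ)) (g := fun _ => (20 * m : ℝ)) (by
    rw [sum_add_distrib, sum_add_distrib, ← mul_sum, sum_comm, sum_const, card_univ, nsmul_eq_mul,
      ← hΩ]
    have a1 := sum_le_sum fun l (hl : l ∈ range (10 * L)) => b2 l (mem_range.mp hl)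
    rw [sum_const, card_range, nsmul_eq_mul, ← mul_assoc] at a1
    have a2 := mul_le_mul_of_nonneg_right b4 hΩ0.le
    have a3 := mul_le_mul_of_nonneg_left b3 (show (0 : ℝ) ≤ 20 * m by positivity)
    have a4 : 0 < m * Ω := by positivity
    linarith)
  have hψ' : (univ.filter fun i => E1 i ψ).card + ∑ l ∈ range (10 * L), (univ.filter
      fun p : Fin (l + 1) → Fin n × (Fin k × Fin D × Bool) => Ev ψ p).card +
      20 * m * (univ.filter fun i => E3 i ψ).card < 20 * m := by exact_mod_cast hψ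
  refine ⟨ψ, (univ.filter fun i => E1 i ψ).image (fun i => i.2.2.2.1) ∪
    (range (10 * L)).biUnion fun l => (univ.filter
      fun p : Fin (l + 1) → Fin n × (Fin k × Fin D × Bool) => Ev ψ p).image fun p => (p 0).1,
    ?_, fun v v' i w d h h' hw => ?_, fun l hl p hp => ?_, fun A B hA hB => ?_⟩
  · refine lt_of_le_of_lt ((card_union_le _ _).trans (add_le_add card_image_le
      (card_biUnion_le.trans (sum_le_sum fun l _ => card_image_le)))) ?_
    omega
  · by_contra hne
    exact hw (mem_union_left _ (mem_image.mpr ⟨(v, v', i, w, d),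
      mem_filter.mpr ⟨mem_univ _, hne, h, h'⟩, rfl⟩))
  · exact mem_union_right _ (mem_biUnion.mpr ⟨l, mem_range.mpr hl,
      mem_image.mpr ⟨p, mem_filter.mpr ⟨mem_univ _, hp⟩, rfl⟩⟩)
  · by_contra hcon
    push Not at hcon
    have a1 : 0 < (univ.filter fun i => E3 i ψ).card :=
      card_pos.mpr ⟨(A, B), mem_filter.mpr ⟨mem_univ _, hA, hB, hcon⟩⟩
    have := Nat.mul_le_mul_left (20 * m) a1
    omega

theorem no_walk (ψ : Fin n × Fin k → Fin n × Fin D) (Bad : Finset (Fin n)) (M : ℕ)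
    (h : ∀ l < M, ∀ p : Fin (l + 1) → Fin n × (Fin k × Fin D × Bool), Ev ψ p → (p 0).1 ∈ Bad) :
    ∀ l ≤ M, 1 ≤ l → ∀ (x : ℕ → Fin n) (s : ℕ → Fin k × Fin D × Bool),
      (∀ t < l, x t ∉ Bad ∧ ψ (cd (x t) (s t) (x (t + 1))) = vl (x t) (s t) (x (t + 1))) →
      (∀ t, t + 1 < l → s (t + 1) ≠ br (s t)) → x l = x 0 → False := by
  intro l
  induction l using Nat.strong_induction_on with
  | _ l ih =>
  intro hl h1 x s hx hs hc
  have sub : ∀ a b, a < b → b ≤ l → b - a < l → x a = x b → False := by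
    intro a b hab hb hlt e
    refine ih (b - a) hlt (by omega) (by omega) (fun t => x (a + t)) (fun t => s (a + t))
      (fun t ht => hx (a + t) (by omega)) (fun t ht => hs (a + t) (by omega)) ?_
    simp only [Nat.add_sub_cancel' hab.le, add_zero, e]
  have key : ∀ t t', t < t' → t' < l →
      cd (x t) (s t) (x (t + 1)) ≠ cd (x t') (s t') (x (t' + 1)) := by
    intro t t' htt ht' e
    have e' : vl (x t) (s t) (x (t + 1)) = vl (x t') (s t') (x (t' + 1)) := by
      rw [← (hx t (by omega)).2, ← (hx t' ht').2, e]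
    simp only [cd, vl, Prod.mk.injEq] at e e'
    by_cases hb : (s t).2.2 = (s t').2.2
    · refine sub t t' htt ht'.le (by omega) ?_
      rw [← hb] at e e'
      cases hb' : (s t).2.2
      · simpa [hb'] using e'.1
      · simpa [hb'] using e.1
    · have e1 : s t' = br (s t) :=
        Prod.ext e.2.symm (Prod.ext e'.2.symm (Bool.eq_not_of_ne (Ne.symm hb)))
      have e2 : t + 1 < t' := by
        by_contra h'
        obtain rfl : t' = t + 1 := by omega
        exact hs t ht' e1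
      refine sub (t + 1) t' e2 ht'.le (by omega) ?_
      rw [e1] at e e'
      cases hb' : (s t).2.2
      · simpa [hb', br] using e.1
      · simpa [hb', br] using e'.1
  obtain ⟨l, rfl⟩ : ∃ l', l = l' + 1 := ⟨l - 1, by omega⟩
  have hnext : ∀ t : Fin (l + 1), x ((t + 1 : Fin (l + 1)) : ℕ) = x (t + 1) := by
    intro t
    rw [Fin.val_add_one]
    split_ifs with ht
    · rw [ht, Fin.val_last, hc]
    · rfl
  refine (hx 0 h1).1 (h l hl (fun t => (x t, s t)) ⟨fun t t' e => ?_, fun t => ?_⟩)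
  · simp only [hnext] at e
    rcases lt_trichotomy (t : ℕ) t' with h' | h' | h'
    · exact absurd e (key _ _ h' t'.2)
    · exact Fin.ext h'
    · exact absurd e.symm (key _ _ h' t.2)
  · simp only [hnext]
    exact (hx t t.2).2

theorem rd_walk {S : Type} (st : ℕ → S → Option ℕ) (u : List S) : ∀ v w, rd st v u = some w →
    ∃ x : ℕ → ℕ, x 0 = v ∧ x u.length = w ∧
      ∀ t (h : t < u.length), st (x t) u[t] = some (x (t + 1)) := by
  induction u with
  | nil => exact fun v w h => ⟨fun _ => v, rfl, Option.some.inj h, fun t h => absurd h (by simp)⟩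
  | cons s u ih =>
    intro v w h
    obtain ⟨v', h1, h2⟩ := Option.bind_eq_some_iff.mp h
    obtain ⟨x, a1, a2, a3⟩ := ih v' w h2
    refine ⟨fun t => Nat.casesOn t v x, rfl, a2, fun t ht => ?_⟩
    cases t with
    | zero => exact h1.trans (congrArg some a1.symm)
    | succ t => exact a3 t (Nat.lt_of_succ_lt_succ ht)

theorem mk_fg {S : Type} (bar : S → S) (G : Finset (Fin n)) (R : Fin n → S → Fin n → Prop)
    (hf : ∀ v ∈ G, ∀ s w w', R v s w → R v s w' → w = w')
    (hs : ∀ v s w, R v s w → R w (bar s) v) : ∃ Γ : FG bar, Γ.W = G.map Fin.valEmbedding ∧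
      ∀ v s w, Γ.st v s = some w ↔ ∃ v' ∈ G, ∃ w' ∈ G, v = v'.1 ∧ w = w'.1 ∧ R v' s w' := by
  classical
  let st : ℕ → S → Option ℕ := fun v s =>
    if h : ∃ w : ℕ, ∃ v' ∈ G, ∃ w' ∈ G, v = v'.1 ∧ w = w'.1 ∧ R v' s w' then some h.choose else none
  have hst : ∀ v s w, st v s = some w ↔ ∃ v' ∈ G, ∃ w' ∈ G, v = v'.1 ∧ w = w'.1 ∧ R v' s w' := by
    intro v s w
    constructor
    · intro h
      simp only [st] at h
      split_ifs at h with h'
      rw [← Option.some.inj h]
      exact h'.choose_spec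
    · intro h
      have h' : ∃ w : ℕ, ∃ v' ∈ G, ∃ w' ∈ G, v = v'.1 ∧ w = w'.1 ∧ R v' s w' := ⟨w, h⟩
      obtain ⟨v1, a1, w1, -, a3, a4, a5⟩ := h
      obtain ⟨v2, -, w2, -, b3, b4, b5⟩ := h'.choose_spec
      obtain rfl : v1 = v2 := Fin.ext (a3.symm.trans b3)
      simp only [st, dif_pos h']
      rw [b4, a4, hf v1 a1 s w1 w2 a5 b5]
  refine ⟨⟨G.map Fin.valEmbedding, st, fun v s w h => ?_, fun v s w h => ?_⟩, rfl, hst⟩
  · obtain ⟨v', a1, w', a2, a3, a4, a5⟩ := (hst v s w).mp h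
    exact (hst _ _ _).mpr ⟨w', a2, v', a1, a4, a3, hs _ _ _ a5⟩
  · obtain ⟨v', a1, w', -, a3, -⟩ := (hst v s w).mp h
    exact mem_map.mpr ⟨v', a1, a3.symm⟩

end Rand1

open Rand1 in
theorem rand1S : Rand1Stmt := by
  classical
  obtain ⟨k, hk⟩ : ∃ k : ℕ, k = 20100 := ⟨_, rfl⟩
  obtain ⟨D, hD⟩ : ∃ D : ℕ, D = 100 * k := ⟨_, rfl⟩
  obtain ⟨s1, hs1⟩ : ∃ s1 : ℕ, s1 = Fintype.card (Fin k × Fin D × Bool) := ⟨_, rfl⟩
  have hs2 : 4 * k ≤ s1 := by
    rw [hs1, Fintype.card_prod, Fintype.card_prod, Fintype.card_fin, Fintype.card_fin,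
      Fintype.card_bool, mul_comm 4]
    exact Nat.mul_le_mul_left _ (by omega)
  have hs3 : 0 < s1 := by omega
  refine ⟨Fin k × Fin D × Bool, inferInstance, br, fun s => s.2.2, 100 * s1 ^ 10,
    ⟨fun s => by simp [br], fun s => rfl⟩, by omega, Nat.succ_le_of_lt (by positivity),
    fun L hL => ?_⟩
  obtain ⟨m, hm⟩ : ∃ m, m = s1 ^ (10 * L) := ⟨_, rfl⟩
  obtain ⟨n, hn⟩ : ∃ n, n = 100 * m := ⟨_, rfl⟩
  have hm0 : 0 < m := by rw [hm]; positivity
  have : NeZero n := ⟨by omega⟩
  obtain ⟨ψ, Bad, h1, h2, h3, h4⟩ := ex_psi m L hk hD hn (hm ▸ Nat.pow_le_pow_left hs2 _)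
  obtain ⟨Γ, hW, hst⟩ := mk_fg br Badᶜ (fun v s w => ψ (cd v s w) = vl v s w)
    (fun v hv s w w' e e' => by
      obtain ⟨i, d, b⟩ := s
      cases b
      · exact h2 w w' i v d e e' (mem_compl.mp hv)
      · exact congrArg Prod.fst (e.symm.trans e'))
    (fun v s w e => by
      obtain ⟨i, d, b⟩ := s
      cases b <;> exact e)
  have hc : Γ.W.card = n - Bad.card := by rw [hW, card_map, card_compl, Fintype.card_fin]
  refine ⟨Γ, m, fun v u hr hu h => ?_, fun A B hA hB hA' hB' => ?_, by omega, ?_, ?_⟩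
  · by_contra hlt
    obtain ⟨x, a1, a2, a3⟩ := rd_walk Γ.st u v v h
    have hpos : 0 < u.length := List.length_pos_iff.mpr hu
    refine no_walk ψ Bad (10 * L) h3 u.length (by omega) hpos (fun t => Fin.ofNat n (x t))
      (fun t => u.getD t u[0]) (fun t ht => ?_) (fun t ht => ?_) (by simp only [a1, a2])
    · obtain ⟨v', b1, w', -, b3, b4, b5⟩ := (hst _ _ _).mp (a3 t ht)
      simp only [b3, b4, Fin.ofNat_val_eq_self, List.getD_eq_getElem _ _ ht]
      exact ⟨mem_compl.mp b1, b5⟩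
    · simp only [List.getD_eq_getElem _ _ ht, List.getD_eq_getElem _ _ (Nat.lt_of_succ_lt ht)]
      exact List.isChain_iff_getElem.mp hr t ht
  · have key : ∀ A : Finset ℕ, A ⊆ Γ.W → A.card ≤ (Badᶜ.filter fun v : Fin n => v.1 ∈ A).card := by
      intro A hA
      refine le_trans (card_le_card fun a ha => ?_) (card_image_le (f := Fin.val))
      obtain ⟨v, hv, rfl⟩ := mem_map.mp (hW ▸ hA ha)
      exact mem_image.mpr ⟨v, mem_filter.mpr ⟨hv, ha⟩, rfl⟩
    obtain ⟨a, ha, i, hb⟩ := h4 _ _ (hA'.trans (key A hA)) (hB'.trans (key B hB))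
    exact ⟨a, (mem_filter.mp ha).2, _, (mem_filter.mp hb).2, (i, (ψ (a, i)).2, true),
      (hst _ _ _).mpr ⟨a, (mem_filter.mp ha).1, _, (mem_filter.mp hb).1, rfl, rfl, rfl⟩⟩
  · rw [mul_pow, ← pow_mul, ← hm]
    have := Nat.mul_le_mul_right m (Nat.le_self_pow (show L ≠ 0 by omega) 100)
    omega
  · rw [← hs1, hm, show 10 * L = 5 * (2 * L) by ring, pow_mul s1]
    refine Nat.pow_le_pow_left ?_ _
    calc s1 + 1 ≤ s1 ^ 2 := by nlinarith
      _ ≤ s1 ^ 5 := Nat.pow_le_pow_right hs3 (by norm_num)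

end Vale.Agent.P089
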