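import Mathlib
import Vale.Agent.P089.Base

/- P089: random colouring of the darts of a graph of large girth. -/

namespace Vale.Agent.P089

namespace Rand2

open Finset

/-- `p` is the walk with labels `f` up to time `n`. -/
def Walk {S : Type} (st : ℕ → S → Option ℕ) (p : ℕ → ℕ) (f : ℕ → S) (n : ℕ) : Prop :=
  ∀ t < n, st (p t) (f t) = some (p (t + 1))

/-- the labels `f` are reduced up to time `n`. -/
def RedF {S : Type} (bar : S → S) (f : ℕ → S) (n : ℕ) : Prop :=
  ∀ t, t + 1 < n → f (t + 1) ≠ bar (f t)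

section Walks

variable {S : Type} {bar : S → S} {st : ℕ → S → Option ℕ} {p p' : ℕ → ℕ} {f f' : ℕ → S} {n : ℕ}

theorem exists_walk (d : S) (u : List S) : ∀ v, (rd st v u).isSome = true →
    ∃ p, p 0 = v ∧ Walk st p (fun t => u.getD t d) u.length := by
  induction u with
  | nil => exact fun v _ => ⟨fun _ => v, rfl, fun t ht => absurd ht (by simp)⟩
  | cons s u ih =>
    intro v h
    rcases hw : st v s with _ | w
    · simp [rd, hw] at h
    · simp only [rd, hw, Option.bind_some] at h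
      obtain ⟨p, h0, hp⟩ := ih w h
      refine ⟨fun t => Nat.casesOn t v p, rfl, fun t ht => ?_⟩
      cases t with
      | zero => simpa [h0] using hw
      | succ t => simpa using hp t (by simpa using ht)

theorem red_getD (d : S) {u : List S} (h : Red bar u) : RedF bar (fun t => u.getD t d) u.length := by
  intro t ht
  have h1 := List.isChain_iff_getElem.1 h t ht
  simp only [List.getD_eq_getElem _ _ ht, List.getD_eq_getElem _ _ (by omega : t < u.length)]
  exact h1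

theorem rd_range (h : Walk st p f n) (k : ℕ) : ∀ i, i + k ≤ n →
    rd st (p i) ((List.range' i k).map f) = some (p (i + k)) := by
  induction k with
  | zero => exact fun i _ => rfl
  | succ k ih =>
    intro i hi
    rw [List.range'_succ, List.map_cons, rd, h i (by omega), Option.bind_some, ih _ (by omega)]
    congr 2
    omega

theorem red_range (h : RedF bar f n) {i k : ℕ} (hi : i + k ≤ n) :
    Red bar ((List.range' i k).map f) := by
  refine List.isChain_iff_getElem.2 fun t ht => ?_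
  simp only [List.length_map, List.length_range'] at ht
  simp only [List.getElem_map, List.getElem_range', one_mul]
  exact h (i + t) (by omega)

theorem walk_unique (h : Walk st p f n) (h' : Walk st p' f' n) (h0 : p 0 = p' 0)
    (hf : ∀ t < n, f t = f' t) : ∀ t ≤ n, p t = p' t := by
  intro t
  induction t with
  | zero => exact fun _ => h0
  | succ t ih =>
    intro ht
    have h1 := h t (by omega)
    rw [ih (by omega), hf t (by omega), h' t (by omega)] at h1
    exact (Option.some.inj h1).symm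

theorem walk_back {Γ : FG bar} (h : Walk Γ.st p f n) (h' : Walk Γ.st p' f n) :
    ∀ t ≤ n, p t = p' t → p 0 = p' 0 := by
  intro t
  induction t with
  | zero => exact fun _ h => h
  | succ t ih =>
    intro ht e
    have h1 := Γ.symm _ _ _ (h t (by omega))
    rw [e, Γ.symm _ _ _ (h' t (by omega))] at h1
    exact ih (by omega) (Option.some.inj h1).symm

theorem walk_ne {Γ : FG bar} {g : ℕ} (hg : Girth Γ g) (h : Walk Γ.st p f n) (hr : RedF bar f n)
    (hn : n < g) {i j : ℕ} (hij : i < j) (hj : j ≤ n) : p i ≠ p j := by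
  intro e
  obtain ⟨k, rfl⟩ : ∃ k, j = i + (k + 1) := ⟨j - i - 1, by omega⟩
  have h1 := hg (p i) _ (red_range hr hj) (by simp) ((rd_range h _ i hj).trans (by rw [e]))
  simp only [List.length_map, List.length_range'] at h1
  omega

end Walks

/-- coordinates of the darts: a dart and its reverse have the same coordinate. -/
structure Coord {S : Type} {bar : S → S} (Γ : FG bar) {ι : Type} (cd : ℕ → S → ι) : Prop where
  rev : ∀ v s w, Γ.st v s = some w → cd w (bar s) = cd v s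
  inj : ∀ v s w v' s' w', Γ.st v s = some w → Γ.st v' s' = some w' → cd v s = cd v' s' →
    v = v' ∨ (v' = w ∧ s' = bar s)

theorem exists_coord {S : Type} {bar : S → S} {sg : S → Bool} (hs : Signed bar sg) (Γ : FG bar) :
    ∃ (N : ℕ) (cd : ℕ → S → Fin (N + 1) × S), Coord Γ cd := by
  obtain ⟨N, hN⟩ : ∃ N, ∀ v ∈ Γ.W, v < N + 1 :=
    ⟨Γ.W.sup id, fun v hv => Nat.lt_succ_of_le (Finset.le_sup (f := id) hv)⟩
  have he : ∀ v ∈ Γ.W, ∀ w ∈ Γ.W, Fin.ofNat (N + 1) v = Fin.ofNat (N + 1) w → v = w := by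
    intro v hv w hw e
    have h1 := congrArg Fin.val e
    rwa [Fin.val_ofNat, Fin.val_ofNat, Nat.mod_eq_of_lt (hN v hv), Nat.mod_eq_of_lt (hN w hw)] at h1
  refine ⟨N, fun v s => if sg s = true then (Fin.ofNat (N + 1) v, s)
    else (Fin.ofNat (N + 1) ((Γ.st v s).getD 0), bar s), fun v s w h => ?_,
    fun v s w v' s' w' h h' e => ?_⟩
  · rw [hs.2, Γ.symm _ _ _ h, h, hs.1]
    cases sg s <;> simp
  · have m1 := Γ.mem _ _ _ h
    have m2 := Γ.mem _ _ _ h'
    have r1 := Γ.symm _ _ _ h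
    have r2 := Γ.symm _ _ _ h'
    have m3 := Γ.mem _ _ _ r1
    have m4 := Γ.mem _ _ _ r2
    rw [h, h'] at e
    simp only [Option.getD_some] at e
    split_ifs at e with h1 h2 h2
    · exact Or.inl (he _ m1 _ m2 (congrArg Prod.fst e))
    · have e1 := he _ m1 _ m4 (congrArg Prod.fst e)
      have e2 : s = bar s' := congrArg Prod.snd e
      rw [← e1, ← e2, h] at r2
      exact Or.inr ⟨(Option.some.inj r2).symm, by rw [e2, hs.1]⟩
    · exact Or.inr ⟨(he _ m3 _ m2 (congrArg Prod.fst e)).symm, (congrArg Prod.snd e).symm⟩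
    · have e1 := he _ m3 _ m4 (congrArg Prod.fst e)
      have e2 : bar s = bar s' := congrArg Prod.snd e
      rw [e1, e2, r2] at r1
      exact Or.inl (Option.some.inj r1).symm

theorem Coord.injOn {S : Type} {bar : S → S} {Γ : FG bar} {ι : Type} {cd : ℕ → S → ι}
    (hc : Coord Γ cd) {g n : ℕ} (hg : Girth Γ g) {p : ℕ → ℕ} {f : ℕ → S} (h : Walk Γ.st p f n)
    (hr : RedF bar f n) (hn : n < g) : Set.InjOn (fun t => cd (p t) (f t)) (range n) := by
  have key : ∀ t t', t < t' → t' < n → cd (p t) (f t) ≠ cd (p t') (f t') := by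
    intro t t' h1 h2 e
    rcases hc.inj _ _ _ _ _ _ (h t (by omega)) (h t' h2) e with h3 | ⟨h3, h4⟩
    · exact walk_ne hg h hr hn h1 h2.le h3
    · rcases Nat.lt_or_ge (t + 1) t' with h5 | h5
      · exact walk_ne hg h hr hn h5 h2.le h3.symm
      · obtain rfl : t' = t + 1 := by omega
        exact hr t h2 h4
  intro t ht t' ht' e
  simp only [coe_range, Set.mem_Iio] at ht ht'
  rcases lt_trichotomy t t' with h1 | h1 | h1
  · exact absurd e (key t t' h1 ht')
  · exact h1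
  · exact absurd e.symm (key t' t h1 ht)

/-- first moment lemma. -/
theorem card_le {ι C : Type} [Fintype ι] [DecidableEq ι] [Fintype C] (E : Finset (ι → C))
    (T : Finset ι) (h : ∀ c ∈ E, ∀ c' ∈ E, (∀ i ∉ T, c i = c' i) → ∀ i ∈ T, c i = c' i) :
    E.card * Fintype.card C ^ T.card ≤ Fintype.card (ι → C) := by
  have h1 : E.card * Fintype.card C ^ T.card = Fintype.card (E × (T → C)) := by simp
  rw [h1]
  refine Fintype.card_le_of_injective
    (fun x i => if hi : i ∈ T then x.2 ⟨i, hi⟩ else x.1.1 i) fun x y e => ?_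
  have h2 : ∀ i ∉ T, x.1.1 i = y.1.1 i := fun i hi => by simpa [hi] using congrFun e i
  refine Prod.ext (Subtype.ext (funext fun i => ?_)) (funext fun i => ?_)
  · by_cases hi : i ∈ T
    · exact h _ x.1.2 _ y.1.2 h2 i hi
    · exact h2 i hi
  · simpa [i.2] using congrFun e i

/-- a large independent set of times. -/
theorem exists_indep {ι : Type} [DecidableEq ι] (a b : ℕ → ι) (s : Finset ℕ) :
    Set.InjOn a s → Set.InjOn b s → (∀ t ∈ s, a t ≠ b t) →
    ∃ T ⊆ s, s.card ≤ 3 * T.card ∧ ∀ t ∈ T, ∀ t' ∈ T, a t ≠ b t' := by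
  induction s using Finset.strongInduction with
  | H s ih =>
    intro ha hb hab
    rcases s.eq_empty_or_nonempty with rfl | ⟨t, ht⟩
    · exact ⟨∅, subset_rfl, by simp, by simp⟩
    have hsub : s.filter (fun t' => t' ≠ t ∧ a t ≠ b t' ∧ a t' ≠ b t) ⊆ s := filter_subset _ _
    obtain ⟨T, h1, h2, h3⟩ := ih (s.filter fun t' => t' ≠ t ∧ a t ≠ b t' ∧ a t' ≠ b t)
      (filter_ssubset.2 ⟨t, ht, by simp⟩) (ha.mono hsub) (hb.mono hsub)
      fun t' h => hab t' (hsub h)
    have h4 : t ∉ T := fun h => (mem_filter.1 (h1 h)).2.1 rfl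
    refine ⟨insert t T, insert_subset ht (h1.trans hsub), ?_, ?_⟩
    · have h5 : s ⊆ s.filter (fun t' => t' ≠ t ∧ a t ≠ b t' ∧ a t' ≠ b t) ∪
          ({t} ∪ (s.filter (fun t' => a t = b t') ∪ s.filter (fun t' => a t' = b t))) := by
        intro x hx
        simp only [mem_union, mem_filter, mem_singleton]
        tauto
      have h6 : (s.filter fun t' => a t = b t').card ≤ 1 := card_le_one.2 fun x hx y hy =>
        hb (mem_filter.1 hx).1 (mem_filter.1 hy).1
          ((mem_filter.1 hx).2.symm.trans (mem_filter.1 hy).2)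
      have h7 : (s.filter fun t' => a t' = b t).card ≤ 1 := card_le_one.2 fun x hx y hy =>
        ha (mem_filter.1 hx).1 (mem_filter.1 hy).1
          ((mem_filter.1 hx).2.trans (mem_filter.1 hy).2.symm)
      have h8 := (card_le_card h5).trans ((card_union_le _ _).trans (Nat.add_le_add_left
        ((card_union_le _ _).trans (Nat.add_le_add_left (card_union_le _ _) _)) _))
      rw [card_singleton] at h8
      rw [card_insert_of_notMem h4]
      omega
    · intro x hx y hy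
      rcases mem_insert.1 hx with rfl | hx' <;> rcases mem_insert.1 hy with rfl | hy'
      · exact hab _ ht
      · exact (mem_filter.1 (h1 hy')).2.2.1
      · exact (mem_filter.1 (h1 hx')).2.2.2
      · exact h3 x hx' y hy'

section Events

variable {S C ι : Type} {bar : S → S} (Γ : FG bar) (cd : ℕ → S → ι)

/-- the coloured word `u` can be read from `v`. -/
def Bad1 (d : S × C) (c : ι → C) (v : ℕ) (u : List (S × C)) : Prop :=
  ∃ p, p 0 = v ∧ Walk Γ.st p (fun t => (u.getD t d).1) u.length ∧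
    RedF bar (fun t => (u.getD t d).1) u.length ∧
    ∀ t < u.length, c (cd (p t) (u.getD t d).1) = (u.getD t d).2

/-- the word `g` can be read from `v` and from `v'` with the same colours. -/
def Bad2 {L : ℕ} (c : ι → C) (v v' : ℕ) (g : Fin L → S) : Prop :=
  v ≠ v' ∧ ∃ (p p' : ℕ → ℕ) (f : ℕ → S), (∀ i : Fin L, f i = g i) ∧ p 0 = v ∧ p' 0 = v' ∧
    Walk Γ.st p f L ∧ Walk Γ.st p' f L ∧ RedF bar f L ∧
    ∀ t < L, c (cd (p t) (f t)) = c (cd (p' t) (f t))

variable {Γ cd} [Fintype ι] [DecidableEq ι] [Fintype C]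

open Classical in
theorem card_bad1 (hc : Coord Γ cd) {g : ℕ} (hg : Girth Γ g) (d : S × C) (v : ℕ)
    {u : List (S × C)} (hu : u.length < g) :
    (univ.filter fun c : ι → C => Bad1 Γ cd d c v u).card * Fintype.card C ^ u.length ≤
      Fintype.card (ι → C) := by
  rcases (univ.filter fun c : ι → C => Bad1 Γ cd d c v u).eq_empty_or_nonempty with h | ⟨c0, h⟩
  · simp [h]
  obtain ⟨p, h0, h1, h2, -⟩ := (mem_filter.1 h).2
  have h3 := card_le (univ.filter fun c : ι → C => Bad1 Γ cd d c v u)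
    ((range u.length).image fun t => cd (p t) (u.getD t d).1) fun c hc c' hc' _ i hi => by
      obtain ⟨t, ht, rfl⟩ := mem_image.1 hi
      have ht' := mem_range.1 ht
      have key : ∀ c : ι → C, Bad1 Γ cd d c v u → c (cd (p t) (u.getD t d).1) = (u.getD t d).2 := by
        rintro c ⟨p', k0, k1, -, k3⟩
        rw [walk_unique h1 k1 (h0.trans k0.symm) (fun _ _ => rfl) t ht'.le]
        exact k3 t ht'
      rw [key c (mem_filter.1 hc).2, key c' (mem_filter.1 hc').2]
  rwa [card_image_of_injOn (hc.injOn hg h1 h2 hu), card_range] at h3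

open Classical in
theorem card_bad2 {sg : S → Bool} (hs : Signed bar sg) (hc : Coord Γ cd) {g L r : ℕ}
    (hg : Girth Γ g) (hL : L < g) (hr : 1 ≤ r) (hC : Fintype.card C = r ^ 3) (v v' : ℕ)
    (w : Fin L → S) :
    (univ.filter fun c : ι → C => Bad2 Γ cd c v v' w).card * r ^ L ≤ Fintype.card (ι → C) := by
  rcases (univ.filter fun c : ι → C => Bad2 Γ cd c v v' w).eq_empty_or_nonempty with h | ⟨c0, h⟩
  · simp [h]
  obtain ⟨hne, p, p', f, hf, h0, h0', h1, h1', h2, -⟩ := (mem_filter.1 h).2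
  have ha := hc.injOn hg h1 h2 hL
  obtain ⟨T, hT, h4, h5⟩ := exists_indep (fun t => cd (p t) (f t)) (fun t => cd (p' t) (f t))
    (range L) ha (hc.injOn hg h1' h2 hL) fun t ht e => by
      have ht' := mem_range.1 ht
      rcases hc.inj _ _ _ _ _ _ (h1 t ht') (h1' t ht') e with h3 | ⟨-, h3⟩
      · exact hne (h0.symm.trans ((walk_back h1 h1' t ht'.le h3).trans h0'))
      · have h6 := hs.2 (f t)
        rw [← h3] at h6
        simp at h6
  have h3 := card_le (univ.filter fun c : ι → C => Bad2 Γ cd c v v' w)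
    (T.image fun t => cd (p t) (f t)) fun c hc c' hc' hcc i hi => by
      obtain ⟨t, ht, rfl⟩ := mem_image.1 hi
      have ht' := mem_range.1 (hT ht)
      have key : ∀ c : ι → C, Bad2 Γ cd c v v' w → c (cd (p t) (f t)) = c (cd (p' t) (f t)) := by
        rintro c ⟨-, q, q', f', kf, k0, k0', k1, k1', -, k3⟩
        have e : ∀ t < L, f t = f' t := fun t ht => (hf ⟨t, ht⟩).trans (kf ⟨t, ht⟩).symm
        rw [walk_unique h1 k1 (h0.trans k0.symm) e t ht'.le,
          walk_unique h1' k1' (h0'.trans k0'.symm) e t ht'.le, e t ht']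
        exact k3 t ht'
      rw [key c (mem_filter.1 hc).2, key c' (mem_filter.1 hc').2]
      refine hcc _ fun hi => ?_
      obtain ⟨t', ht'', e⟩ := mem_image.1 hi
      exact h5 t' ht'' t ht e
  rw [card_image_of_injOn (ha.mono (coe_subset.2 hT)), hC, ← pow_mul] at h3
  rw [card_range] at h4
  exact (Nat.mul_le_mul_left _ (Nat.pow_le_pow_right hr h4)).trans h3

end Events

theorem le_inv {a b N : ℕ} (k : ℕ) (hb : 1 ≤ b) (h : a * b ^ k ≤ N) :
    (a : ℝ) ≤ N * (b : ℝ)⁻¹ ^ k := by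
  have h1 : (0 : ℝ) < (b : ℝ) ^ k := by positivity
  rw [inv_pow, ← div_eq_mul_inv, le_div_iff₀ h1]
  exact_mod_cast h

open Classical in
theorem exists_col {S C ι : Type} [Fintype S] [Fintype C] [Fintype ι] [DecidableEq ι]
    {bar : S → S} {sg : S → Bool} (hs : Signed bar sg) {Γ : FG bar} {cd : ℕ → S → ι}
    (hc : Coord Γ cd) {B r L : ℕ} (hL : 1 ≤ L) (hr : 1 ≤ r)
    (hB : 16 * (B ^ 2 * Fintype.card S) ≤ r) (hC : Fintype.card C = r ^ 3)
    (hg : Girth Γ (10 * L)) (hW : Γ.W.card ≤ B ^ L) (d : S × C) (F : Finset (List (S × C)))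
    (hF : ∀ u ∈ F, u.length ≤ L) (hF' : ∑ u ∈ F, ((r ^ 3 : ℕ) : ℝ)⁻¹ ^ u.length ≤ 1 / 16) :
    ∃ c : ι → C, 2 * (Γ.W.filter fun v => (∃ u ∈ F, Bad1 Γ cd d c v u) ∨
      ∃ v' ∈ Γ.W, ∃ w : Fin L → S, Bad2 Γ cd c v v' w).card ≤ Γ.W.card := by
  obtain ⟨N, hN⟩ : ∃ N, N = Fintype.card (ι → C) := ⟨_, rfl⟩
  have hN0 : (0 : ℝ) ≤ N := Nat.cast_nonneg _
  have h1 : ∀ c : ι → C, ((Γ.W.filter fun v => (∃ u ∈ F, Bad1 Γ cd d c v u) ∨
      ∃ v' ∈ Γ.W, ∃ w : Fin L → S, Bad2 Γ cd c v v' w).card : ℝ) ≤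
      ∑ v ∈ Γ.W, (∑ u ∈ F, (if Bad1 Γ cd d c v u then (1 : ℝ) else 0) +
        ∑ v' ∈ Γ.W, ∑ w : Fin L → S, if Bad2 Γ cd c v v' w then (1 : ℝ) else 0) := by
    intro c
    rw [card_filter]
    push_cast
    refine sum_le_sum fun v _ => ?_
    have n1 : 0 ≤ ∑ u ∈ F, (if Bad1 Γ cd d c v u then (1 : ℝ) else 0) := by positivity
    have n2 : 0 ≤ ∑ v' ∈ Γ.W, ∑ w : Fin L → S, if Bad2 Γ cd c v v' w then (1 : ℝ) else 0 := by
      positivity
    split_ifs with h
    · rcases h with ⟨u, hu, h⟩ | ⟨v', hv', w, h⟩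
      · have := single_le_sum (f := fun u => if Bad1 Γ cd d c v u then (1 : ℝ) else 0)
          (fun _ _ => by positivity) hu
        rw [if_pos h] at this
        linarith
      · have k1 := single_le_sum (f := fun w : Fin L → S =>
          if Bad2 Γ cd c v v' w then (1 : ℝ) else 0) (fun _ _ => by positivity) (mem_univ w)
        have k2 := single_le_sum (f := fun v' => ∑ w : Fin L → S,
          if Bad2 Γ cd c v v' w then (1 : ℝ) else 0) (fun _ _ => by positivity) hv'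
        rw [if_pos h] at k1
        linarith
    · linarith
  have h2 : ∀ v, ∑ c : ι → C, ∑ u ∈ F, (if Bad1 Γ cd d c v u then (1 : ℝ) else 0) ≤
      N * (1 / 16) := by
    intro v
    rw [sum_comm]
    refine le_trans (sum_le_sum fun u hu => ?_)
      ((mul_sum _ _ _).ge.trans (mul_le_mul_of_nonneg_left hF' hN0))
    rw [sum_boole, hN]
    refine le_inv _ (Nat.one_le_pow _ _ hr) ?_
    rw [← hC]
    exact card_bad1 hc hg d v (by have := hF u hu; omega)
  have h3 : ∀ v, ∑ c : ι → C, ∑ v' ∈ Γ.W, ∑ w : Fin L → S,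
      (if Bad2 Γ cd c v v' w then (1 : ℝ) else 0) ≤
      Γ.W.card * ((Fintype.card S : ℝ) ^ L * (N * (r : ℝ)⁻¹ ^ L)) := by
    intro v
    rw [sum_comm, ← nsmul_eq_mul]
    refine sum_le_card_nsmul _ _ _ fun v' _ => ?_
    rw [sum_comm]
    refine (sum_le_card_nsmul _ _ (N * (r : ℝ)⁻¹ ^ L) fun w _ => ?_).trans (by simp)
    rw [sum_boole, hN]
    exact le_inv _ hr (card_bad2 hs hc hg (by omega) hr hC v v' w)
  have h4 : (Γ.W.card : ℝ) * (Γ.W.card * ((Fintype.card S : ℝ) ^ L * (r : ℝ)⁻¹ ^ L)) ≤ 1 / 16 := by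
    have k1 : (Γ.W.card : ℝ) ≤ (B : ℝ) ^ L := by exact_mod_cast hW
    have k2 : (16 : ℝ) * (B ^ 2 * Fintype.card S) ≤ r := by exact_mod_cast hB
    have k3 : (0 : ℝ) < r := by exact_mod_cast hr
    have k4 : (B : ℝ) ^ 2 * Fintype.card S * (r : ℝ)⁻¹ ≤ 1 / 16 := by
      rw [← div_eq_mul_inv, div_le_iff₀ k3]
      linarith
    calc _ ≤ (B : ℝ) ^ L * ((B : ℝ) ^ L * ((Fintype.card S : ℝ) ^ L * (r : ℝ)⁻¹ ^ L)) := by gcongr
      _ = ((B : ℝ) ^ 2 * Fintype.card S * (r : ℝ)⁻¹) ^ L := by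
        rw [mul_pow, mul_pow, sq, mul_pow]; ring
      _ ≤ (1 / 16) ^ L := by gcongr
      _ ≤ (1 / 16) ^ 1 := pow_le_pow_of_le_one (by norm_num) (by norm_num) hL
      _ = 1 / 16 := pow_one _
  have h5 : ∑ c : ι → C, ((Γ.W.filter fun v => (∃ u ∈ F, Bad1 Γ cd d c v u) ∨
      ∃ v' ∈ Γ.W, ∃ w : Fin L → S, Bad2 Γ cd c v v' w).card : ℝ) ≤
      ∑ _c : ι → C, ((Γ.W.card : ℝ) / 16 + 1 / 16) := by
    refine (sum_le_sum fun c _ => h1 c).trans ?_
    rw [sum_comm]
    simp only [sum_add_distrib]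
    rw [← sum_add_distrib]
    refine (sum_le_card_nsmul _ _ _ fun v _ => add_le_add (h2 v) (h3 v)).trans ?_
    rw [sum_const, sum_const, card_univ, ← hN]
    simp only [nsmul_eq_mul]
    nlinarith [mul_le_mul_of_nonneg_left h4 hN0]
  obtain ⟨c, -, h6⟩ := exists_le_of_sum_le ⟨fun _ => d.2, mem_univ _⟩ h5
  refine ⟨c, ?_⟩
  rcases Nat.eq_zero_or_pos Γ.W.card with h7 | h7
  · rw [card_eq_zero.1 h7]
    simp
  · have h8 : (1 : ℝ) ≤ Γ.W.card := by exact_mod_cast h7
    refine (Nat.cast_le (α := ℝ)).1 ?_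
    push_cast
    linarith

/-- the coloured induced subgraph. -/
theorem exists_sub {S C ι : Type} {bar : S → S} {Γ : FG bar} {cd : ℕ → S → ι} (hc : Coord Γ cd)
    (c : ι → C) (W' : Finset ℕ) : ∃ Γ' : FG (fun p : S × C => (bar p.1, p.2)), Γ'.W = W' ∧
      ∀ v x w, Γ'.st v x = some w ↔
        v ∈ W' ∧ w ∈ W' ∧ Γ.st v x.1 = some w ∧ x.2 = c (cd v x.1) := by
  classical
  obtain ⟨st', h⟩ : ∃ st' : ℕ → S × C → Option ℕ, ∀ v x w, st' v x = some w ↔
      v ∈ W' ∧ w ∈ W' ∧ Γ.st v x.1 = some w ∧ x.2 = c (cd v x.1) := by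
    refine ⟨fun v x => if v ∈ W' ∧ x.2 = c (cd v x.1) then (Γ.st v x.1).filter (· ∈ W') else none,
      fun v x w => ?_⟩
    beta_reduce
    split_ifs with h
    · simp only [Option.filter_eq_some_iff, decide_eq_true_eq]
      tauto
    · simp only [false_iff]
      tauto
  refine ⟨⟨W', st', fun v x w e => ?_, fun v x w e => ((h v x w).1 e).1⟩, rfl, h⟩
  obtain ⟨h1, h2, h3, h4⟩ := (h v x w).1 e
  exact (h _ _ _).2 ⟨h2, h1, Γ.symm _ _ _ h3, by rw [hc.rev _ _ _ h3]; exact h4⟩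

theorem proj_walk {S C ι : Type} {bar : S → S} {Γ : FG bar} {cd : ℕ → S → ι} (hc : Coord Γ cd)
    {c : ι → C} {W' : Finset ℕ} {st' : ℕ → S × C → Option ℕ}
    (h : ∀ v x w, st' v x = some w ↔
      v ∈ W' ∧ w ∈ W' ∧ Γ.st v x.1 = some w ∧ x.2 = c (cd v x.1))
    (d : S × C) {u : List (S × C)} (hu : Red (fun p : S × C => (bar p.1, p.2)) u) {v : ℕ}
    (hv : (rd st' v u).isSome = true) :
    Bad1 Γ cd d c v u ∧ (1 ≤ u.length → v ∈ W') := by
  obtain ⟨p, h0, h1⟩ := exists_walk d u v hv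
  refine ⟨⟨p, h0, fun t ht => ((h _ _ _).1 (h1 t ht)).2.2.1, fun t ht e => ?_,
    fun t ht => ((h _ _ _).1 (h1 t ht)).2.2.2.symm⟩, fun hl => h0 ▸ ((h _ _ _).1 (h1 0 hl)).1⟩
  obtain ⟨-, -, k1, k2⟩ := (h _ _ _).1 (h1 t (by omega))
  obtain ⟨-, -, -, k3⟩ := (h _ _ _).1 (h1 (t + 1) ht)
  refine red_getD d hu t ht (Prod.ext e ?_)
  simp only at e k1 k2 k3 ⊢
  rw [k3, k2, e, hc.rev _ _ _ k1]

end Rand2

open Rand2 in
theorem rand2S : Rand2Stmt := by
  classical
  intro S _ bar sg B r L hs hL hB hS hr Γ hg hW F hF hF'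
  have hr1 : 1 ≤ r := by
    have : 1 ≤ B ^ 2 * Fintype.card S := Nat.mul_pos (Nat.pow_pos hB) hS
    omega
  obtain ⟨s0⟩ : Nonempty S := Fintype.card_pos_iff.1 hS
  obtain ⟨d⟩ : Nonempty (S × Fin (r ^ 3)) := ⟨(s0, ⟨0, Nat.pow_pos hr1⟩)⟩
  obtain ⟨N, cd, hc⟩ := exists_coord hs Γ
  obtain ⟨c, h1⟩ := exists_col hs hc hL hr1 hr (Fintype.card_fin _) hg hW d F hF hF'
  obtain ⟨P, hP⟩ : ∃ P : ℕ → Prop, P = fun v => (∃ u ∈ F, Bad1 Γ cd d c v u) ∨
    ∃ v' ∈ Γ.W, ∃ w : Fin L → S, Bad2 Γ cd c v v' w := ⟨_, rfl⟩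
  have h2 : 2 * (Γ.W.filter P).card ≤ Γ.W.card := by
    subst hP
    exact le_of_eq_of_le (by congr) h1
  obtain ⟨Γ', hW', h⟩ := exists_sub hc c (Γ.W.filter fun v => ¬ P v)
  refine ⟨Γ', ⟨hW' ▸ Finset.filter_subset _ _, fun v s k w e => ((h _ _ _).1 e).2.2.1,
    fun v s k k' e e' => ?_, fun v hv w hw s e => ⟨c (cd v s), (h _ _ _).2
      ⟨hW' ▸ hv, hW' ▸ hw, e, rfl⟩⟩⟩, ?_, fun u hu hred v hv => ?_,
    fun v v' u hne hred e e' => ?_⟩
  · obtain ⟨w, hw⟩ := Option.isSome_iff_exists.1 e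
    obtain ⟨w', hw'⟩ := Option.isSome_iff_exists.1 e'
    exact ((h _ _ _).1 hw).2.2.2.trans ((h _ _ _).1 hw').2.2.2.symm
  · have h3 := Finset.card_filter_add_card_filter_not (s := Γ.W) P
    rw [hW']
    omega
  · by_contra hn
    have h3 := (proj_walk hc h d hred (Option.ne_none_iff_isSome.1 hn)).1
    rw [hW'] at hv
    exact (Finset.mem_filter.1 hv).2 (hP ▸ Or.inl ⟨u, hu, h3⟩)
  · by_contra hn
    have hl : L ≤ u.length := not_lt.1 hn
    obtain ⟨⟨p, k0, k1, k2, k3⟩, k4⟩ := proj_walk hc h d hred e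
    obtain ⟨⟨p', k0', k1', -, k3'⟩, k4'⟩ := proj_walk hc h d hred e'
    refine (Finset.mem_filter.1 (k4 (by omega))).2 (hP ▸ Or.inr ⟨v',
      (Finset.mem_filter.1 (k4' (by omega))).1, fun i => (u.getD i d).1, hne, p, p',
      fun t => (u.getD t d).1, fun _ => rfl, k0, k0', fun t ht => k1 t (by omega),
      fun t ht => k1' t (by omega), fun t ht => k2 t (by omega), fun t ht => ?_⟩)
    exact (k3 t (by omega)).trans (k3' t (by omega)).symm

end Vale.Agent.P089
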