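import Mathlib
import Vale.Agent.P089.Base
import Vale.Agent.P089.Haar

namespace Vale.Agent.P089

namespace RepA

open Haar

variable {G S : Type} [Group G] {X : AddSubgroup (G → S → ZMod 2)} (hX : IsShift X)

/-- The shift. -/
def sh (h : G) : X →+ X where
  toFun ω := ⟨fun y => ω.1 (h * y), hX.2 _ ω.2 h⟩
  map_zero' := rfl
  map_add' _ _ := rfl

theorem sh_one (ω : X) : sh hX 1 ω = ω := Subtype.ext (funext fun y => congrArg ω.1 (one_mul y))

theorem sh_sh (h h' : G) (ω : X) : sh hX h' (sh hX h ω) = sh hX (h * h') ω :=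
  Subtype.ext (funext fun y => congrArg ω.1 (mul_assoc h h' y).symm)

variable (X) in
/-- Evaluation characters. -/
def ev (q : G × S) : X →+ ZMod 2 where
  toFun ω := ω.1 q.1 q.2
  map_zero' := rfl
  map_add' _ _ := rfl

variable (X) in
/-- The characters generated by the evaluations. -/
def Ch : Submodule ℤ (X →+ ZMod 2) := Submodule.span ℤ (Set.range (ev X))

theorem Ch_comp {χ : X →+ ZMod 2} (h : χ ∈ Ch X) (g : G) : χ.comp (sh hX g) ∈ Ch X := by
  induction h using Submodule.span_induction with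
  | mem x hx =>
    obtain ⟨q, rfl⟩ := hx
    exact Submodule.subset_span ⟨(g * q.1, q.2), rfl⟩
  | zero => exact zero_mem _
  | add a b _ _ ha hb => exact add_mem ha hb
  | smul c a _ ha => exact Submodule.smul_mem _ c ha

omit [Group G] in
theorem Ch_cont {χ : X →+ ZMod 2} (h : χ ∈ Ch X) : Continuous χ := by
  induction h using Submodule.span_induction with
  | mem x hx =>
    obtain ⟨q, rfl⟩ := hx
    exact (continuous_apply q.2).comp ((continuous_apply q.1).comp continuous_subtype_val)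
  | zero => exact continuous_const
  | add a b _ _ ha hb => exact ha.add hb
  | smul c a _ ha => exact (continuous_of_discreteTopology (f := fun t : ZMod 2 => c • t)).comp ha

/-- The semidirect product. -/
structure Gam (hX : IsShift X) where
  p : G
  χ : X →+ ZMod 2
  mem : χ ∈ Ch X

variable {hX}

theorem Gam.ext' {a b : Gam hX} (h : a.p = b.p) (h' : a.χ = b.χ) : a = b := by
  cases a
  cases b
  simp_all

instance : Mul (Gam hX) :=
  ⟨fun a b => ⟨b.p * a.p, b.χ + a.χ.comp (sh hX b.p), add_mem b.mem (Ch_comp hX a.mem _)⟩⟩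

instance : One (Gam hX) := ⟨⟨1, 0, zero_mem _⟩⟩

instance : Inv (Gam hX) :=
  ⟨fun a => ⟨a.p⁻¹, -a.χ.comp (sh hX a.p⁻¹), neg_mem (Ch_comp hX a.mem _)⟩⟩

theorem mul_p (a b : Gam hX) : (a * b).p = b.p * a.p := rfl
theorem mul_χ (a b : Gam hX) (ω : X) : (a * b).χ ω = b.χ ω + a.χ (sh hX b.p ω) := rfl
theorem one_p : (1 : Gam hX).p = 1 := rfl
theorem one_χ (ω : X) : (1 : Gam hX).χ ω = 0 := rfl
theorem inv_p (a : Gam hX) : (a⁻¹).p = a.p⁻¹ := rfl
theorem inv_χ (a : Gam hX) (ω : X) : (a⁻¹).χ ω = -a.χ (sh hX a.p⁻¹ ω) := rfl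

instance : Group (Gam hX) := Group.ofLeftAxioms
  (fun a b c => Gam.ext' (mul_assoc c.p b.p a.p).symm (AddMonoidHom.ext fun ω => by
    simp only [mul_χ, mul_p, sh_sh, add_assoc]))
  (fun a => Gam.ext' (mul_one a.p) (AddMonoidHom.ext fun ω => by
    simp only [mul_χ, one_χ, add_zero]))
  (fun a => Gam.ext' (mul_inv_cancel a.p) (AddMonoidHom.ext fun ω => by
    simp only [mul_χ, inv_χ, sh_sh, mul_inv_cancel, sh_one, one_χ, add_neg_cancel]))

theorem countable_Gam [Countable G] [Fintype S] : Countable (Gam hX) := by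
  have : Countable (Ch X) := by
    unfold Ch
    infer_instance
  refine Function.Injective.countable (f := fun a : Gam hX => (a.p, (⟨a.χ, a.mem⟩ : Ch X))) ?_
  intro a b h
  exact Gam.ext' (congrArg Prod.fst h) (congrArg (fun z => z.2.1) h)

/-- The signed permutation representation. -/
noncomputable def rho (ω : X) : Gam hX →* Module.End ℝ (G →₀ ℝ) where
  toFun γ := Finsupp.linearCombination ℝ fun y => Finsupp.single (y * γ.p) (sg (γ.χ (sh hX y ω)))
  map_one' := Finsupp.lhom_ext fun y r => by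
    simp [one_p, one_χ, sg]
  map_mul' a b := Finsupp.lhom_ext fun y r => by
    simp only [Module.End.mul_apply, Finsupp.linearCombination_single, Finsupp.smul_single,
      smul_eq_mul, mul_p, mul_χ, sg_add, sh_sh, mul_assoc]

theorem rho_single (ω : X) (γ : Gam hX) (y : G) (r : ℝ) : rho ω γ (Finsupp.single y r) =
    Finsupp.single (y * γ.p) (r * sg (γ.χ (sh hX y ω))) := by
  simp [rho]

theorem rho_apply (ω : X) (γ : Gam hX) (η : G →₀ ℝ) (y : G) :
    rho ω γ η y = sg (γ.χ (sh hX (y * γ.p⁻¹) ω)) * η (y * γ.p⁻¹) := by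
  classical
  induction η using Finsupp.induction_linear with
  | zero => simp
  | add a b ha hb => rw [map_add, Finsupp.add_apply, ha, hb, Finsupp.add_apply, mul_add]
  | single z r =>
    rw [rho_single, Finsupp.single_apply, Finsupp.single_apply]
    by_cases h : z * γ.p = y
    · rw [if_pos h, ← h, mul_inv_cancel_right, if_pos rfl, mul_comm]
    · rw [if_neg h, if_neg (fun h' => h (eq_mul_inv_iff_mul_eq.1 h')), mul_zero]

variable (hX) in
/-- The field of representations. -/
noncomputable def rep [Fintype S] : Rep X (Gam hX) where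
  π ω := MonoidAlgebra.lift ℝ _ _ (rho ω)
  pt := Gam.p
  χ := Gam.χ
  cont γ := Ch_cont γ.mem
  inj _ _ := Gam.ext'
  pt_one := rfl
  χ_one := rfl
  app ω γ := by
    rw [MonoidAlgebra.lift_single, one_smul, rho_single, one_mul, one_mul, sh_one]
    rfl

variable [Fintype S]

theorem rep_single (ω : X) (γ : Gam hX) :
    (rep hX).π ω (MonoidAlgebra.single γ 1) = rho ω γ := by
  show MonoidAlgebra.lift ℝ _ _ (rho ω) _ = _
  rw [MonoidAlgebra.lift_single, one_smul]

variable (hX) in
/-- Multiplication operators coming from the group ring. -/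
def Mult : Subalgebra ℝ (X → G → ℝ) where
  carrier := {φ | ∃ c : MonoidAlgebra ℝ (Gam hX), ∀ ω η y, (rep hX).π ω c η y = φ ω y * η y}
  mul_mem' := by
    rintro φ ψ ⟨c, hc⟩ ⟨d, hd⟩
    exact ⟨c * d, fun ω η y => by
      rw [map_mul, Module.End.mul_apply, hc, hd, Pi.mul_apply, Pi.mul_apply, mul_assoc]⟩
  add_mem' := by
    rintro φ ψ ⟨c, hc⟩ ⟨d, hd⟩
    exact ⟨c + d, fun ω η y => by
      rw [map_add, LinearMap.add_apply, Finsupp.add_apply, hc, hd, Pi.add_apply, Pi.add_apply,
        add_mul]⟩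
  algebraMap_mem' r := ⟨algebraMap ℝ _ r, fun ω η y => by
    rw [AlgHom.commutes]
    simp⟩

theorem sg_mem (q : G × S) : (fun (ω : X) y => sg (ω.1 (y * q.1) q.2)) ∈ Mult hX :=
  ⟨MonoidAlgebra.single ⟨1, ev X q, Submodule.subset_span ⟨q, rfl⟩⟩ 1, fun ω η y => by
    rw [rep_single, rho_apply]
    simp only [inv_one, mul_one]
    rfl⟩

theorem ind_mem (q : G × S) (t : ZMod 2) :
    (fun (ω : X) y => if ω.1 (y * q.1) q.2 = t then (1 : ℝ) else 0) ∈ Mult hX := by
  have e : (fun (ω : X) y => if ω.1 (y * q.1) q.2 = t then (1 : ℝ) else 0) =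
      (2⁻¹ : ℝ) • (1 + sg t • fun (ω : X) y => sg (ω.1 (y * q.1) q.2)) := by
    funext ω y
    simp only [Pi.smul_apply, Pi.add_apply, Pi.one_apply, smul_eq_mul]
    rcases z2 t with rfl | rfl <;> rcases z2 (ω.1 (y * q.1) q.2) with h | h <;>
      simp [h, sg] <;> norm_num
  rw [e]
  exact Subalgebra.smul_mem _ (add_mem (one_mem _) (Subalgebra.smul_mem _ (sg_mem q) _)) _

open Classical in
theorem pred_mem {ι : Type} [Fintype ι] (q : ι → G × S) (P : (ι → ZMod 2) → Prop) :
    ∃ c : MonoidAlgebra ℝ (Gam hX), ∀ ω η y, (rep hX).π ω c η y =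
      if P (fun i => ω.1 (y * (q i).1) (q i).2) then η y else 0 := by
  have h : (∑ w : ι → ZMod 2, (if P w then (1 : ℝ) else 0) • ∏ i, fun (ω : X) y =>
      if ω.1 (y * (q i).1) (q i).2 = w i then (1 : ℝ) else 0) ∈ Mult hX :=
    Subalgebra.sum_mem _ fun w _ => Subalgebra.smul_mem _
      (Subalgebra.prod_mem _ fun i _ => ind_mem (q i) (w i)) _
  obtain ⟨c, hc⟩ := h
  refine ⟨c, fun ω η y => ?_⟩
  rw [hc]
  simp only [Finset.sum_apply, Pi.smul_apply, Finset.prod_apply, smul_eq_mul]
  rw [Finset.sum_eq_single fun i => ω.1 (y * (q i).1) (q i).2]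
  · simp
  · intro w _ hw
    obtain ⟨i, hi⟩ := Function.ne_iff.1 hw
    rw [Finset.prod_eq_zero (Finset.mem_univ i) (if_neg hi.symm), mul_zero]
  · simp

end RepA

open RepA Haar in
theorem repS : RepStmt := by
  intro G S _ _ _ x bar deg X hX
  let q : S ⊕ S × S → G × S := Sum.elim (fun s => (1, s)) fun p => (x p.1, p.2)
  choose e he using fun s => pred_mem (hX := hX) q fun v =>
    v (Sum.inl s) = 1 ∧ v (Sum.inr (s, bar s)) = 1
  obtain ⟨er, her⟩ := pred_mem (hX := hX) q fun v =>
    ¬ (3 ≤ (Finset.univ.filter fun s => v (Sum.inl s) = 1).card ∧ ∀ s, v (Sum.inl s) = 1 →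
      deg s = (Finset.univ.filter fun s => v (Sum.inl s) = 1).card ∧ v (Sum.inr (s, bar s)) = 1)
  let u : G → MonoidAlgebra ℝ (Gam hX) := fun g => MonoidAlgebra.single ⟨g⁻¹, 0, zero_mem _⟩ 1
  have hu : ∀ ω g η y, (rep hX).π ω (u g) η y = η (y * g) := fun ω g η y => by
    rw [rep_single, rho_apply]
    simp [sg]
  refine ⟨Gam hX, inferInstance, countable_Gam, rep hX,
    1 - (2 * Fintype.card S + 1 : ℝ)⁻¹ • (∑ s, e s * (1 - u (x s)) + er), fun ω η y => ?_⟩
  simp only [map_sub, map_one, map_smul, map_add, map_sum, map_mul, LinearMap.sub_apply,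
    LinearMap.smul_apply, LinearMap.add_apply, LinearMap.sum_apply, Module.End.mul_apply,
    Module.End.one_apply, Finsupp.sub_apply, Finsupp.smul_apply, Finsupp.add_apply,
    Finsupp.finsetSum_apply, he, her, hu, smul_eq_mul, q, Sum.elim_inl, Sum.elim_inr, mul_one]
  congr 3
  · refine Finset.sum_congr rfl fun s _ => ?_
    by_cases h : ω.1 y s = 1 ∧ ω.1 (y * x s) (bar s) = 1
    · rw [if_pos h, if_pos h, if_pos (show Edge x bar ω.1 y s from h)]
    · rw [if_neg h, if_neg h, if_neg (show ¬ Edge x bar ω.1 y s from h), sub_zero]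
  · by_cases h : Err x bar deg ω.1 y
    · rw [if_pos h]
      exact if_pos h
    · rw [if_neg h]
      exact if_neg h

end Vale.Agent.P089
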