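import Mathlib
import Vale.Agent.P089.Base

/-
The shift space cut out by the codes on all the copies.
-/

namespace Vale.Agent.P089

open Finset

namespace Shift

section lin

variable {W S : Type} [Fintype W] [Fintype S]

/-- The pairing as a linear form in the first variable. -/
def pairL (z : W → S → ZMod 2) : (W → S → ZMod 2) →ₗ[ZMod 2] ZMod 2 where
  toFun d := pair d z
  map_add' d d' := by simp only [pair, Pi.add_apply, add_mul, sum_add_distrib]
  map_smul' c d := by simp only [pair, Pi.smul_apply, smul_eq_mul, RingHom.id_apply, mul_sum, mul_assoc]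

theorem pair_zero (d : W → S → ZMod 2) : pair d 0 = 0 := by simp [pair]

theorem pair_add (d z z' : W → S → ZMod 2) : pair d (z + z') = pair d z + pair d z' := by
  simp only [pair, Pi.add_apply, mul_add, sum_add_distrib]

theorem pair_neg (d z : W → S → ZMod 2) : pair d (-z) = -pair d z := by
  simp only [pair, Pi.neg_apply, mul_neg, sum_neg_distrib]

theorem pair_sub (d z z' : W → S → ZMod 2) : pair d (z - z') = pair d z - pair d z' := by
  rw [sub_eq_add_neg, pair_add, pair_neg, sub_eq_add_neg]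

theorem form_eq [DecidableEq W] [DecidableEq S] (φ : (W → S → ZMod 2) →ₗ[ZMod 2] ZMod 2)
    (d : W → S → ZMod 2) : pair d (fun w s => φ (Pi.single w (Pi.single s 1))) = φ d := by
  have h : d = ∑ w, ∑ s, d w s • (Pi.single w (Pi.single s 1) : W → S → ZMod 2) := by
    funext w s
    simp only [Finset.sum_apply, Pi.smul_apply, smul_eq_mul]
    rw [sum_eq_single w, sum_eq_single s]
    · simp
    · intro s' _ hs
      simp [Pi.single_eq_of_ne hs.symm]
    · simp
    · intro w' _ hw
      simp [Pi.single_eq_of_ne hw.symm]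
    · simp
  conv_rhs => rw [h]
  simp only [map_sum, map_smul, smul_eq_mul, pair]

theorem pair_single [DecidableEq W] [DecidableEq S] (z : W → S → ZMod 2) (w : W) (s : S) :
    pair (Pi.single w (Pi.single s 1)) z = z w s := by
  unfold pair
  rw [sum_eq_single w, sum_eq_single s]
  · simp
  · intro s' _ hs
    simp [Pi.single_eq_of_ne hs]
  · simp
  · intro w' _ hw
    simp [Pi.single_eq_of_ne hw]
  · simp

/-- If `D` has no nonzero word supported on `Q`, every function on `Q` extends to a word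
annihilated by `D`. -/
theorem exists_ext (D : Submodule (ZMod 2) (W → S → ZMod 2)) (Q : W → Prop)
    (h : ∀ d ∈ D, (∀ w, ¬ Q w → d w = 0) → d = 0) (z0 : W → S → ZMod 2) :
    ∃ z : W → S → ZMod 2, (∀ w, Q w → z w = z0 w) ∧ ∀ d ∈ D, pair d z = 0 := by
  classical
  let U : Submodule (ZMod 2) (W → S → ZMod 2) :=
    { carrier := {u | ∀ w, ¬ Q w → u w = 0}
      add_mem' := fun {a b} ha hb w hw => by rw [Pi.add_apply, ha w hw, hb w hw, add_zero]
      zero_mem' := fun _ _ => rfl
      smul_mem' := fun c a ha w hw => by rw [Pi.smul_apply, ha w hw, smul_zero] }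
  have : Fact (Nat.Prime 2) := ⟨Nat.prime_two⟩
  obtain ⟨g, hg⟩ := LinearMap.exists_leftInverse_of_injective (D.mkQ ∘ₗ U.subtype) (by
    rw [LinearMap.ker_eq_bot']
    intro u hu
    exact Subtype.ext (h u.1 ((Submodule.Quotient.mk_eq_zero D).1 hu) u.2))
  let φ : (W → S → ZMod 2) →ₗ[ZMod 2] ZMod 2 := pairL z0 ∘ₗ U.subtype ∘ₗ g ∘ₗ D.mkQ
  refine ⟨fun w s => φ (Pi.single w (Pi.single s 1)), fun w hw => funext fun s => ?_,
    fun d hd => ?_⟩
  · have hU : (Pi.single w (Pi.single s 1) : W → S → ZMod 2) ∈ U := by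
      intro w' hw'
      exact Pi.single_eq_of_ne (fun hww : w' = w => hw' (hww ▸ hw)) _
    have h1 : g (D.mkQ (Pi.single w (Pi.single s 1))) = ⟨_, hU⟩ :=
      LinearMap.congr_fun hg ⟨_, hU⟩
    show pair (g (D.mkQ (Pi.single w (Pi.single s 1)))).1 z0 = _
    rw [h1]
    exact pair_single z0 w s
  · rw [form_eq]
    have h1 : D.mkQ d = 0 := (Submodule.Quotient.mk_eq_zero D).2 hd
    show pairL z0 (U.subtype (g (D.mkQ d))) = 0
    rw [h1, map_zero, map_zero, map_zero]

end lin

theorem card_sub {V : Type} (K : Finset V) (p : V → Prop) [DecidablePred p]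
    [DecidablePred fun w : K => p w] :
    (univ.filter fun w : K => p w).card = (K.filter p).card := by
  refine card_bij (fun w _ => w.1) (fun w hw => mem_filter.2 ⟨w.2, (mem_filter.1 hw).2⟩)
    (fun _ _ _ _ h => Subtype.ext h) fun v hv => ?_
  exact ⟨⟨v, (mem_filter.1 hv).1⟩, mem_filter.2 ⟨mem_univ _, (mem_filter.1 hv).2⟩, rfl⟩

variable {S V : Type} [Fintype S] {F : Fam S V} {G : Type} [Group G]

/-- The configurations whose restriction to each copy is a code word. -/
def XX (C : SC F G) (D : ∀ i, Submodule (ZMod 2) (F.K i → S → ZMod 2)) :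
    AddSubgroup (G → S → ZMod 2) where
  carrier := {ω | ∀ g i, ∀ d ∈ D i, pair d (fun v : F.K i => ω (g * C.f v)) = 0}
  add_mem' := fun {a b} ha hb g i d hd => by
    have := pair_add d (fun v : F.K i => a (g * C.f v)) (fun v : F.K i => b (g * C.f v))
    rw [ha g i d hd, hb g i d hd, add_zero] at this
    exact this
  zero_mem' := fun _ _ d _ => pair_zero d
  neg_mem' := fun {a} ha g i d hd => by
    have := pair_neg d (fun v : F.K i => a (g * C.f v))
    rw [ha g i d hd, neg_zero] at this
    exact this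

theorem isShift (C : SC F G) (D : ∀ i, Submodule (ZMod 2) (F.K i → S → ZMod 2)) :
    IsShift (XX C D) := by
  constructor
  · have h : (XX C D : Set (G → S → ZMod 2)) =
        ⋂ g, ⋂ i, ⋂ d ∈ D i, {ω | pair d (fun v : F.K i => ω (g * C.f v)) = 0} := by
      ext ω
      simp only [Set.mem_iInter]
      rfl
    rw [h]
    refine isClosed_iInter fun g => isClosed_iInter fun i => isClosed_iInter fun d =>
      isClosed_iInter fun _ => isClosed_eq ?_ continuous_const
    unfold pair
    fun_prop
  · intro ω hω h g i d hd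
    have := hω (h * g) i d hd
    simp only [mul_assoc] at this
    exact this

open Classical in
theorem exists_first (C : SC F G) (D : ∀ i, Submodule (ZMod 2) (F.K i → S → ZMod 2))
    (hD : ∀ i, ∀ d ∈ D i, 8 * (univ.filter fun w => d w ≠ 0).card ≤ Fintype.card (F.K i) → d = 0)
    {i0 : ℕ} (O : Ord C i0) (z : F.K i0 → S → ZMod 2) (hz : ∀ d ∈ D i0, pair d z = 0) :
    ∃ ω ∈ XX C D, ∀ v : F.K i0, ω (C.f v) = z v := by
  have hext : ∀ (g : G) (i : ℕ) (z0 : V → S → ZMod 2), ∃ z' : V → S → ZMod 2,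
      (∀ v ∈ F.K i, O.dep g v = 0 → z' v = z0 v) ∧
      (∀ d ∈ D i, pair d (fun v : F.K i => z' v) = 0) ∧
      (g = 1 ∧ i = i0 → ∀ v : F.K i0, z' v = z v) := by
    intro g i z0
    by_cases hc : g = 1 ∧ i = i0
    · obtain ⟨rfl, rfl⟩ := hc
      refine ⟨fun v => if h : v ∈ F.K i then z ⟨v, h⟩ else 0, fun v hv h0 => ?_, fun d hd => ?_,
        fun _ v => dif_pos v.2⟩
      · exact absurd h0 (O.first v ((F.mem_K v i).1 hv))
      · rw [← hz d hd]
        congr 1
        funext v
        exact dif_pos v.2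
    · obtain ⟨z', h1, h2⟩ := exists_ext (D i) (fun v => O.dep g v = 0) (fun d hd hs => by
        refine hD i d hd (le_trans (Nat.mul_le_mul_left 8 ?_) ((O.isDep g i).small.trans
          (Fintype.card_coe _).ge))
        rw [← card_sub (F.K i)]
        refine card_le_card fun w hw => mem_filter.2 ⟨mem_univ w, ?_⟩
        by_contra h0
        exact (mem_filter.1 hw).2 (hs w h0)) (fun v => z0 v)
      refine ⟨fun v => if h : v ∈ F.K i then z' ⟨v, h⟩ else 0, fun v hv h0 => ?_, fun d hd => ?_,
        fun h => absurd h hc⟩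
      · exact (dif_pos hv).trans (h1 ⟨v, hv⟩ h0)
      · rw [← h2 d hd]
        congr 1
        funext v
        exact dif_pos v.2
  choose ext h1 h2 h3 using hext
  choose cg cv hc hdep using O.creator
  let rank : G → ℕ := fun y => O.lev (cg y) (F.comp (cv y))
  let ω : G → S → ZMod 2 := (InvImage.wf rank Nat.lt_wfRel.wf).fix fun y rec =>
    ext (cg y) (F.comp (cv y))
      (fun q => if h : rank (cg y * C.f q) < rank y then rec (cg y * C.f q) h else 0) (cv y)
  have hω : ∀ y, ω y = ext (cg y) (F.comp (cv y))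
      (fun q => if rank (cg y * C.f q) < rank y then ω (cg y * C.f q) else 0) (cv y) :=
    fun y => WellFounded.fix_eq _ _ y
  have huniq : ∀ g v, (cg (g * C.f v), F.comp (cv (g * C.f v))) = (g, F.comp v) →
      cg (g * C.f v) = g ∧ cv (g * C.f v) = v := by
    intro g v h
    obtain ⟨h4, h5⟩ := Prod.mk.inj h
    refine ⟨h4, O.inj _ _ h5 ?_⟩
    have h6 := hc (g * C.f v)
    rw [h4] at h6
    exact (mul_left_cancel h6).symm
  have key : ∀ g i, ∀ v ∈ F.K i, ω (g * C.f v) = ext g i
      (fun q => if rank (g * C.f q) < O.lev g i then ω (g * C.f q) else 0) v := by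
    intro g i v hv
    obtain rfl := (F.mem_K v i).1 hv
    by_cases he : (cg (g * C.f v), F.comp (cv (g * C.f v))) = (g, F.comp v)
    · obtain ⟨h4, h5⟩ := huniq g v he
      have h6 : rank (g * C.f v) = O.lev g (F.comp v) := by
        show O.lev _ _ = _
        rw [h4, h5]
      rw [hω, h6, h4, h5]
    · obtain ⟨h4, h5⟩ := O.other _ _ g v (hc _).symm he (hdep _)
      rw [h1 g _ _ v hv h4, if_pos h5]
  refine ⟨ω, fun g i d hd => ?_, fun v => ?_⟩
  · rw [← h2 g i (fun q => if rank (g * C.f q) < O.lev g i then ω (g * C.f q) else 0) d hd]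
    congr 1
    funext v
    exact key g i v v.2
  · have := key 1 i0 v v.2
    rw [one_mul, h3 1 i0 _ ⟨rfl, rfl⟩] at this
    exact this

theorem K_pos (F : Fam S V) (i : ℕ) : 0 < (F.K i).card := by
  induction i with
  | zero => exact F.pos
  | succ i ih =>
    have := F.grow i
    omega

theorem ind_ne_zero (F : Fam S V) (v : V) : ind F.st v ≠ 0 := by
  have h := F.three v
  obtain ⟨s, hs⟩ := card_pos.1 (show 0 < (lab F.st v).card by omega)
  intro h0
  have h1 := congrFun h0 s
  unfold ind at h1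
  rw [if_pos (mem_filter.1 hs).2] at h1
  exact one_ne_zero h1

end Shift

open Shift in
theorem shiftS : ShiftStmt := by
  intro hcode S V _ F G _ C hO e he1 he2
  classical
  have h := fun i => hcode (F.K i) S (fun v => ind F.st v) (e i) F.cardS
    (card_pos.1 (K_pos F i)).to_subtype (fun w => ind_ne_zero F w)
    (by rw [Fintype.card_coe]; exact he1 i) (by rw [Fintype.card_coe]; exact he2 i)
  choose D hD1 hD2 hD3 hD4 using h
  have hsurj : ∀ g i (z : F.K i → S → ZMod 2), (∀ d ∈ D i, pair d z = 0) →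
      ∃ ω ∈ XX C D, ∀ v : F.K i, ω (g * C.f v) = z v := by
    intro g i z hz
    obtain ⟨O⟩ := hO i
    obtain ⟨ω, h1, h2⟩ := exists_first C D hD2 O z hz
    refine ⟨fun y => ω (g⁻¹ * y), (isShift C D).2 ω h1 g⁻¹, fun v => ?_⟩
    rw [← h2 v]
    show ω _ = _
    rw [inv_mul_cancel_left]
  refine ⟨XX C D, isShift C D, fun ω hω g i hi => ?_, fun g i => ⟨?_, ?_⟩⟩
  · have h1 := hD3 i ((fun v : F.K i => ω (g * C.f v)) - fun v : F.K i => ind F.st v)
      (fun d hd => by rw [pair_sub, hω g i d hd, hD1 i d hd, sub_zero]) (by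
        rw [Fintype.card_coe]
        refine le_trans (Nat.mul_le_mul_left 8 ?_) hi
        rw [← card_sub (F.K i)]
        refine card_le_card fun w hw => mem_filter.2 ⟨mem_univ w, fun h0 => ?_⟩
        exact (mem_filter.1 hw).2 (sub_eq_zero.2 h0))
    intro v hv
    exact sub_eq_zero.1 (congrFun h1 ⟨v, hv⟩)
  · obtain ⟨ω, h1, h2⟩ := hsurj g i _ (hD1 i)
    exact ⟨ω, h1, fun v hv => h2 ⟨v, hv⟩⟩
  · rw [← hD4 i]
    refine Nat.card_congr (Equiv.subtypeEquivRight fun z => ⟨?_, fun hz => ?_⟩)
    · rintro ⟨ω, rfl⟩ d hd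
      exact ω.2 g i d hd
    · obtain ⟨ω, h1, h2⟩ := hsurj g i z hz
      exact ⟨⟨ω, h1⟩, funext h2⟩

end Vale.Agent.P089
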