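import Mathlib
import Vale.Agent.P089.Build

namespace Vale.Agent.P089

namespace Zorn

variable {S V G : Type} [Fintype S] [Group G] {F : Fam S V} {f : V → G} {b : V}

omit [Group G] in
theorem cov_mono {J J' : Set (Cp V G)} (h : J ⊆ J') {y : Nm V G} {v : V} (hc : Cov F J y v) :
    Cov F J' y v := by
  obtain ⟨c, hc, r⟩ := hc
  exact ⟨c, h hc, r⟩

theorem first_inj {v w : V} (h : (first F G b).pos v = (first F G b).pos w) : v = w := by
  simp only [first] at h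
  injection h

theorem inv_first (F : Fam S V) (f : V → G) (b : V) : Inv F f b {first F G b} := by
  constructor
  · rfl
  · rintro c rfl c' rfl - -
    rfl
  · rintro c rfl
    constructor
    · simp [first]
    · intro v s w _ _
      simp [first]
    · intro v s s' w w' _ _ h
      simp [first] at h
  · rintro c rfl v - -
    rfl
  · rintro c rfl v - h
    simp [first] at h
  · rintro c rfl
    exact Or.inl rfl
  · rintro c rfl v w - - h
    exact first_inj h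
  · rintro c rfl c' rfl v v' s w w' - - h hs hs'
    obtain rfl := first_inj h
    rw [Option.some.inj (hs.symm.trans hs')]
  · rintro c rfl c' rfl v v' s w' - - - h hs' hn
    obtain rfl := first_inj h
    rw [hs'] at hn
    exact absurd hn (by simp)
  · rintro c rfl y - h
    simp [first, Nm.h] at h
  · rintro c rfl v -
    rfl

theorem inv_union {T : Set (Set (Cp V G))} (hT : ∀ J ∈ T, Inv F f b J)
    (hc : IsChain (· ⊆ ·) T) (hne : T.Nonempty) : Inv F f b (⋃₀ T) := by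
  have two : ∀ c ∈ ⋃₀ T, ∀ c' ∈ ⋃₀ T, ∃ J ∈ T, c ∈ J ∧ c' ∈ J := by
    rintro c ⟨J, hJ, h⟩ c' ⟨J', hJ', h'⟩
    rcases hc.total hJ hJ' with e | e
    · exact ⟨J', hJ', e h, h'⟩
    · exact ⟨J, hJ, h, e h'⟩
  constructor
  · obtain ⟨J, hJ⟩ := hne
    exact ⟨J, hJ, (hT J hJ).first_mem⟩
  · intro c h c' h'
    obtain ⟨J, hJ, h1, h2⟩ := two c h c' h'
    exact (hT J hJ).func c h1 c' h2
  · rintro c ⟨J, hJ, h⟩
    exact (hT J hJ).isDep c h
  · rintro c ⟨J, hJ, h⟩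
    exact (hT J hJ).new c h
  · rintro c ⟨J, hJ, h⟩ v hv hd
    obtain ⟨c', hc', r⟩ := (hT J hJ).old c h v hv hd
    exact ⟨c', ⟨J, hJ, hc'⟩, r⟩
  · rintro c ⟨J, hJ, h⟩
    exact (hT J hJ).gate c h
  · rintro c ⟨J, hJ, h⟩
    exact (hT J hJ).inj c h
  · intro c h c' h'
    obtain ⟨J, hJ, h1, h2⟩ := two c h c' h'
    exact (hT J hJ).fold c h1 c' h2
  · intro c h c' h' v v' s w' a1 a2 a3 a4 a5 a6
    obtain ⟨J, hJ, h1, h2⟩ := two c h c' h'
    obtain ⟨c'', hc'', r⟩ := (hT J hJ).up c h1 c' h2 v v' s w' a1 a2 a3 a4 a5 a6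
    exact ⟨c'', ⟨J, hJ, hc''⟩, r⟩
  · rintro c h y ⟨v, c', h', r⟩ hlt w
    obtain ⟨J, hJ, h1, h2⟩ := two c h c' h'
    exact cov_mono (Set.subset_sUnion_of_mem hJ) ((hT J hJ).below c h1 y ⟨v, c', h2, r⟩ hlt w)
  · rintro c ⟨J, hJ, h⟩
    exact (hT J hJ).grp c h

end Zorn

theorem zornS : ZornStmt := by
  intro hS S V G _ _ F C b
  obtain ⟨J, -, hJ⟩ := zorn_subset_nonempty {J : Set (Cp V G) | Inv F C.f b J}
    (fun T hT hc hne => ⟨⋃₀ T, Zorn.inv_union (fun J h => hT h) hc hne,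
      fun s hs => Set.subset_sUnion_of_mem hs⟩) _ (Zorn.inv_first F C.f b)
  refine ⟨J, hJ.1, ?_⟩
  by_contra hne
  have hex : ∃ n, ∃ y, Vert F J y ∧ (∃ w, ¬ Cov F J y w) ∧ y.h = n := by
    by_contra h2
    apply hne
    intro y hy w
    by_contra h3
    exact h2 ⟨_, y, hy, ⟨w, h3⟩, rfl⟩
  classical
  obtain ⟨y0, hy0, ⟨v0, hv0⟩, hn⟩ := Nat.find_spec hex
  obtain ⟨c, hc, hI⟩ := hS S V G F C b J hJ.1 y0 v0 hy0 hv0 (by
    intro y hy hlt w
    by_contra h3
    exact Nat.find_min hex (hn ▸ hlt) ⟨y, hy, ⟨w, h3⟩, rfl⟩)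
  exact hc (hJ.2 hI (Set.subset_insert _ _) (Set.mem_insert _ _))

end Vale.Agent.P089
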