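import Mathlib
import Vale.Agent.P089.Assemble
import Vale.Agent.P089.Blocks
import Vale.Agent.P089.Cheeger
import Vale.Agent.P089.Code
import Vale.Agent.P089.Core
import Vale.Agent.P089.Depth
import Vale.Agent.P089.Family
import Vale.Agent.P089.Final
import Vale.Agent.P089.Gap
import Vale.Agent.P089.Haar
import Vale.Agent.P089.Irr
import Vale.Agent.P089.Lim
import Vale.Agent.P089.Rand1
import Vale.Agent.P089.Rand2
import Vale.Agent.P089.Rep
import Vale.Agent.P089.Robust
import Vale.Agent.P089.Shift
import Vale.Agent.P089.Step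
import Vale.Agent.P089.Words
import Vale.Agent.P089.Zorn

namespace Vale.Agent.P089

theorem projS : ProjStmt :=
  assembleS (familyS rand1S rand2S coreS) (finalS (zornS (stepS wordsS))) codeS shiftS
    (robustS depthS) blocksS (gapS cheegerS) repS haarS limS

theorem irrational_trace : ∃ (G : Type) (_ : Group G) (_ : Countable G), ∃ p ∈ Cred G,
    p * p = p ∧ star p = p ∧ ∃ t : ℝ, Irrational t ∧ tr G p = t := by
  obtain ⟨k, h0, h1, h⟩ := projS
  obtain ⟨G, _, _, p, hp, h2, h3, h4⟩ := h (fun _ => 0) (fun _ => Nat.zero_le _)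
  refine ⟨G, inferInstance, inferInstance, p, hp, h2, h3, _, ?_, h4⟩
  exact irrS (fun i => k i + 0) h0 (fun i => by have := h1 i; omega)

end Vale.Agent.P089
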