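import Mathlib
import Vale.Agent.P089.MainA

namespace Vale.Agent.P089

theorem irrational_trace_basis : ∃ (G : Type) (_ : Group G) (_ : Countable G) (H : Type)
    (_ : NormedAddCommGroup H) (_ : InnerProductSpace ℂ H) (_ : CompleteSpace H)
    (δ : HilbertBasis G ℂ H) (p : H →L[ℂ] H),
    p ∈ closure (Submodule.span ℂ {T : H →L[ℂ] H | ∃ g : G, ∀ h : G, T (δ h) = δ (g * h)} :
      Set (H →L[ℂ] H)) ∧
    p * p = p ∧ star p = p ∧ ∃ t : ℝ, Irrational t ∧ inner ℂ (δ 1) (p (δ 1)) = (t : ℂ) := by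
  classical
  obtain ⟨G, i1, i2, p, hp, h1, h2, t, ht, h3⟩ := irrational_trace
  let δ : HilbertBasis G ℂ (L2 G) := HilbertBasis.ofRepr (LinearIsometryEquiv.refl ℂ _)
  have hδ : ∀ h, δ h = lp.single 2 h (1 : ℂ) := fun h => (δ.repr_symm_single h).symm
  refine ⟨G, i1, i2, L2 G, inferInstance, inferInstance, inferInstance, δ, p, ?_, h1, h2, t, ht,
    ?_⟩
  · refine closure_mono (Submodule.span_mono ?_) hp
    rintro T ⟨g, hg⟩
    refine ⟨g, fun h => ?_⟩
    ext k
    rw [hg, hδ, hδ]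
    by_cases e : k = g * h
    · subst e
      simp
    · rw [lp.single_apply_ne _ _ _ e, lp.single_apply_ne]
      intro e'
      exact e (by rw [← e']; simp)
  · rw [hδ]
    exact h3

end Vale.Agent.P089
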