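import Mathlib
import Vale.Agent.P089.BaseB

namespace Vale.Agent.P089

theorem mainB0 (hProj : ProjStmt) (hIdx : IndexStmt) (hLoc : LocConcl) (hVN : VNStmt)
    (hRel : RelConcl) (hPC : ProjCycStmt) (hCut : CutoffStmt) (hUnc : UncStmt)
    (H : Type) [NormedAddCommGroup H] [InnerProductSpace ℂ H] [CompleteSpace H]
    (b : HilbertBasis ℕ ℂ H) :
    ∃ (G : Type) (_ : Group G) (_ : Countable G), ∃ a : Cyc (Jl G H), a.Q = 0 ∧
      NotAssembled (Jl G H) (K0.mk a) := by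
  obtain ⟨k, h0, h1, h⟩ := hProj
  obtain ⟨N, hN, hL⟩ := hLoc H b
  obtain ⟨β, hβ, hout⟩ := hUnc k h0 h1 N hN
  obtain ⟨G, _, _, p, hp, hp1, hp2, hp3⟩ := h β hβ
  obtain ⟨t, ht⟩ := hVN G H b
  obtain ⟨ind, hind⟩ := hRel G H b t ht
  obtain ⟨a0, P0, e1, e2, e3, h4⟩ := hPC G H b t ht p hp hp1 hp2
  have h5 : ind (K0.mk a0) = tr G p :=
    (hIdx _ t).uniq _ _ _ _ _ (hind a0 P0 0 0 e1 e2.symm e3.symm) h4
  refine ⟨G, inferInstance, inferInstance, a0, e2, ⟨fun Z _ _ _ _ _ _ _ => ⟨hCut G Z,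
    fun x c => ⟨(hL G Z x c).1, fun a ha e => ?_⟩⟩⟩⟩
  obtain ⟨P, Q, T, z, f1, f2, f3, hz, hzN⟩ := (hL G Z x c).2 t ht a ha
  have h6 : ind (K0.mk a) = z := (hIdx _ t).uniq _ _ _ _ _ (hind a P Q T f1 f2 f3) hz
  apply hout
  rw [← hp3, ← h5, ← e, h6]
  exact hzN

theorem isHilbertSum_Jl (G H : Type) [NormedAddCommGroup H] [InnerProductSpace ℂ H]
    [CompleteSpace H] : IsHilbertSum ℂ (fun _ : G => H) (Jl G H) := by
  apply IsHilbertSum.mk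
  · intro g h hne ξ η
    rw [inner_Jl, Jl_ne hne, inner_zero_right]
  · intro ξ _
    refine mem_closure_of_tendsto (hasSum_Jl ξ) (Filter.Eventually.of_forall fun s => ?_)
    exact Submodule.sum_mem _ fun g _ => Submodule.mem_iSup_of_mem g ⟨ξ g, rfl⟩

end Vale.Agent.P089
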