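import Mathlib
import Vale.Agent.P089.BaseB

namespace Vale.Agent.P089

namespace Mat

variable {R : Type} [Ring R] {ι : Type} [Fintype ι] [DecidableEq ι]

/-- The embedding of matrices defined by orthogonal isometries. -/
def Phi (w w' : ι → R) (M : Matrix ι ι R) : R := ∑ i, ∑ j, w i * M i j * w' j

theorem Phi_mul {w w' : ι → R} (h : ∀ i j, w' i * w j = if i = j then 1 else 0)
    (M N : Matrix ι ι R) : Phi w w' M * Phi w w' N = Phi w w' (M * N) := by
  have key : ∀ i j k l, w i * M i j * w' j * (w k * N k l * w' l) =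
      if j = k then w i * (M i j * N j l) * w' l else 0 := by
    intro i j k l
    have : w i * M i j * w' j * (w k * N k l * w' l) =
        w i * M i j * (w' j * w k) * N k l * w' l := by simp only [mul_assoc]
    rw [this, h]
    split_ifs with e
    · subst e; simp only [mul_assoc, one_mul]
    · simp
  simp only [Phi, Finset.sum_mul, Finset.mul_sum, key, Matrix.mul_apply]
  have h2 : ∀ k l, ∑ i, ∑ j, (if j = k then w i * (M i j * N j l) * w' l else 0) =
      ∑ i, w i * (M i k * N k l) * w' l := by
    intro k l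
    refine Finset.sum_congr rfl fun i _ => ?_
    simp
  simp only [h2]
  calc ∑ k, ∑ l, ∑ i, w i * (M i k * N k l) * w' l
      = ∑ k, ∑ i, ∑ l, w i * (M i k * N k l) * w' l :=
        Finset.sum_congr rfl fun k _ => Finset.sum_comm
    _ = ∑ i, ∑ k, ∑ l, w i * (M i k * N k l) * w' l := Finset.sum_comm
    _ = ∑ i, ∑ l, ∑ k, w i * (M i k * N k l) * w' l :=
        Finset.sum_congr rfl fun k _ => Finset.sum_comm

theorem Phi_sub (w w' : ι → R) (M N : Matrix ι ι R) :
    Phi w w' M - Phi w w' N = Phi w w' (M - N) := by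
  simp only [Phi, ← Finset.sum_sub_distrib, Matrix.sub_apply, mul_sub, sub_mul]

theorem Phi_mem (w w' : ι → R) (K : TwoSidedIdeal R) {M : Matrix ι ι R} (h : ∀ i j, M i j ∈ K) :
    Phi w w' M ∈ K :=
  sum_mem fun i _ => sum_mem fun j _ => K.mul_mem_right _ _ (K.mul_mem_left _ _ (h i j))

theorem Phi_diag (w w' : ι → R) (p : ι → Prop) [DecidablePred p] (X : ι → R) :
    Phi w w' (Matrix.diagonal fun i => if p i then X i else 0) =
      ∑ i ∈ Finset.univ.filter p, w i * X i * w' i := by
  rw [Finset.sum_filter]
  refine Finset.sum_congr rfl fun i _ => ?_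
  rw [Finset.sum_eq_single i]
  · rw [Matrix.diagonal_apply_eq]
    split_ifs <;> simp
  · intro j _ hj
    rw [Matrix.diagonal_apply_ne _ (Ne.symm hj)]
    simp
  · simp

theorem hasInd_conj {t : TrSet R} (F : IndexFacts t) {w w' P Q T : R} {z : ℂ}
    (h : w' * w = 1) (hz : HasInd t P Q T z) :
    HasInd t (w * P * w') (w * Q * w') (w * T * w') z := by
  have hP := hz.1
  have hQ := hz.2.1
  have hT := hz.2.2.1
  have m : ∀ X Y : R, w * X * w' * (w * Y * w') = w * (X * Y) * w' := fun X Y => by
    calc w * X * w' * (w * Y * w') = w * X * (w' * w) * Y * w' := by simp only [mul_assoc]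
      _ = _ := by rw [h]; simp only [mul_assoc, one_mul]
  have m2 : ∀ X : R, X * X = X → X * w' * (w * X) = X := fun X hX => by
    calc X * w' * (w * X) = X * (w' * w) * X := by simp only [mul_assoc]
      _ = _ := by rw [h, mul_one, hX]
  have m3 : ∀ X : R, X * X = X → w * X * (X * w') = w * X * w' := fun X hX => by
    calc w * X * (X * w') = w * (X * X) * w' := by simp only [mul_assoc]
      _ = _ := by rw [hX]
  refine F.equiv P Q T z _ _ _ (w * P) (P * w') (w * Q) (Q * w') hz (by rw [m, hP])
    (by rw [m, hQ]) (by rw [m, m, hT]) (m2 P hP) (m3 P hP) (m2 Q hQ) (m3 Q hQ) ?_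
  have hTP : T * P = T := by rw [← hT, mul_assoc _ P P, hP]
  have hQT : Q * T = T := by rw [← hT, ← mul_assoc, ← mul_assoc, hQ]
  have e1 : w * T * w' * (w * P) = w * T := by
    calc w * T * w' * (w * P) = w * (T * (w' * w) * P) := by simp only [mul_assoc]
      _ = _ := by rw [h, mul_one, hTP]
  rw [e1, mul_assoc w Q T, hQT, sub_self]
  exact t.K.zero_mem

theorem orth {w w' : ι → R} (h : ∀ i j, w' i * w j = if i = j then 1 else 0) (X : ι → R)
    {a : ι} {s : Finset ι} (ha : a ∉ s) :
    w a * X a * w' a * ∑ i ∈ s, w i * X i * w' i = 0 ∧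
      (∑ i ∈ s, w i * X i * w' i) * (w a * X a * w' a) = 0 := by
  have key : ∀ i j, i ≠ j → w i * X i * w' i * (w j * X j * w' j) = 0 := fun i j hij => by
    calc w i * X i * w' i * (w j * X j * w' j) = w i * X i * (w' i * w j) * X j * w' j := by
          simp only [mul_assoc]
      _ = 0 := by rw [h, if_neg hij]; simp
  constructor
  · rw [Finset.mul_sum]
    exact Finset.sum_eq_zero fun i hi => key a i fun e => ha (e ▸ hi)
  · rw [Finset.sum_mul]
    exact Finset.sum_eq_zero fun i hi => key i a fun e => ha (e ▸ hi)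

theorem hasInd_sum {t : TrSet R} (F : IndexFacts t) {w w' : ι → R}
    (h : ∀ i j, w' i * w j = if i = j then 1 else 0) {P Q T : ι → R} {z : ι → ℂ}
    (hz : ∀ i, HasInd t (P i) (Q i) (T i) (z i)) (s : Finset ι) :
    HasInd t (∑ i ∈ s, w i * P i * w' i) (∑ i ∈ s, w i * Q i * w' i)
      (∑ i ∈ s, w i * T i * w' i) (∑ i ∈ s, z i) := by
  induction s using Finset.induction_on with
  | empty =>
    simp only [Finset.sum_empty]
    exact F.iso 0 0 0 0 (by simp) (by simp) (by simp) (by simp) (by simp)
  | insert a s ha ih =>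
    simp only [Finset.sum_insert ha]
    exact F.add _ _ _ _ _ _ _ _ (hasInd_conj F (by rw [h, if_pos rfl]) (hz a)) ih
      (orth h P ha).1 (orth h P ha).2 (orth h Q ha).1 (orth h Q ha).2

/-- The part of parity `b` of a diagonal matrix. -/
def D (par : ι → Bool) (b : Bool) (X : ι → R) : Matrix ι ι R :=
  Matrix.diagonal fun i => if par i = b then X i else 0

theorem odd_mul {par : ι → Bool} {A : Matrix ι ι R} (hA : ∀ i j, par i = par j → A i j = 0)
    (b : Bool) : D par (!b) (fun _ => 1) * A = A * D par b fun _ => 1 := by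
  ext i j
  simp only [D, Matrix.diagonal_mul, Matrix.mul_diagonal]
  by_cases e : par i = par j
  · simp [hA i j e]
  · cases b <;> cases hi : par i <;> cases hj : par j <;> simp_all

theorem sq_part {par : ι → Bool} {A : Matrix ι ι R} {P : ι → R}
    (hA : ∀ i j, par i = par j → A i j = 0) (hAA : A * A = Matrix.diagonal P) (b : Bool) :
    A * D par (!b) (fun _ => 1) * (A * D par b fun _ => 1) = D par b P := by
  rw [mul_assoc, ← mul_assoc (D par (!b) _), odd_mul hA, ← mul_assoc, ← mul_assoc, hAA]
  simp only [D, Matrix.diagonal_mul_diagonal]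
  congr 1
  funext i
  split_ifs <;> simp

end Mat

open Mat

theorem matS : MatStmt := by
  intro hI R _ t v v' hv ι _ _ par P Q T z A B hz hA hB hAo hBo hK
  have F := hI R t
  let e : ι → ℕ := fun i => (Fintype.equivFin ι i : ℕ)
  have he : Function.Injective e := fun i j hij =>
    (Fintype.equivFin ι).injective (Fin.ext hij)
  set w : ι → R := fun i => v (e i) with hw
  set w' : ι → R := fun i => v' (e i) with hw'
  have h : ∀ i j, w' i * w j = if i = j then 1 else 0 := fun i j => by
    simp only [hw, hw', hv, he.eq_iff]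
  have hs : ∀ b : Bool, HasInd t (Phi w w' (D par b P)) (Phi w w' (D par b Q))
      (Phi w w' (D par b T)) (∑ i ∈ Finset.univ.filter fun i => par i = b, z i) := fun b => by
    simp only [D, Phi_diag]
    exact hasInd_sum F h hz _
  have h1 := hs true
  have h0 := hs false
  have h2 := F.equiv _ _ _ _ _ _ _ (Phi w w' (A * D par true fun _ => 1))
    (Phi w w' (A * D par false fun _ => 1)) (Phi w w' (B * D par true fun _ => 1))
    (Phi w w' (B * D par false fun _ => 1)) h1 h0.1 h0.2.1 h0.2.2.1
    (by rw [Phi_mul h]; exact congrArg _ (sq_part hAo hA true))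
    (by rw [Phi_mul h]; exact congrArg _ (sq_part hAo hA false))
    (by rw [Phi_mul h]; exact congrArg _ (sq_part hBo hB true))
    (by rw [Phi_mul h]; exact congrArg _ (sq_part hBo hB false))
    (by
      rw [Phi_mul h, Phi_mul h, Phi_sub]
      refine Phi_mem _ _ _ fun i j => ?_
      simp only [D, Matrix.sub_apply, Matrix.diagonal_mul, Matrix.mul_diagonal]
      cases hj : par j
      · simp
      · cases hi : par i
        · have := t.K.neg_mem (hK i j)
          simpa using this
        · simp [hBo i j (hi.trans hj.symm)])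
  have h3 := F.uniq _ _ _ _ _ h2 h0
  rw [Finset.sum_ite, Finset.sum_neg_distrib, h3]
  simp

end Vale.Agent.P089
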