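import Mathlib
import Vale.Agent.P089.BaseB

/-
A projection of the reduced group C*-algebra gives a cycle whose index is its trace.
-/

namespace Vale.Agent.P089

namespace ProjCyc

section Abstract

variable {E F : Type} [NormedAddCommGroup E] [InnerProductSpace ℂ E] [CompleteSpace E]
  [NormedAddCommGroup F] [InnerProductSpace ℂ F] [CompleteSpace F]

/-- Conjugation by `W`. -/
noncomputable def cj (W : E →L[ℂ] F) : (E →L[ℂ] E) →L[ℂ] (F →L[ℂ] F) :=
  (ContinuousLinearMap.compL ℂ F E F W).comp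
    ((ContinuousLinearMap.compL ℂ F E E).flip (ContinuousLinearMap.adjoint W))

theorem cj_apply (W : E →L[ℂ] F) (A : E →L[ℂ] E) (x : F) :
    cj W A x = W (A (ContinuousLinearMap.adjoint W x)) := rfl

theorem adj_self (W : E →ₗᵢ[ℂ] F) (x : E) :
    ContinuousLinearMap.adjoint W.toContinuousLinearMap (W x) = x := by
  refine ext_inner_left ℂ fun y => ?_
  rw [ContinuousLinearMap.adjoint_inner_right]
  exact W.inner_map_map y x

theorem cj_mul (W : E →ₗᵢ[ℂ] F) (A B : E →L[ℂ] E) :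
    cj W.toContinuousLinearMap A * cj W.toContinuousLinearMap B =
      cj W.toContinuousLinearMap (A * B) := by
  ext x
  change W (A (ContinuousLinearMap.adjoint W.toContinuousLinearMap (W _))) = _
  rw [adj_self]
  rfl

theorem cj_star (W : E →L[ℂ] F) (A : E →L[ℂ] E) : star (cj W A) = cj W (star A) := by
  symm
  rw [ContinuousLinearMap.star_eq_adjoint (cj W A), ContinuousLinearMap.eq_adjoint_iff]
  intro x y
  rw [cj_apply, cj_apply, ← ContinuousLinearMap.adjoint_inner_right W,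
    ContinuousLinearMap.star_eq_adjoint, ContinuousLinearMap.adjoint_inner_left,
    ContinuousLinearMap.adjoint_inner_left]

theorem inner_cj (W : E →ₗᵢ[ℂ] F) (A : E →L[ℂ] E) (x : E) :
    inner ℂ (W x) (cj W.toContinuousLinearMap A (W x)) = inner ℂ x (A x) := by
  rw [cj_apply, adj_self]
  exact W.inner_map_map _ _

theorem cpt_rankOne (e : F) : IsCompactOperator (InnerProductSpace.rankOne ℂ e e) :=
  (isCompactOperator_of_locallyCompactSpace_rng
    (ContinuousLinearMap.toSpanSingleton ℂ e)).comp_clm (innerSL ℂ e)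

end Abstract

variable {Λ H : Type} [NormedAddCommGroup H] [InnerProductSpace ℂ H]

theorem l2_summable (η : L2 Λ) : Summable fun h => ‖η h‖ ^ 2 := by
  have := (lp.memℓp η).summable (by norm_num)
  simp only [ENNReal.toReal_ofNat, Real.rpow_ofNat] at this
  exact this

theorem l2_norm_sq (η : L2 Λ) : ‖η‖ ^ 2 = ∑' h, ‖η h‖ ^ 2 := by
  have := lp.norm_rpow_eq_tsum (p := 2) (by norm_num) η
  simp only [ENNReal.toReal_ofNat, Real.rpow_ofNat] at this
  exact this

/-- The isometry `η ↦ e ⊗ η`. -/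
noncomputable def emb (Λ : Type) (e : H) (he : ‖e‖ = 1) : L2 Λ →ₗᵢ[ℂ] HG Λ H where
  toFun η := HG.mk (fun h => η h • e) (by simpa only [norm_smul, he, mul_one] using l2_summable η)
  map_add' η η' := by
    ext h
    exact add_smul (η h) (η' h) e
  map_smul' c η := by
    ext h
    exact mul_smul c (η h) e
  norm_map' η := by
    refine (pow_left_inj₀ (norm_nonneg _) (norm_nonneg _) two_ne_zero).1 ?_
    rw [HG.norm_sq, l2_norm_sq]
    refine tsum_congr fun h => ?_
    change ‖η h • e‖ ^ 2 = _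
    rw [norm_smul, he, mul_one]

theorem emb_apply (e : H) (he : ‖e‖ = 1) (η : L2 Λ) (h : Λ) : emb Λ e he η h = η h • e := rfl

open Classical in
theorem emb_single (e : H) (he : ‖e‖ = 1) (g : Λ) :
    emb Λ e he (lp.single 2 g (1 : ℂ)) = Jl Λ H g e := by
  ext h
  rw [emb_apply]
  by_cases hg : h = g
  · subst hg
    rw [Jl_self, lp.single_apply_self, one_smul]
  · rw [Jl_ne hg, lp.single_apply_ne _ _ _ hg, zero_smul]

variable [CompleteSpace H]

theorem adj_emb (e : H) (he : ‖e‖ = 1) (ξ : HG Λ H) (g : Λ) :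
    ContinuousLinearMap.adjoint (emb Λ e he).toContinuousLinearMap ξ g = inner ℂ e (ξ g) := by
  classical
  have h1 := lp.inner_single_left (𝕜 := ℂ) (G := fun _ : Λ => ℂ) g (1 : ℂ)
    (ContinuousLinearMap.adjoint (emb Λ e he).toContinuousLinearMap ξ)
  rw [ContinuousLinearMap.adjoint_inner_right] at h1
  have h2 : inner ℂ (emb Λ e he (lp.single 2 g (1 : ℂ))) ξ = inner ℂ e (ξ g) := by
    rw [← inner_Jl]
    refine congrArg (fun y => inner ℂ y ξ) ?_
    ext h
    rw [emb_apply]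
    by_cases hg : h = g
    · subst hg
      rw [Jl_self, lp.single_apply_self, one_smul]
    · rw [Jl_ne hg, lp.single_apply_ne _ _ _ hg, zero_smul]
  rw [← h2]
  refine Eq.trans ?_ h1.symm
  simp

variable [Group Λ]

theorem cj_leftReg (e : H) (he : ‖e‖ = 1) (T : L2 Λ →L[ℂ] L2 Λ) (g : Λ)
    (hT : ∀ (ξ : L2 Λ) (h : Λ), T ξ h = ξ (g⁻¹ * h)) :
    cj (emb Λ e he).toContinuousLinearMap T = tensL (InnerProductSpace.rankOne ℂ e e) g := by
  ext ξ h
  rw [cj_apply, tensL_apply, InnerProductSpace.rankOne_apply, ← adj_emb e he, ← hT]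
  rfl

theorem cj_mem (e : H) (he : ‖e‖ = 1) {p : L2 Λ →L[ℂ] L2 Λ} (hp : p ∈ Cred Λ) :
    cj (emb Λ e he).toContinuousLinearMap p ∈ KG Λ H := by
  have h1 : (Submodule.span ℂ (leftReg Λ) : Set (L2 Λ →L[ℂ] L2 Λ)) ⊆
      cj (emb Λ e he).toContinuousLinearMap ⁻¹' (KG Λ H : Set (HG Λ H →L[ℂ] HG Λ H)) := by
    have : Submodule.span ℂ (leftReg Λ) ≤
        (KG Λ H).comap (cj (emb Λ e he).toContinuousLinearMap).toLinearMap := by
      rw [Submodule.span_le]
      rintro T ⟨g, hT⟩
      change cj (emb Λ e he).toContinuousLinearMap T ∈ KG Λ H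
      rw [cj_leftReg e he T g hT]
      exact tensL_mem_KG (cpt_rankOne e) g
    exact this
  exact closure_minimal h1 (isClosed_KG.preimage (cj _).continuous) hp

end ProjCyc

open ProjCyc in
theorem projCycS : ProjCycStmt := by
  intro Λ H _ _ _ _ b t ht p hp hpp hps
  have he : ‖b 0‖ = 1 := b.orthonormal.1 0
  have hK := cj_mem (b 0) he hp
  have hmul := cj_mul (emb Λ (b 0) he) p p
  have hstar := cj_star (emb Λ (b 0) he).toContinuousLinearMap p
  have hone := cj_leftReg (b 0) he (1 : L2 Λ →L[ℂ] L2 Λ) (1 : Λ) fun ξ h => by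
    rw [inv_one, one_mul]
    rfl
  have hmul1 := cj_mul (emb Λ (b 0) he) p 1
  have htr := inner_cj (emb Λ (b 0) he) p
  rw [hpp] at hmul
  rw [hps] at hstar
  rw [mul_one, hone] at hmul1
  have htr1 : inner ℂ (Jl Λ H 1 (b 0))
      (cj (emb Λ (b 0) he).toContinuousLinearMap p (Jl Λ H 1 (b 0))) = tr Λ p := by
    rw [← emb_single (b 0) he, htr]
    rfl
  generalize cj (emb Λ (b 0) he).toContinuousLinearMap p = P at hK hmul hstar hmul1 htr1
  have h0 : (0 : HG Λ H →L[ℂ] HG Λ H) ∈ KG Λ H := (KG Λ H).zero_mem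
  let P' : RG Λ H := ⟨P, KG_le_RG hK⟩
  have hP : P' * eR Λ b * 1 = P' := by
    rw [mul_one]
    exact Subtype.ext hmul1
  have hτ0 : t.τ 0 = 0 := by
    have := t.add 0 t.I.zero_mem 0 t.I.zero_mem
    rw [add_zero] at this
    exact left_eq_add.1 this
  refine ⟨⟨P, 0, 0, isMul_of_KG hK, isMul_of_KG h0, isMul_of_KG h0, hmul, hstar, mul_zero _,
    star_zero _, by rw [zero_mul, zero_mul], isCpt_iff.2 ?_, isCpt_iff.2 ?_⟩, P', rfl, rfl, rfl,
    Subtype.ext hmul, mul_zero _, by rw [zero_mul, zero_mul], 0, mul_zero _, ?_, ?_, ?_⟩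
  · rw [mul_zero, zero_sub]
    exact (KG Λ H).neg_mem hK
  · rw [zero_mul, sub_zero]
    exact h0
  · rw [mul_zero, sub_zero, ← hP, ht.I_eq]
    exact TwoSidedIdeal.mul_mem_right _ _ _
      (TwoSidedIdeal.mul_mem_left _ _ _ (TwoSidedIdeal.subset_span rfl))
  · rw [mul_zero, sub_zero]
    exact t.I.zero_mem
  · rw [mul_zero, sub_zero, sub_zero, hτ0, sub_zero, ← hP, ht.τ_eq, one_mul]
    exact htr1.symm

end Vale.Agent.P089
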