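import Mathlib
import Vale.Agent.P089.BaseB

/-
P089 part B: the index of a cycle is invariant under the relations defining `K0`.
-/

namespace Vale.Agent.P089

namespace RelInv

variable {Λ H : Type} [Group Λ] [NormedAddCommGroup H] [InnerProductSpace ℂ H] [CompleteSpace H]

/-- A multiplier as an element of the commutant. -/
noncomputable def el {T : HG Λ H →L[ℂ] HG Λ H} (h : IsMul (Jl Λ H) T) : RG Λ H :=
  ⟨T, mem_RG_of_isMul h⟩

/-- The adjoint of a multiplier as an element of the commutant. -/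
noncomputable def els {T : HG Λ H →L[ℂ] HG Λ H} (h : IsMul (Jl Λ H) T) : RG Λ H :=
  ⟨star T, star_mem_RG (mem_RG_of_isMul h)⟩

/-- The index relation for a cycle. -/
def Ind (t : TrSet (RG Λ H)) (a : Cyc (Jl Λ H)) (z : ℂ) : Prop :=
  HasInd t (el a.mulP) (el a.mulQ) (el a.mulT) z

theorem idP (a : Cyc (Jl Λ H)) : el a.mulP * el a.mulP = el a.mulP := Subtype.ext a.idemP

theorem idQ (a : Cyc (Jl Λ H)) : el a.mulQ * el a.mulQ = el a.mulQ := Subtype.ext a.idemQ

theorem supp (a : Cyc (Jl Λ H)) : el a.mulQ * el a.mulT * el a.mulP = el a.mulT :=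
  Subtype.ext a.supp

theorem ex {b : HilbertBasis ℕ ℂ H} {t : TrSet (RG Λ H)} (ht : Std b t) (hf : IndexFacts t)
    (a : Cyc (Jl Λ H)) : ∃ z, Ind t a z := by
  refine hf.ex _ _ _ (els a.mulT) (idP a) (idQ a) (supp a) (ht.K_ge _ ?_) (ht.K_ge _ ?_)
  · have := (KG Λ H).neg_mem (isCpt_iff.1 a.left)
    rw [neg_sub] at this
    exact this
  · have := (KG Λ H).neg_mem (isCpt_iff.1 a.right)
    rw [neg_sub] at this
    exact this

theorem TP (a : Cyc (Jl Λ H)) : a.T * a.P = a.T := by
  have h : a.Q * a.T * a.P * a.P = a.Q * a.T * a.P := by rw [mul_assoc, a.idemP]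
  rwa [a.supp] at h

theorem rel {t : TrSet (RG Λ H)} (hf : IndexFacts t) (hn : NearConcl) (f : Cyc (Jl Λ H) → ℂ)
    (h : ∀ a, Ind t a (f a)) {a b : Cyc (Jl Λ H)} (r : Rel (Jl Λ H) a b) : f a = f b := by
  cases r with
  | unitary a b u v hu hv h1 h2 h3 h4 h5 =>
    refine hf.uniq _ _ _ _ _ (hf.equiv _ _ _ _ _ _ _ (el hu) (els hu) (el hv) (els hv) (h a)
      (idP b) (idQ b) (supp b) (Subtype.ext h1) (Subtype.ext h2) (Subtype.ext h3)
      (Subtype.ext h4) ?_) (h b)
    have e : el b.mulT * el hu - el hv * el a.mulT = 0 := by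
      refine Subtype.ext ?_
      show b.T * u - v * a.T = 0
      rw [h5, mul_assoc, h1, mul_assoc, TP, sub_self]
    rw [e]
    exact t.K.zero_mem
  | homotopy γ hP hQ hT =>
    have hl : IsLocallyConstant fun s => f (γ s) := by
      rw [IsLocallyConstant.iff_eventually_eq]
      intro s
      obtain ⟨δ, hδ, H1⟩ := hn (RG Λ H) t _ _ _ _ (h (γ s))
      have h2 := (Metric.continuousAt_iff'.1 (hT.continuousAt (x := s))) δ hδ
      filter_upwards [h2] with y hy
      have eP : el (γ y).mulP = el (γ s).mulP := Subtype.ext ((hP y).trans (hP s).symm)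
      have eQ : el (γ y).mulQ = el (γ s).mulQ := Subtype.ext ((hQ y).trans (hQ s).symm)
      have h3 := h (γ y)
      have h4 := supp (γ y)
      unfold Ind at h3
      rw [eP, eQ] at h3 h4
      refine hf.uniq _ _ _ _ _ h3 (H1 _ h4 ?_)
      rw [dist_eq_norm] at hy
      exact hy
    exact hl.apply_eq_of_preconnectedSpace 0 1
  | degenerate a d b h1 h2 h3 h4 h5 h6 h7 =>
    have hd : Ind t d 0 := hf.iso _ _ _ (els d.mulT) (idP d) (idQ d) (supp d) (Subtype.ext h1)
      (Subtype.ext h2)
    have h3' : d.P * a.P = 0 := by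
      have := congrArg star h3
      rwa [star_mul, a.starP, d.starP, star_zero] at this
    have h4' : d.Q * a.Q = 0 := by
      have := congrArg star h4
      rwa [star_mul, a.starQ, d.starQ, star_zero] at this
    have hs := hf.add _ _ _ _ _ _ _ _ (h a) hd (Subtype.ext h3) (Subtype.ext h3')
      (Subtype.ext h4) (Subtype.ext h4')
    have eP : el a.mulP + el d.mulP = el b.mulP := Subtype.ext h5.symm
    have eQ : el a.mulQ + el d.mulQ = el b.mulQ := Subtype.ext h6.symm
    have eT : el a.mulT + el d.mulT = el b.mulT := Subtype.ext h7.symm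
    rw [eP, eQ, eT, add_zero] at hs
    exact hf.uniq _ _ _ _ _ hs (h b)

end RelInv

theorem relS : RelStmt := by
  intro hi hn Λ H _ _ _ _ b t ht
  have hf := hi _ t
  choose f h using RelInv.ex ht hf
  refine ⟨Quot.lift f fun a b r => RelInv.rel hf hn f h r, fun a P Q T hP hQ hT => ?_⟩
  obtain rfl : P = RelInv.el a.mulP := Subtype.ext hP
  obtain rfl : Q = RelInv.el a.mulQ := Subtype.ext hQ
  obtain rfl : T = RelInv.el a.mulT := Subtype.ext hT
  exact h a

end Vale.Agent.P089
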