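import Mathlib
import Vale.Agent.P089.BaseB

namespace Vale.Agent.P089

namespace Sep

open Filter Topology TopologicalSpace InnerProductSpace

variable {H : Type} [NormedAddCommGroup H] [InnerProductSpace ℂ H] [CompleteSpace H]

theorem orth (b : HilbertBasis ℕ ℂ H) (n : ℕ) : Orthonormal ℂ fun k => b (Nat.pair n k) :=
  b.orthonormal.comp _ fun _ _ h => (Nat.pair_eq_pair.1 h).2

/-- The isometry onto the closed span of the `n`-th row of basis vectors. -/
noncomputable def V (b : HilbertBasis ℕ ℂ H) (n : ℕ) : H →L[ℂ] H :=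
  ((orth b n).orthogonalFamily.linearIsometry.comp b.repr.toLinearIsometry).toContinuousLinearMap

theorem V_apply (b : HilbertBasis ℕ ℂ H) (n k : ℕ) : V b n (b k) = b (Nat.pair n k) := by
  have h1 : V b n (b k) = (orth b n).orthogonalFamily.linearIsometry (b.repr (b k)) := rfl
  rw [h1, b.repr_self, OrthogonalFamily.linearIsometry_apply_single]
  simp

omit [CompleteSpace H] in
theorem ext_basis (b : HilbertBasis ℕ ℂ H) {T T' : H →L[ℂ] H}
    (h : ∀ k l, inner ℂ (b k) (T (b l)) = inner ℂ (b k) (T' (b l))) : T = T' := by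
  refine ContinuousLinearMap.ext_on (Submodule.dense_iff_topologicalClosure_eq_top.2 b.dense_span)
    ?_
  rintro _ ⟨l, rfl⟩
  apply b.repr.injective
  ext k
  rw [b.repr_apply_apply, b.repr_apply_apply, h]

theorem V_orth (b : HilbertBasis ℕ ℂ H) (n m : ℕ) :
    ContinuousLinearMap.adjoint (V b n) * V b m = if n = m then 1 else 0 := by
  refine ext_basis b fun k l => ?_
  have h1 : (ContinuousLinearMap.adjoint (V b n) * V b m) (b l) =
      ContinuousLinearMap.adjoint (V b n) (V b m (b l)) := rfl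
  rw [h1, ContinuousLinearMap.adjoint_inner_right, V_apply, V_apply,
    orthonormal_iff_ite.1 b.orthonormal]
  by_cases e : n = m
  · subst e
    rw [if_pos rfl, one_apply_eq_self, orthonormal_iff_ite.1 b.orthonormal]
    simp [Nat.pair_eq_pair]
  · simp [e, Nat.pair_eq_pair]

omit [CompleteSpace H] in
theorem sepH (b : HilbertBasis ℕ ℂ H) : IsSeparable (Set.univ : Set H) := by
  have h1 : IsSeparable (Submodule.span ℂ (Set.range b) : Set H) :=
    (Set.countable_range b).isSeparable.span
  have h2 := h1.closure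
  rwa [(Submodule.dense_iff_topologicalClosure_eq_top.2 b.dense_span).closure_eq] at h2

theorem tendsto_mul_cpt {p : ℕ → H →L[ℂ] H} (hp : ∀ x, Tendsto (fun n => p n x) atTop (𝓝 x))
    {X : H →L[ℂ] H} (hX : IsCompactOperator X) : Tendsto (fun n => p n * X) atTop (𝓝 X) := by
  obtain ⟨C, hC⟩ : ∃ C, ∀ n, ‖p n‖ ≤ C := by
    refine banach_steinhaus fun x => ?_
    obtain ⟨C, hC⟩ := (hp x).norm.bddAbove_range
    exact ⟨C, fun n => hC ⟨n, rfl⟩⟩
  have hC0 : 0 ≤ C := (norm_nonneg _).trans (hC 0)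
  have hK := IsCompactOperator.isCompact_closure_image_closedBall (f := X.toLinearMap) hX 1
  rw [Metric.tendsto_nhds]
  intro ε hε
  set δ := ε / (C + 3) with hδ
  have hδ0 : 0 < δ := by positivity
  obtain ⟨t, -, ht, hc⟩ := finite_cover_balls_of_compact hK hδ0
  have h1 : ∀ᶠ n in atTop, ∀ y ∈ t, dist (p n y) y < δ :=
    (eventually_all_finite ht).2 fun y _ => Metric.tendsto_nhds.1 (hp y) δ hδ0
  filter_upwards [h1] with n hn
  rw [dist_eq_norm]
  have h2 : ‖p n * X - X‖ ≤ (C + 2) * δ := by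
    refine ContinuousLinearMap.opNorm_le_of_unit_norm (by positivity) fun x hx => ?_
    have h3 : X x ∈ ⋃ y ∈ t, Metric.ball y δ :=
      hc (subset_closure ⟨x, by simp [hx], rfl⟩)
    obtain ⟨y, hy, hxy⟩ := Set.mem_iUnion₂.1 h3
    have h4 : ‖X x - y‖ < δ := by rwa [Metric.mem_ball, dist_eq_norm] at hxy
    have h5 : ‖p n y - y‖ < δ := by rw [← dist_eq_norm]; exact hn y hy
    have h6 : (p n * X - X) x = p n (X x - y) + (p n y - y) - (X x - y) := by
      simp
    have h7 : ‖p n (X x - y)‖ ≤ C * δ :=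
      ((p n).le_opNorm _).trans (mul_le_mul (hC n) h4.le (norm_nonneg _) hC0)
    rw [h6]
    refine (norm_sub_le _ _).trans ?_
    have := norm_add_le (p n (X x - y)) (p n y - y)
    linarith
  have h3 : (C + 3) * δ = ε := by rw [hδ]; field_simp
  nlinarith

theorem sepK (b : HilbertBasis ℕ ℂ H) :
    IsSeparable {X : H →L[ℂ] H | IsCompactOperator X} := by
  have h1 : IsSeparable (⋃ j : ℕ, (fun η : H => rankOne ℂ (b j) η) '' Set.univ) :=
    .iUnion fun j => (sepH b).image (rankOne ℂ (b j)).continuous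
  refine (h1.span (R := ℂ)).closure.mono fun X hX => ?_
  have hp : ∀ x, Tendsto (fun n => (∑ j ∈ Finset.range n, rankOne ℂ (b j) (b j)) x) atTop
      (𝓝 x) := fun x => by
    have := (b.hasSum_repr x).tendsto_sum_nat
    simpa [b.repr_apply_apply] using this
  refine mem_closure_of_tendsto (tendsto_mul_cpt hp hX) (Eventually.of_forall fun n => ?_)
  rw [Finset.sum_mul]
  refine Submodule.sum_mem _ fun j _ => Submodule.subset_span ?_
  exact Set.mem_iUnion.2 ⟨j, ContinuousLinearMap.adjoint X (b j), Set.mem_univ _,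
    (rankOne_comp (b j) (b j) X).symm⟩

omit [CompleteSpace H] in
theorem cont_tensL {Λ : Type} [Group Λ] (g : Λ) :
    Continuous fun X : H →L[ℂ] H => tensL X g := by
  refine (LipschitzWith.of_dist_le' (K := 1) fun X Y => ?_).continuous
  rw [dist_eq_norm, dist_eq_norm, ← tensL_sub, one_mul]
  exact norm_tensL_le _ _

theorem sepKG (b : HilbertBasis ℕ ℂ H) (Λ : Type) [Group Λ] [Countable Λ] :
    IsSeparable (KG Λ H : Set (HG Λ H →L[ℂ] HG Λ H)) := by
  have h1 : IsSeparable (⋃ g : Λ, (fun X : H →L[ℂ] H => tensL X g) ''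
      {X : H →L[ℂ] H | IsCompactOperator X}) :=
    .iUnion fun g => (sepK b).image (cont_tensL g)
  have h2 := (h1.span (R := ℂ)).closure
  rw [← Submodule.topologicalClosure_coe] at h2
  refine h2.mono (KG_le (Submodule.isClosed_topologicalClosure _) fun X g hX => ?_)
  exact Submodule.le_topologicalClosure _
    (Submodule.subset_span (Set.mem_iUnion.2 ⟨g, X, hX, rfl⟩))

end Sep

theorem sepS : SepStmt := by
  intro H _ _ _ b
  refine ⟨⟨Sep.V b, fun n => ContinuousLinearMap.adjoint (Sep.V b n), Sep.V_orth b⟩,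
    fun Λ _ _ => ?_⟩
  exact Topology.IsEmbedding.subtypeVal.isSeparable_preimage (Sep.sepKG b Λ)

end Vale.Agent.P089
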