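import Mathlib
import Vale.Agent.P089.BaseB

namespace Vale.Agent.P089

namespace TransferB

variable {G H E E' : Type} [Group G] [NormedAddCommGroup H] [InnerProductSpace ℂ H]
  [NormedAddCommGroup E] [InnerProductSpace ℂ E] [CompleteSpace E]
  [NormedAddCommGroup E'] [InnerProductSpace ℂ E'] [CompleteSpace E']
  {J : G → H →ₗᵢ[ℂ] E} {J' : G → H →ₗᵢ[ℂ] E'} {u : E ≃ₗᵢ[ℂ] E'}

/-- Conjugation. -/
noncomputable abbrev cj (u : E ≃ₗᵢ[ℂ] E') : (E →L[ℂ] E) ≃⋆ₐ[ℂ] (E' →L[ℂ] E') := u.conjStarAlgEquiv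

theorem cj_apply (u : E ≃ₗᵢ[ℂ] E') (T : E →L[ℂ] E) (ξ : E) : cj u T (u ξ) = u (T ξ) := by
  simp [cj]

theorem cj_cj (u : E ≃ₗᵢ[ℂ] E') (T : E' →L[ℂ] E') : cj u (cj u.symm T) = T := by
  ext ξ
  simp [cj]

theorem cj_cj' (u : E ≃ₗᵢ[ℂ] E') (T : E →L[ℂ] E) : cj u.symm (cj u T) = T := cj_cj u.symm T

theorem cj_star (u : E ≃ₗᵢ[ℂ] E') (T : E →L[ℂ] E) : cj u (star T) = star (cj u T) :=
  (cj u).map_star' T

theorem cj_cont (u : E ≃ₗᵢ[ℂ] E') : Continuous (cj u) :=
  (StarAlgEquiv.isometry (cj u)).continuous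

omit [Group G] [CompleteSpace E] [CompleteSpace E'] in
theorem symm_J (h : ∀ g ξ, u (J g ξ) = J' g ξ) : ∀ g ξ, u.symm (J' g ξ) = J g ξ := fun g ξ => by
  rw [← h, LinearIsometryEquiv.symm_apply_apply]

theorem tens_map (h : ∀ g ξ, u (J g ξ) = J' g ξ) {X : H →L[ℂ] H} {g : G} {T : E →L[ℂ] E}
    (hT : IsTens J X g T) : IsTens J' X g (cj u T) :=
  ⟨fun k ξ => by rw [← h, cj_apply, hT.app, h]⟩

theorem cpt_map (h : ∀ g ξ, u (J g ξ) = J' g ξ) {T : E →L[ℂ] E} (hT : IsCpt J T) :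
    IsCpt J' (cj u T) := by
  refine ⟨map_mem_closure (cj_cont u) hT.mem fun S hS => ?_⟩
  induction hS using Submodule.span_induction with
  | mem S hS =>
    obtain ⟨X, g, hX, hS⟩ := hS
    exact Submodule.subset_span ⟨X, g, hX, tens_map h hS⟩
  | zero => rw [map_zero]; exact Submodule.zero_mem _
  | add a b _ _ ha hb => rw [map_add]; exact Submodule.add_mem _ ha hb
  | smul c a _ ha => rw [map_smul]; exact Submodule.smul_mem _ c ha

theorem mul_map (h : ∀ g ξ, u (J g ξ) = J' g ξ) {T : E →L[ℂ] E} (hT : IsMul J T) :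
    IsMul J' (cj u T) := by
  constructor
  · intro S hS
    have := cpt_map h (hT.left _ (cpt_map (symm_J h) hS))
    rwa [map_mul, cj_cj] at this
  · intro S hS
    have := cpt_map h (hT.right _ (cpt_map (symm_J h) hS))
    rwa [map_mul, cj_cj] at this

/-- Transport of cycles. -/
noncomputable def cyc (h : ∀ g ξ, u (J g ξ) = J' g ξ) (a : Cyc J) : Cyc J' where
  P := cj u a.P
  Q := cj u a.Q
  T := cj u a.T
  mulP := mul_map h a.mulP
  mulQ := mul_map h a.mulQ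
  mulT := mul_map h a.mulT
  idemP := by rw [← map_mul, a.idemP]
  starP := by rw [← cj_star, a.starP]
  idemQ := by rw [← map_mul, a.idemQ]
  starQ := by rw [← cj_star, a.starQ]
  supp := by rw [← map_mul, ← map_mul, a.supp]
  left := by
    have := cpt_map h a.left
    rwa [map_sub, map_mul, cj_star] at this
  right := by
    have := cpt_map h a.right
    rwa [map_sub, map_mul, cj_star] at this

theorem cyc_cyc (h : ∀ g ξ, u (J g ξ) = J' g ξ) (a : Cyc J') : cyc h (cyc (symm_J h) a) = a := by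
  cases a
  simp only [cyc, cj_cj]

theorem rel_map (h : ∀ g ξ, u (J g ξ) = J' g ξ) {a b : Cyc J} (r : Rel J a b) :
    Rel J' (cyc h a) (cyc h b) := by
  cases r with
  | unitary a b x y h1 h2 h3 h4 h5 h6 h7 =>
    refine Rel.unitary _ _ (cj u x) (cj u y) (mul_map h h1) (mul_map h h2) ?_ ?_ ?_ ?_ ?_
    · rw [← cj_star, ← map_mul, h3]; rfl
    · rw [← cj_star, ← map_mul, h4]; rfl
    · rw [← cj_star, ← map_mul, h5]; rfl
    · rw [← cj_star, ← map_mul, h6]; rfl
    · show cj u b.T = cj u y * cj u a.T * star (cj u x)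
      rw [h7, map_mul, map_mul, cj_star]
  | homotopy γ h1 h2 h3 =>
    exact Rel.homotopy (fun t => cyc h (γ t)) (fun t => congrArg (cj u) (h1 t))
      (fun t => congrArg (cj u) (h2 t)) ((cj_cont u).comp h3)
  | degenerate a d b h1 h2 h3 h4 h5 h6 h7 =>
    refine Rel.degenerate _ (cyc h d) _ ?_ ?_ ?_ ?_ ?_ ?_ ?_
    · show star (cj u d.T) * cj u d.T = cj u d.P
      rw [← cj_star, ← map_mul, h1]
    · show cj u d.T * star (cj u d.T) = cj u d.Q
      rw [← cj_star, ← map_mul, h2]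
    · show cj u a.P * cj u d.P = 0
      rw [← map_mul, h3, map_zero]
    · show cj u a.Q * cj u d.Q = 0
      rw [← map_mul, h4, map_zero]
    · show cj u b.P = cj u a.P + cj u d.P
      rw [h5, map_add]
    · show cj u b.Q = cj u a.Q + cj u d.Q
      rw [h6, map_add]
    · show cj u b.T = cj u a.T + cj u d.T
      rw [h7, map_add]

theorem asm_map [CompleteSpace H] {Z : Type} [TopologicalSpace Z] [MulAction G Z]
    (h : ∀ g ξ, u (J g ξ) = J' g ξ) {x : Fred G Z H} {c : Cutoff G Z} {a : Cyc J}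
    (ha : IsAssembly J x c a) : IsAssembly J' x c (cyc h a) := by
  have hf : ∀ f : G → E, u (∑ᶠ g, f g) = ∑ᶠ g, u (f g) := fun f =>
    u.toLinearEquiv.toAddEquiv.map_finsum f
  refine ⟨fun k ξ => ?_, fun k ξ => ?_, ?_⟩
  · show cj u a.P _ = _
    rw [← h, cj_apply, ha.even, hf]
    simp only [h]
  · show cj u a.Q _ = _
    rw [← h, cj_apply, ha.odd, hf]
    simp only [h]
  · obtain ⟨D, h1, h2⟩ := ha.op
    refine ⟨cj u D, tens_map h h1, ?_⟩
    show cj u a.T = cj u a.Q * cj u D * cj u a.P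
    rw [h2, map_mul, map_mul]

/-- Transport of classes. -/
noncomputable def kmap (h : ∀ g ξ, u (J g ξ) = J' g ξ) : K0 J → K0 J' :=
  Quot.map (cyc h) fun _ _ r => rel_map h r

theorem kmap_kmap (h : ∀ g ξ, u (J g ξ) = J' g ξ) (y : K0 J') :
    kmap h (kmap (symm_J h) y) = y := by
  induction y using Quot.ind with
  | mk a => exact congrArg (Quot.mk _) (cyc_cyc h a)

theorem transfer [CompleteSpace H] (h : ∀ g ξ, u (J g ξ) = J' g ξ) {y : K0 J'}
    (hy : NotAssembled J' y) : NotAssembled J (kmap (symm_J h) y) := by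
  refine ⟨fun Z _ _ _ _ _ _ _ => ⟨(hy.all Z).1, fun x c => ⟨?_, fun a ha e => ?_⟩⟩⟩
  · obtain ⟨a, ha⟩ := ((hy.all Z).2 x c).1
    exact ⟨_, asm_map (symm_J h) ha⟩
  · apply ((hy.all Z).2 x c).2 _ (asm_map h ha)
    rw [← kmap_kmap h y, ← e]
    rfl

end TransferB

theorem transferB {G H E : Type} [Group G] [NormedAddCommGroup H] [InnerProductSpace ℂ H]
    [CompleteSpace H] [NormedAddCommGroup E] [InnerProductSpace ℂ E] [CompleteSpace E]
    (J : G → H →ₗᵢ[ℂ] E) (hJ : IsHilbertSum ℂ (fun _ : G => H) J) (a : Cyc (Jl G H))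
    (h0 : a.Q = 0) (hy : NotAssembled (Jl G H) (K0.mk a)) :
    ∃ a : Cyc J, a.Q = 0 ∧ NotAssembled J (K0.mk a) := by
  classical
  let u : HG G H ≃ₗᵢ[ℂ] E := hJ.linearIsometryEquiv.symm
  have h : ∀ g ξ, u (Jl G H g ξ) = J g ξ := fun g ξ =>
    hJ.linearIsometryEquiv_symm_apply_single ξ
  refine ⟨TransferB.cyc (TransferB.symm_J (TransferB.symm_J h)) a, ?_,
    TransferB.transfer (TransferB.symm_J h) hy⟩
  show TransferB.cj _ a.Q = 0
  rw [h0, map_zero]

end Vale.Agent.P089
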