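import Mathlib
import Vale.Agent.P089.BaseB

/- P089 part B: the standard trace on the commutant. -/

namespace Vale.Agent.P089

open Filter Topology InnerProductSpace

namespace VN

variable {Λ H : Type} [Group Λ] [NormedAddCommGroup H] [InnerProductSpace ℂ H]

theorem app_one {T : HG Λ H →L[ℂ] HG Λ H} (hT : T ∈ RG Λ H) (g : Λ) (ξ : H) :
    T (Jl Λ H g ξ) 1 = T (Jl Λ H 1 ξ) g⁻¹ := by
  have h := congrArg (fun A : HG Λ H →L[ℂ] HG Λ H => A (Jl Λ H 1 ξ) 1) (mem_RG.1 hT g⁻¹)
  simpa [rt_Jl] using h.symm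

omit [Group Λ] in
theorem summable_sq (b : HilbertBasis ℕ ℂ H) (α : HG Λ H) :
    Summable fun x : Λ × ℕ => ‖inner ℂ (b x.2) (α x.1)‖ ^ 2 :=
  (summable_prod_of_nonneg fun _ => by positivity).2
    ⟨fun g => b.orthonormal.inner_products_summable (α g),
      Summable.of_nonneg_of_le (fun _ => tsum_nonneg fun _ => by positivity)
        (fun g => b.orthonormal.tsum_inner_products_le (α g)) (HG.summable α)⟩

omit [Group Λ] in
theorem hasSum_swap (b : HilbertBasis ℕ ℂ H) (α β : HG Λ H) :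
    HasSum (fun n => ∑' g, inner ℂ (β g) (b n) * inner ℂ (b n) (α g)) (inner ℂ β α) := by
  have h : Summable fun x : Λ × ℕ => inner ℂ (β x.1) (b x.2) * inner ℂ (b x.2) (α x.1) := by
    refine Summable.of_norm_bounded ((summable_sq b β).add (summable_sq b α)) fun x => ?_
    rw [norm_mul, norm_inner_symm]
    nlinarith [sq_nonneg (‖inner ℂ (b x.2) (β x.1)‖ - ‖inner ℂ (b x.2) (α x.1)‖),
      sq_nonneg ‖inner ℂ (b x.2) (β x.1)‖, sq_nonneg ‖inner ℂ (b x.2) (α x.1)‖]
  have h1 := h.hasSum.prod_fiberwise fun g => b.hasSum_inner_mul_inner (β g) (α g)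
  rw [HG.inner_eq, h1.tsum_eq]
  have h2 := (Equiv.prodComm ℕ Λ).hasSum_iff.2 h.hasSum
  exact h2.prod_fiberwise fun n => (h2.summable.prod_factor n).hasSum

/-- the diagonal coefficients -/
noncomputable def dg (b : HilbertBasis ℕ ℂ H) (Z : RG Λ H) (n : ℕ) : ℂ :=
  inner ℂ (Jl Λ H 1 (b n)) (Z.1 (Jl Λ H 1 (b n)))

theorem dg_add (b : HilbertBasis ℕ ℂ H) (Z W : RG Λ H) : dg b (Z + W) = dg b Z + dg b W := by
  ext n; simp [dg]

theorem dg_neg (b : HilbertBasis ℕ ℂ H) (Z : RG Λ H) : dg b (-Z) = -dg b Z := by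
  ext n; simp [dg]

variable [CompleteSpace H]

theorem key (b : HilbertBasis ℕ ℂ H) (X Y : RG Λ H) :
    HasSum (dg b (X * eR Λ b * Y)) (phi b (Y * X)) := by
  have h := hasSum_swap b (X.1 (Jl Λ H 1 (b 0))) (star Y.1 (Jl Λ H 1 (b 0)))
  have e1 : inner ℂ (star Y.1 (Jl Λ H 1 (b 0))) (X.1 (Jl Λ H 1 (b 0))) = phi b (Y * X) := by
    rw [ContinuousLinearMap.star_eq_adjoint, ContinuousLinearMap.adjoint_inner_left]; rfl
  rw [e1] at h
  refine (congrArg (HasSum · _) (funext fun n => ?_)).mp h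
  have e2 : dg b (X * eR Λ b * Y) n = inner ℂ (star X.1 (Jl Λ H 1 (b n)))
      (tensL (rankOne ℂ (b 0) (b 0)) 1 (Y.1 (Jl Λ H 1 (b n)))) := by
    rw [ContinuousLinearMap.star_eq_adjoint, ContinuousLinearMap.adjoint_inner_left]; rfl
  rw [e2, HG.inner_eq, ← (Equiv.inv Λ).tsum_eq]
  refine tsum_congr fun g => ?_
  have e3 (T : HG Λ H →L[ℂ] HG Λ H) (hT : T ∈ RG Λ H) :
      inner ℂ (b 0) (star T (Jl Λ H 1 (b n)) g) = inner ℂ (T (Jl Λ H 1 (b 0)) g⁻¹) (b n) := by
    rw [← inner_Jl, ContinuousLinearMap.star_eq_adjoint, ContinuousLinearMap.adjoint_inner_right,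
      ← app_one hT, ← inner_conj_symm, inner_Jl, inner_conj_symm]
  have e4 := e3 _ (star_mem_RG Y.2)
  have e5 := congrArg (starRingEnd ℂ) (e3 _ X.2)
  rw [star_star] at e4
  rw [inner_conj_symm, inner_conj_symm] at e5
  simp only [tensL_apply, inv_one, one_mul, rankOne_apply, inner_smul_right, Equiv.inv_apply, e4,
    e5]

theorem cpt_lim {X : H →L[ℂ] H} (hX : IsCompactOperator X) (A : ℕ → H →L[ℂ] H)
    (hA : ∀ x, Tendsto (fun n => A n x) atTop (𝓝 0)) :
    Tendsto (fun n => ‖A n * X‖) atTop (𝓝 0) := by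
  obtain ⟨C, hC⟩ := banach_steinhaus (g := A) fun x => by
    obtain ⟨c, hc⟩ := (hA x).norm.bddAbove_range
    exact ⟨c, fun n => hc ⟨n, rfl⟩⟩
  have hC0 : 0 ≤ C := (norm_nonneg _).trans (hC 0)
  refine Metric.tendsto_nhds.2 fun ε hε => ?_
  have hδ : 0 < ε / (2 * (C + 1)) := by positivity
  obtain ⟨t, ht, h1⟩ := Metric.totallyBounded_iff.1
    ((hX.isCompact_closure_image_closedBall (𝕜₁ := ℂ) (f := X.toLinearMap) 1).totallyBounded.subset
      subset_closure) _ hδ
  have h2 := (eventually_all_finite ht).2 fun y _ => Metric.tendsto_nhds.1 (hA y) _ hδ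
  filter_upwards [h2] with n hn
  rw [dist_zero_right, norm_norm]
  refine lt_of_le_of_lt (ContinuousLinearMap.opNorm_le_of_unit_norm (C := (C + 1) *
    (ε / (2 * (C + 1)))) (by positivity) fun x hx => ?_) ?_
  · obtain ⟨y, hy, h3⟩ := Set.mem_iUnion₂.1 (h1 ⟨x, by simp [hx], rfl⟩)
    have h4 := hn y hy
    rw [dist_zero_right] at h4
    have h5 : (A n * X) x = A n (X x - y) + A n y := by simp
    have h6 : ‖X x - y‖ < ε / (2 * (C + 1)) := by rw [← dist_eq_norm]; exact h3
    have h7 := (A n).le_of_opNorm_le_of_le (hC n) h6.le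
    rw [h5]
    linarith [norm_add_le (A n (X x - y)) (A n y)]
  · rw [mul_div_assoc', div_lt_iff₀ (by positivity)]
    nlinarith

omit [CompleteSpace H] in
theorem span_ind {e : RG Λ H} {p : RG Λ H → Prop} (h0 : p 0) (h1 : ∀ X Y, p (X * e * Y))
    (h2 : ∀ x ∈ TwoSidedIdeal.span {e}, ∀ y ∈ TwoSidedIdeal.span {e}, p x → p y → p (x + y))
    (h3 : ∀ x, p x → p (-x)) : ∀ a ∈ TwoSidedIdeal.span {e}, p a := by
  intro a ha
  rw [TwoSidedIdeal.mem_span_iff_mem_addSubgroup_closure] at ha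
  induction ha using AddSubgroup.closure_induction with
  | mem x hx =>
    obtain ⟨_, ⟨X, -, _, rfl, rfl⟩, Y, -, rfl⟩ := hx
    exact h1 X Y
  | zero => exact h0
  | add x y hx hy a c =>
    exact h2 x (TwoSidedIdeal.mem_span_iff_mem_addSubgroup_closure.2 hx) y
      (TwoSidedIdeal.mem_span_iff_mem_addSubgroup_closure.2 hy) a c
  | neg x _ a => exact h3 x a

/-- the closure of a two-sided ideal -/
def cl {R : Type} [NormedRing R] (I : TwoSidedIdeal R) : TwoSidedIdeal R :=
  TwoSidedIdeal.mk' (closure (I : Set R)) (subset_closure I.zero_mem)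
    (fun hx hy => map_mem_closure₂ continuous_add hx hy fun _ ha _ hb => I.add_mem ha hb)
    (fun hx => map_mem_closure continuous_neg hx fun _ ha => I.neg_mem ha)
    (fun {x _} hy => map_mem_closure (continuous_const_mul x) hy fun _ ha => I.mul_mem_left _ _ ha)
    (fun {_ y} hx => map_mem_closure (f := (· * y)) (continuous_mul_const y) hx
      fun _ ha => I.mul_mem_right _ _ ha)

theorem mem_cl {R : Type} [NormedRing R] {I : TwoSidedIdeal R} {x : R} :
    x ∈ cl I ↔ x ∈ closure (I : Set R) := by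
  rw [cl, TwoSidedIdeal.mem_mk']

theorem tens_mem (b : HilbertBasis ℕ ℂ H) {X : H →L[ℂ] H} (hX : IsCompactOperator X) (g : Λ) :
    tens X g ∈ closure (TwoSidedIdeal.span {eR Λ b} : Set (RG Λ H)) := by
  have h := cpt_lim hX (fun n => 1 - ∑ j ∈ Finset.range n, rankOne ℂ (b j) (b j)) fun x => by
    have := (b.hasSum_repr x).tendsto_sum_nat.const_sub x
    simpa [b.repr_apply_apply] using this
  refine mem_closure_of_tendsto (b := atTop)
    (f := fun n => tens ((∑ j ∈ Finset.range n, rankOne ℂ (b j) (b j)) * X) g)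
    (tendsto_iff_norm_sub_tendsto_zero.2 (squeeze_zero (fun _ => norm_nonneg _) (fun n => ?_) h))
    (Eventually.of_forall fun n => ?_)
  · rw [norm_sub_rev, sub_mul, one_mul]
    exact (congrArg norm (tensL_sub _ _ g)).ge.trans (norm_tensL_le _ g)
  · induction n with
    | zero =>
      rw [Finset.sum_range_zero, zero_mul, show tens (0 : H →L[ℂ] H) g = 0 from
        Subtype.ext (tensL_zero g)]
      exact TwoSidedIdeal.zero_mem _
    | succ n ih =>
      have e : tens (rankOne ℂ (b n) (b n) * X) g =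
          tens (rankOne ℂ (b n) (b 0)) 1 * eR Λ b * tens (rankOne ℂ (b 0) (b n) * X) g := by
        rw [eR, tens_mul, tens_mul, one_mul, one_mul]
        congr 1
        ext x
        simp [inner_self_eq_norm_sq_to_K, b.orthonormal.1 0]
      rw [Finset.sum_range_succ, add_mul, show tens (_ + _) g = tens _ g + tens _ g from
        Subtype.ext (tensL_add _ _ g), e]
      exact TwoSidedIdeal.add_mem _ ih (TwoSidedIdeal.mul_mem_right _ _ _
        (TwoSidedIdeal.mul_mem_left _ _ _ (TwoSidedIdeal.subset_span rfl)))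

end VN

open VN in
theorem vnS : VNStmt := by
  intro Λ H _ _ _ _ b
  have hs : ∀ a ∈ TwoSidedIdeal.span {eR Λ b}, Summable (dg b a) :=
    span_ind (summable_zero.congr fun n => by simp [dg]) (fun X Y => (key b X Y).summable)
      (fun x _ y _ hx hy => dg_add b x y ▸ hx.add hy) fun x hx => dg_neg b x ▸ hx.neg
  have ha : ∀ a ∈ TwoSidedIdeal.span {eR Λ b}, ∀ c ∈ TwoSidedIdeal.span {eR Λ b},
      ∑' n, dg b (a + c) n = ∑' n, dg b a n + ∑' n, dg b c n := fun a h1 c h2 => by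
    rw [dg_add]; exact (hs a h1).tsum_add (hs c h2)
  have hn (a : RG Λ H) : ∑' n, dg b (-a) n = -∑' n, dg b a n := by rw [dg_neg]; exact tsum_neg
  refine ⟨⟨TwoSidedIdeal.span {eR Λ b}, cl (TwoSidedIdeal.span {eR Λ b}), fun Z => ∑' n, dg b Z n,
    fun x hx => mem_cl.2 (subset_closure hx), ha, span_ind (fun r => by rw [zero_mul, mul_zero])
      (fun X Y r => ?_) (fun x hx y hy h1 h2 r => ?_) (fun x hx r => ?_), fun k hk => ?_⟩,
    rfl, fun X Y => (key b X Y).tsum_eq, fun X hX => ?_⟩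
  · rw [mul_assoc, ← mul_assoc r, ← mul_assoc r, (key b _ _).tsum_eq, (key b _ _).tsum_eq, mul_assoc]
  · rw [add_mul, mul_add, ha _ (TwoSidedIdeal.mul_mem_right _ _ _ hx) _
      (TwoSidedIdeal.mul_mem_right _ _ _ hy), ha _ (TwoSidedIdeal.mul_mem_left _ _ _ hx) _
      (TwoSidedIdeal.mul_mem_left _ _ _ hy), h1, h2]
  · rw [show -x * r = -(x * r) from neg_mul x r, show r * -x = -(r * x) from mul_neg r x, hn, hn, hx]
  · obtain ⟨i, hi, h⟩ := Metric.mem_closure_iff.1 (mem_cl.1 hk) 1 one_pos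
    rw [dist_comm, dist_eq_norm] at h
    refine ⟨i, hi, ?_⟩
    rw [show 1 + k - i = 1 - (i - k) by abel]
    exact (Units.oneSub _ h).isUnit
  · let N : Submodule ℂ (RG Λ H) :=
      { carrier := cl (TwoSidedIdeal.span {eR Λ b})
        add_mem' := TwoSidedIdeal.add_mem _
        zero_mem' := TwoSidedIdeal.zero_mem _
        smul_mem' := fun c x hx => by
          rw [Algebra.smul_def]; exact TwoSidedIdeal.mul_mem_left _ _ _ hx }
    have hN : IsClosed (N : Set (RG Λ H)) := by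
      rw [show (N : Set (RG Λ H)) = closure (TwoSidedIdeal.span {eR Λ b} : Set (RG Λ H)) from
        Set.ext fun _ => mem_cl]
      exact isClosed_closure
    obtain ⟨Y, hY, e⟩ := KG_le (N := N.map (RG Λ H).val.toLinearMap)
      (isClosed_RG.isClosedEmbedding_subtypeVal.isClosedMap _ hN)
      (fun X g hX => ⟨tens X g, mem_cl.2 (tens_mem b hX g), rfl⟩) (mem_KR.1 hX)
    exact (Subtype.ext e : Y = X) ▸ hY

end Vale.Agent.P089
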