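import Mathlib
import Vale.Agent.P089.MainA
import Vale.Agent.P089.MainB0
import Vale.Agent.P089.TransferB
import Vale.Agent.P089.Loc
import Vale.Agent.P089.Index
import Vale.Agent.P089.Mat
import Vale.Agent.P089.Count
import Vale.Agent.P089.VN
import Vale.Agent.P089.Sep
import Vale.Agent.P089.Ind
import Vale.Agent.P089.RelInv
import Vale.Agent.P089.ProjCyc
import Vale.Agent.P089.Cliff
import Vale.Agent.P089.GroupB
import Vale.Agent.P089.CutoffEx
import Vale.Agent.P089.Geom
import Vale.Agent.P089.Desc
import Vale.Agent.P089.Unc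

namespace Vale.Agent.P089

theorem mainB (H : Type) [NormedAddCommGroup H] [InnerProductSpace ℂ H] [CompleteSpace H]
    (b : HilbertBasis ℕ ℂ H) : ∃ (G : Type) (_ : Group G) (_ : Countable G),
    ∀ (E : Type) [NormedAddCommGroup E] [InnerProductSpace ℂ E] [CompleteSpace E]
      (J : G → H →ₗᵢ[ℂ] E), IsHilbertSum ℂ (fun _ : G => H) J →
      ∃ a : Cyc J, a.Q = 0 ∧ NotAssembled J (K0.mk a) := by
  obtain ⟨G, _, _, a, h0, h⟩ := mainB0 projS indexS
    (locS indexS (matS indexS) (countS indexS) vnS sepS indS cliffS groupS geomS descS) vnS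
    (relS indexS (nearS indexS)) projCycS cutoffS uncS H b
  exact ⟨G, inferInstance, inferInstance, fun E _ _ _ J hJ => transferB J hJ a h0 h⟩

end Vale.Agent.P089
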