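import Mathlib
import Vale.Agent.P089.StepA

namespace Vale.Agent.P089

open Step

theorem stepS : StepStmt := by
  classical
  intro hW S V G _ _ F C b J hJ y0 v0 hvert hcov hmin
  obtain ⟨hU, hD⟩ := hW S V F
  obtain ⟨c0, hc0, v1, hin1, hd1, heq⟩ := creator hJ hvert
  have X : Ctx F C.f b J v0 y0 c0 v1 := ⟨hJ, hvert, hcov, hmin, hc0, hin1, hd1, heq⟩
  let Q : Set V := {q | ∃ u y, R F J v0 y0 u q y}
  have hQ0 : v0 ∈ Q := ⟨[], y0, R.nil⟩
  obtain ⟨dep, hdep, hQ⟩ := hD v0 Q hQ0 (by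
    rintro q ⟨u, y, h⟩
    refine ⟨u, h.red, X.len_lt h, h.rd, fun n => ?_⟩
    obtain ⟨q', y', h'⟩ := h.take n
    exact ⟨q', ⟨_, y', h'⟩, h'.rd⟩)
  have hex : ∀ q, ∃ y, q ∈ Q → ∃ u, R F J v0 y0 u q y := by
    intro q
    by_cases hq : q ∈ Q
    · obtain ⟨u, y, h⟩ := hq
      exact ⟨y, fun _ => ⟨u, h⟩⟩
    · exact ⟨y0, fun h => absurd h hq⟩
  choose P hP using hex
  let lev : ℕ := (F.K (F.comp v0)).sup (fun q => (P q).h) + 1
  let g : G := y0.φ C.f * (C.f v0)⁻¹
  let c : Cp V G := ⟨v0, y0, lev, dep, g,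
    fun v => if v ∈ Q then P v else Nm.mk v v0 y0 lev dep g⟩
  have hposQ : ∀ {u q y}, R F J v0 y0 u q y → c.pos q = y := by
    intro u q y h
    have hq : q ∈ Q := ⟨u, y, h⟩
    obtain ⟨u', h'⟩ := hP q hq
    show (if q ∈ Q then P q else _) = y
    rw [if_pos hq]
    exact X.pos_eq hU h' h
  have hposN : ∀ v, v ∉ Q → c.pos v = c.new v := by
    intro v hv
    show (if v ∈ Q then P v else _) = _
    rw [if_neg hv]
    rfl
  have hlev : ∀ {u q y}, R F J v0 y0 u q y → y.h < c.lev := by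
    intro u q y h
    have hq : q ∈ Q := ⟨u, y, h⟩
    obtain ⟨u', h'⟩ := hP q hq
    have hm : q ∈ F.K (F.comp v0) := (F.mem_K _ _).2 (comp_rd h.rd)
    have := Finset.le_sup (f := fun q => (P q).h) hm
    rw [X.pos_eq hU h h']
    exact Nat.lt_succ_of_le this
  have hk : y0.h < c.lev := hlev R.nil
  have hgate : ∀ c' ∈ J, c'.v0 = v0 → c'.y0 = y0 → False := by
    intro c' hc' e1 e2
    rcases hJ.gate c' hc' with rfl | ⟨h1, -⟩
    · rw [heq] at e2
      exact Nm.noConfusion rfl rfl (heq_of_eq e2)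
    · exact hcov ⟨c', hc', by rw [← e1]; rfl, by rw [← e1, h1, e2]⟩
  have hfresh : ∀ v y, Vert F J y → c.new v ≠ y := by
    intro v y hy e
    obtain ⟨c', hc', v', -, -, rfl⟩ := creator hJ hy
    unfold Cp.new at e
    injection e with h1 h2 h3
    exact hgate c' hc' h2.symm h3.symm
  have hmemQ : ∀ v, Vert F J (c.pos v) → ∃ u, R F J v0 y0 u v (c.pos v) := by
    intro v hv
    by_cases hq : v ∈ Q
    · obtain ⟨u, y, h⟩ := hq
      exact ⟨u, by rw [hposQ h]; exact h⟩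
    · exact absurd (hposN v hq).symm (hfresh v _ hv)
  have hinj : ∀ v w, c.pos v = c.pos w → v = w := by
    intro v w e
    by_cases hv : v ∈ Q
    · obtain ⟨u, y, h⟩ := hv
      have hy := h.vert hvert
      rw [← hposQ h, e] at hy
      obtain ⟨u', h'⟩ := hmemQ w hy
      rw [← e, hposQ h] at h'
      exact X.inj hU h h'
    · by_cases hw : w ∈ Q
      · obtain ⟨u, y, h⟩ := hw
        have hy := h.vert hvert
        rw [← hposQ h, ← e, hposN v hv] at hy
        exact absurd rfl (hfresh v _ hy)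
      · rw [hposN v hv, hposN w hw] at e
        unfold Cp.new at e
        injection e
  have hcovm : ∀ y w, Cov F J y w → Cov F (insert c J) y w := by
    rintro y w ⟨c', hc', h⟩
    exact ⟨c', Set.mem_insert_of_mem _ hc', h⟩
  have hvertc : ∀ y, Vert F (insert c J) y → Vert F J y ∨ y.h = c.lev := by
    rintro y ⟨v, c', hc', hv, rfl⟩
    rcases hc' with rfl | hc'
    · by_cases hq : v ∈ Q
      · obtain ⟨u, y, h⟩ := hq
        left
        rw [hposQ h]
        exact h.vert hvert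
      · right
        rw [hposN v hq]
        rfl
    · exact Or.inl ⟨v, c', hc', hv, rfl⟩
  have hfold : ∀ c' ∈ J, ∀ v v' s w w', In F c' v' → c.pos v = c'.pos v' →
      F.st v s = some w → F.st v' s = some w' → c.pos w = c'.pos w' := by
    intro c' hc' v v' s w w' hv' e hs hs'
    obtain ⟨u, h⟩ := hmemQ v ⟨v', c', hc', hv', e.symm⟩
    obtain ⟨u', h'⟩ := h.close hJ hs ⟨c', hc', v', w', hv', hs', e.symm, rfl⟩
    exact hposQ h'
  refine ⟨c, fun hc => hgate c hc rfl rfl, ?_⟩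
  constructor
  · exact Set.mem_insert_of_mem _ hJ.first_mem
  · rintro c1 (rfl | h1) c2 (rfl | h2) e1 e2
    · rfl
    · exact (hgate c2 h2 e1.symm e2.symm).elim
    · exact (hgate c1 h1 e1 e2).elim
    · exact hJ.func c1 h1 c2 h2 e1 e2
  · rintro c1 (rfl | h1)
    · exact hdep
    · exact hJ.isDep c1 h1
  · rintro c1 (rfl | h1) v hv hd
    · exact hposN v fun hq => hd ((hQ v hv).2 hq)
    · exact hJ.new c1 h1 v hv hd
  · rintro c1 (rfl | h1) v hv hd
    · obtain ⟨u, y, h⟩ := (hQ v hv).1 hd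
      have hl := hlev h
      rcases X.state h with ⟨v', hv', hd', hy⟩ | ⟨c', hc', v', hv', hd', hy, -, hl', u0, u3, t,
        w, p, hu, -, hw, hlt, -⟩
      · refine ⟨c0, Set.mem_insert_of_mem _ hc0, v', (comp_rd hv').trans hin1, hd',
          (hposQ h).trans hy, ?_, Or.inl X.h_eq.ge⟩
        rw [hy] at hl
        exact hl
      · rw [← List.append_assoc] at hu
        subst hu
        obtain ⟨a, z, r1, s1, -⟩ := h.inv
        refine ⟨c', Set.mem_insert_of_mem _ hc', v', hv', hd', (hposQ h).trans hy, ?_,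
          Or.inr ⟨hl', F.bar t, a, w, F.symm _ _ _ s1, ?_, F.symm _ _ _ hw, hlt⟩⟩
        · rw [hy] at hl
          exact hl
        · exact (hQ a (comp_rd r1.rd)).2 ⟨_, z, r1⟩
    · obtain ⟨c', hc', h⟩ := hJ.old c1 h1 v hv hd
      exact ⟨c', Set.mem_insert_of_mem _ hc', h⟩
  · rintro c1 (rfl | h1)
    · exact Or.inr ⟨hposQ R.nil, (hQ v0 rfl).2 hQ0⟩
    · exact hJ.gate c1 h1
  · rintro c1 (rfl | h1) v w hv hw e
    · exact hinj v w e
    · exact hJ.inj c1 h1 v w hv hw e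
  · rintro c1 (rfl | h1) c2 (rfl | h2) v v' s w w' hv hv' e hs hs'
    · obtain rfl := hinj v v' e
      rw [Option.some.inj (hs.symm.trans hs')]
    · exact hfold c2 h2 v v' s w w' hv' e hs hs'
    · exact (hfold c1 h1 v' v s w' w hv e.symm hs' hs).symm
    · exact hJ.fold c1 h1 c2 h2 v v' s w w' hv hv' e hs hs'
  · rintro c1 (rfl | h1) c2 (rfl | h2) v v' s w' hv hd hv' e hs' hn
    · obtain rfl := hinj v' v e
      rw [hs'] at hn
      exact absurd hn (by simp)
    · have hq : v ∉ Q := fun hq => hd ((hQ v hv).2 hq)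
      rw [hposN v hq] at e
      exact absurd e.symm (hfresh v _ ⟨v', c2, h2, hv', rfl⟩)
    · obtain ⟨u, h⟩ := hmemQ v' ⟨v, c1, h1, hv, e.symm⟩
      by_cases hq : w' ∈ Q
      · obtain ⟨u', y', h'⟩ := hq
        obtain ⟨c3, h3, a, a', ha, hsa, e1, -⟩ := X.dart hU h h' hs'
        obtain ⟨c4, h4, r⟩ := hJ.up c1 h1 c3 h3 v a s a' hv hd ha (e1.trans e) hsa hn
        exact ⟨c4, Set.mem_insert_of_mem _ h4, r⟩
      · exact ⟨c, Set.mem_insert _ _, v', w', hv', e, hs', (hQ v' hv').2 ⟨u, _, h⟩,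
          fun h0 => hq ((hQ w' (in_st hv' hs')).1 h0)⟩
    · obtain ⟨c4, h4, r⟩ := hJ.up c1 h1 c2 h2 v v' s w' hv hd hv' e hs' hn
      exact ⟨c4, Set.mem_insert_of_mem _ h4, r⟩
  · rintro c1 hc1 y hy hlt w
    have hle : c1.y0.h ≤ y0.h := by
      rcases hc1 with rfl | h1
      · exact le_rfl
      · exact X.gate_le h1
    rcases hvertc y hy with hy' | hy'
    · exact hcovm y w (hmin y hy' (by omega) w)
    · omega
  · rintro c1 (rfl | h1) v hv
    · by_cases hq : v ∈ Q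
      · obtain ⟨u, y, h⟩ := hq
        rw [hposQ h]
        exact h.grp C hJ
      · rw [hposN v hq]
        rfl
    · exact hJ.grp c1 h1 v hv

end Vale.Agent.P089
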