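import Mathlib
import Vale.Agent.P089.BaseB

/- Independence of the model of the Hilbert sum. -/

namespace Vale.Agent.P089

namespace Transfer

variable {G H E E' : Type} [Group G] [NormedAddCommGroup H] [InnerProductSpace ℂ H]
  [CompleteSpace H] [NormedAddCommGroup E] [InnerProductSpace ℂ E] [CompleteSpace E]
  [NormedAddCommGroup E'] [InnerProductSpace ℂ E'] [CompleteSpace E']
  {J : G → H →ₗᵢ[ℂ] E} {J' : G → H →ₗᵢ[ℂ] E'}

/-- An isomorphism of two models. -/
structure Iso (J : G → H →ₗᵢ[ℂ] E) (J' : G → H →ₗᵢ[ℂ] E') where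
  u : E ≃ₗᵢ[ℂ] E'
  app : ∀ g ξ, u (J g ξ) = J' g ξ

/-- The inverse isomorphism. -/
def Iso.symm (i : Iso J J') : Iso J' J where
  u := i.u.symm
  app g ξ := by rw [← i.app, LinearIsometryEquiv.symm_apply_apply]

/-- Conjugation of operators. -/
noncomputable def Iso.Φ (i : Iso J J') : (E →L[ℂ] E) ≃⋆ₐ[ℂ] (E' →L[ℂ] E') :=
  i.u.conjStarAlgEquiv

omit [CompleteSpace H] [Group G] in
theorem Iso.app_J (i : Iso J J') (T : E →L[ℂ] E) (g : G) (ξ : H) :
    i.Φ T (J' g ξ) = i.u (T (J g ξ)) := by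
  rw [← i.app]
  simp [Iso.Φ]

omit [CompleteSpace H] [Group G] in
theorem Iso.symm_app (i : Iso J J') (T : E →L[ℂ] E) : i.symm.Φ (i.Φ T) = T :=
  i.Φ.symm_apply_apply T

omit [CompleteSpace H] [Group G] in
theorem Iso.app_symm (i : Iso J J') (T : E' →L[ℂ] E') : i.Φ (i.symm.Φ T) = T :=
  i.Φ.apply_symm_apply T

omit [CompleteSpace H] [Group G] in
theorem Iso.star_eq (i : Iso J J') (T : E →L[ℂ] E) : i.Φ (star T) = star (i.Φ T) :=
  i.Φ.map_star' T

omit [CompleteSpace H] [Group G] in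
theorem Iso.cont (i : Iso J J') : Continuous i.Φ := by
  have : (i.Φ : (E →L[ℂ] E) → (E' →L[ℂ] E')) = fun T =>
      (i.u : E →L[ℂ] E') ∘L T ∘L (i.u.symm : E' →L[ℂ] E) := rfl
  rw [this]
  fun_prop

omit [CompleteSpace H] in
theorem Iso.tens (i : Iso J J') {X : H →L[ℂ] H} {g : G} {T : E →L[ℂ] E} (h : IsTens J X g T) :
    IsTens J' X g (i.Φ T) :=
  ⟨fun k ξ => by rw [i.app_J, h.app, i.app]⟩

omit [CompleteSpace H] in
theorem Iso.cpt (i : Iso J J') {T : E →L[ℂ] E} (h : IsCpt J T) : IsCpt J' (i.Φ T) := by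
  refine ⟨map_mem_closure i.cont h.mem fun S hS => ?_⟩
  induction hS using Submodule.span_induction with
  | mem S hS =>
    obtain ⟨X, g, hX, hS⟩ := hS
    exact Submodule.subset_span ⟨X, g, hX, i.tens hS⟩
  | zero =>
    rw [map_zero]
    exact Submodule.zero_mem _
  | add a b _ _ ha hb =>
    rw [map_add]
    exact Submodule.add_mem _ ha hb
  | smul c a _ ha =>
    rw [map_smul]
    exact Submodule.smul_mem _ c ha

omit [CompleteSpace H] in
theorem Iso.mul (i : Iso J J') {T : E →L[ℂ] E} (h : IsMul J T) : IsMul J' (i.Φ T) := by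
  constructor
  · intro S hS
    have := i.cpt (h.left _ (i.symm.cpt hS))
    rwa [map_mul, i.app_symm] at this
  · intro S hS
    have := i.cpt (h.right _ (i.symm.cpt hS))
    rwa [map_mul, i.app_symm] at this

/-- Transport of cycles. -/
noncomputable def Iso.cyc (i : Iso J J') (a : Cyc J) : Cyc J' where
  P := i.Φ a.P
  Q := i.Φ a.Q
  T := i.Φ a.T
  mulP := i.mul a.mulP
  mulQ := i.mul a.mulQ
  mulT := i.mul a.mulT
  idemP := by rw [← map_mul, a.idemP]
  starP := by rw [← i.star_eq, a.starP]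
  idemQ := by rw [← map_mul, a.idemQ]
  starQ := by rw [← i.star_eq, a.starQ]
  supp := by rw [← map_mul, ← map_mul, a.supp]
  left := by
    rw [← i.star_eq, ← map_mul, ← map_sub]
    exact i.cpt a.left
  right := by
    rw [← i.star_eq, ← map_mul, ← map_sub]
    exact i.cpt a.right

omit [CompleteSpace H] in
theorem cyc_ext {a b : Cyc J} (h1 : a.P = b.P) (h2 : a.Q = b.Q) (h3 : a.T = b.T) : a = b := by
  cases a
  cases b
  simp only at h1 h2 h3
  subst h1 h2 h3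
  rfl

omit [CompleteSpace H] in
theorem Iso.symm_cyc (i : Iso J J') (a : Cyc J) : i.symm.cyc (i.cyc a) = a :=
  cyc_ext (i.symm_app _) (i.symm_app _) (i.symm_app _)

omit [CompleteSpace H] in
theorem Iso.rel (i : Iso J J') {a b : Cyc J} (h : Rel J a b) : Rel J' (i.cyc a) (i.cyc b) := by
  cases h with
  | unitary _ _ u v h1 h2 h3 h4 h5 h6 h7 =>
    refine Rel.unitary _ _ (i.Φ u) (i.Φ v) (i.mul h1) (i.mul h2) ?_ ?_ ?_ ?_ ?_
    · rw [← i.star_eq, ← map_mul, h3]; rfl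
    · rw [← i.star_eq, ← map_mul, h4]; rfl
    · rw [← i.star_eq, ← map_mul, h5]; rfl
    · rw [← i.star_eq, ← map_mul, h6]; rfl
    · change i.Φ b.T = i.Φ v * i.Φ a.T * star (i.Φ u)
      rw [← i.star_eq, ← map_mul, ← map_mul, h7]
  | homotopy γ h1 h2 h3 =>
    exact Rel.homotopy (fun t => i.cyc (γ t)) (fun t => congrArg i.Φ (h1 t))
      (fun t => congrArg i.Φ (h2 t)) (i.cont.comp h3)
  | degenerate _ d _ h1 h2 h3 h4 h5 h6 h7 =>
    refine Rel.degenerate _ (i.cyc d) _ ?_ ?_ ?_ ?_ ?_ ?_ ?_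
    · change star (i.Φ d.T) * i.Φ d.T = i.Φ d.P
      rw [← i.star_eq, ← map_mul, h1]
    · change i.Φ d.T * star (i.Φ d.T) = i.Φ d.Q
      rw [← i.star_eq, ← map_mul, h2]
    · change i.Φ a.P * i.Φ d.P = 0
      rw [← map_mul, h3, map_zero]
    · change i.Φ a.Q * i.Φ d.Q = 0
      rw [← map_mul, h4, map_zero]
    · change i.Φ b.P = i.Φ a.P + i.Φ d.P
      rw [← map_add, h5]
    · change i.Φ b.Q = i.Φ a.Q + i.Φ d.Q
      rw [← map_add, h6]
    · change i.Φ b.T = i.Φ a.T + i.Φ d.T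
      rw [← map_add, h7]

/-- Transport of classes. -/
noncomputable def Iso.k0 (i : Iso J J') : K0 J → K0 J' := Quot.map i.cyc fun _ _ h => i.rel h

omit [CompleteSpace H] in
theorem Iso.symm_k0 (i : Iso J J') (y : K0 J) : i.symm.k0 (i.k0 y) = y := by
  induction y using Quot.ind with
  | mk a => exact congrArg K0.mk (i.symm_cyc a)

theorem Iso.assembly (i : Iso J J') {Z : Type} [TopologicalSpace Z] [MulAction G Z]
    {x : Fred G Z H} {c : Cutoff G Z} {a : Cyc J} (h : IsAssembly J x c a) :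
    IsAssembly J' x c (i.cyc a) := by
  have key : ∀ f : G → E, i.u (∑ᶠ g, f g) = ∑ᶠ g, i.u (f g) := fun f =>
    i.u.toLinearEquiv.toAddEquiv.map_finsum f
  refine ⟨fun k ξ => ?_, fun k ξ => ?_, ?_⟩
  · change i.Φ a.P _ = _
    rw [i.app_J, h.even, key]
    simp only [i.app]
  · change i.Φ a.Q _ = _
    rw [i.app_J, h.odd, key]
    simp only [i.app]
  · obtain ⟨D, h1, h2⟩ := h.op
    refine ⟨i.Φ D, i.tens h1, ?_⟩
    change i.Φ a.T = i.Φ a.Q * i.Φ D * i.Φ a.P
    rw [← map_mul, ← map_mul, h2]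

theorem Iso.notAssembled (i : Iso J J') {y : K0 J} (h : NotAssembled J y) :
    NotAssembled J' (i.k0 y) := by
  constructor
  intro Z _ _ _ _ _ _ _
  obtain ⟨h1, h2⟩ := h.all Z
  refine ⟨h1, fun x c => ?_⟩
  obtain ⟨⟨a, ha⟩, h3⟩ := h2 x c
  refine ⟨⟨_, i.assembly ha⟩, fun b hb e => h3 _ (i.symm.assembly hb) ?_⟩
  rw [← i.symm_k0 y, ← e]
  rfl

end Transfer

theorem transferS : TransferStmt := by
  intro G H E _ _ _ _ _ _ _ J hJ ⟨y, hy⟩
  classical
  let i : Transfer.Iso (Jl G H) J := ⟨hJ.linearIsometryEquiv.symm, fun g ξ =>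
    hJ.linearIsometryEquiv_symm_apply_single (i := g) ξ⟩
  exact ⟨_, i.notAssembled hy⟩

end Vale.Agent.P089
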