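import Mathlib
import Vale.Agent.P089.BaseB

/-
Uncountably many values of lacunary dyadic sums.
-/

namespace Vale.Agent.P089

namespace Unc

theorem le_k {k : ℕ → ℕ} (h0 : 1 ≤ k 0) (h : ∀ i, 4 * k i ≤ k (i + 1)) (i : ℕ) :
    k 0 + i ≤ k i := by
  induction i with
  | zero => exact le_rfl
  | succ i ih =>
    have := h i
    omega

theorem term_le {k : ℕ → ℕ} (h0 : 1 ≤ k 0) (h : ∀ i, 4 * k i ≤ k (i + 1)) (b : ℕ → ℕ) (i : ℕ) :
    (2 : ℝ)⁻¹ ^ (k i + b i) ≤ 2⁻¹ ^ k 0 * 2⁻¹ ^ i := by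
  rw [← pow_add]
  exact pow_le_pow_of_le_one (by norm_num) (by norm_num) ((le_k h0 h i).trans (Nat.le_add_right _ _))

theorem hasSum_geo (c : ℝ) : HasSum (fun i : ℕ => c * 2⁻¹ ^ i) (c * 2) := by
  have := hasSum_geometric_two.mul_left c
  simpa only [one_div] using this

theorem summable {k : ℕ → ℕ} (h0 : 1 ≤ k 0) (h : ∀ i, 4 * k i ≤ k (i + 1)) (b : ℕ → ℕ) :
    Summable fun i => (2 : ℝ)⁻¹ ^ (k i + b i) :=
  Summable.of_nonneg_of_le (fun _ => by positivity) (term_le h0 h b) (hasSum_geo _).summable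

theorem tsum_le {k : ℕ → ℕ} (h0 : 1 ≤ k 0) (h : ∀ i, 4 * k i ≤ k (i + 1)) (b : ℕ → ℕ) :
    ∑' i, (2 : ℝ)⁻¹ ^ (k i + b i) ≤ 2⁻¹ ^ k 0 * 2 :=
  hasSum_le (term_le h0 h b) (summable h0 h b).hasSum (hasSum_geo _)

theorem lt_of_head {k : ℕ → ℕ} (h0 : 1 ≤ k 0) (h : ∀ i, 4 * k i ≤ k (i + 1)) {b b' : ℕ → ℕ}
    (hb : b 0 = 0) (hb' : b' 0 = 1) :
    ∑' i, (2 : ℝ)⁻¹ ^ (k i + b' i) < ∑' i, (2 : ℝ)⁻¹ ^ (k i + b i) := by
  have h1 := h 0
  rw [(summable h0 h b).tsum_eq_zero_add, (summable h0 h b').tsum_eq_zero_add, hb, hb']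
  have h2 : 0 ≤ ∑' i, (2 : ℝ)⁻¹ ^ (k (i + 1) + b (i + 1)) := tsum_nonneg fun _ => by positivity
  have h3 := tsum_le (k := fun i => k (i + 1)) (by omega) (fun i => h (i + 1)) fun i => b' (i + 1)
  have h4 : (2 : ℝ)⁻¹ ^ k (0 + 1) ≤ 2⁻¹ ^ (k 0 + 3) :=
    pow_le_pow_of_le_one (by norm_num) (by norm_num) (by omega)
  have h5 : (0 : ℝ) < 2⁻¹ ^ k 0 := by positivity
  rw [pow_add] at h4
  rw [pow_add, add_zero]
  linarith

theorem eq_of_tsum_eq (n : ℕ) : ∀ {k : ℕ → ℕ}, 1 ≤ k 0 → (∀ i, 4 * k i ≤ k (i + 1)) →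
    ∀ {b b' : ℕ → ℕ}, (∀ i, b i ≤ 1) → (∀ i, b' i ≤ 1) →
      ∑' i, (2 : ℝ)⁻¹ ^ (k i + b i) = ∑' i, (2 : ℝ)⁻¹ ^ (k i + b' i) → b n = b' n := by
  have key : ∀ {k : ℕ → ℕ}, 1 ≤ k 0 → (∀ i, 4 * k i ≤ k (i + 1)) →
      ∀ {b b' : ℕ → ℕ}, (∀ i, b i ≤ 1) → (∀ i, b' i ≤ 1) →
      ∑' i, (2 : ℝ)⁻¹ ^ (k i + b i) = ∑' i, (2 : ℝ)⁻¹ ^ (k i + b' i) → b 0 = b' 0 := by
    intro k h0 h b b' hb hb' e
    by_contra hne
    have a1 := hb 0
    have a2 := hb' 0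
    rcases (by omega : b 0 = 0 ∧ b' 0 = 1 ∨ b' 0 = 0 ∧ b 0 = 1) with c | c
    · exact (lt_of_head h0 h c.1 c.2).ne' e
    · exact (lt_of_head h0 h c.1 c.2).ne e
  induction n with
  | zero => exact key
  | succ n ih =>
    intro k h0 h b b' hb hb' e
    have e0 := key h0 h hb hb' e
    have h1 := h 0
    rw [(summable h0 h b).tsum_eq_zero_add, (summable h0 h b').tsum_eq_zero_add, e0] at e
    exact ih (k := fun i => k (i + 1)) (by omega) (fun i => h (i + 1)) (b := fun i => b (i + 1))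
      (b' := fun i => b' (i + 1)) (fun i => hb _) (fun i => hb' _) (add_left_cancel e)

end Unc

theorem uncS : UncStmt := by
  intro k h0 h N hN
  by_contra hc
  have hle : ∀ (b : ℕ → Bool) i, (b i).toNat ≤ 1 := fun b i => Bool.toNat_le _
  have h1 : ∀ b : ℕ → Bool, ((∑' i, (2 : ℝ)⁻¹ ^ (k i + (b i).toNat) : ℝ) : ℂ) ∈ N := by
    intro b
    by_contra hb
    exact hc ⟨fun i => (b i).toNat, hle b, hb⟩
  have h2 : Function.Injective fun b : ℕ → Bool =>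
      ((∑' i, (2 : ℝ)⁻¹ ^ (k i + (b i).toNat) : ℝ) : ℂ) := by
    intro b b' e
    funext n
    have := Unc.eq_of_tsum_eq n h0 h (hle b) (hle b') (Complex.ofReal_injective e)
    revert this
    cases b n <;> cases b' n <;> simp
  have h3 := hN.preimage_of_injOn h2.injOn
  rw [Set.eq_univ_of_forall (s := _ ⁻¹' N) h1, Set.countable_univ_iff] at h3
  obtain ⟨f, hf⟩ := exists_surjective_nat (ℕ → Bool)
  obtain ⟨n, hn⟩ := hf fun i => !f i i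
  have h4 := congrFun hn n
  revert h4
  cases f n n <;> simp

end Vale.Agent.P089
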